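import Mathlib

/-!
One-variable estimates for hyperbolic functions and belief-propagation messages.
-/

set_option autoImplicit false

namespace Crest.Agent.H5.KS

open Real

lemma abs_tanh_le_one (x : ℝ) : |tanh x| ≤ 1 := (abs_tanh_lt_one x).le

lemma tanh_sq_le_one (x : ℝ) : tanh x ^ 2 ≤ 1 := by
  have := abs_tanh_le_one x
  rw [← sq_abs]; nlinarith [abs_nonneg (tanh x)]

lemma one_add_mul_pos {a b : ℝ} (ha : |a| < 1) (hb : |b| ≤ 1) : 0 < 1 + a * b := by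
  have h1 : |a * b| < 1 := by
    rw [abs_mul]; nlinarith [abs_nonneg a, abs_nonneg b]
  linarith [neg_abs_le (a * b)]

lemma tanh_add' (a b : ℝ) : tanh (a + b) = (tanh a + tanh b) / (1 + tanh a * tanh b) := by
  have h := one_add_mul_pos (abs_tanh_lt_one a) (abs_tanh_le_one b)
  rw [eq_div_iff h.ne']
  simp only [tanh_eq_sinh_div_cosh, sinh_add, cosh_add] at h ⊢
  have h1 := cosh_pos a
  have h2 := cosh_pos b
  have h3 : 0 < cosh a * cosh b + sinh a * sinh b := by rw [← cosh_add]; exact cosh_pos _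
  rw [div_mul_eq_mul_div, div_eq_iff h3.ne']
  field_simp

lemma hasDerivAt_tanh (x : ℝ) : HasDerivAt tanh (1 - tanh x ^ 2) x := by
  have h := (hasDerivAt_sinh x).div (hasDerivAt_cosh x) (cosh_pos x).ne'
  have e : tanh = fun x => sinh x / cosh x := funext tanh_eq_sinh_div_cosh
  rw [e]
  refine h.congr_deriv ?_
  have := cosh_pos x
  field_simp

@[fun_prop]
lemma continuous_tanh : Continuous tanh :=
  continuous_iff_continuousAt.2 fun x => (hasDerivAt_tanh x).continuousAt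

@[fun_prop]
lemma measurable_tanh : Measurable tanh := continuous_tanh.measurable

lemma abs_le_of_deriv {f f' : ℝ → ℝ} {C : ℝ} (hf : ∀ x, HasDerivAt f (f' x) x)
    (hC : ∀ x, |f' x| ≤ C) (x y : ℝ) : |f x - f y| ≤ C * |x - y| :=
  convex_univ.norm_image_sub_le_of_norm_hasDerivWithin_le (f := f) (f' := f')
    (fun z _ => (hf z).hasDerivWithinAt) (fun z _ => hC z) (Set.mem_univ y) (Set.mem_univ x)

lemma abs_tanh_sub_le (x y : ℝ) : |tanh x - tanh y| ≤ |x - y| := by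
  have := abs_le_of_deriv hasDerivAt_tanh (C := 1) (fun x => by
    rw [abs_le]; constructor <;> nlinarith [tanh_sq_le_one x, sq_nonneg (tanh x)]) x y
  rwa [one_mul] at this

lemma abs_tanh_le (x : ℝ) : |tanh x| ≤ |x| := by simpa using abs_tanh_sub_le x 0

lemma monotone_tanh : Monotone tanh :=
  monotone_of_hasDerivAt_nonneg hasDerivAt_tanh fun x => by
    simpa using tanh_sq_le_one x

lemma abs_tanh_eq (x : ℝ) : |tanh x| = tanh |x| := by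
  rcases le_total 0 x with h | h
  · rw [abs_of_nonneg h, abs_of_nonneg (by simpa using monotone_tanh h)]
  · rw [abs_of_nonpos h, abs_of_nonpos (by simpa using monotone_tanh h), tanh_neg]

lemma abs_tanh_mono {x y : ℝ} (h : |x| ≤ |y|) : |tanh x| ≤ |tanh y| := by
  rw [abs_tanh_eq, abs_tanh_eq]; exact monotone_tanh h

lemma abs_tanh_le_tanh {x H : ℝ} (h : |x| ≤ H) : |tanh x| ≤ tanh H := by
  rw [abs_tanh_eq]; exact monotone_tanh h

/-- inverse hyperbolic tangent -/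
noncomputable def ath (y : ℝ) : ℝ := (log (1 + y) - log (1 - y)) / 2

@[fun_prop]
lemma measurable_ath : Measurable ath := by unfold ath; fun_prop

lemma ath_neg (y : ℝ) : ath (-y) = -ath y := by
  unfold ath; rw [sub_neg_eq_add, ← sub_eq_add_neg]; ring

@[simp] lemma ath_zero : ath 0 = 0 := by simp [ath]

lemma tanh_ath {y : ℝ} (h : |y| < 1) : tanh (ath y) = y := by
  rw [abs_lt] at h
  have : ath y = artanh y := by
    rw [artanh_eq_half_log ⟨h.1.le, h.2.le⟩, log_div (by linarith) (by linarith), ath]; ring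
  rw [this, tanh_artanh ⟨h.1, h.2⟩]

lemma hasDerivAt_ath {y : ℝ} (h : |y| < 1) : HasDerivAt ath (1 / (1 - y ^ 2)) y := by
  rw [abs_lt] at h
  have h1 : (1 + y) ≠ 0 := by linarith
  have h2 : (1 - y) ≠ 0 := by linarith
  have := ((((hasDerivAt_id y).const_add 1).log h1).sub
    (((hasDerivAt_id y).const_sub 1).log h2)).div_const 2
  refine this.congr_deriv ?_
  have h3 : 1 - y ^ 2 ≠ 0 := by nlinarith
  simp only [id]
  field_simp
  ring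

lemma ath_le {y : ℝ} (h0 : 0 ≤ y) (h : y < 1) : 0 ≤ ath y ∧ ath y ≤ y / (1 - y) := by
  have h1 : 0 < 1 - y := by linarith
  have e : ath y = log ((1 + y) / (1 - y)) / 2 := by
    rw [log_div (by linarith) h1.ne', ath]
  rw [e]
  constructor
  · refine div_nonneg (log_nonneg ?_) two_pos.le
    rw [le_div_iff₀ h1]; linarith
  · have := log_le_sub_one_of_pos (show 0 < (1 + y) / (1 - y) by positivity)
    have e2 : (1 + y) / (1 - y) - 1 = 2 * (y / (1 - y)) := by field_simp; ring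
    linarith

lemma abs_ath_le {y : ℝ} (h : |y| < 1) : |ath y| ≤ |y| / (1 - |y|) := by
  rcases le_total 0 y with h0 | h0
  · rw [abs_of_nonneg h0] at h ⊢
    rw [abs_of_nonneg (ath_le h0 h).1]; exact (ath_le h0 h).2
  · rw [abs_of_nonpos h0] at h ⊢
    have := ath_le (neg_nonneg.2 h0) h
    rw [ath_neg] at this
    rw [abs_of_nonpos (by linarith [this.1])]; exact this.2

lemma abs_ath_le_two {y : ℝ} (h : |y| ≤ 1 / 2) : |ath y| ≤ 2 * |y| := by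
  refine (abs_ath_le (by linarith)).trans ?_
  rw [div_le_iff₀ (by linarith)]
  nlinarith [abs_nonneg y]

/-- message sent along an edge -/
noncomputable def msg (θ h : ℝ) : ℝ := ath (θ * tanh h)

lemma abs_mul_tanh_lt {θ : ℝ} (h0 : 0 ≤ θ) (h1 : θ ≤ 1) (h : ℝ) : |θ * tanh h| < 1 := by
  rw [abs_mul, abs_of_nonneg h0]
  nlinarith [abs_tanh_lt_one h, abs_nonneg (tanh h)]

lemma tanh_msg {θ : ℝ} (h0 : 0 ≤ θ) (h1 : θ ≤ 1) (h : ℝ) : tanh (msg θ h) = θ * tanh h :=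
  tanh_ath (abs_mul_tanh_lt h0 h1 h)

lemma msg_neg (θ h : ℝ) : msg θ (-h) = -msg θ h := by
  unfold msg; rw [tanh_neg, mul_neg, ath_neg]

lemma hasDerivAt_msg {θ : ℝ} (h0 : 0 ≤ θ) (h1 : θ ≤ 1) (h : ℝ) :
    HasDerivAt (msg θ) (1 / (1 - (θ * tanh h) ^ 2) * (θ * (1 - tanh h ^ 2))) h :=
  (hasDerivAt_ath (abs_mul_tanh_lt h0 h1 h)).comp h ((hasDerivAt_tanh h).const_mul θ)

lemma continuous_msg {θ : ℝ} (h0 : 0 ≤ θ) (h1 : θ ≤ 1) : Continuous (msg θ) :=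
  continuous_iff_continuousAt.2 fun x => (hasDerivAt_msg h0 h1 x).continuousAt

@[fun_prop]
lemma measurable_msg (θ : ℝ) : Measurable (msg θ) := by unfold msg; fun_prop

lemma abs_msg_le {θ : ℝ} (h0 : 0 ≤ θ) (h1 : θ ≤ 1) (h : ℝ) : |msg θ h| ≤ θ * |h| := by
  have := abs_le_of_deriv (hasDerivAt_msg h0 h1) (C := θ) (fun x => by
    have a1 := tanh_sq_le_one x
    have a2 := abs_mul_tanh_lt h0 h1 x
    have a3 : 0 < 1 - (θ * tanh x) ^ 2 := by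
      rw [← sq_abs]; nlinarith [abs_nonneg (θ * tanh x)]
    rw [abs_of_nonneg (mul_nonneg (by positivity) (mul_nonneg h0 (by linarith))), one_div,
      inv_mul_le_iff₀ a3]
    have a4 : θ ^ 2 ≤ 1 := by nlinarith
    have : θ ^ 2 * tanh x ^ 2 ≤ tanh x ^ 2 := by nlinarith [sq_nonneg (tanh x)]
    nlinarith) h 0
  simpa [msg] using this

lemma abs_msg_le_three {θ : ℝ} (h0 : 0 ≤ θ) (h1 : θ ^ 2 ≤ 1 / 2) (h : ℝ) : |msg θ h| ≤ 3 := by
  have h2 : θ ≤ 3 / 4 := by nlinarith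
  have h3 : |θ * tanh h| ≤ 3 / 4 := by
    rw [abs_mul, abs_of_nonneg h0]
    nlinarith [abs_tanh_le_one h, abs_nonneg (tanh h)]
  refine (abs_ath_le (by linarith)).trans ?_
  rw [div_le_iff₀ (by linarith)]
  linarith

/-- normalised regression coefficient along an edge -/
noncomputable def a0 (θ μ : ℝ) : ℝ := (1 - μ ^ 2) / (1 - θ ^ 2 * μ ^ 2)

@[fun_prop]
lemma measurable_a0 (θ : ℝ) : Measurable (a0 θ) := by unfold a0; fun_prop

lemma sq_le_one_of_abs {μ : ℝ} (h : |μ| ≤ 1) : μ ^ 2 ≤ 1 := by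
  rw [← sq_abs]; nlinarith [abs_nonneg μ]

lemma den_ge {θ μ : ℝ} (h1 : θ ^ 2 ≤ 1 / 2) (h : |μ| ≤ 1) : 1 / 2 ≤ 1 - θ ^ 2 * μ ^ 2 := by
  nlinarith [sq_le_one_of_abs h, sq_nonneg θ, sq_nonneg μ]

lemma a0_neg (θ μ : ℝ) : a0 θ (-μ) = a0 θ μ := by simp [a0]

lemma a0_nonneg {θ μ : ℝ} (h1 : θ ^ 2 ≤ 1 / 2) (h : |μ| ≤ 1) : 0 ≤ a0 θ μ :=
  div_nonneg (by linarith [sq_le_one_of_abs h]) (by linarith [den_ge h1 h])

lemma a0_le {θ μ : ℝ} (h1 : θ ^ 2 ≤ 1 / 2) (h : |μ| ≤ 1) : a0 θ μ ≤ 1 - μ ^ 2 / 2 := by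
  unfold a0
  rw [div_le_iff₀ (by linarith [den_ge h1 h])]
  have := sq_le_one_of_abs h
  nlinarith [mul_nonneg (sq_nonneg θ) (sq_nonneg (μ ^ 2)), sq_nonneg μ,
    mul_nonneg (sq_nonneg μ) (sub_nonneg.2 h1)]

lemma a0_le_one {θ μ : ℝ} (h1 : θ ^ 2 ≤ 1 / 2) (h : |μ| ≤ 1) : a0 θ μ ≤ 1 := by
  linarith [a0_le h1 h, sq_nonneg μ]

lemma le_a0 {θ μ : ℝ} (h1 : θ ^ 2 ≤ 1 / 2) (h : |μ| ≤ 1) : 1 - μ ^ 2 ≤ a0 θ μ := by
  unfold a0
  rw [le_div_iff₀ (by linarith [den_ge h1 h])]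
  have := sq_le_one_of_abs h
  nlinarith [mul_nonneg (mul_nonneg (sq_nonneg θ) (sq_nonneg μ)) (sub_nonneg.2 this)]

lemma a0_zero (μ : ℝ) : a0 0 μ = 1 - μ ^ 2 := by simp [a0]

lemma continuousAt_a0 {θ μ : ℝ} (h1 : θ ^ 2 ≤ 1 / 2) (h : |μ| ≤ 1) : ContinuousAt (a0 θ) μ := by
  unfold a0
  exact ContinuousAt.div (by fun_prop) (by fun_prop) (by linarith [den_ge h1 h])

lemma abs_sq_sub_sq (a b : ℝ) : |a ^ 2 - b ^ 2| ≤ (|a| + |b|) * |a - b| := by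
  rw [sq_sub_sq, abs_mul]
  exact mul_le_mul_of_nonneg_right (abs_add_le _ _) (abs_nonneg _)

lemma a0_lip {θ μ μ' : ℝ} (h1 : θ ^ 2 ≤ 1 / 2) (h : |μ| ≤ 1) (h' : |μ'| ≤ 1) :
    |a0 θ μ - a0 θ μ'| ≤ 8 * |μ - μ'| := by
  have d1 := den_ge h1 h
  have d2 := den_ge h1 h'
  have e : a0 θ μ - a0 θ μ' = (1 - θ ^ 2) * (μ' ^ 2 - μ ^ 2) /
      ((1 - θ ^ 2 * μ ^ 2) * (1 - θ ^ 2 * μ' ^ 2)) := by
    unfold a0
    rw [div_sub_div _ _ (by linarith) (by linarith)]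
    congr 1
    ring
  have d3 : 1 / 4 ≤ (1 - θ ^ 2 * μ ^ 2) * (1 - θ ^ 2 * μ' ^ 2) := by nlinarith
  rw [e, abs_div, abs_mul, abs_of_nonneg (by linarith : 0 ≤ 1 - θ ^ 2),
    abs_of_pos (by linarith : 0 < (1 - θ ^ 2 * μ ^ 2) * (1 - θ ^ 2 * μ' ^ 2)),
    div_le_iff₀ (by linarith)]
  have h2 := abs_sq_sub_sq μ' μ
  rw [abs_sub_comm μ' μ] at h2
  have h3 : |μ' ^ 2 - μ ^ 2| ≤ 2 * |μ - μ'| := h2.trans (by nlinarith [abs_nonneg (μ - μ')])
  nlinarith [abs_nonneg (μ - μ'), abs_nonneg (μ' ^ 2 - μ ^ 2), sq_nonneg θ]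

lemma abs_mul_sub_mul_le {a b a' b' A B : ℝ} (ha : |a| ≤ A) (hb : |b'| ≤ B) :
    |a * b - a' * b'| ≤ A * |b - b'| + B * |a - a'| := by
  have : a * b - a' * b' = a * (b - b') + b' * (a - a') := by ring
  rw [this]
  refine (abs_add_le _ _).trans ?_
  rw [abs_mul, abs_mul]
  exact add_le_add (mul_le_mul_of_nonneg_right ha (abs_nonneg _))
    (mul_le_mul_of_nonneg_right hb (abs_nonneg _))

/-- cavity magnetisations are Lipschitz functions of the marginals -/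
lemma cav_lip {θ μ ν p q θ' μ' ν' p' q' : ℝ} (h0 : 0 ≤ θ) (h1 : θ ^ 2 ≤ 1 / 2)
    (h0' : 0 ≤ θ') (h1' : θ' ^ 2 ≤ 1 / 2) (hμ : |μ| ≤ 1) (hν : |ν| ≤ 1) (hμ' : |μ'| ≤ 1)
    (hν' : |ν'| ≤ 1)
    (e1 : q * (1 + θ * μ * ν) = μ + θ * ν) (e2 : p * (1 + θ * μ * ν) = ν + θ * μ)
    (e1' : q' * (1 + θ' * μ' * ν') = μ' + θ' * ν') (e2' : p' * (1 + θ' * μ' * ν') = ν' + θ' * μ') :
    |μ - μ'| ≤ 100000 * (|p - p'| + |q - q'| + |θ - θ'|) := by
  have aux : ∀ {θ μ ν p q : ℝ}, 0 ≤ θ → θ ^ 2 ≤ 1 / 2 → |μ| ≤ 1 → |ν| ≤ 1 →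
      q * (1 + θ * μ * ν) = μ + θ * ν → p * (1 + θ * μ * ν) = ν + θ * μ →
      ∃ D A B : ℝ, 4 / 7 ≤ D ∧ D ≤ 4 ∧ μ * D = A ∧ |A| ≤ 4 ∧ |B| ≤ 4 ∧ q = A + θ * B ∧
        p = B + θ * A ∧ D * (1 - D) = θ * A * B := by
    intro θ μ ν p q h0 h1 hμ hν e1 e2
    have t1 : θ ≤ 3 / 4 := by nlinarith
    have t2 : |θ * μ * ν| ≤ 3 / 4 := by
      rw [abs_mul, abs_mul, abs_of_nonneg h0]
      have : |μ| * |ν| ≤ 1 := by nlinarith [abs_nonneg μ, abs_nonneg ν]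
      nlinarith [mul_nonneg (abs_nonneg μ) (abs_nonneg ν)]
    rw [abs_le] at t2
    have hp : 0 < 1 + θ * μ * ν := by linarith
    have hD : (1 + θ * μ * ν)⁻¹ ≤ 4 := by rw [inv_le_comm₀ hp (by norm_num)]; linarith
    have hD0 : 0 ≤ (1 + θ * μ * ν)⁻¹ := (inv_pos.2 hp).le
    refine ⟨(1 + θ * μ * ν)⁻¹, μ * (1 + θ * μ * ν)⁻¹, ν * (1 + θ * μ * ν)⁻¹, ?_, hD, rfl, ?_, ?_,
      ?_, ?_, ?_⟩
    · rw [le_inv_comm₀ (by norm_num) hp]; linarith
    · rw [abs_mul, abs_of_nonneg hD0]; nlinarith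
    · rw [abs_mul, abs_of_nonneg hD0]; nlinarith
    · rw [← mul_assoc, ← add_mul, ← e1, mul_inv_cancel_right₀ hp.ne']
    · rw [← mul_assoc, ← add_mul, ← e2, mul_inv_cancel_right₀ hp.ne']
    · have := mul_inv_cancel₀ hp.ne'
      linear_combination (-(1 + θ * μ * ν)⁻¹) * this
  obtain ⟨D, A, B, d1, d2, d3, d4, d5, d6, d7, d8⟩ := aux h0 h1 hμ hν e1 e2
  obtain ⟨D', A', B', d1', d2', d3', d4', d5', d6', d7', d8'⟩ := aux h0' h1' hμ' hν' e1' e2'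
  set E := |p - p'| + |q - q'| + |θ - θ'| with hE
  have t1 : θ ≤ 3 / 4 := by nlinarith
  have t1' : θ' ≤ 3 / 4 := by nlinarith
  have a1 : |θ * B - θ' * B'| ≤ 3 / 4 * |B - B'| + 4 * |θ - θ'| :=
    abs_mul_sub_mul_le (by rw [abs_of_nonneg h0]; exact t1) d5'
  have a2 : |θ * A - θ' * A'| ≤ 3 / 4 * |A - A'| + 4 * |θ - θ'| :=
    abs_mul_sub_mul_le (by rw [abs_of_nonneg h0]; exact t1) d4'
  have a3 : |A - A'| ≤ |q - q'| + |θ * B - θ' * B'| := by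
    have : A - A' = (q - q') - (θ * B - θ' * B') := by rw [d6, d6']; ring
    rw [this]; exact abs_sub _ _
  have a4 : |B - B'| ≤ |p - p'| + |θ * A - θ' * A'| := by
    have : B - B' = (p - p') - (θ * A - θ' * A') := by rw [d7, d7']; ring
    rw [this]; exact abs_sub _ _
  have n1 := abs_nonneg (p - p')
  have n2 := abs_nonneg (q - q')
  have n3 := abs_nonneg (θ - θ')
  have n4 := abs_nonneg (A - A')
  have n5 := abs_nonneg (B - B')
  have a5 : |A - A'| + |B - B'| ≤ 32 * E := by linarith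
  have a6 : |θ * A * B - θ' * A' * B'| ≤ 3 * |B - B'| + 4 * |θ * A - θ' * A'| :=
    abs_mul_sub_mul_le (by
      rw [abs_mul, abs_of_nonneg h0]; nlinarith [abs_nonneg A]) d5'
  have a7 : |D - D'| * (D + D' - 1) = |θ * A * B - θ' * A' * B'| := by
    rw [← d8, ← d8', ← abs_of_nonneg (show 0 ≤ D + D' - 1 by linarith), ← abs_mul, ← abs_neg]
    congr 1; ring
  have a8 : |D - D'| ≤ 800 * E := by nlinarith [abs_nonneg (D - D')]
  have a9 : |μ - μ'| * D ≤ |A - A'| + |D - D'| := by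
    have : (μ - μ') * D = (A - A') - μ' * (D - D') := by rw [← d3, ← d3']; ring
    rw [← abs_of_nonneg (show 0 ≤ D by linarith), ← abs_mul, abs_of_nonneg (show 0 ≤ D by linarith),
      this]
    refine (abs_sub _ _).trans ?_
    rw [abs_mul]
    nlinarith [abs_nonneg (D - D')]
  nlinarith [abs_nonneg (μ - μ')]

/-- logarithmic cost of an edge -/
noncomputable def chi (θ μ : ℝ) : ℝ := -log (a0 θ μ)

@[fun_prop]
lemma measurable_chi (θ : ℝ) : Measurable (chi θ) := by unfold chi; fun_prop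

lemma a0_pos {θ μ : ℝ} (h1 : θ ^ 2 ≤ 1 / 2) (h : |μ| < 1) : 0 < a0 θ μ := by
  have := le_a0 h1 h.le
  have : μ ^ 2 < 1 := by rw [← sq_abs]; nlinarith [abs_nonneg μ]
  linarith

lemma exp_neg_chi {θ μ : ℝ} (h1 : θ ^ 2 ≤ 1 / 2) (h : |μ| < 1) : exp (-chi θ μ) = a0 θ μ := by
  rw [chi, neg_neg, exp_log (a0_pos h1 h)]

lemma le_chi {θ μ : ℝ} (h1 : θ ^ 2 ≤ 1 / 2) (h : |μ| < 1) : μ ^ 2 / 2 ≤ chi θ μ := by
  have := log_le_sub_one_of_pos (a0_pos h1 h)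
  have := a0_le h1 h.le
  unfold chi; linarith

lemma continuousAt_chi {θ μ : ℝ} (h1 : θ ^ 2 ≤ 1 / 2) (h : |μ| < 1) : ContinuousAt (chi θ) μ :=
  ((continuousAt_a0 h1 h.le).log (a0_pos h1 h).ne').neg

lemma abs_log_sub_le {a b c : ℝ} (hc : 0 < c) (ha : c ≤ a) (hb : c ≤ b) :
    |log a - log b| ≤ |a - b| / c := by
  have aux : ∀ {a b : ℝ}, c ≤ a → c ≤ b → log a - log b ≤ |a - b| / c := by
    intro a b ha hb
    have h1 : 0 < a := by linarith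
    have h2 : 0 < b := by linarith
    rw [← log_div h1.ne' h2.ne']
    refine (log_le_sub_one_of_pos (by positivity)).trans ?_
    rw [div_sub_one h2.ne']
    calc (a - b) / b ≤ |a - b| / b := div_le_div_of_nonneg_right (le_abs_self _) h2.le
      _ ≤ _ := div_le_div_of_nonneg_left (abs_nonneg _) hc hb
  rw [abs_le]
  constructor
  · have := aux hb ha
    rw [abs_sub_comm] at this
    linarith
  · exact aux ha hb

lemma chi_lip {θ θ' μ μ' r : ℝ} (h0 : 0 ≤ θ) (h1 : θ ^ 2 ≤ 1 / 2) (h0' : 0 ≤ θ')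
    (h1' : θ' ^ 2 ≤ 1 / 2) (hr : r < 1) (h : |μ| ≤ r) (h' : |μ'| ≤ r) :
    |chi θ μ - chi θ' μ'| ≤ (|μ| + |μ'|) * (2 * |μ - μ'| + 2 * |θ - θ'|) / (1 - r ^ 2) := by
  have r0 : 0 ≤ r := (abs_nonneg μ).trans h
  have hc : 0 < 1 - r ^ 2 := by nlinarith
  have m1 : μ ^ 2 ≤ r ^ 2 := by rw [← sq_abs]; nlinarith [abs_nonneg μ]
  have m2 : μ' ^ 2 ≤ r ^ 2 := by rw [← sq_abs]; nlinarith [abs_nonneg μ']
  have e : ∀ {θ μ : ℝ}, θ ^ 2 ≤ 1 / 2 → μ ^ 2 ≤ r ^ 2 →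
      chi θ μ = log (1 - θ ^ 2 * μ ^ 2) - log (1 - μ ^ 2) ∧ 1 - r ^ 2 ≤ 1 - θ ^ 2 * μ ^ 2 := by
    intro θ μ h1 m1
    have : 1 - r ^ 2 ≤ 1 - θ ^ 2 * μ ^ 2 := by nlinarith [sq_nonneg μ]
    refine ⟨?_, this⟩
    rw [chi, a0, log_div (by linarith) (by linarith)]; ring
  rw [(e h1 m1).1, (e h1' m2).1]
  have b1 := abs_log_sub_le hc (e h1 m1).2 (e h1' m2).2
  have b2 := abs_log_sub_le hc (show 1 - r ^ 2 ≤ 1 - μ ^ 2 by linarith)
    (show 1 - r ^ 2 ≤ 1 - μ' ^ 2 by linarith)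
  have b3 : |1 - μ ^ 2 - (1 - μ' ^ 2)| ≤ (|μ| + |μ'|) * |μ - μ'| := by
    have : 1 - μ ^ 2 - (1 - μ' ^ 2) = -(μ ^ 2 - μ' ^ 2) := by ring
    rw [this, abs_neg]; exact abs_sq_sub_sq _ _
  have b4 : |1 - θ ^ 2 * μ ^ 2 - (1 - θ' ^ 2 * μ' ^ 2)| ≤
      (|μ| + |μ'|) * |μ - μ'| + (|μ| + |μ'|) * (2 * |θ - θ'|) := by
    have : 1 - θ ^ 2 * μ ^ 2 - (1 - θ' ^ 2 * μ' ^ 2) = -(θ ^ 2 * μ ^ 2 - θ' ^ 2 * μ' ^ 2) := by ring
    rw [this, abs_neg]
    refine (abs_mul_sub_mul_le (A := 1) (B := |μ'|) (by rw [abs_of_nonneg (sq_nonneg _)]; linarith)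
      (by rw [abs_pow]; nlinarith [abs_nonneg μ'])).trans ?_
    have c1 := abs_sq_sub_sq μ μ'
    have c2 := abs_sq_sub_sq θ θ'
    rw [abs_of_nonneg h0, abs_of_nonneg h0'] at c2
    have c3 : |θ ^ 2 - θ' ^ 2| ≤ 2 * |θ - θ'| :=
      c2.trans (mul_le_mul_of_nonneg_right (by
        have : θ ≤ 1 := by nlinarith
        have : θ' ≤ 1 := by nlinarith
        linarith) (abs_nonneg _))
    nlinarith [abs_nonneg μ, abs_nonneg μ', abs_nonneg (θ - θ'), abs_nonneg (θ ^ 2 - θ' ^ 2)]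
  have b5 : log (1 - θ ^ 2 * μ ^ 2) - log (1 - μ ^ 2) - (log (1 - θ' ^ 2 * μ' ^ 2) - log (1 - μ' ^ 2)) =
      (log (1 - θ ^ 2 * μ ^ 2) - log (1 - θ' ^ 2 * μ' ^ 2)) - (log (1 - μ ^ 2) - log (1 - μ' ^ 2)) := by
    ring
  rw [b5]
  refine (abs_sub _ _).trans ((add_le_add b1 b2).trans ?_)
  rw [← add_div]
  refine div_le_div_of_nonneg_right ?_ hc.le
  linarith

lemma sqrt_chi_lip {θ θ' μ μ' r : ℝ} (h0 : 0 ≤ θ) (h1 : θ ^ 2 ≤ 1 / 2) (h0' : 0 ≤ θ')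
    (h1' : θ' ^ 2 ≤ 1 / 2) (hr : r < 1) (h : |μ| ≤ r) (h' : |μ'| ≤ r) :
    |√(chi θ μ) - √(chi θ' μ')| ≤ 4 * (|μ - μ'| + |θ - θ'|) / (1 - r ^ 2) := by
  have r0 : 0 ≤ r := (abs_nonneg μ).trans h
  have hc : 0 < 1 - r ^ 2 := by nlinarith
  have c1 := le_chi h1 (h.trans_lt hr)
  have c2 := le_chi h1' (h'.trans_lt hr)
  have s1 : |μ| / 2 ≤ √(chi θ μ) := le_sqrt_of_sq_le (by rw [div_pow, sq_abs]; nlinarith [sq_nonneg μ])
  have s2 : |μ'| / 2 ≤ √(chi θ' μ') :=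
    le_sqrt_of_sq_le (by rw [div_pow, sq_abs]; nlinarith [sq_nonneg μ'])
  have e : |√(chi θ μ) - √(chi θ' μ')| * (√(chi θ μ) + √(chi θ' μ')) = |chi θ μ - chi θ' μ'| := by
    rw [← abs_of_nonneg (show 0 ≤ √(chi θ μ) + √(chi θ' μ') by positivity), ← abs_mul]
    congr 1
    have a1 := mul_self_sqrt (show 0 ≤ chi θ μ by nlinarith [sq_nonneg μ])
    have a2 := mul_self_sqrt (show 0 ≤ chi θ' μ' by nlinarith [sq_nonneg μ'])
    nlinarith
  have l := chi_lip h0 h1 h0' h1' hr h h'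
  set K := (|μ - μ'| + |θ - θ'|) / (1 - r ^ 2) with hK
  have hK0 : 0 ≤ K := by positivity
  have l2 : |chi θ μ - chi θ' μ'| ≤ (|μ| + |μ'|) * (2 * K) := by
    refine l.trans (le_of_eq ?_); rw [hK]; ring
  have e2 : 4 * (|μ - μ'| + |θ - θ'|) / (1 - r ^ 2) = 4 * K := by rw [hK]; ring
  rw [e2]
  rcases (show 0 ≤ √(chi θ μ) + √(chi θ' μ') by positivity).eq_or_lt with hz | hz
  · have a1 : √(chi θ μ) = 0 := by linarith [sqrt_nonneg (chi θ μ), sqrt_nonneg (chi θ' μ')]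
    have a2 : √(chi θ' μ') = 0 := by linarith [sqrt_nonneg (chi θ μ), sqrt_nonneg (chi θ' μ')]
    rw [a1, a2]; simpa using hK0
  · refine le_of_mul_le_mul_right ?_ hz
    rw [e]
    nlinarith

lemma exp_neg_sub_sq_le {S S' : ℝ} (h : 0 ≤ S) (h' : 0 ≤ S') :
    (exp (-S) - exp (-S')) ^ 2 ≤ 9 * (exp (-S) + exp (-S')) * (√S - √S') ^ 2 := by
  wlog hle : S ≤ S' generalizing S S'
  · have := this h' h (le_of_not_ge hle)
    nlinarith
  set x := √S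
  set y := √S'
  have hx : 0 ≤ x := sqrt_nonneg _
  have hxy : x ≤ y := sqrt_le_sqrt hle
  have ex : S = x ^ 2 := (sq_sqrt h).symm
  have ey : S' = y ^ 2 := (sq_sqrt h').symm
  have p1 : 0 < exp (-S) := exp_pos _
  have p2 : 0 < exp (-S') := exp_pos _
  have p3 : exp (-S') ≤ exp (-S) := exp_le_exp.2 (by linarith)
  have p4 : exp (-S) ≤ 1 := exp_le_one_iff.2 (by linarith)
  have key : (exp (-S) - exp (-S')) ^ 2 ≤ 9 * exp (-S) * (y - x) ^ 2 := by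
    by_cases hd : 1 ≤ y - x
    · have : 1 ≤ (y - x) ^ 2 := by nlinarith
      nlinarith
    · have q1 : exp (-S) - exp (-S') ≤ exp (-S) * (S' - S) := by
        have : exp (-S') = exp (-S) * exp (-(S' - S)) := by rw [← exp_add]; ring_nf
        rw [this]
        nlinarith [add_one_le_exp (-(S' - S))]
      have q2 : S' - S ≤ (y - x) * (2 * x + 1) := by rw [ex, ey]; nlinarith
      have q3 : exp (-S) * (2 * x + 1) ^ 2 ≤ 9 := by
        have a1 : exp (-S) * exp S = 1 := by rw [← exp_add]; simp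
        have a2 := add_one_le_exp S
        have a3 : (2 * x + 1) ^ 2 ≤ 9 * (S + 1) := by rw [ex]; nlinarith [sq_nonneg (x - 1)]
        nlinarith
      have q4 : exp (-S) - exp (-S') ≤ exp (-S) * ((y - x) * (2 * x + 1)) :=
        q1.trans (mul_le_mul_of_nonneg_left q2 p1.le)
      have q5 : (exp (-S) - exp (-S')) ^ 2 ≤ (exp (-S) * ((y - x) * (2 * x + 1))) ^ 2 :=
        pow_le_pow_left₀ (by linarith) q4 2
      have q6 : (exp (-S) * ((y - x) * (2 * x + 1))) ^ 2 =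
          (exp (-S) * (2 * x + 1) ^ 2) * (exp (-S) * (y - x) ^ 2) := by ring
      rw [q6] at q5
      have q7 : 0 ≤ exp (-S) * (y - x) ^ 2 := by positivity
      nlinarith
  nlinarith [sq_nonneg (y - x)]

lemma sqrt_sum_sub_sq_le {ι : Type*} (s : Finset ι) {f g : ι → ℝ} (hf : ∀ i, 0 ≤ f i)
    (hg : ∀ i, 0 ≤ g i) :
    (√(∑ i ∈ s, f i) - √(∑ i ∈ s, g i)) ^ 2 ≤ ∑ i ∈ s, (√(f i) - √(g i)) ^ 2 := by
  have h := sum_sqrt_mul_sqrt_le s hf hg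
  have e : ∑ i ∈ s, (√(f i) - √(g i)) ^ 2 =
      ∑ i ∈ s, f i + ∑ i ∈ s, g i - 2 * ∑ i ∈ s, √(f i) * √(g i) := by
    rw [Finset.mul_sum, ← Finset.sum_add_distrib, ← Finset.sum_sub_distrib]
    refine Finset.sum_congr rfl fun i _ => ?_
    have a1 := sq_sqrt (hf i)
    have a2 := sq_sqrt (hg i)
    nlinarith
  have a1 := sq_sqrt (Finset.sum_nonneg (s := s) fun i _ => hf i)
  have a2 := sq_sqrt (Finset.sum_nonneg (s := s) fun i _ => hg i)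
  nlinarith

lemma abs_exp_neg_sub_le {S S' : ℝ} (h : 0 ≤ S) (h' : 0 ≤ S') :
    |exp (-S) - exp (-S')| ≤ |S - S'| := by
  wlog hle : S ≤ S' generalizing S S'
  · rw [abs_sub_comm, abs_sub_comm S]; exact this h' h (le_of_not_ge hle)
  have p3 : exp (-S') ≤ exp (-S) := exp_le_exp.2 (by linarith)
  have p4 : exp (-S) ≤ 1 := exp_le_one_iff.2 (by linarith)
  rw [abs_of_nonneg (by linarith), abs_of_nonpos (by linarith)]
  have : exp (-S') = exp (-S) * exp (-(S' - S)) := by rw [← exp_add]; ring_nf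
  rw [this]
  nlinarith [add_one_le_exp (-(S' - S)), exp_pos (-S)]

lemma abs_prod_sub_prod_le {ι : Type*} (s : Finset ι) {f g : ι → ℝ}
    (hf : ∀ i ∈ s, |f i| ≤ 1) (hg : ∀ i ∈ s, |g i| ≤ 1) :
    |∏ i ∈ s, f i - ∏ i ∈ s, g i| ≤ ∑ i ∈ s, |f i - g i| := by
  classical
  induction s using Finset.induction_on with
  | empty => simp
  | insert a s ha ih =>
    rw [Finset.prod_insert ha, Finset.prod_insert ha, Finset.sum_insert ha]
    have h1 : |∏ i ∈ s, g i| ≤ 1 := by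
      rw [Finset.abs_prod]
      exact Finset.prod_le_one (fun _ _ => abs_nonneg _)
        fun i hi => hg i (Finset.mem_insert_of_mem hi)
    have := abs_mul_sub_mul_le (b := ∏ i ∈ s, f i) (a' := g a)
      (hf a (Finset.mem_insert_self _ _)) h1
    have := ih (fun i hi => hf i (Finset.mem_insert_of_mem hi))
      (fun i hi => hg i (Finset.mem_insert_of_mem hi))
    linarith

end Crest.Agent.H5.KS
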