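import Mathlib

/-!
Geometry of regular trees: predecessors, geodesics, branches, level sets, and two-point
homogeneity.
-/

set_option autoImplicit false

namespace Crest.Agent.H5.KS

open SimpleGraph

variable {V : Type*} {G : SimpleGraph V}

lemma adj_dist_le (hT : G.IsTree) (o : V) {a b : V} (h : G.Adj a b) :
    G.dist o b ≤ G.dist o a + 1 := by
  have := hT.dist_eq_dist_add_one_of_adj o h
  omega

lemma tri (hT : G.IsTree) (a b c : V) : G.dist a c ≤ G.dist a b + G.dist b c :=
  hT.connected.dist_triangle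

lemma dist_zero (hT : G.IsTree) {a b : V} (h : G.dist a b = 0) : a = b :=
  hT.connected.dist_eq_zero_iff.1 h

lemma pred_unique (hT : G.IsTree) {o z p p' : V} (h : G.Adj z p) (h' : G.Adj z p')
    (e : G.dist o p + 1 = G.dist o z) (e' : G.dist o p' + 1 = G.dist o z) : p = p' := by
  obtain ⟨q, hq⟩ := hT.connected.exists_walk_length_eq_dist o p
  obtain ⟨q', hq'⟩ := hT.connected.exists_walk_length_eq_dist o p'
  have a1 : (q.concat h.symm).IsPath :=
    Walk.isPath_of_length_eq_dist _ (by rw [Walk.length_concat, hq, e])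
  have a2 : (q'.concat h'.symm).IsPath :=
    Walk.isPath_of_length_eq_dist _ (by rw [Walk.length_concat, hq', e'])
  have := (hT.existsUnique_path o z).unique a1 a2
  exact (Walk.concat_inj this).1

lemma pred_exists (hT : G.IsTree) {o z : V} (h : z ≠ o) :
    ∃ p, G.Adj z p ∧ G.dist o p + 1 = G.dist o z := by
  obtain ⟨q, hq⟩ := hT.connected.exists_walk_length_eq_dist z o
  cases q with
  | nil => exact absurd rfl h
  | cons hadj q =>
    refine ⟨_, hadj, ?_⟩
    have h1 := dist_le q
    have h2 := adj_dist_le hT o hadj.symm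
    rw [Walk.length_cons, dist_comm] at hq
    rw [dist_comm] at h1
    omega

open Classical in
/-- the point at distance `i` from `o` on the geodesic from `o` to `w` -/
noncomputable def geo (G : SimpleGraph V) (o w : V) (i : ℕ) : V :=
  if h : ∃ x, G.dist o x = i ∧ G.dist x w + i = G.dist o w then h.choose else w

lemma geo_exists (hT : G.IsTree) (o : V) (j : ℕ) : ∀ (w : V) (i : ℕ), i + j = G.dist o w →
    ∃ x, G.dist o x = i ∧ G.dist x w + i = G.dist o w := by
  induction j with
  | zero => intro w i h; exact ⟨w, by omega, by simp; omega⟩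
  | succ j ih =>
    intro w i h
    have hw : w ≠ o := by rintro rfl; simp at h
    obtain ⟨p, hp, hp'⟩ := pred_exists hT hw
    obtain ⟨x, hx, hx'⟩ := ih p i (by omega)
    have h1 := adj_dist_le hT x hp.symm
    have h2 := tri hT o x w
    exact ⟨x, hx, by omega⟩

lemma geo_spec (hT : G.IsTree) {o w : V} {i : ℕ} (h : i ≤ G.dist o w) :
    G.dist o (geo G o w i) = i ∧ G.dist (geo G o w i) w + i = G.dist o w := by
  have := geo_exists hT o (G.dist o w - i) w i (by omega)
  unfold geo
  rw [dif_pos this]
  exact this.choose_spec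

lemma geo_uniq_aux (hT : G.IsTree) {o x x' : V} {i : ℕ} (hx : G.dist o x = i)
    (hx' : G.dist o x' = i) (j : ℕ) : ∀ w : V, G.dist x w = j → G.dist x w + i = G.dist o w →
      G.dist x' w + i = G.dist o w → x = x' := by
  induction j with
  | zero =>
    intro w h0 h1 h2
    rw [dist_zero hT h0, dist_zero hT (show G.dist x' w = 0 by omega)]
  | succ j ih =>
    intro w h0 h1 h2
    have hw : w ≠ x := by rintro rfl; simp at h0
    have hw' : w ≠ x' := by rintro rfl; simp at h2; omega
    obtain ⟨p, hp, e⟩ := pred_exists hT hw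
    obtain ⟨p', hp', e'⟩ := pred_exists hT hw'
    have a1 := tri hT o x p
    have a2 := tri hT o x' p'
    have a3 := adj_dist_le hT o hp.symm
    have a4 := adj_dist_le hT o hp'.symm
    have : p = p' := pred_unique hT (o := o) hp hp' (by omega) (by omega)
    subst this
    exact ih p (by omega) (by omega) (by omega)

lemma geo_unique (hT : G.IsTree) {o w x : V} {i : ℕ} (h1 : G.dist o x = i)
    (h2 : G.dist x w + i = G.dist o w) : geo G o w i = x := by
  have h := geo_spec hT (show i ≤ G.dist o w by omega)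
  exact geo_uniq_aux hT h.1 h1 _ w rfl h.2 h2

lemma geo_zero (hT : G.IsTree) (o w : V) : geo G o w 0 = o := geo_unique hT (by simp) (by simp)

lemma geo_dist (hT : G.IsTree) (o w : V) : geo G o w (G.dist o w) = w :=
  geo_unique hT rfl (by simp)

lemma geo_adj (hT : G.IsTree) {o w : V} {i : ℕ} (h : i < G.dist o w) :
    G.Adj (geo G o w i) (geo G o w (i + 1)) := by
  have h1 := geo_spec hT (show i + 1 ≤ G.dist o w by omega)
  have hw : geo G o w (i + 1) ≠ o := by
    intro e; rw [e] at h1; simp at h1
  obtain ⟨p, hp, e⟩ := pred_exists hT hw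
  have a1 := tri hT o p w
  have a2 := adj_dist_le hT w hp
  rw [dist_comm (u := w), dist_comm (u := w)] at a2
  rw [geo_unique hT (x := p) (by omega) (by omega)]
  exact hp.symm

lemma geo_rev (hT : G.IsTree) {o w : V} {i j : ℕ} (h : i + j = G.dist o w) :
    geo G w o i = geo G o w j := by
  have h1 := geo_spec hT (show j ≤ G.dist o w by omega)
  refine geo_unique hT ?_ ?_
  · rw [dist_comm]; omega
  · rw [dist_comm, dist_comm (u := w)]; omega

lemma geo_geo_left (hT : G.IsTree) {o w : V} {i j : ℕ} (hij : i ≤ j) (h : j ≤ G.dist o w) :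
    geo G o (geo G o w j) i = geo G o w i := by
  have h1 := geo_spec hT h
  have h2 := geo_spec hT (show i ≤ G.dist o (geo G o w j) by omega)
  have h3 := tri hT (geo G o (geo G o w j) i) (geo G o w j) w
  have h4 := tri hT o (geo G o (geo G o w j) i) w
  exact (geo_unique hT h2.1 (by omega)).symm

lemma geo_geo_right (hT : G.IsTree) {o w : V} {i j : ℕ} (h : j + i ≤ G.dist o w) :
    geo G (geo G o w j) w i = geo G o w (j + i) := by
  have h1 := geo_spec hT (show j ≤ G.dist o w by omega)
  have h2 := geo_spec hT (show i ≤ G.dist (geo G o w j) w by omega)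
  have h3 := tri hT o (geo G o w j) (geo G (geo G o w j) w i)
  have h4 := tri hT o (geo G (geo G o w j) w i) w
  exact (geo_unique hT (by omega) (by omega)).symm

lemma dist_geo_geo (hT : G.IsTree) {o w : V} {i j : ℕ} (h : j + i ≤ G.dist o w) :
    G.dist (geo G o w j) (geo G o w (j + i)) = i := by
  have h1 := geo_spec hT (show j ≤ G.dist o w by omega)
  rw [← geo_geo_right hT h]
  exact (geo_spec hT (by omega)).1

lemma iso_dist (hT : G.IsTree) (g : G ≃g G) (a b : V) : G.dist (g a) (g b) = G.dist a b := by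
  have aux : ∀ (g : G ≃g G) (a b : V), G.dist (g a) (g b) ≤ G.dist a b := by
    intro g a b
    obtain ⟨q, hq⟩ := hT.connected.exists_walk_length_eq_dist a b
    have := dist_le (q.map g.toHom)
    rwa [Walk.length_map, hq] at this
  have := aux g.symm (g a) (g b)
  simp only [RelIso.symm_apply_apply] at this
  exact le_antisymm (aux g a b) this

lemma iso_geo (hT : G.IsTree) (g : G ≃g G) {o w : V} {i : ℕ} (h : i ≤ G.dist o w) :
    geo G (g o) (g w) i = g (geo G o w i) := by
  have h1 := geo_spec hT h
  exact geo_unique hT (by rw [iso_dist hT]; exact h1.1) (by rw [iso_dist hT, iso_dist hT]; exact h1.2)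

/-- the branch at `v` looking away from `u` -/
def br (G : SimpleGraph V) (u v : V) : Set V := {z | G.dist v z ≤ G.dist u z}

lemma mem_br_iff (hT : G.IsTree) {u v z : V} (h : G.Adj u v) :
    z ∈ br G u v ↔ G.dist u z = G.dist v z + 1 := by
  have := hT.dist_eq_dist_add_one_of_adj z h
  rw [dist_comm (u := z), dist_comm (u := z)] at this
  simp only [br, Set.mem_ofPred_eq]
  omega

lemma not_mem_br_iff (hT : G.IsTree) {u v z : V} (h : G.Adj u v) :
    z ∉ br G u v ↔ G.dist v z = G.dist u z + 1 := by
  have := hT.dist_eq_dist_add_one_of_adj z h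
  rw [dist_comm (u := z), dist_comm (u := z)] at this
  simp only [br, Set.mem_ofPred_eq]
  omega

lemma not_mem_br_iff' (hT : G.IsTree) {u v z : V} (h : G.Adj u v) :
    z ∉ br G u v ↔ z ∈ br G v u := by
  rw [not_mem_br_iff hT h, mem_br_iff hT h.symm]

lemma self_mem_br (G : SimpleGraph V) (u v : V) : v ∈ br G u v := by simp [br]

lemma mem_br_self (G : SimpleGraph V) (v z : V) : z ∈ br G v v := by simp [br]

lemma not_mem_br (hT : G.IsTree) {u v : V} (h : G.Adj u v) : u ∉ br G u v := by
  rw [not_mem_br_iff hT h]; simp [dist_eq_one_iff_adj, h.symm]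

lemma br_cut (hT : G.IsTree) {u v a b : V} (h : G.Adj u v) (hab : G.Adj a b)
    (ha : a ∈ br G u v) (hb : b ∉ br G u v) : a = v ∧ b = u := by
  rw [mem_br_iff hT h] at ha
  rw [not_mem_br_iff hT h] at hb
  have h1 := hT.dist_eq_dist_add_one_of_adj u hab
  have h2 := hT.dist_eq_dist_add_one_of_adj v hab
  by_cases hub : u = b
  · subst hub
    have h0 := dist_eq_one_iff_adj.2 hab.symm
    exact ⟨(dist_zero hT (show G.dist v a = 0 by omega)).symm, rfl⟩
  · obtain ⟨p, hp, e⟩ := pred_exists hT hub
    have h3 := adj_dist_le hT p hab.symm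
    have h4 := adj_dist_le hT a hp.symm
    rw [dist_comm (u := p), dist_comm (u := p)] at h3
    rw [dist_comm (u := u), dist_comm (u := v)] at ha hb
    rw [dist_comm (u := u), dist_comm (u := u)] at h1
    rw [dist_comm (u := v), dist_comm (u := v)] at h2
    have : p = v := pred_unique hT (o := a) hp h (by omega) (by omega)
    subst this
    omega

lemma br_cross (hT : G.IsTree) {u v z : V} (h : G.Adj u v) (hz : z ∉ br G u v) (n : ℕ) :
    ∀ a ∈ br G u v, G.dist v a = n → G.dist z a = G.dist z v + G.dist v a := by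
  induction n using Nat.strong_induction_on with
  | _ n ih =>
    intro a ha hn
    by_cases hav : a = v
    · subst hav; simp
    obtain ⟨p, hp, e⟩ := pred_exists hT hav
    have ha' := (mem_br_iff hT h).1 ha
    have h1 := adj_dist_le hT u hp.symm
    have hpb : p ∈ br G u v := by simp only [br, Set.mem_ofPred_eq]; omega
    have h2 := ih _ (by omega) p hpb rfl
    rcases hT.dist_eq_dist_add_one_of_adj z hp with h3 | h3
    · omega
    exfalso
    by_cases hpv : p = v
    · subst hpv
      have h4 := (not_mem_br_iff hT h).1 hz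
      rw [dist_comm (u := p), dist_comm (u := u)] at h4
      have : a = u := pred_unique hT (o := z) hp.symm h.symm (by omega) (by omega)
      exact not_mem_br hT h (this ▸ ha)
    · obtain ⟨q, hq, e'⟩ := pred_exists hT hpv
      have h5 := tri hT z v q
      have h6 := adj_dist_le hT z hq.symm
      have : a = q := pred_unique hT (o := z) hp.symm hq (by omega) (by omega)
      subst this
      omega

lemma iso_br (hT : G.IsTree) (g : G ≃g G) (u v z : V) : g z ∈ br G (g u) (g v) ↔ z ∈ br G u v := by
  simp only [br, Set.mem_ofPred_eq, iso_dist hT]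

/-- admissible pairs: a root marker `(v, v)` or a directed edge -/
def Good (G : SimpleGraph V) (u v : V) : Prop := u = v ∨ G.Adj u v

variable [G.LocallyFinite]

open Classical in
/-- children of `v` looking away from `u` -/
noncomputable def ch (G : SimpleGraph V) [G.LocallyFinite] (u v : V) : Finset V :=
  (G.neighborFinset v).erase u

lemma mem_ch {u v c : V} : c ∈ ch G u v ↔ c ≠ u ∧ G.Adj v c := by
  simp [ch]

lemma card_ch_adj {d : ℕ} (hreg : G.IsRegularOfDegree d) {u v : V} (h : G.Adj u v) :
    (ch G u v).card = d - 1 := by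
  classical
  unfold ch
  rw [Finset.card_erase_of_mem (by simpa using h.symm), card_neighborFinset_eq_degree, hreg v]

lemma card_ch_self {d : ℕ} (hreg : G.IsRegularOfDegree d) (v : V) : (ch G v v).card = d := by
  classical
  unfold ch
  rw [Finset.erase_eq_of_notMem (by simp), card_neighborFinset_eq_degree, hreg v]

lemma br_ch_subset (hT : G.IsTree) {u v c : V} (h : Good G u v) (hc : c ∈ ch G u v) :
    br G v c ⊆ br G u v := by
  intro z hz
  rcases h with rfl | h
  · exact mem_br_self _ _ _
  obtain ⟨h1, h2⟩ := mem_ch.1 hc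
  by_contra hn
  rw [mem_br_iff hT h2, dist_comm (u := v), dist_comm (u := c)] at hz
  rw [not_mem_br_iff hT h, dist_comm (u := v), dist_comm (u := u)] at hn
  exact h1 (pred_unique hT h2 h.symm hz.symm hn.symm)

omit [G.LocallyFinite] in
lemma br_disjoint (hT : G.IsTree) {v c c' z : V} (h : G.Adj v c) (h' : G.Adj v c')
    (hz : z ∈ br G v c) (hz' : z ∈ br G v c') : c = c' := by
  rw [mem_br_iff hT h, dist_comm (u := v), dist_comm (u := c)] at hz
  rw [mem_br_iff hT h', dist_comm (u := v), dist_comm (u := c')] at hz'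
  exact pred_unique hT h h' hz.symm hz'.symm

lemma br_decomp (hT : G.IsTree) {u v z : V} (h : Good G u v) (hz : z ∈ br G u v) (hne : z ≠ v) :
    ∃ c ∈ ch G u v, z ∈ br G v c := by
  obtain ⟨c, hc, e⟩ := pred_exists hT hne.symm
  rw [dist_comm (u := z), dist_comm (u := z)] at e
  refine ⟨c, mem_ch.2 ⟨?_, hc⟩, (mem_br_iff hT hc).2 e.symm⟩
  rintro rfl
  rcases h with rfl | h
  · exact hc.ne rfl
  · rw [mem_br_iff hT h] at hz; omega

open Classical in
/-- level sets of a branch -/
noncomputable def lev (G : SimpleGraph V) [G.LocallyFinite] : ℕ → V → V → Finset V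
  | 0, _, v => {v}
  | n + 1, u, v => (ch G u v).biUnion fun c => lev G n v c

lemma mem_lev (hT : G.IsTree) {z : V} (n : ℕ) : ∀ {u v : V}, Good G u v →
    (z ∈ lev G n u v ↔ z ∈ br G u v ∧ G.dist v z = n) := by
  induction n with
  | zero =>
    intro u v _
    simp only [lev, Finset.mem_singleton]
    exact ⟨fun h => h ▸ ⟨self_mem_br _ _ _, by simp⟩, fun h => (dist_zero hT h.2).symm⟩
  | succ n ih =>
    intro u v h
    simp only [lev, Finset.mem_biUnion]
    constructor
    · rintro ⟨c, hc, hz⟩
      have hadj := (mem_ch.1 hc).2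
      rw [ih (Or.inr hadj)] at hz
      exact ⟨br_ch_subset hT h hc hz.1, by rw [(mem_br_iff hT hadj).1 hz.1, hz.2]⟩
    · rintro ⟨h1, h2⟩
      obtain ⟨c, hc, hz⟩ := br_decomp hT h h1 (by rintro rfl; simp at h2)
      have hadj := (mem_ch.1 hc).2
      refine ⟨c, hc, (ih (Or.inr hadj)).2 ⟨hz, ?_⟩⟩
      have := (mem_br_iff hT hadj).1 hz
      omega

lemma sum_lev_succ {M : Type*} [AddCommMonoid M] (hT : G.IsTree) (n : ℕ) (u v : V) (f : V → M) :
    ∑ z ∈ lev G (n + 1) u v, f z = ∑ c ∈ ch G u v, ∑ z ∈ lev G n v c, f z := by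
  classical
  simp only [lev]
  convert Finset.sum_biUnion (s := ch G u v) (t := fun c => lev G n v c) (f := f) ?_
  intro c hc c' hc' hne
  refine Finset.disjoint_left.2 fun z hz hz' => hne ?_
  have h1 := (mem_ch.1 hc).2
  have h2 := (mem_ch.1 hc').2
  exact br_disjoint hT h1 h2 ((mem_lev hT n (Or.inr h1)).1 hz).1 ((mem_lev hT n (Or.inr h2)).1 hz').1

lemma card_lev_adj (hT : G.IsTree) {d : ℕ} (hreg : G.IsRegularOfDegree d) (n : ℕ) :
    ∀ {u v : V}, G.Adj u v → (lev G n u v).card = (d - 1) ^ n := by
  induction n with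
  | zero => intro u v _; simp [lev]
  | succ n ih =>
    intro u v h
    rw [Finset.card_eq_sum_ones, sum_lev_succ hT,
      Finset.sum_congr rfl fun c hc => by
        rw [← Finset.card_eq_sum_ones, ih (mem_ch.1 hc).2]]
    simp [card_ch_adj hreg h, pow_succ, mul_comm]

lemma card_lev_le (hT : G.IsTree) {d : ℕ} (hd : 3 ≤ d) (hreg : G.IsRegularOfDegree d) (n : ℕ)
    (v : V) : (lev G n v v).card ≤ 2 * (d - 1) ^ n := by
  cases n with
  | zero => simp [lev]
  | succ n =>
    rw [Finset.card_eq_sum_ones, sum_lev_succ hT,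
      Finset.sum_congr rfl fun c hc => by
        rw [← Finset.card_eq_sum_ones, card_lev_adj hT hreg n (mem_ch.1 hc).2]]
    simp only [Finset.sum_const, card_ch_self hreg, smul_eq_mul, pow_succ]
    rw [mul_comm ((d - 1) ^ n), ← mul_assoc]
    exact Nat.mul_le_mul_right _ (by omega)

open Classical in
/-- truncated branches; `sub G R v v` is the ball of radius `R` -/
noncomputable def sub (G : SimpleGraph V) [G.LocallyFinite] (n : ℕ) (u v : V) : Finset V :=
  (Finset.range (n + 1)).biUnion fun j => lev G j u v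

lemma mem_sub (hT : G.IsTree) {z u v : V} {n : ℕ} (h : Good G u v) :
    z ∈ sub G n u v ↔ z ∈ br G u v ∧ G.dist v z ≤ n := by
  simp only [sub, Finset.mem_biUnion, Finset.mem_range, mem_lev hT _ h]
  constructor
  · rintro ⟨j, h1, h2, h3⟩; exact ⟨h2, by omega⟩
  · rintro ⟨h1, h2⟩; exact ⟨_, by omega, h1, rfl⟩

lemma mem_ball (hT : G.IsTree) {z v : V} {n : ℕ} : z ∈ sub G n v v ↔ G.dist v z ≤ n := by
  rw [mem_sub hT (Or.inl rfl)]; simp [mem_br_self]

lemma mem_sphere (hT : G.IsTree) {z v : V} {n : ℕ} : z ∈ lev G n v v ↔ G.dist v z = n := by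
  rw [mem_lev hT _ (Or.inl rfl)]; simp [mem_br_self]

lemma sum_sub {M : Type*} [AddCommMonoid M] (hT : G.IsTree) {u v : V} (h : Good G u v) (n : ℕ)
    (f : V → M) :
    ∑ z ∈ sub G n u v, f z = ∑ j ∈ Finset.range (n + 1), ∑ z ∈ lev G j u v, f z := by
  classical
  unfold sub
  convert Finset.sum_biUnion (s := Finset.range (n + 1)) (t := fun j => lev G j u v) (f := f) ?_
  intro i _ j _ hne
  refine Finset.disjoint_left.2 fun z hz hz' => hne ?_
  rw [← ((mem_lev hT _ h).1 hz).2, ← ((mem_lev hT _ h).1 hz').2]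

lemma iso_ball (hT : G.IsTree) (g : G ≃g G) (n : ℕ) (v : V) :
    (sub G n v v).map g.toEquiv.toEmbedding = sub G n (g v) (g v) := by
  ext z
  rw [Finset.mem_map_equiv, mem_ball hT, mem_ball hT, ← iso_dist hT g]
  have : g (g.toEquiv.symm z) = z := g.toEquiv.apply_symm_apply z
  rw [this]

lemma countable_of_tree (hT : G.IsTree) : Countable V := by
  obtain ⟨o⟩ := hT.connected.nonempty
  have : (Set.univ : Set V) = ⋃ n, (sub G n o o : Set V) := by
    ext z
    simp only [Set.mem_univ, Set.mem_iUnion, Finset.mem_coe, mem_ball hT, true_iff]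
    exact ⟨_, le_rfl⟩
  rw [← Set.countable_univ_iff, this]
  exact Set.countable_iUnion fun n => Finset.countable_toSet _

/-- radial sums over a finite set -/
lemma sum_radial_le (hT : G.IsTree) {d : ℕ} (hd : 3 ≤ d) (hreg : G.IsRegularOfDegree d)
    (v : V) (n : ℕ) (F : ℕ → ℝ) (hF : ∀ j, 0 ≤ F j) :
    ∑ w ∈ sub G n v v, F (G.dist v w) ≤
      ∑ j ∈ Finset.range (n + 1), 2 * ((d : ℝ) - 1) ^ j * F j := by
  rw [sum_sub hT (Or.inl rfl)]
  refine Finset.sum_le_sum fun j _ => ?_
  rw [Finset.sum_congr rfl fun z hz => by rw [(mem_sphere hT).1 hz]]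
  rw [Finset.sum_const, nsmul_eq_mul]
  refine mul_le_mul_of_nonneg_right ?_ (hF j)
  have := card_lev_le hT hd hreg j v
  have h2 : ((d - 1 : ℕ) : ℝ) = (d : ℝ) - 1 := by rw [Nat.cast_sub (by omega)]; simp
  rw [← h2]
  exact_mod_cast this

section auto

lemma exists_bij_pt {s t : Finset V} (h : s.card = t.card) (a b : V) :
    ∃ e : V → V, Set.BijOn e s t ∧ (a ∈ s → b ∈ t → e a = b) := by
  classical
  have : Nonempty V := ⟨a⟩
  obtain ⟨e, he⟩ := (s.finite_toSet).exists_bijOn_of_encard_eq (t := (t : Set V))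
    (by simp [h])
  by_cases hab : a ∈ s ∧ b ∈ t
  · refine ⟨Equiv.swap (e a) b ∘ e, ?_, fun _ _ => by simp⟩
    refine Set.BijOn.comp ?_ he
    exact Equiv.bijOn_swap (he.mapsTo hab.1) hab.2
  · exact ⟨e, he, fun h1 h2 => absurd ⟨h1, h2⟩ hab⟩

/-- parent with respect to a root -/
noncomputable def par (G : SimpleGraph V) (o w : V) : V := geo G o w (G.dist o w - 1)

omit [G.LocallyFinite] in
lemma par_spec (hT : G.IsTree) {o w : V} (h : w ≠ o) :
    G.Adj (par G o w) w ∧ G.dist o (par G o w) + 1 = G.dist o w := by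
  have h0 : 0 < G.dist o w := hT.connected.pos_dist_of_ne h.symm
  have h1 := geo_adj hT (show G.dist o w - 1 < G.dist o w by omega)
  rw [Nat.sub_add_cancel h0, geo_dist hT] at h1
  have h2 := geo_spec hT (show G.dist o w - 1 ≤ G.dist o w by omega)
  exact ⟨h1, by unfold par; omega⟩

omit [G.LocallyFinite] in
lemma par_self (hT : G.IsTree) (o : V) : par G o o = o := by
  unfold par; simp [geo_zero hT]

omit [G.LocallyFinite] in
lemma par_eq (hT : G.IsTree) {o w p : V} (h : G.Adj p w) (e : G.dist o p + 1 = G.dist o w) :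
    par G o w = p := by
  have hw : w ≠ o := by rintro rfl; simp at e
  exact pred_unique hT (par_spec hT hw).1.symm h.symm (par_spec hT hw).2 e

lemma mem_ch_par (hT : G.IsTree) {o p c : V} :
    c ∈ ch G (par G o p) p ↔ G.Adj p c ∧ G.dist o p + 1 = G.dist o c := by
  rw [mem_ch]
  by_cases hp : p = o
  · subst hp
    rw [par_self hT]
    exact ⟨fun h => ⟨h.2, by simp [dist_eq_one_iff_adj.2 h.2]⟩, fun h => ⟨h.1.ne', h.1⟩⟩
  · have h1 := par_spec hT hp
    constructor
    · rintro ⟨h2, h3⟩
      refine ⟨h3, ?_⟩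
      rcases hT.dist_eq_dist_add_one_of_adj o h3 with h4 | h4
      · exact absurd (par_eq hT h3.symm h4.symm).symm h2
      · exact h4.symm
    · rintro ⟨h2, h3⟩
      refine ⟨?_, h2⟩
      rintro rfl
      omega

lemma card_ch_par (hT : G.IsTree) {d : ℕ} (hreg : G.IsRegularOfDegree d) {o o' p p' : V}
    (h : G.dist o p = G.dist o' p') :
    (ch G (par G o p) p).card = (ch G (par G o' p') p').card := by
  by_cases hp : p = o
  · subst hp
    have : o' = p' := dist_zero hT (by simpa using h.symm)
    subst this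
    rw [par_self hT, par_self hT, card_ch_self hreg, card_ch_self hreg]
  · have hp' : p' ≠ o' := by
      rintro rfl
      exact hp (dist_zero hT (by simpa using h)).symm
    rw [card_ch_adj hreg (par_spec hT hp).1, card_ch_adj hreg (par_spec hT hp').1]

theorem two_point (hT : G.IsTree) {d : ℕ} (hreg : G.IsRegularOfDegree d) {o z o' z' : V}
    (hzz : G.dist o z = G.dist o' z') : ∃ g : G ≃g G, g o = o' ∧ g z = z' := by
  have hex : ∀ p p' : V, ∃ e : V → V, G.dist o p = G.dist o' p' →
      Set.BijOn e (ch G (par G o p) p) (ch G (par G o' p') p') ∧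
      (geo G o z (G.dist o p + 1) ∈ ch G (par G o p) p →
        geo G o' z' (G.dist o p + 1) ∈ ch G (par G o' p') p' →
        e (geo G o z (G.dist o p + 1)) = geo G o' z' (G.dist o p + 1)) := by
    intro p p'
    by_cases h : G.dist o p = G.dist o' p'
    · obtain ⟨e, he⟩ := exists_bij_pt (card_ch_par hT hreg h) (geo G o z (G.dist o p + 1))
        (geo G o' z' (G.dist o p + 1))
      exact ⟨e, fun _ => he⟩
    · exact ⟨id, fun h' => absurd h' h⟩
  choose e he using hex
  let F : ℕ → V → V := fun n => Nat.rec (fun _ => o')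
    (fun _ Fn w => e (par G o w) (Fn (par G o w)) w) n
  let f : V → V := fun w => F (G.dist o w) w
  have f0 : f o = o' := by simp [f, F]
  have fs : ∀ w, w ≠ o → f w = e (par G o w) (f (par G o w)) w := by
    intro w hw
    simp only [f]
    rw [← (par_spec hT hw).2]
  have hmem : ∀ w, w ≠ o → w ∈ ch G (par G o (par G o w)) (par G o w) := fun w hw =>
    (mem_ch_par hT).2 (par_spec hT hw)
  have hdep : ∀ n w, G.dist o w = n → G.dist o' (f w) = n := by
    intro n
    induction n with
    | zero => intro w h; rw [← dist_zero hT h, f0]; simp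
    | succ n ih =>
      intro w h
      have hw : w ≠ o := by rintro rfl; simp at h
      have h1 := (par_spec hT hw).2
      have h2 := ih (par G o w) (by omega)
      have h3 := (he (par G o w) (f (par G o w)) (by omega)).1.mapsTo (hmem w hw)
      rw [← fs w hw, Finset.mem_coe, mem_ch_par hT] at h3
      omega
  have hd : ∀ w, G.dist o w = G.dist o' (f w) := fun w => (hdep _ w rfl).symm
  have hadj : ∀ w, w ≠ o → G.Adj (f (par G o w)) (f w) := by
    intro w hw
    have h3 := (he (par G o w) (f (par G o w)) (hd _)).1.mapsTo (hmem w hw)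
    rw [← fs w hw, Finset.mem_coe, mem_ch_par hT] at h3
    exact h3.1
  have hinj : ∀ n w w', G.dist o w = n → f w = f w' → w = w' := by
    intro n
    induction n with
    | zero =>
      intro w w' h e
      rw [← dist_zero hT h, dist_zero hT (show G.dist o w' = 0 by rw [hd, ← e, ← hd, h])]
    | succ n ih =>
      intro w w' h e1
      have h' : G.dist o w' = n + 1 := by rw [hd, ← e1, ← hd, h]
      have hw : w ≠ o := by rintro rfl; simp at h
      have hw' : w' ≠ o := by rintro rfl; simp at h'
      have h1 := (par_spec hT hw).2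
      have h1' := (par_spec hT hw').2
      have h2 : f (par G o w) = f (par G o w') :=
        pred_unique hT (o := o') (hadj w hw).symm (e1 ▸ (hadj w' hw').symm)
          (by rw [← hd, ← hd]; exact h1) (by rw [← hd, ← hd]; omega)
      have h3 := ih _ _ (by omega) h2
      refine (he (par G o w) (f (par G o w)) (hd _)).1.injOn (hmem w hw)
        (by rw [h3]; exact hmem w' hw') ?_
      rw [← fs w hw, h3, ← fs w' hw', e1]
  have hsurj : ∀ n w', G.dist o' w' = n → ∃ w, f w = w' := by
    intro n
    induction n with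
    | zero => intro w' h; exact ⟨o, by rw [f0, dist_zero hT h]⟩
    | succ n ih =>
      intro w' h
      have hw' : w' ≠ o' := by rintro rfl; simp at h
      have h1 := par_spec hT hw'
      obtain ⟨p, hp⟩ := ih (par G o' w') (by omega)
      obtain ⟨c, hc, hc'⟩ := (he p (f p) (hd _)).1.surjOn
        (show w' ∈ (ch G (par G o' (f p)) (f p) : Set V) by
          rw [Finset.mem_coe, mem_ch_par hT, hp]; exact h1)
      rw [Finset.mem_coe, mem_ch_par hT] at hc
      have hco : c ≠ o := by rintro rfl; simp at hc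
      exact ⟨c, by rw [fs c hco, par_eq hT hc.1 hc.2, hc']⟩
  have hbij : Function.Bijective f :=
    ⟨fun w w' h => hinj _ w w' rfl h, fun w' => hsurj _ w' rfl⟩
  have hA : ∀ a b, G.Adj a b → G.dist o a + 1 = G.dist o b → G.Adj (f a) (f b) := by
    intro a b h1 h2
    have hb : b ≠ o := by rintro rfl; simp at h2
    have := hadj b hb
    rwa [par_eq hT h1 h2] at this
  have hB : ∀ a b, G.Adj (f a) (f b) → G.dist o a + 1 = G.dist o b → G.Adj a b := by
    intro a b h1 h2
    have hb : b ≠ o := by rintro rfl; simp at h2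
    have h3 : f a = f (par G o b) := pred_unique hT (o := o') h1.symm (hadj b hb).symm
      (by rw [← hd, ← hd]; exact h2) (by rw [← hd, ← hd]; exact (par_spec hT hb).2)
    rw [hbij.1 h3]
    exact (par_spec hT hb).1
  refine ⟨⟨Equiv.ofBijective f hbij, fun {a b} => ⟨fun h => ?_, fun h => ?_⟩⟩, f0, ?_⟩
  · rcases hT.dist_eq_dist_add_one_of_adj o' h with h1 | h1
    · exact (hB b a h.symm (by rw [hd, hd]; exact h1.symm)).symm
    · exact hB a b h (by rw [hd, hd]; exact h1.symm)
  · rcases hT.dist_eq_dist_add_one_of_adj o h with h1 | h1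
    · exact (hA b a h.symm h1.symm).symm
    · exact hA a b h h1.symm
  · have : ∀ i ≤ G.dist o z, f (geo G o z i) = geo G o' z' i := by
      intro i
      induction i with
      | zero => intro _; rw [geo_zero hT, geo_zero hT, f0]
      | succ i ih =>
        intro hi
        have a1 := geo_spec hT hi
        have a2 := geo_spec hT (show i ≤ G.dist o z by omega)
        have a3 := geo_spec hT (show i + 1 ≤ G.dist o' z' by omega)
        have a4 := geo_spec hT (show i ≤ G.dist o' z' by omega)
        have a5 := geo_adj hT (show i < G.dist o z by omega)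
        have a6 := geo_adj hT (show i < G.dist o' z' by omega)
        have hne : geo G o z (i + 1) ≠ o := by intro e; rw [e] at a1; simp at a1
        rw [fs _ hne, par_eq hT a5 (by omega), ih (by omega)]
        have := (he (geo G o z i) (geo G o' z' i) (by omega)).2
        rw [a2.1] at this
        exact this ((mem_ch_par hT).2 ⟨a5, by omega⟩) ((mem_ch_par hT).2 ⟨a6, by omega⟩)
    have h := this _ le_rfl
    rw [geo_dist hT, hzz, geo_dist hT] at h
    exact h

end auto

end Crest.Agent.H5.KS
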