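import Mathlib
import Crest.Agent.H5.KS.Geo
import Crest.Agent.H5.KS.Ana

/-!
Finite-volume Ising measures with external fields on a tree.
-/

set_option autoImplicit false

namespace Crest.Agent.H5.KS

open SimpleGraph Real

variable {V : Type*}

open Classical in
/-- spin read from the set of plus sites -/
noncomputable def sg (A : Finset V) (v : V) : ℝ := if v ∈ A then 1 else -1

lemma sg_cases (A : Finset V) (v : V) : sg A v = 1 ∨ sg A v = -1 := by
  unfold sg; split_ifs <;> simp

lemma sg_mul_self (A : Finset V) (v : V) : sg A v * sg A v = 1 := by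
  rcases sg_cases A v with h | h <;> simp [h]

lemma abs_sg (A : Finset V) (v : V) : |sg A v| = 1 := by
  rcases sg_cases A v with h | h <;> simp [h]

lemma exp_mul_sign (a : ℝ) {s : ℝ} (hs : s = 1 ∨ s = -1) :
    exp (a * s) = cosh a * (1 + tanh a * s) := by
  have := cosh_pos a
  rcases hs with rfl | rfl
  · rw [tanh_eq_sinh_div_cosh, mul_one, ← cosh_add_sinh]; field_simp
  · rw [tanh_eq_sinh_div_cosh, mul_neg_one, ← cosh_sub_sinh]; field_simp; ring

open Classical in
/-- energy -/
noncomputable def en (G : SimpleGraph V) (β : ℝ) (Λ : Finset V) (x : V → ℝ) (A : Finset V) : ℝ :=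
  β / 2 * (∑ u ∈ Λ, ∑ v ∈ Λ, if G.Adj u v then sg A u * sg A v else 0) + ∑ v ∈ Λ, x v * sg A v

/-- unnormalised expectation -/
noncomputable def zs (G : SimpleGraph V) (β : ℝ) (Λ : Finset V) (x : V → ℝ)
    (f : Finset V → ℝ) : ℝ := ∑ A ∈ Λ.powerset, exp (en G β Λ x A) * f A

/-- Gibbs probability -/
noncomputable def pr (G : SimpleGraph V) (β : ℝ) (Λ : Finset V) (x : V → ℝ) (A : Finset V) : ℝ :=
  exp (en G β Λ x A) / zs G β Λ x fun _ => 1

/-- Gibbs expectation -/
noncomputable def ex (G : SimpleGraph V) (β : ℝ) (Λ : Finset V) (x : V → ℝ)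
    (f : Finset V → ℝ) : ℝ := zs G β Λ x f / zs G β Λ x fun _ => 1

/-- magnetisation -/
noncomputable def mg (G : SimpleGraph V) (β : ℝ) (Λ : Finset V) (x : V → ℝ) (v : V) : ℝ :=
  ex G β Λ x fun A => sg A v

/-- covariance -/
noncomputable def cv (G : SimpleGraph V) (β : ℝ) (Λ : Finset V) (x : V → ℝ) (v w : V) : ℝ :=
  ex G β Λ x (fun A => sg A v * sg A w) - mg G β Λ x v * mg G β Λ x w

open Classical in
/-- cavity magnetisation -/
noncomputable def cav (G : SimpleGraph V) (β : ℝ) (Λ : Finset V) (x : V → ℝ) (u v : V) : ℝ :=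
  mg G β (Λ.filter (· ∈ br G u v)) x v

variable {G : SimpleGraph V} {β : ℝ} {Λ : Finset V} {x : V → ℝ}

lemma zs_pos : 0 < zs G β Λ x fun _ => 1 :=
  Finset.sum_pos (fun _ _ => mul_pos (exp_pos _) one_pos) ⟨∅, Finset.empty_mem_powerset _⟩

lemma pr_pos (A : Finset V) : 0 < pr G β Λ x A := div_pos (exp_pos _) zs_pos

lemma ex_eq_sum (f : Finset V → ℝ) : ex G β Λ x f = ∑ A ∈ Λ.powerset, pr G β Λ x A * f A := by
  unfold ex pr
  rw [zs, Finset.sum_div]
  exact Finset.sum_congr rfl fun A _ => by ring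

lemma ex_one : ex G β Λ x (fun _ => 1) = 1 := div_self zs_pos.ne'

lemma sum_pr : ∑ A ∈ Λ.powerset, pr G β Λ x A = 1 := by
  rw [← ex_one (G := G) (β := β) (Λ := Λ) (x := x), ex_eq_sum]; simp

lemma pr_le_one {A : Finset V} (hA : A ∈ Λ.powerset) : pr G β Λ x A ≤ 1 := by
  rw [← sum_pr (G := G) (β := β) (Λ := Λ) (x := x)]
  exact Finset.single_le_sum (f := pr G β Λ x) (fun B _ => (pr_pos B).le) hA

lemma abs_ex_le {f : Finset V → ℝ} {C : ℝ} (h : ∀ A, |f A| ≤ C) : |ex G β Λ x f| ≤ C := by
  rw [ex_eq_sum]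
  refine (Finset.abs_sum_le_sum_abs _ _).trans ?_
  calc ∑ A ∈ Λ.powerset, |pr G β Λ x A * f A| ≤ ∑ A ∈ Λ.powerset, pr G β Λ x A * C :=
        Finset.sum_le_sum fun A _ => by
          rw [abs_mul, abs_of_pos (pr_pos A)]
          exact mul_le_mul_of_nonneg_left (h A) (pr_pos A).le
    _ = C := by rw [← Finset.sum_mul, sum_pr, one_mul]

lemma abs_mg_le (v : V) : |mg G β Λ x v| ≤ 1 := abs_ex_le fun A => (abs_sg A v).le

lemma abs_cav_le (u v : V) : |cav G β Λ x u v| ≤ 1 := abs_mg_le v

lemma cv_self (v : V) : cv G β Λ x v v = 1 - mg G β Λ x v ^ 2 := by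
  simp only [cv, sg_mul_self, ex_one, sq]

lemma en_congr {x' : V → ℝ} (h : ∀ v ∈ Λ, x v = x' v) : en G β Λ x = en G β Λ x' := by
  funext A
  unfold en
  rw [Finset.sum_congr rfl fun v hv => show x v * sg A v = x' v * sg A v by rw [h v hv]]

lemma mg_congr {x' : V → ℝ} (h : ∀ v ∈ Λ, x v = x' v) (v : V) :
    mg G β Λ x v = mg G β Λ x' v := by
  simp only [mg, ex, zs, en_congr h]

section update

variable [DecidableEq V]

lemma en_add_single {w : V} (hw : w ∈ Λ) (a : ℝ) (A : Finset V) :
    en G β Λ (x + Pi.single w a) A = en G β Λ x A + a * sg A w := by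
  unfold en
  simp only [Pi.add_apply, add_mul, Finset.sum_add_distrib]
  rw [Finset.sum_eq_single w (f := fun v => Pi.single (M := fun _ => ℝ) w a v * sg A v)
    (fun b _ hb => by simp [hb]) (fun h => absurd hw h)]
  simp [add_assoc]

lemma zs_add_single {w : V} (hw : w ∈ Λ) (a : ℝ) (f : Finset V → ℝ) :
    zs G β Λ (x + Pi.single w a) f =
      cosh a * (zs G β Λ x f + tanh a * zs G β Λ x fun A => f A * sg A w) := by
  simp only [zs, en_add_single hw, exp_add, exp_mul_sign a (sg_cases _ w), Finset.mul_sum,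
    ← Finset.sum_add_distrib]
  exact Finset.sum_congr rfl fun A _ => by ring

lemma zs_one_add_single {w : V} (hw : w ∈ Λ) (a : ℝ) :
    (zs G β Λ (x + Pi.single w a) fun _ => 1) =
      cosh a * (zs G β Λ x fun _ => 1) * (1 + tanh a * mg G β Λ x w) := by
  rw [zs_add_single hw, mg, ex]
  have := zs_pos (G := G) (β := β) (Λ := Λ) (x := x)
  simp only [one_mul]
  field_simp

lemma pr_add_single {w : V} (hw : w ∈ Λ) (a : ℝ) (A : Finset V) :
    pr G β Λ (x + Pi.single w a) A =
      pr G β Λ x A * ((1 + sg A w * tanh a) / (1 + mg G β Λ x w * tanh a)) := by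
  unfold pr
  rw [zs_one_add_single hw, en_add_single hw, exp_add, exp_mul_sign a (sg_cases _ w)]
  have h1 := zs_pos (G := G) (β := β) (Λ := Λ) (x := x)
  have h2 := one_add_mul_pos (abs_tanh_lt_one a) (abs_mg_le (G := G) (β := β) (Λ := Λ) (x := x) w)
  have h3 := cosh_pos a
  rw [mul_comm (mg G β Λ x w), mul_comm (sg A w)]
  field_simp

lemma mg_add_single {w : V} (hw : w ∈ Λ) (a : ℝ) (v : V) :
    mg G β Λ (x + Pi.single w a) v =
      mg G β Λ x v + cv G β Λ x v w * (tanh a / (1 + mg G β Λ x w * tanh a)) := by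
  have h1 := zs_pos (G := G) (β := β) (Λ := Λ) (x := x)
  have h2 := one_add_mul_pos (abs_tanh_lt_one a) (abs_mg_le (G := G) (β := β) (Λ := Λ) (x := x) w)
  have h3 := cosh_pos a
  conv_lhs => rw [mg, ex, zs_one_add_single hw, zs_add_single hw]
  have e1 : (zs G β Λ x fun A => sg A v) = mg G β Λ x v * zs G β Λ x fun _ => 1 := by
    rw [mg, ex, div_mul_cancel₀ _ h1.ne']
  have e2 : (zs G β Λ x fun A => sg A v * sg A w) =
      (cv G β Λ x v w + mg G β Λ x v * mg G β Λ x w) * zs G β Λ x fun _ => 1 := by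
    rw [cv, sub_add_cancel, ex, div_mul_cancel₀ _ h1.ne']
  rw [e1, e2, mul_comm (mg G β Λ x w) (tanh a)]
  field_simp
  ring

lemma sum_powerset_union {s t : Finset V} (h : Disjoint s t) (F : Finset V → ℝ) :
    ∑ A ∈ (s ∪ t).powerset, F A = ∑ A ∈ s.powerset, ∑ B ∈ t.powerset, F (A ∪ B) := by
  induction t using Finset.induction_on generalizing F with
  | empty => simp
  | insert a t ha ih =>
    have h1 : a ∉ s := fun h' => Finset.disjoint_left.1 h h' (Finset.mem_insert_self _ _)
    have h2 : Disjoint s t := h.mono_right (Finset.subset_insert _ _)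
    rw [Finset.union_insert, Finset.sum_powerset_insert (by simp [h1, ha]), ih h2, ih h2,
      ← Finset.sum_add_distrib]
    refine Finset.sum_congr rfl fun A _ => ?_
    rw [Finset.sum_powerset_insert ha]
    simp only [Finset.union_insert]

lemma sg_union_left {A B : Finset V} {z : V} (h : z ∉ B) : sg (A ∪ B) z = sg A z := by
  simp [sg, h]

lemma sg_union_right {A B : Finset V} {z : V} (h : z ∉ A) : sg (A ∪ B) z = sg B z := by
  simp [sg, h]

end update

lemma mg_zero {v : V} (hv : v ∈ Λ) : mg G β Λ 0 v = 0 := by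
  classical
  unfold mg ex
  have : (zs G β Λ 0 fun A => sg A v) = 0 := by
    unfold zs
    have hs : ∀ A : Finset V, ∀ z ∈ Λ, sg (Λ \ A) z = -sg A z := by
      intro A z hz
      by_cases h : z ∈ A <;> simp [sg, h, hz]
    refine Finset.sum_involution (fun A _ => Λ \ A) ?_ ?_ ?_ ?_
    · intro A _
      have : en G β Λ 0 (Λ \ A) = en G β Λ 0 A := by
        unfold en
        simp only [Pi.zero_apply, zero_mul]
        congr 2
        refine Finset.sum_congr rfl fun a ha => Finset.sum_congr rfl fun b hb => ?_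
        rw [hs A a ha, hs A b hb]; simp
      simp only [this, hs A v hv]; ring
    · intro A _ _ h
      have := hs A v hv
      rw [h] at this
      rcases sg_cases A v with h | h <;> rw [h] at this <;> norm_num at this
    · intro A _; simp
    · intro A hA
      exact Finset.sdiff_sdiff_eq_self (Finset.mem_powerset.1 hA)
  rw [this, zero_div]

section cut

open Classical in
lemma en_cut (hT : G.IsTree) {u v : V} (h : G.Adj u v) {A B : Finset V}
    (hA : A ⊆ Λ.filter (· ∈ br G v u)) (hB : B ⊆ Λ.filter (· ∈ br G u v)) :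
    en G β Λ x (A ∪ B) = en G β (Λ.filter (· ∈ br G v u)) x A +
      en G β (Λ.filter (· ∈ br G u v)) x B +
        (if u ∈ Λ ∧ v ∈ Λ then β else 0) * (sg A u * sg B v) := by
  set L1 := Λ.filter (· ∈ br G v u) with hL1
  set L2 := Λ.filter (· ∈ br G u v) with hL2
  have hsplit : ∀ F : V → ℝ, ∑ z ∈ Λ, F z = ∑ z ∈ L1, F z + ∑ z ∈ L2, F z := by
    intro F
    rw [← Finset.sum_filter_add_sum_filter_not Λ (· ∈ br G u v), add_comm]
    congr 2
    exact Finset.filter_congr fun z _ => not_mem_br_iff' hT h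
  have s1 : ∀ z ∈ L1, sg (A ∪ B) z = sg A z := fun z hz => sg_union_left fun hz' =>
    (not_mem_br_iff' hT h).2 (Finset.mem_filter.1 hz).2 (Finset.mem_filter.1 (hB hz')).2
  have s2 : ∀ z ∈ L2, sg (A ∪ B) z = sg B z := fun z hz => sg_union_right fun hz' =>
    (not_mem_br_iff' hT h).2 (Finset.mem_filter.1 (hA hz')).2 (Finset.mem_filter.1 hz).2
  have hu : u ∈ L1 ↔ u ∈ Λ := by simp [hL1, self_mem_br]
  have hv : v ∈ L2 ↔ v ∈ Λ := by simp [hL2, self_mem_br]
  have c1 : ∑ a ∈ L1, ∑ b ∈ L2, (if G.Adj a b then sg (A ∪ B) a * sg (A ∪ B) b else 0) =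
      if u ∈ Λ ∧ v ∈ Λ then sg A u * sg B v else 0 := by
    have : ∀ a ∈ L1, ∀ b ∈ L2, (if G.Adj a b then sg (A ∪ B) a * sg (A ∪ B) b else 0) =
        if a = u then (if b = v then sg A u * sg B v else 0) else 0 := by
      intro a ha b hb
      by_cases hab : G.Adj a b
      · obtain ⟨rfl, rfl⟩ := br_cut hT h hab.symm (Finset.mem_filter.1 hb).2
          ((not_mem_br_iff' hT h).2 (Finset.mem_filter.1 ha).2)
        simp [hab, s1 _ ha, s2 _ hb]
      · rw [if_neg hab]
        split_ifs with h1 h2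
        · subst h1 h2; exact absurd h hab
        · rfl
        · rfl
    rw [Finset.sum_congr rfl fun a ha => Finset.sum_congr rfl fun b hb => this a ha b hb]
    simp only [Finset.sum_ite_irrel, Finset.sum_const_zero, Finset.sum_ite_eq', hu, hv]
    split_ifs <;> tauto
  have c2 : ∑ a ∈ L2, ∑ b ∈ L1, (if G.Adj a b then sg (A ∪ B) a * sg (A ∪ B) b else 0) =
      if u ∈ Λ ∧ v ∈ Λ then sg A u * sg B v else 0 := by
    rw [Finset.sum_comm, ← c1]
    refine Finset.sum_congr rfl fun a _ => Finset.sum_congr rfl fun b _ => ?_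
    simp only [G.adj_comm, mul_comm]
  have c3 : ∑ a ∈ L1, ∑ b ∈ L1, (if G.Adj a b then sg (A ∪ B) a * sg (A ∪ B) b else 0) =
      ∑ a ∈ L1, ∑ b ∈ L1, (if G.Adj a b then sg A a * sg A b else 0) :=
    Finset.sum_congr rfl fun a ha => Finset.sum_congr rfl fun b hb => by rw [s1 a ha, s1 b hb]
  have c4 : ∑ a ∈ L2, ∑ b ∈ L2, (if G.Adj a b then sg (A ∪ B) a * sg (A ∪ B) b else 0) =
      ∑ a ∈ L2, ∑ b ∈ L2, (if G.Adj a b then sg B a * sg B b else 0) :=
    Finset.sum_congr rfl fun a ha => Finset.sum_congr rfl fun b hb => by rw [s2 a ha, s2 b hb]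
  have c5 : ∑ a ∈ L1, x a * sg (A ∪ B) a = ∑ a ∈ L1, x a * sg A a :=
    Finset.sum_congr rfl fun a ha => by rw [s1 a ha]
  have c6 : ∑ a ∈ L2, x a * sg (A ∪ B) a = ∑ a ∈ L2, x a * sg B a :=
    Finset.sum_congr rfl fun a ha => by rw [s2 a ha]
  unfold en
  simp only [hsplit, Finset.sum_add_distrib]
  rw [c1, c2, c3, c4, c5, c6]
  split_ifs <;> ring

open Classical in
lemma zs_cut (hT : G.IsTree) {u v : V} (h : G.Adj u v) {f g : Finset V → ℝ}
    (hf : ∀ A B : Finset V, (∀ z ∈ B, z ∈ br G u v) → f (A ∪ B) = f A)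
    (hg : ∀ A B : Finset V, (∀ z ∈ A, z ∈ br G v u) → g (A ∪ B) = g B) :
    zs G β Λ x (fun A => f A * g A) = cosh (if u ∈ Λ ∧ v ∈ Λ then β else 0) *
      (zs G β (Λ.filter (· ∈ br G v u)) x f * zs G β (Λ.filter (· ∈ br G u v)) x g +
        tanh (if u ∈ Λ ∧ v ∈ Λ then β else 0) *
          (zs G β (Λ.filter (· ∈ br G v u)) x (fun A => f A * sg A u) *
            zs G β (Λ.filter (· ∈ br G u v)) x (fun A => g A * sg A v))) := by
  have hU : Λ.filter (· ∈ br G v u) ∪ Λ.filter (· ∈ br G u v) = Λ := by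
    rw [← Finset.filter_or]
    refine Finset.filter_true_of_mem fun z _ => ?_
    rw [← not_mem_br_iff' hT h]; tauto
  have hD : Disjoint (Λ.filter (· ∈ br G v u)) (Λ.filter (· ∈ br G u v)) :=
    Finset.disjoint_left.2 fun z h1 h2 =>
      (not_mem_br_iff' hT h).2 (Finset.mem_filter.1 h1).2 (Finset.mem_filter.1 h2).2
  have e : zs G β Λ x (fun A => f A * g A) =
      ∑ A ∈ (Λ.filter (· ∈ br G v u) ∪ Λ.filter (· ∈ br G u v)).powerset,
        exp (en G β Λ x A) * (f A * g A) := by rw [hU]; rfl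
  rw [e, sum_powerset_union hD]
  simp only [zs]
  rw [Finset.sum_mul_sum, Finset.sum_mul_sum]
  simp only [Finset.mul_sum, ← Finset.sum_add_distrib]
  refine Finset.sum_congr rfl fun A hA => Finset.sum_congr rfl fun B hB => ?_
  rw [Finset.mem_powerset] at hA hB
  rw [en_cut hT h hA hB, exp_add, exp_add, exp_mul_sign,
    hf A B fun z hz => (Finset.mem_filter.1 (hB hz)).2,
    hg A B fun z hz => (Finset.mem_filter.1 (hA hz)).2]
  · ring
  · rcases sg_cases A u with h1 | h1 <;> rcases sg_cases B v with h2 | h2 <;> simp [h1, h2]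

open Classical in
lemma ex_cut (hT : G.IsTree) {u v : V} (h : G.Adj u v) {f g : Finset V → ℝ}
    (hf : ∀ A B : Finset V, (∀ z ∈ B, z ∈ br G u v) → f (A ∪ B) = f A)
    (hg : ∀ A B : Finset V, (∀ z ∈ A, z ∈ br G v u) → g (A ∪ B) = g B) :
    ex G β Λ x (fun A => f A * g A) *
      (1 + tanh (if u ∈ Λ ∧ v ∈ Λ then β else 0) * cav G β Λ x u v * cav G β Λ x v u) =
      ex G β (Λ.filter (· ∈ br G v u)) x f * ex G β (Λ.filter (· ∈ br G u v)) x g +
        tanh (if u ∈ Λ ∧ v ∈ Λ then β else 0) *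
          (ex G β (Λ.filter (· ∈ br G v u)) x (fun A => f A * sg A u) *
            ex G β (Λ.filter (· ∈ br G u v)) x (fun A => g A * sg A v)) := by
  have h1 := zs_cut (β := β) (Λ := Λ) (x := x) hT h (f := fun _ => 1) (g := fun _ => 1)
    (fun _ _ _ => rfl) (fun _ _ _ => rfl)
  simp only [one_mul] at h1
  have p0 := zs_pos (G := G) (β := β) (Λ := Λ) (x := x)
  have p1 := zs_pos (G := G) (β := β) (Λ := Λ.filter (· ∈ br G v u)) (x := x)
  have p2 := zs_pos (G := G) (β := β) (Λ := Λ.filter (· ∈ br G u v)) (x := x)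
  simp only [cav, mg, ex]
  rw [zs_cut hT h hf hg, div_mul_eq_mul_div, div_eq_iff p0.ne', h1]
  field_simp

lemma dep_out (hT : G.IsTree) {u v o : V} [DecidableEq V] (h : G.Adj u v) (ho : o ∈ br G v u)
    (A B : Finset V) (hB : ∀ z ∈ B, z ∈ br G u v) : sg (A ∪ B) o = sg A o :=
  sg_union_left fun hz => (not_mem_br_iff' hT h).2 ho (hB o hz)

lemma dep_in (hT : G.IsTree) {u v o : V} [DecidableEq V] (h : G.Adj u v) (ho : o ∈ br G u v)
    (A B : Finset V) (hA : ∀ z ∈ A, z ∈ br G v u) : sg (A ∪ B) o = sg B o :=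
  sg_union_right fun hz => (not_mem_br_iff' hT h).2 (hA o hz) ho

open Classical in
lemma mg_edge_aux (hT : G.IsTree) {u v : V} (h : G.Adj u v) :
    mg G β Λ x v *
      (1 + tanh (if u ∈ Λ ∧ v ∈ Λ then β else 0) * cav G β Λ x u v * cav G β Λ x v u) =
      cav G β Λ x u v + tanh (if u ∈ Λ ∧ v ∈ Λ then β else 0) * cav G β Λ x v u := by
  have := ex_cut (β := β) (Λ := Λ) (x := x) hT h (f := fun _ => 1) (g := fun A => sg A v)
    (fun _ _ _ => rfl) (dep_in hT h (self_mem_br _ _ _))
  simp only [one_mul, ex_one, sg_mul_self, mul_one] at this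
  exact this

lemma mg_edge (hT : G.IsTree) {u v : V} (h : G.Adj u v) (hu : u ∈ Λ) (hv : v ∈ Λ) :
    mg G β Λ x v * (1 + tanh β * cav G β Λ x u v * cav G β Λ x v u) =
      cav G β Λ x u v + tanh β * cav G β Λ x v u := by
  simpa [hu, hv] using mg_edge_aux (β := β) (Λ := Λ) (x := x) hT h

lemma cv_alg {a b μ ν J D E : ℝ} (hD : D ≠ 0) (hE : E ≠ 0) (eD : D = 1 + J * (μ * ν))
    (eE : E = 1 - J ^ 2 * μ ^ 2) :
    (a * μ + J * b) / D - (a + J * (b * μ)) / D * ((μ + J * ν) / D) =
      J * ((1 - μ ^ 2) / E) * ((b + J * (a * μ)) / D - (a + J * (b * μ)) / D * ((ν + J * μ) / D)) := by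
  field_simp
  subst eD eE
  ring

open Classical in
lemma cv_step_aux (hT : G.IsTree) {u v o : V} (h : G.Adj u v) (ho : o ∈ br G v u) :
    cv G β Λ x o v = tanh (if u ∈ Λ ∧ v ∈ Λ then β else 0) *
      a0 (tanh (if u ∈ Λ ∧ v ∈ Λ then β else 0)) (cav G β Λ x u v) * cv G β Λ x o u := by
  have a1 := ex_cut (β := β) (Λ := Λ) (x := x) hT h (f := fun A => sg A o) (g := fun A => sg A v)
    (dep_out hT h ho) (dep_in hT h (self_mem_br _ _ _))
  have a2 := ex_cut (β := β) (Λ := Λ) (x := x) hT h (f := fun A => sg A o) (g := fun _ => 1)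
    (dep_out hT h ho) (fun _ _ _ => rfl)
  have a3 := ex_cut (β := β) (Λ := Λ) (x := x) hT h (f := fun A => sg A o * sg A u)
    (g := fun _ => 1) (fun A B hB => by
      rw [dep_out hT h ho A B hB, dep_out hT h (self_mem_br _ _ _) A B hB]) (fun _ _ _ => rfl)
  have a4 := ex_cut (β := β) (Λ := Λ) (x := x) hT h (f := fun A => sg A u) (g := fun _ => 1)
    (dep_out hT h (self_mem_br _ _ _)) (fun _ _ _ => rfl)
  have a5 := mg_edge_aux (β := β) (Λ := Λ) (x := x) hT h
  simp only [one_mul, ex_one, sg_mul_self, mul_one, mul_assoc] at a1 a2 a3 a4 a5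
  set J := tanh (if u ∈ Λ ∧ v ∈ Λ then β else 0)
  have hJ : |J| < 1 := abs_tanh_lt_one _
  have b1 := abs_cav_le (G := G) (β := β) (Λ := Λ) (x := x) u v
  have b2 := abs_cav_le (G := G) (β := β) (Λ := Λ) (x := x) v u
  have hD : 0 < 1 + J * (cav G β Λ x u v * cav G β Λ x v u) := one_add_mul_pos hJ (by
    rw [abs_mul]; nlinarith [abs_nonneg (cav G β Λ x u v), abs_nonneg (cav G β Λ x v u)])
  have hE : 0 < 1 - J ^ 2 * cav G β Λ x u v ^ 2 := by
    have := sq_le_one_of_abs b1
    have : J ^ 2 < 1 := by rw [← sq_abs]; nlinarith [abs_nonneg J]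
    nlinarith [sq_nonneg J, sq_nonneg (cav G β Λ x u v)]
  rw [← eq_div_iff hD.ne'] at a1 a2 a3 a4 a5
  unfold cv a0
  rw [a1, a3, a5]
  unfold mg
  rw [a2, a4]
  exact cv_alg hD.ne' hE.ne' rfl rfl

lemma cv_step (hT : G.IsTree) {u v o : V} (h : G.Adj u v) (ho : o ∈ br G v u) (hu : u ∈ Λ)
    (hv : v ∈ Λ) :
    cv G β Λ x o v = tanh β * a0 (tanh β) (cav G β Λ x u v) * cv G β Λ x o u := by
  simpa [hu, hv] using cv_step_aux (β := β) (Λ := Λ) (x := x) hT h ho

lemma geo_mem_br (hT : G.IsTree) {o w : V} {i : ℕ} (h : i < G.dist o w) :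
    o ∈ br G (geo G o w (i + 1)) (geo G o w i) := by
  have h1 := geo_spec hT h.le
  have h2 := geo_spec hT (show i + 1 ≤ G.dist o w by omega)
  simp only [br, Set.mem_ofPred_eq]
  rw [dist_comm, dist_comm (v := o)]; omega

lemma abs_cv_le (hT : G.IsTree) (h0 : 0 ≤ tanh β) (h1 : tanh β ^ 2 ≤ 1 / 2) (o w : V) :
    |cv G β Λ x o w| ≤ tanh β ^ G.dist o w := by
  classical
  have : ∀ i ≤ G.dist o w, |cv G β Λ x o (geo G o w i)| ≤ tanh β ^ i := by
    intro i
    induction i with
    | zero =>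
      intro _
      rw [geo_zero hT, cv_self, pow_zero, abs_le]
      have := sq_le_one_of_abs (abs_mg_le (G := G) (β := β) (Λ := Λ) (x := x) o)
      constructor <;> nlinarith [sq_nonneg (mg G β Λ x o)]
    | succ i ih =>
      intro hi
      rw [cv_step_aux hT (geo_adj hT hi) (geo_mem_br hT hi)]
      split_ifs
      · have b1 := abs_cav_le (G := G) (β := β) (Λ := Λ) (x := x) (geo G o w i) (geo G o w (i + 1))
        rw [abs_mul, abs_mul, abs_of_nonneg h0, abs_of_nonneg (a0_nonneg h1 b1), pow_succ']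
        exact mul_le_mul (mul_le_of_le_one_right h0 (a0_le_one h1 b1)) (ih (by omega))
          (abs_nonneg _) h0
      · simp; positivity
  simpa [geo_dist hT] using this _ le_rfl

lemma cv_prod (hT : G.IsTree) (o w : V) (hΛ : ∀ i ≤ G.dist o w, geo G o w i ∈ Λ) :
    cv G β Λ x o w = (1 - mg G β Λ x o ^ 2) * ∏ i ∈ Finset.range (G.dist o w),
      (tanh β * a0 (tanh β) (cav G β Λ x (geo G o w i) (geo G o w (i + 1)))) := by
  have : ∀ j ≤ G.dist o w, cv G β Λ x o (geo G o w j) = (1 - mg G β Λ x o ^ 2) *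
      ∏ i ∈ Finset.range j,
        (tanh β * a0 (tanh β) (cav G β Λ x (geo G o w i) (geo G o w (i + 1)))) := by
    intro j
    induction j with
    | zero => intro _; simp [geo_zero hT, cv_self]
    | succ j ih =>
      intro hj
      rw [cv_step hT (geo_adj hT hj) (geo_mem_br hT hj) (hΛ _ (by omega)) (hΛ _ hj),
        ih (by omega), Finset.prod_range_succ]
      ring
  simpa [geo_dist hT] using this _ le_rfl

end cut

section bp

variable [G.LocallyFinite]

/-- belief-propagation fields -/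
noncomputable def bp (G : SimpleGraph V) [G.LocallyFinite] (θ : ℝ) (x : V → ℝ) :
    ℕ → V → V → ℝ
  | 0, _, v => x v
  | n + 1, u, v => x v + ∑ c ∈ ch G u v, msg θ (bp G θ x n v c)

omit [G.LocallyFinite] in
lemma mg_singleton (v : V) : mg G β {v} x v = tanh (x v) := by
  classical
  have e : mg G β {v} x v = mg G β {v} (0 + Pi.single v (x v)) v :=
    mg_congr (fun z hz => by rw [Finset.mem_singleton.1 hz]; simp) v
  rw [e, mg_add_single (Finset.mem_singleton_self v), cv_self,
    mg_zero (Finset.mem_singleton_self v)]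
  simp

lemma mg_sub (hT : G.IsTree) (h0 : 0 ≤ tanh β) (n : ℕ) : ∀ {u v : V}, Good G u v →
    mg G β (sub G n u v) x v = tanh (bp G (tanh β) x n u v) := by
  classical
  induction n with
  | zero =>
    intro u v _
    have : sub G 0 u v = {v} := by simp [sub, lev]
    rw [this, mg_singleton]; rfl
  | succ n ih =>
    intro u v huv
    have key : ∀ C : Finset V, C ⊆ ch G u v →
        mg G β (insert v (C.biUnion fun c => sub G n v c)) x v =
          tanh (x v + ∑ c ∈ C, msg (tanh β) (bp G (tanh β) x n v c)) := by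
      intro C
      induction C using Finset.induction_on with
      | empty => intro _; simp [mg_singleton]
      | insert c C hc ihC =>
        intro hC
        have hadj := (mem_ch.1 (hC (Finset.mem_insert_self _ _))).2
        have hC' : C ⊆ ch G u v := (Finset.subset_insert _ _).trans hC
        set L := insert v ((insert c C).biUnion fun c => sub G n v c) with hL
        have hv : v ∈ L := Finset.mem_insert_self _ _
        have hcL : c ∈ L := Finset.mem_insert_of_mem (Finset.mem_biUnion.2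
          ⟨c, Finset.mem_insert_self _ _, (mem_sub hT (Or.inr hadj)).2 ⟨self_mem_br _ _ _, by simp⟩⟩)
        have e1 : cav G β L x v c = mg G β (sub G n v c) x c := by
          unfold cav
          congr 1
          ext z
          simp only [hL, Finset.mem_filter, Finset.mem_insert, Finset.mem_biUnion]
          constructor
          · rintro ⟨rfl | ⟨c', hc', hz⟩, hb⟩
            · exact absurd hb (not_mem_br hT hadj)
            · have h1 := (mem_ch.1 (hC (Finset.mem_insert.2 hc'))).2
              rwa [br_disjoint hT hadj h1 hb ((mem_sub hT (Or.inr h1)).1 hz).1]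
          · intro hz
            exact ⟨Or.inr ⟨c, Or.inl rfl, hz⟩, ((mem_sub hT (Or.inr hadj)).1 hz).1⟩
        have e2 : cav G β L x c v = mg G β (insert v (C.biUnion fun c => sub G n v c)) x v := by
          unfold cav
          congr 1
          ext z
          simp only [hL, Finset.mem_filter, Finset.mem_insert, Finset.mem_biUnion,
            ← not_mem_br_iff' hT hadj]
          constructor
          · rintro ⟨rfl | ⟨c', rfl | hc', hz⟩, hb⟩
            · exact Or.inl rfl
            · exact absurd ((mem_sub hT (Or.inr hadj)).1 hz).1 hb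
            · exact Or.inr ⟨c', hc', hz⟩
          · rintro (rfl | ⟨c', hc', hz⟩)
            · exact ⟨Or.inl rfl, not_mem_br hT hadj⟩
            · refine ⟨Or.inr ⟨c', Or.inr hc', hz⟩, fun hb => hc ?_⟩
              have h1 := (mem_ch.1 (hC' hc')).2
              rwa [br_disjoint hT hadj h1 hb ((mem_sub hT (Or.inr h1)).1 hz).1]
        have e3 := mg_edge (β := β) (x := x) hT hadj.symm hcL hv
        rw [e1, e2, ih (Or.inr hadj), ihC hC'] at e3
        rw [Finset.sum_insert hc, add_comm (msg _ _), ← add_assoc, tanh_add',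
          tanh_msg h0 (tanh_lt_one β).le, eq_div_iff (one_add_mul_pos (abs_tanh_lt_one _)
            (abs_mul_tanh_lt h0 (tanh_lt_one β).le _).le).ne', ← e3]
        ring
    have e : sub G (n + 1) u v = insert v ((ch G u v).biUnion fun c => sub G n v c) := by
      ext z
      simp only [Finset.mem_insert, Finset.mem_biUnion, mem_sub hT huv]
      constructor
      · rintro ⟨h1, h2⟩
        by_cases hz : z = v
        · exact Or.inl hz
        · obtain ⟨c, hc, hz'⟩ := br_decomp hT huv h1 hz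
          have hadj := (mem_ch.1 hc).2
          have := (mem_br_iff hT hadj).1 hz'
          exact Or.inr ⟨c, hc, (mem_sub hT (Or.inr hadj)).2 ⟨hz', by omega⟩⟩
      · rintro (rfl | ⟨c, hc, hz⟩)
        · exact ⟨self_mem_br _ _ _, by simp⟩
        · have hadj := (mem_ch.1 hc).2
          rw [mem_sub hT (Or.inr hadj)] at hz
          have := (mem_br_iff hT hadj).1 hz.1
          exact ⟨br_ch_subset hT huv hc hz.1, by omega⟩
    rw [e, key _ (Finset.Subset.refl _)]
    rfl

lemma cav_ball (hT : G.IsTree) (h0 : 0 ≤ tanh β) {o p c : V} {R n : ℕ} (h : G.Adj p c)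
    (h1 : G.dist o p + 1 = G.dist o c) (h2 : G.dist o c + n = R) :
    cav G β (sub G R o o) x p c = tanh (bp G (tanh β) x n p c) := by
  classical
  rw [← mg_sub hT h0 n (Or.inr h)]
  unfold cav
  congr 1
  ext z
  simp only [Finset.mem_filter, mem_ball hT, mem_sub hT (Or.inr h)]
  have ho : o ∉ br G p c := by
    rw [not_mem_br_iff hT h, dist_comm (u := c), dist_comm (u := p)]; omega
  constructor
  · rintro ⟨h3, h4⟩
    have := br_cross hT h ho _ z h4 rfl
    exact ⟨h4, by omega⟩
  · rintro ⟨h3, h4⟩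
    have := br_cross hT h ho _ z h3 rfl
    exact ⟨by omega, h3⟩

lemma abs_bp_le {θ H : ℝ} {d : ℕ} (hreg : G.IsRegularOfDegree d) (h0 : 0 ≤ θ)
    (h1 : θ ^ 2 ≤ 1 / 2) {n : ℕ} {u v : V} (hx : |x v| ≤ H) :
    |bp G θ x n u v| ≤ H + 3 * d := by
  classical
  cases n with
  | zero => simp only [bp]; linarith [show (0 : ℝ) ≤ 3 * d by positivity]
  | succ n =>
    simp only [bp]
    refine (abs_add_le _ _).trans (add_le_add hx ((Finset.abs_sum_le_sum_abs _ _).trans ?_))
    refine (Finset.sum_le_card_nsmul _ _ 3 fun c _ => abs_msg_le_three h0 h1 _).trans ?_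
    have : (ch G u v).card ≤ d := by
      unfold ch
      convert Finset.card_erase_le
      rw [card_neighborFinset_eq_degree, hreg v]
    rw [nsmul_eq_mul, mul_comm]
    exact mul_le_mul_of_nonneg_left (by exact_mod_cast this) (by norm_num)

end bp

section natural

lemma sg_map (e : V ↪ V) (A : Finset V) (v : V) : sg (A.map e) (e v) = sg A v := by
  by_cases h : v ∈ A
  · rw [sg, sg, if_pos h, if_pos ((Finset.mem_map' e).2 h)]
  · rw [sg, sg, if_neg h, if_neg fun h' => h ((Finset.mem_map' e).1 h')]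

lemma zs_map (g : G ≃g G) (f : Finset V → ℝ) :
    zs G β (Λ.map g.toEquiv.toEmbedding) x f =
      zs G β Λ (x ∘ g) fun A => f (A.map g.toEquiv.toEmbedding) := by
  unfold zs
  symm
  refine Finset.sum_bij (fun A _ => A.map g.toEquiv.toEmbedding) ?_ ?_ ?_ ?_
  · intro A hA
    exact Finset.mem_powerset.2 (Finset.map_subset_map.2 (Finset.mem_powerset.1 hA))
  · intro A _ B _ h
    exact Finset.map_injective _ h
  · intro B hB
    obtain ⟨A, hA, rfl⟩ := Finset.subset_map_iff.1 (Finset.mem_powerset.1 hB)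
    exact ⟨A, Finset.mem_powerset.2 hA, rfl⟩
  · intro A _
    congr 2
    unfold en
    simp only [Finset.sum_map, sg_map]
    congr 2
    refine Finset.sum_congr rfl fun a _ => Finset.sum_congr rfl fun b _ => ?_
    have : G.Adj (g.toEquiv.toEmbedding a) (g.toEquiv.toEmbedding b) ↔ G.Adj a b := g.map_rel_iff
    by_cases h : G.Adj a b
    · rw [if_pos h, if_pos (this.2 h)]
    · rw [if_neg h, if_neg fun h' => h (this.1 h')]

lemma mg_map (g : G ≃g G) (v : V) :
    mg G β (Λ.map g.toEquiv.toEmbedding) x (g v) = mg G β Λ (x ∘ g) v := by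
  unfold mg ex
  rw [zs_map, zs_map]
  congr 2
  funext A
  exact sg_map g.toEquiv.toEmbedding A v

lemma cav_map (hT : G.IsTree) (g : G ≃g G) (u v : V) :
    cav G β (Λ.map g.toEquiv.toEmbedding) x (g u) (g v) = cav G β Λ (x ∘ g) u v := by
  classical
  unfold cav
  rw [← mg_map g, Finset.filter_map]
  congr 2
  exact Finset.filter_congr fun z _ => iso_br hT g u v z

end natural

section measurable

variable {Ω : Type*} [MeasurableSpace Ω] {X : Ω → V → ℝ}

lemma measurable_en (hX : Measurable X) (A : Finset V) : Measurable fun ω => en G β Λ (X ω) A :=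
  measurable_const.add (Finset.measurable_sum _ fun v _ =>
    ((measurable_pi_apply v).comp hX).mul_const _)

lemma measurable_zs (hX : Measurable X) (f : Finset V → ℝ) :
    Measurable fun ω => zs G β Λ (X ω) f :=
  Finset.measurable_sum _ fun A _ => (measurable_en hX A).exp.mul_const _

lemma measurable_pr (hX : Measurable X) (A : Finset V) : Measurable fun ω => pr G β Λ (X ω) A :=
  (measurable_en hX A).exp.div (measurable_zs hX _)

lemma measurable_mg (hX : Measurable X) (v : V) : Measurable fun ω => mg G β Λ (X ω) v :=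
  (measurable_zs hX _).div (measurable_zs hX _)

lemma measurable_cv (hX : Measurable X) (v w : V) : Measurable fun ω => cv G β Λ (X ω) v w :=
  ((measurable_zs hX _).div (measurable_zs hX _)).sub
    ((measurable_mg hX v).mul (measurable_mg hX w))

lemma measurable_cav (hX : Measurable X) (u v : V) : Measurable fun ω => cav G β Λ (X ω) u v :=
  measurable_mg hX v

lemma measurable_bp [G.LocallyFinite] (θ : ℝ) (hX : Measurable X) (n : ℕ) :
    ∀ u v, Measurable fun ω => bp G θ (X ω) n u v := by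
  induction n with
  | zero => exact fun u v => (measurable_pi_apply v).comp hX
  | succ n ih =>
    exact fun u v => ((measurable_pi_apply v).comp hX).add
      (Finset.measurable_sum _ fun c _ => (measurable_msg θ).comp (ih v c))

end measurable

end Crest.Agent.H5.KS
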