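import Mathlib
import Crest.Agent.H5.Law2
import Crest.Agent.H5.KS.Ana

/-!
Bounded measurable functions, product spaces of uniform labels, and the noisy channel.
-/

set_option autoImplicit false

namespace Crest.Agent.H5.KS

open MeasureTheory Real

section bm

variable {Ω : Type*} [MeasurableSpace Ω] {f g : Ω → ℝ}

/-- bounded measurable -/
structure BM (f : Ω → ℝ) : Prop where
  meas : Measurable f
  bdd : ∃ C, ∀ ω, |f ω| ≤ C

lemma BM.of_le (h : Measurable f) (C : ℝ) (hC : ∀ ω, |f ω| ≤ C) : BM f := ⟨h, C, hC⟩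

lemma BM.int (h : BM f) (μ : Measure Ω) [IsFiniteMeasure μ] : Integrable f μ := by
  obtain ⟨C, hC⟩ := h.bdd
  exact Integrable.of_bound h.meas.aestronglyMeasurable C (Filter.Eventually.of_forall hC)

lemma BM.const (c : ℝ) : BM fun _ : Ω => c := ⟨measurable_const, |c|, fun _ => le_rfl⟩

lemma BM.add (hf : BM f) (hg : BM g) : BM fun ω => f ω + g ω := by
  obtain ⟨C, hC⟩ := hf.bdd
  obtain ⟨D, hD⟩ := hg.bdd
  exact ⟨hf.meas.add hg.meas, C + D, fun ω => (abs_add_le _ _).trans (add_le_add (hC ω) (hD ω))⟩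

lemma BM.neg (hf : BM f) : BM fun ω => -f ω := by
  obtain ⟨C, hC⟩ := hf.bdd
  exact ⟨hf.meas.neg, C, fun ω => by simpa using hC ω⟩

lemma BM.sub (hf : BM f) (hg : BM g) : BM fun ω => f ω - g ω := by
  simpa only [sub_eq_add_neg] using hf.add hg.neg

lemma BM.mul (hf : BM f) (hg : BM g) : BM fun ω => f ω * g ω := by
  obtain ⟨C, hC⟩ := hf.bdd
  obtain ⟨D, hD⟩ := hg.bdd
  refine ⟨hf.meas.mul hg.meas, C * D, fun ω => ?_⟩
  rw [abs_mul]
  exact mul_le_mul (hC ω) (hD ω) (abs_nonneg _) ((abs_nonneg _).trans (hC ω))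

lemma BM.div_const (hf : BM f) (c : ℝ) : BM fun ω => f ω / c := by
  simpa only [div_eq_mul_inv] using hf.mul (BM.const c⁻¹)

lemma BM.cont (hf : BM f) {φ : ℝ → ℝ} (hφ : Continuous φ) : BM fun ω => φ (f ω) := by
  obtain ⟨C, hC⟩ := hf.bdd
  obtain ⟨D, hD⟩ := (isCompact_Icc (a := -C) (b := C)).exists_bound_of_continuousOn hφ.continuousOn
  exact ⟨hφ.measurable.comp hf.meas, D, fun ω => hD _ (abs_le.1 (hC ω))⟩

lemma BM.pow (hf : BM f) (n : ℕ) : BM fun ω => f ω ^ n := hf.cont (continuous_pow n)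

lemma BM.abs (hf : BM f) : BM fun ω => |f ω| := hf.cont continuous_abs

lemma BM.exp (hf : BM f) : BM fun ω => exp (f ω) := hf.cont continuous_exp

lemma BM.cosh (hf : BM f) : BM fun ω => cosh (f ω) := hf.cont continuous_cosh

lemma BM.tanh (hf : BM f) : BM fun ω => tanh (f ω) := hf.cont continuous_tanh

lemma BM.tanh' (hf : Measurable f) : BM fun ω => Real.tanh (f ω) :=
  ⟨measurable_tanh.comp hf, 1, fun _ => abs_tanh_le_one _⟩

lemma BM.sum {ι : Type*} (s : Finset ι) {F : ι → Ω → ℝ} (h : ∀ i ∈ s, BM (F i)) :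
    BM fun ω => ∑ i ∈ s, F i ω := by
  classical
  induction s using Finset.induction_on with
  | empty => simpa using BM.const 0
  | insert a s ha ih =>
    simp only [Finset.sum_insert ha]
    exact (h a (Finset.mem_insert_self _ _)).add (ih fun i hi => h i (Finset.mem_insert_of_mem hi))

lemma BM.prod {ι : Type*} (s : Finset ι) {F : ι → Ω → ℝ} (h : ∀ i ∈ s, BM (F i)) :
    BM fun ω => ∏ i ∈ s, F i ω := by
  classical
  induction s using Finset.induction_on with
  | empty => simpa using BM.const 1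
  | insert a s ha ih =>
    simp only [Finset.prod_insert ha]
    exact (h a (Finset.mem_insert_self _ _)).mul (ih fun i hi => h i (Finset.mem_insert_of_mem hi))

lemma BM.comp (hf : BM f) {Ω' : Type*} [MeasurableSpace Ω'] {T : Ω' → Ω} (hT : Measurable T) :
    BM fun ω => f (T ω) := by
  obtain ⟨C, hC⟩ := hf.bdd
  exact ⟨hf.meas.comp hT, C, fun ω => hC _⟩

lemma BM.ite (hf : BM f) (hg : BM g) {p : Ω → Prop} [DecidablePred p]
    (hp : MeasurableSet {ω | p ω}) : BM fun ω => if p ω then f ω else g ω := by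
  obtain ⟨C, hC⟩ := hf.bdd
  obtain ⟨D, hD⟩ := hg.bdd
  refine ⟨Measurable.ite hp hf.meas hg.meas, max C D, fun ω => ?_⟩
  split_ifs
  · exact (hC ω).trans (le_max_left _ _)
  · exact (hD ω).trans (le_max_right _ _)

lemma BM.integral_right {Ω' : Type*} [MeasurableSpace Ω'] (ν : Measure Ω') [IsProbabilityMeasure ν]
    {F : Ω × Ω' → ℝ} (hF : BM F) : BM fun ω => ∫ ω', F (ω, ω') ∂ν := by
  obtain ⟨C, hC⟩ := hF.bdd
  refine ⟨(hF.meas.stronglyMeasurable.integral_prod_right').measurable, C, fun ω => ?_⟩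
  have := norm_integral_le_of_norm_le_const (μ := ν) (f := fun ω' => F (ω, ω')) (C := C)
    (Filter.Eventually.of_forall fun ω' => hC _)
  simpa using this

/-- close goals `BM f` from the closure properties -/
macro "bm" : tactic => `(tactic| repeat' (first
  | with_reducible assumption | with_reducible exact BM.const _
  | with_reducible_and_instances (first
    | assumption | exact BM.const _ | apply BM.add | apply BM.sub | apply BM.mul | apply BM.neg
    | apply BM.div_const | apply BM.pow | apply BM.abs | apply BM.exp | apply BM.cosh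
    | apply BM.tanh | (apply BM.sum; intro _ _) | (apply BM.prod; intro _ _))
  | assumption | solve_by_elim))

variable {μ : Measure Ω} [IsProbabilityMeasure μ]

lemma int_mono (hf : BM f) (hg : BM g) (h : ∀ ω, f ω ≤ g ω) : ∫ ω, f ω ∂μ ≤ ∫ ω, g ω ∂μ :=
  integral_mono (hf.int μ) (hg.int μ) h

lemma int_mono_ae (hf : BM f) (hg : BM g) (h : ∀ᵐ ω ∂μ, f ω ≤ g ω) :
    ∫ ω, f ω ∂μ ≤ ∫ ω, g ω ∂μ :=
  integral_mono_ae (hf.int μ) (hg.int μ) h

lemma int_add (hf : BM f) (hg : BM g) :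
    ∫ ω, (f ω + g ω) ∂μ = ∫ ω, f ω ∂μ + ∫ ω, g ω ∂μ := integral_add (hf.int μ) (hg.int μ)

lemma int_sub (hf : BM f) (hg : BM g) :
    ∫ ω, (f ω - g ω) ∂μ = ∫ ω, f ω ∂μ - ∫ ω, g ω ∂μ := integral_sub (hf.int μ) (hg.int μ)

lemma int_sum {ι : Type*} (s : Finset ι) {F : ι → Ω → ℝ} (h : ∀ i ∈ s, BM (F i)) :
    ∫ ω, ∑ i ∈ s, F i ω ∂μ = ∑ i ∈ s, ∫ ω, F i ω ∂μ :=
  integral_finsetSum s fun i hi => (h i hi).int μ

lemma int_const (c : ℝ) : ∫ _ω, c ∂μ = c := by simp

lemma int_le_const (hf : BM f) {c : ℝ} (h : ∀ ω, f ω ≤ c) : ∫ ω, f ω ∂μ ≤ c :=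
  (int_mono hf (BM.const c) h).trans_eq (int_const c)

lemma int_cs (hf : BM f) (hg : BM g) :
    (∫ ω, f ω * g ω ∂μ) ^ 2 ≤ (∫ ω, f ω ^ 2 ∂μ) * ∫ ω, g ω ^ 2 ∂μ := by
  have := discrim_le_zero (a := ∫ ω, f ω ^ 2 ∂μ) (b := 2 * ∫ ω, f ω * g ω ∂μ)
    (c := ∫ ω, g ω ^ 2 ∂μ) fun t => by
      have e : (∫ ω, f ω ^ 2 ∂μ) * (t * t) + (2 * ∫ ω, f ω * g ω ∂μ) * t + ∫ ω, g ω ^ 2 ∂μ =
          ∫ ω, (t * f ω + g ω) ^ 2 ∂μ := by
        rw [← integral_mul_const, ← integral_const_mul, ← integral_mul_const,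
          ← int_add (by bm) (by bm), ← int_add (by bm) (by bm)]
        exact integral_congr_ae (Filter.Eventually.of_forall fun ω => by simp only; ring)
      rw [e]
      exact integral_nonneg fun ω => sq_nonneg _
  rw [discrim] at this
  nlinarith

lemma int_cs' (hf : BM f) (hg : BM g) {a b : ℝ} (ha : 0 ≤ a) (hb : 0 ≤ b)
    (h1 : ∫ ω, f ω ^ 2 ∂μ ≤ a ^ 2) (h2 : ∫ ω, g ω ^ 2 ∂μ ≤ b ^ 2) :
    |∫ ω, f ω * g ω ∂μ| ≤ a * b := by
  refine abs_le_of_sq_le_sq' ?_ (mul_nonneg ha hb) |> abs_le.2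
  rw [mul_pow]
  exact (int_cs hf hg).trans (mul_le_mul h1 h2 (integral_nonneg fun ω => sq_nonneg _) (sq_nonneg _))

lemma sq_int_le (hf : BM f) : (∫ ω, f ω ∂μ) ^ 2 ≤ ∫ ω, f ω ^ 2 ∂μ := by
  simpa using int_cs (μ := μ) hf (BM.const 1)

lemma tendsto_int {F : ℕ → Ω → ℝ} (hF : ∀ n, Measurable (F n)) (C : ℝ) (hC : ∀ n ω, |F n ω| ≤ C)
    (h : ∀ᵐ ω ∂μ, Filter.Tendsto (fun n => F n ω) Filter.atTop (nhds (f ω))) :
    Filter.Tendsto (fun n => ∫ ω, F n ω ∂μ) Filter.atTop (nhds (∫ ω, f ω ∂μ)) :=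
  tendsto_integral_of_dominated_convergence (fun _ => C) (fun n => (hF n).aestronglyMeasurable)
    (integrable_const C) (fun n => Filter.Eventually.of_forall (hC n)) h

end bm

section product

variable {ι : Type*}

/-- independent uniform labels -/
noncomputable def PP (ι : Type*) : Measure (ι → unitInterval) :=
  Measure.infinitePi fun _ => volume

instance : IsProbabilityMeasure (PP ι) := by unfold PP; infer_instance

open Classical in
/-- take the coordinates in `S` from `ω` and the others from `ω'` -/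
noncomputable def pw (S : Set ι) (ω ω' : ι → unitInterval) : ι → unitInterval :=
  fun i => if i ∈ S then ω i else ω' i

lemma pw_of_mem {S : Set ι} {i : ι} (h : i ∈ S) (ω ω' : ι → unitInterval) : pw S ω ω' i = ω i :=
  if_pos h

lemma pw_of_notMem {S : Set ι} {i : ι} (h : i ∉ S) (ω ω' : ι → unitInterval) :
    pw S ω ω' i = ω' i := if_neg h

lemma measurable_pw (S : Set ι) :
    Measurable fun p : (ι → unitInterval) × (ι → unitInterval) => pw S p.1 p.2 := by
  refine measurable_pi_lambda _ fun i => ?_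
  by_cases h : i ∈ S
  · simp only [pw_of_mem h]; fun_prop
  · simp only [pw_of_notMem h]; fun_prop

lemma measurable_pw_right (S : Set ι) (a : ι → unitInterval) : Measurable fun ω => pw S a ω :=
  (measurable_pw S).comp (measurable_const.prodMk measurable_id)

lemma map_pw (S : Set ι) : ((PP ι).prod (PP ι)).map (fun p => pw S p.1 p.2) = PP ι := by
  exact @map_piecewise_infinitePi _ _ _ (fun _ : ι => (volume : Measure unitInterval)) _ (· ∈ S)
    (fun _ => Classical.propDecidable _)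

lemma integral_pw (S : Set ι) {F : (ι → unitInterval) → ℝ} (hF : BM F) :
    ∫ ω, F ω ∂PP ι = ∫ ω, ∫ ω', F (pw S ω ω') ∂PP ι ∂PP ι := by
  conv_lhs => rw [← map_pw S]
  rw [integral_map (measurable_pw S).aemeasurable hF.meas.aestronglyMeasurable]
  exact integral_prod _ ((hF.comp (measurable_pw S)).int _)

lemma integral_upd [DecidableEq ι] (i : ι) {F : (ι → unitInterval) → ℝ} (hF : BM F) :
    ∫ ω, F ω ∂PP ι = ∫ ω, ∫ s, F (Function.update ω i s) ∂volume ∂PP ι := by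
  have h := map_update_infinitePi (fun _ : ι => (volume : Measure unitInterval)) i
  conv_lhs => rw [PP, ← h]
  rw [integral_map measurable_update'.aemeasurable hF.meas.aestronglyMeasurable]
  exact integral_prod _ ((hF.comp measurable_update').int _)

lemma measurable_reindex {κ : Type*} (e : κ → ι) :
    Measurable fun (ω : ι → unitInterval) (k : κ) => ω (e k) :=
  measurable_pi_lambda _ fun k => measurable_pi_apply (e k)

lemma integral_reindex {κ : Type*} {e : κ → ι} (he : Function.Injective e)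
    {F : (κ → unitInterval) → ℝ} (hF : Measurable F) :
    ∫ ω, F (fun k => ω (e k)) ∂PP ι = ∫ ω, F ω ∂PP κ := by
  have h := Measure.map_infinitePi_infinitePi_of_inj
    (P := fun _ : ι => (volume : Measure unitInterval)) he
  conv_rhs => rw [PP, ← h]
  rw [integral_map (measurable_reindex e).aemeasurable hF.aestronglyMeasurable]
  rfl

lemma integral_eval (i : ι) {g : unitInterval → ℝ} (hg : Measurable g) :
    ∫ ω, g (ω i) ∂PP ι = ∫ s, g s := by
  have h := Measure.infinitePi_map_eval (fun _ : ι => (volume : Measure unitInterval)) i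
  conv_rhs => rw [← h]
  rw [integral_map (measurable_pi_apply i).aemeasurable hg.aestronglyMeasurable]
  rfl

/-- depends only on the coordinates in `S` -/
def Dep {α : Type*} (S : Set ι) (F : (ι → unitInterval) → α) : Prop :=
  ∀ ω ω', (∀ i ∈ S, ω i = ω' i) → F ω = F ω'

lemma Dep.mono {α : Type*} {S T : Set ι} {F : (ι → unitInterval) → α} (h : Dep S F)
    (hST : S ⊆ T) : Dep T F := fun ω ω' e => h ω ω' fun i hi => e i (hST hi)

lemma Dep.map {α β : Type*} {S : Set ι} {F : (ι → unitInterval) → α} (h : Dep S F) (φ : α → β) :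
    Dep S fun ω => φ (F ω) := fun ω ω' e => by simp only [h ω ω' e]

lemma Dep.map₂ {α β γ : Type*} {S : Set ι} {F : (ι → unitInterval) → α}
    {F' : (ι → unitInterval) → β} (h : Dep S F) (h' : Dep S F') (φ : α → β → γ) :
    Dep S fun ω => φ (F ω) (F' ω) := fun ω ω' e => by simp only [h ω ω' e, h' ω ω' e]

lemma Dep.sum {κ : Type*} {S : Set ι} (s : Finset κ) {F : κ → (ι → unitInterval) → ℝ}
    (h : ∀ k ∈ s, Dep S (F k)) : Dep S fun ω => ∑ k ∈ s, F k ω := fun ω ω' e =>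
  Finset.sum_congr rfl fun k hk => h k hk ω ω' e

lemma integral_dep {α β : Type*} {S T : Set ι} {X : (ι → unitInterval) → α}
    {Y : (ι → unitInterval) → β} (hX : Dep S X) (hY : Dep T Y) (hST : Disjoint S T)
    (Φ : α → β → ℝ) (h : BM fun ω => Φ (X ω) (Y ω)) :
    ∫ ω, Φ (X ω) (Y ω) ∂PP ι = ∫ ω, ∫ ω', Φ (X ω) (Y ω') ∂PP ι ∂PP ι := by
  rw [integral_pw S h]
  congr 1
  funext ω
  congr 1
  funext ω'
  rw [hX (pw S ω ω') ω fun i hi => pw_of_mem hi _ _,
    hY (pw S ω ω') ω' fun i hi => pw_of_notMem (Set.disjoint_right.1 hST hi) _ _]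

lemma bm_dep {α β : Type*} {S T : Set ι} {X : (ι → unitInterval) → α}
    {Y : (ι → unitInterval) → β} (hX : Dep S X) (hY : Dep T Y) (hST : Disjoint S T)
    (Φ : α → β → ℝ) (h : BM fun ω => Φ (X ω) (Y ω)) :
    BM fun ω => ∫ ω', Φ (X ω) (Y ω') ∂PP ι := by
  have := BM.integral_right (PP ι) (h.comp (measurable_pw S))
  convert this using 4 with ω ω'
  rw [hX (pw S ω ω') ω fun i hi => pw_of_mem hi _ _,
    hY (pw S ω ω') ω' fun i hi => pw_of_notMem (Set.disjoint_right.1 hST hi) _ _]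

lemma integral_mul_dep {S T : Set ι} {X Y : (ι → unitInterval) → ℝ} (hX : Dep S X) (hY : Dep T Y)
    (hST : Disjoint S T) (h1 : BM X) (h2 : BM Y) :
    ∫ ω, X ω * Y ω ∂PP ι = (∫ ω, X ω ∂PP ι) * ∫ ω, Y ω ∂PP ι := by
  rw [integral_dep hX hY hST (fun a b => a * b) (h1.mul h2)]
  simp only [integral_const_mul, integral_mul_const]

end product

section channel

/-- inverse distribution function of the density `1 + a (2 z - 1)` -/
noncomputable def Gi (a u : ℝ) : ℝ := 2 * u / ((1 - a) + √((1 - a) ^ 2 + 4 * a * u))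

lemma measurable_Gi {Ω : Type*} [MeasurableSpace Ω] {a u : Ω → ℝ} (ha : Measurable a)
    (hu : Measurable u) : Measurable fun ω => Gi (a ω) (u ω) := by
  unfold Gi; fun_prop

lemma Gi_cdf {a z : ℝ} (ha : |a| ≤ 1 / 2) (h0 : 0 ≤ z) (h1 : z ≤ 1) :
    Gi a (z + a * (z ^ 2 - z)) = z := by
  rw [abs_le] at ha
  have p1 : 0 ≤ 1 - a + 2 * a * z := by nlinarith
  have p2 : 0 < 1 - a + a * z := by nlinarith
  have e : (1 - a) ^ 2 + 4 * a * (z + a * (z ^ 2 - z)) = (1 - a + 2 * a * z) ^ 2 := by ring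
  unfold Gi
  rw [e, sqrt_sq p1, div_eq_iff (by linarith)]
  ring

lemma cdf_image {a : ℝ} (ha : |a| ≤ 1 / 2) :
    (fun z : ℝ => z + a * (z ^ 2 - z)) '' Set.Icc 0 1 = Set.Icc 0 1 := by
  rw [abs_le] at ha
  apply Set.Subset.antisymm
  · rintro _ ⟨z, ⟨h0, h1⟩, rfl⟩
    constructor
    · simp only; nlinarith [mul_nonneg h0 (sub_nonneg.2 h1)]
    · simp only; nlinarith [mul_nonneg h0 (sub_nonneg.2 h1)]
  · have := intermediate_value_Icc (f := fun z : ℝ => z + a * (z ^ 2 - z)) zero_le_one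
      (by fun_prop)
    simpa using this

lemma Gi_spec {a : ℝ} (ha : |a| ≤ 1 / 2) (u : unitInterval) :
    0 ≤ Gi a u ∧ Gi a u ≤ 1 ∧ Gi a u + a * (Gi a u ^ 2 - Gi a u) = u := by
  obtain ⟨z, ⟨h0, h1⟩, hz⟩ := (cdf_image ha).symm.subset u.2
  simp only at hz
  rw [← hz, Gi_cdf ha h0 h1]
  exact ⟨h0, h1, rfl⟩

lemma Gi_lip {a a' : ℝ} (ha : |a| ≤ 1 / 2) (ha' : |a'| ≤ 1 / 2) (u : unitInterval) :
    |Gi a u - Gi a' u| ≤ |a - a'| / 2 := by
  obtain ⟨p0, p1, p2⟩ := Gi_spec ha u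
  obtain ⟨q0, q1, q2⟩ := Gi_spec ha' u
  set z := Gi a u
  set z' := Gi a' u
  have e : (z - z') * (1 + a * (z + z' - 1)) = (a - a') * (z' - z' ^ 2) := by
    linear_combination p2 - q2
  have h1 : 1 / 2 ≤ 1 + a * (z + z' - 1) := by
    have : |a * (z + z' - 1)| ≤ 1 / 2 := by
      rw [abs_mul]
      have : |z + z' - 1| ≤ 1 := abs_le.2 ⟨by linarith, by linarith⟩
      nlinarith [abs_nonneg a, abs_nonneg (z + z' - 1)]
    linarith [neg_abs_le (a * (z + z' - 1))]
  have h2 := congrArg abs e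
  rw [abs_mul, abs_mul, abs_of_nonneg (by linarith : 0 ≤ 1 + a * (z + z' - 1)),
    abs_of_nonneg (by nlinarith : 0 ≤ z' - z' ^ 2)] at h2
  have h3 : z' - z' ^ 2 ≤ 1 / 4 := by nlinarith [sq_nonneg (z' - 1 / 2)]
  nlinarith [abs_nonneg (z - z'), abs_nonneg (a - a')]

lemma integral_Gi {a : ℝ} (ha : |a| ≤ 1 / 2) (g : ℝ → ℝ) :
    ∫ u : unitInterval, g (Gi a u) = ∫ z : unitInterval, (1 + a * (2 * z - 1)) * g z := by
  rw [integral_subtype (s := unitInterval) measurableSet_Icc (fun u => g (Gi a u)),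
    integral_subtype (s := unitInterval) measurableSet_Icc (fun z => (1 + a * (2 * z - 1)) * g z)]
  have h := integral_image_eq_integral_abs_deriv_smul (s := Set.Icc (0 : ℝ) 1)
    (f := fun z : ℝ => z + a * (z ^ 2 - z)) (f' := fun z => 1 + a * (2 * z - 1)) measurableSet_Icc
    (fun x _ => by
      have := ((hasDerivAt_id x).add ((((hasDerivAt_id x).pow 2).sub (hasDerivAt_id x)).const_mul a))
      exact (this.congr_deriv (by simp)).hasDerivWithinAt)
    (fun x hx y hy e => by rw [← Gi_cdf ha hx.1 hx.2, ← Gi_cdf ha hy.1 hy.2]; exact congrArg _ e)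
    (fun u => g (Gi a u))
  rw [cdf_image ha] at h
  refine h.trans (setIntegral_congr_fun measurableSet_Icc fun z hz => ?_)
  simp only [smul_eq_mul]
  rw [Gi_cdf ha hz.1 hz.2, abs_of_nonneg]
  rw [abs_le] at ha
  nlinarith [hz.1, hz.2]

lemma integral_refl (h : ℝ → ℝ) (ε : ℝ) :
    ∫ z : unitInterval, h (ε * (2 * z - 1)) = ∫ z : unitInterval, h (-(ε * (2 * z - 1))) := by
  have := (show MeasurePreserving unitInterval.symmMeasurableEquiv volume volume from
    unitInterval.measurePreserving_symm).integral_comp'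
      (fun z : unitInterval => h (ε * (2 * z - 1)))
  rw [← this]
  congr 1
  funext z
  simp only [unitInterval.coe_symmMeasurableEquiv, unitInterval.coe_symm_eq]
  congr 1
  ring

/-- an observation of strength `ε` with predicted mean `m` -/
noncomputable def yy (ε m u : ℝ) : ℝ := ε * (2 * Gi (ε * m) u - 1)

lemma measurable_yy {Ω : Type*} [MeasurableSpace Ω] {ε m u : Ω → ℝ} (hε : Measurable ε)
    (hm : Measurable m) (hu : Measurable u) : Measurable fun ω => yy (ε ω) (m ω) (u ω) :=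
  hε.mul (((measurable_Gi (hε.mul hm) hu).const_mul 2).sub_const 1)

@[simp] lemma yy_zero (m u : ℝ) : yy 0 m u = 0 := by simp [yy]

lemma abs_em_le {ε m : ℝ} (h0 : 0 ≤ ε) (h1 : ε ≤ 1 / 2) (hm : |m| ≤ 1) : |ε * m| ≤ 1 / 2 := by
  rw [abs_mul, abs_of_nonneg h0]; nlinarith [abs_nonneg m]

lemma abs_yy_le {ε m : ℝ} (h0 : 0 ≤ ε) (h1 : ε ≤ 1 / 2) (hm : |m| ≤ 1) (u : unitInterval) :
    |yy ε m u| ≤ ε := by
  obtain ⟨p0, p1, _⟩ := Gi_spec (abs_em_le h0 h1 hm) u
  unfold yy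
  rw [abs_mul, abs_of_nonneg h0]
  exact mul_le_of_le_one_right h0 (abs_le.2 ⟨by linarith, by linarith⟩)

lemma integral_yy {ε m : ℝ} (h0 : 0 ≤ ε) (h1 : ε ≤ 1 / 2) (hm : |m| ≤ 1) (g : ℝ → ℝ) :
    ∫ u : unitInterval, g (yy ε m u) =
      ∫ z : unitInterval, (1 + m * (ε * (2 * z - 1))) * g (ε * (2 * z - 1)) := by
  have := integral_Gi (abs_em_le h0 h1 hm) (fun z => g (ε * (2 * z - 1)))
  refine this.trans ?_
  congr 1
  funext z
  ring

lemma abs_lin_le {ε : ℝ} (h0 : 0 ≤ ε) (h1 : ε ≤ 1 / 2) (z : unitInterval) :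
    |ε * (2 * (z : ℝ) - 1)| ≤ 1 / 2 := abs_em_le h0 h1 (abs_le.2 ⟨by linarith [z.2.1], by linarith [z.2.2]⟩)

lemma half_le_den {m y : ℝ} (hm : |m| ≤ 1) (hy : |y| ≤ 1 / 2) : 1 / 2 ≤ 1 + m * y := by
  have : |m * y| ≤ 1 / 2 := by rw [abs_mul]; nlinarith [abs_nonneg m, abs_nonneg y]
  linarith [neg_abs_le (m * y)]

lemma integral_bayes {ε m s : ℝ} (h0 : 0 ≤ ε) (h1 : ε ≤ 1 / 2) (hm : |m| ≤ 1)
    (hs : s = 1 ∨ s = -1) (g : ℝ → ℝ) :
    ∫ u : unitInterval, g (yy ε m u) * ((1 + s * yy ε m u) / (1 + m * yy ε m u)) =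
      ∫ u : unitInterval, g (s * yy ε 1 u) := by
  rw [integral_yy h0 h1 hm (fun y => g y * ((1 + s * y) / (1 + m * y))),
    integral_yy h0 h1 (by simp) (fun y => g (s * y))]
  have e : ∀ z : unitInterval, (1 + m * (ε * (2 * z - 1))) * (g (ε * (2 * z - 1)) *
      ((1 + s * (ε * (2 * z - 1))) / (1 + m * (ε * (2 * z - 1))))) =
      (1 + s * (ε * (2 * z - 1))) * g (ε * (2 * z - 1)) := by
    intro z
    have := half_le_den hm (abs_lin_le h0 h1 z)
    have h3 : 1 + m * (ε * (2 * z - 1)) ≠ 0 := by linarith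
    rw [mul_left_comm, mul_div_cancel₀ _ h3, mul_comm]
  simp only [e]
  rcases hs with rfl | rfl
  · simp only [one_mul]
  · rw [integral_refl (fun y => (1 + -1 * y) * g y)]
    simp

/-- relative jump of the posterior -/
noncomputable def eta (ε m u : ℝ) : ℝ := yy ε m u / (1 + m * yy ε m u)

lemma measurable_eta {Ω : Type*} [MeasurableSpace Ω] {ε m u : Ω → ℝ} (hε : Measurable ε)
    (hm : Measurable m) (hu : Measurable u) : Measurable fun ω => eta (ε ω) (m ω) (u ω) :=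
  (measurable_yy hε hm hu).div ((hm.mul (measurable_yy hε hm hu)).const_add 1)

@[simp] lemma eta_zero (m u : ℝ) : eta 0 m u = 0 := by simp [eta]

lemma integral_eta {ε m : ℝ} (h0 : 0 ≤ ε) (h1 : ε ≤ 1 / 2) (hm : |m| ≤ 1) :
    ∫ u : unitInterval, eta ε m u = 0 := by
  unfold eta
  rw [integral_yy h0 h1 hm (fun y => y / (1 + m * y))]
  have e : ∀ z : unitInterval, (1 + m * (ε * (2 * z - 1))) *
      (ε * (2 * z - 1) / (1 + m * (ε * (2 * z - 1)))) = ε * (2 * z - 1) := by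
    intro z
    have := half_le_den hm (abs_lin_le h0 h1 z)
    exact mul_div_cancel₀ _ (by linarith)
  simp only [e]
  have := integral_refl (fun y => y) ε
  rw [integral_neg] at this
  linarith

lemma abs_eta_le {ε m : ℝ} (h0 : 0 ≤ ε) (h1 : ε ≤ 1 / 2) (hm : |m| ≤ 1) (u : unitInterval) :
    |eta ε m u| ≤ 2 * ε := by
  have a1 := abs_yy_le h0 h1 hm u
  have a2 := half_le_den hm (a1.trans h1)
  unfold eta
  rw [abs_div, abs_of_pos (by linarith : 0 < 1 + m * yy ε m u), div_le_iff₀ (by linarith)]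
  nlinarith

lemma eta_lip {ε m m' : ℝ} (h0 : 0 ≤ ε) (h1 : ε ≤ 1 / 2) (hm : |m| ≤ 1) (hm' : |m'| ≤ 1)
    (u : unitInterval) : |eta ε m u - eta ε m' u| ≤ 8 * ε ^ 2 * |m - m'| := by
  have a1 := abs_yy_le h0 h1 hm u
  have a2 := half_le_den hm (a1.trans h1)
  have b1 := abs_yy_le h0 h1 hm' u
  have b2 := half_le_den hm' (b1.trans h1)
  have c1 : |yy ε m u - yy ε m' u| ≤ ε ^ 2 * |m - m'| := by
    have := Gi_lip (abs_em_le h0 h1 hm) (abs_em_le h0 h1 hm') u
    rw [← mul_sub, abs_mul, abs_of_nonneg h0] at this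
    have e : yy ε m u - yy ε m' u = 2 * ε * (Gi (ε * m) u - Gi (ε * m') u) := by unfold yy; ring
    rw [e, abs_mul, abs_of_nonneg (by linarith : 0 ≤ 2 * ε)]
    nlinarith
  unfold eta
  set y := yy ε m u
  set y' := yy ε m' u
  rw [div_sub_div _ _ (by linarith) (by linarith), abs_div,
    abs_of_pos (mul_pos (by linarith : 0 < 1 + m * y) (by linarith : 0 < 1 + m' * y')),
    div_le_iff₀ (mul_pos (by linarith) (by linarith))]
  have e : y * (1 + m' * y') - (1 + m * y) * y' = (y - y') - y * y' * (m - m') := by ring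
  have c2 : |y * y' * (m - m')| ≤ ε ^ 2 * |m - m'| := by
    rw [abs_mul, abs_mul]
    exact mul_le_mul_of_nonneg_right (by nlinarith [abs_nonneg y, abs_nonneg y']) (abs_nonneg _)
  have c3 : 1 / 4 ≤ (1 + m * y) * (1 + m' * y') := by nlinarith
  rw [e]
  refine (abs_sub _ _).trans ?_
  nlinarith [mul_nonneg (sq_nonneg ε) (abs_nonneg (m - m'))]

lemma exp_neg_eq (a : ℝ) : exp (-a) = cosh a * (1 - tanh a) := by
  have := cosh_pos a
  rw [tanh_eq_sinh_div_cosh, ← cosh_sub_sinh]; field_simp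

lemma integral_nish {ε : ℝ} (h0 : 0 ≤ ε) (h1 : ε ≤ 1 / 2) (g : ℝ → ℝ) :
    ∫ u : unitInterval, exp (-ath (yy ε 1 u)) * g (ath (yy ε 1 u)) =
      ∫ u : unitInterval, exp (-ath (yy ε 1 u)) * g (-ath (yy ε 1 u)) := by
  rw [integral_yy h0 h1 (by simp) (fun y => exp (-ath y) * g (ath y)),
    integral_yy h0 h1 (by simp) (fun y => exp (-ath y) * g (-ath y)),
    integral_refl (fun y => (1 + 1 * y) * (exp (-ath y) * g (-ath y)))]
  congr 1
  funext z
  have := abs_lin_le h0 h1 z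
  rw [exp_neg_eq, exp_neg_eq, ath_neg, neg_neg, cosh_neg, tanh_neg, tanh_ath (by linarith)]
  ring

lemma integral_yy_sq {ε : ℝ} (h0 : 0 ≤ ε) (h1 : ε ≤ 1 / 2) :
    ∫ u : unitInterval, yy ε 1 u ^ 2 = ε ^ 2 / 3 := by
  rw [integral_yy h0 h1 (by simp) (fun y => y ^ 2),
    integral_subtype (s := unitInterval) measurableSet_Icc
      (fun z => (1 + 1 * (ε * (2 * z - 1))) * (ε * (2 * z - 1)) ^ 2),
    integral_Icc_eq_integral_Ioc, ← intervalIntegral.integral_of_le zero_le_one]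
  have h3 : ∀ x ∈ Set.uIcc (0 : ℝ) 1, HasDerivAt
      (fun x => ε ^ 2 * (2 * x - 1) ^ 3 / 6 + ε ^ 3 * (2 * x - 1) ^ 4 / 8)
      ((1 + 1 * (ε * (2 * x - 1))) * (ε * (2 * x - 1)) ^ 2) x := by
    intro x _
    have a := ((hasDerivAt_id x).const_mul 2).sub_const 1
    have := ((((a.pow 3).const_mul (ε ^ 2)).div_const 6).add
      (((a.pow 4).const_mul (ε ^ 3)).div_const 8))
    refine this.congr_deriv ?_
    simp only [id]
    norm_num
    ring
  rw [intervalIntegral.integral_eq_sub_of_hasDerivAt h3 (by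
    apply Continuous.intervalIntegrable; fun_prop)]
  ring

end channel

end Crest.Agent.H5.KS
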