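import Mathlib
import Crest.Agent.H5.KS.Prob
import Crest.Agent.H5.KS.Gibbs

/-!
The finite-volume sequential sampler of noisy observations.
-/

set_option autoImplicit false

namespace Crest.Agent.H5.KS

open MeasureTheory Real

/-- label space -/
abbrev Om (V : Type*) := V × ℤ × Fin 3 → unitInterval

/-- parameters of a sampler -/
structure Par (V : Type*) where
  β : ℝ
  n : ℕ
  Λ : Finset V

variable {V : Type*}

/-- law of the labels -/
noncomputable abbrev PO (V : Type*) : Measure (Om V) := PP (V × ℤ × Fin 3)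

/-- observation time -/
noncomputable def tm (ω : Om V) (i : V × ℤ) : ℝ := i.2 + (ω (i.1, i.2, 0) : ℝ)

lemma le_tm (ω : Om V) (i : V × ℤ) : (i.2 : ℝ) ≤ tm ω i := by
  unfold tm; linarith [(ω (i.1, i.2, 0)).2.1]

lemma tm_le (ω : Om V) (i : V × ℤ) : tm ω i ≤ ((i.2 + 1 : ℤ) : ℝ) := by
  unfold tm; push_cast; linarith [(ω (i.1, i.2, 0)).2.2]

open Classical in
/-- effective strength of an observation -/
noncomputable def ef (e : ℤ → ℝ) (P : Par V) (ω : Om V) (i : V × ℤ) : ℝ :=
  if i.1 ∈ P.Λ ∧ -(P.n : ℤ) ≤ i.2 ∧ (ω (i.1, i.2, 0) : ℝ) < 1 / 2 then e i.2 else 0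

/-- field accumulated before time `t` -/
noncomputable def xf (n : ℕ) (K : ℤ) (y : V × ℤ → ℝ) (ω : Om V) (t : ℝ) : V → ℝ := fun v =>
  ∑ k ∈ Finset.Ico (-(n : ℤ)) K, if tm ω (v, k) < t then ath (y (v, k)) else 0

/-- one step of the iteration -/
noncomputable def step (G : SimpleGraph V) (e : ℤ → ℝ) (P : Par V) (ω : Om V)
    (y : V × ℤ → ℝ) : V × ℤ → ℝ := fun i =>
  yy (ef e P ω i) (mg G P.β P.Λ (xf P.n (i.2 + 1) y ω (tm ω i)) i.1) (ω (i.1, i.2, 1))

/-- the observations -/
noncomputable def ys (G : SimpleGraph V) (e : ℤ → ℝ) (P : Par V) (ω : Om V) : V × ℤ → ℝ :=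
  fun i => (step G e P ω)^[P.Λ.card * (i.2 + 1 + P.n).toNat + 1] 0 i

/-- the field at time `t` -/
noncomputable def XS (G : SimpleGraph V) (e : ℤ → ℝ) (P : Par V) (ω : Om V) (t : ℝ) : V → ℝ :=
  xf P.n ⌈t⌉ (ys G e P ω) ω t

/-- the planted field at time `t` -/
noncomputable def XT (e : ℤ → ℝ) (P : Par V) (ω : Om V) (t : ℝ) : V → ℝ :=
  xf P.n ⌈t⌉ (fun i => yy (ef e P ω i) 1 (ω (i.1, i.2, 1))) ω t

variable {G : SimpleGraph V} {e : ℤ → ℝ} {P : Par V}

/-- admissible schedules -/
def Sched (e : ℤ → ℝ) : Prop := ∀ k, 0 ≤ e k ∧ e k ≤ 1 / 2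

lemma ef_mem (he : Sched e) (ω : Om V) (i : V × ℤ) :
    0 ≤ ef e P ω i ∧ ef e P ω i ≤ e i.2 := by
  unfold ef; split_ifs
  · exact ⟨(he _).1, le_rfl⟩
  · exact ⟨le_rfl, (he _).1⟩

lemma ef_half (he : Sched e) (ω : Om V) (i : V × ℤ) : ef e P ω i ≤ 1 / 2 :=
  (ef_mem he ω i).2.trans (he _).2

lemma ef_eq_zero {ω : Om V} {i : V × ℤ} (h : i.1 ∉ P.Λ ∨ i.2 < -(P.n : ℤ)) : ef e P ω i = 0 := by
  unfold ef
  rw [if_neg]
  rintro ⟨h1, h2, _⟩
  rcases h with h | h
  · exact h h1
  · omega

lemma xf_window {n N : ℕ} {K K' : ℤ} {y : V × ℤ → ℝ} {ω : Om V} {t : ℝ} (hN : n ≤ N)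
    (hy : ∀ i : V × ℤ, i.2 < -(n : ℤ) → y i = 0) (h : t ≤ K) (h' : K ≤ K') :
    xf n K y ω t = xf N K' y ω t := by
  funext v
  refine Finset.sum_subset (Finset.Ico_subset_Ico (by omega) h') fun k _ hk => ?_
  rw [Finset.mem_Ico, not_and_or, not_le, not_lt] at hk
  rcases hk with hk | hk
  · rw [hy (v, k) hk]; simp
  · rw [if_neg]
    have : (K : ℝ) ≤ k := by exact_mod_cast hk
    have := le_tm ω (v, k)
    simp only at this
    linarith

lemma xf_window' {n : ℕ} {K K' : ℤ} {y : V × ℤ → ℝ} {ω : Om V} {t : ℝ} (h : t ≤ K)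
    (h' : t ≤ K') : xf n K y ω t = xf n K' y ω t := by
  have aux : ∀ {K K' : ℤ}, t ≤ K → K ≤ K' → xf n K y ω t = xf n K' y ω t := by
    intro K K' h h'
    funext v
    refine Finset.sum_subset (Finset.Ico_subset_Ico le_rfl h') fun k h1 hk => ?_
    rw [Finset.mem_Ico] at h1 hk
    rw [if_neg]
    have : (K : ℝ) ≤ k := by exact_mod_cast (by omega : K ≤ k)
    have := le_tm ω (v, k)
    simp only at this
    linarith
  rcases le_total K K' with h1 | h1
  · exact aux h h1
  · exact (aux h' h1).symm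

lemma it_zero {ω : Om V} {i : V × ℤ} (h : ef e P ω i = 0) (N : ℕ) :
    (step G e P ω)^[N] 0 i = 0 := by
  cases N with
  | zero => rfl
  | succ N => rw [Function.iterate_succ_apply']; simp [step, h]

lemma ys_zero {ω : Om V} {i : V × ℤ} (h : ef e P ω i = 0) : ys G e P ω i = 0 := it_zero h _

open Classical in
/-- earlier observations -/
noncomputable def predS (P : Par V) (ω : Om V) (i : V × ℤ) : Finset (V × ℤ) :=
  (P.Λ ×ˢ Finset.Ico (-(P.n : ℤ)) (i.2 + 1)).filter fun j => tm ω j < tm ω i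

lemma step_congr {ω : Om V} {y y' : V × ℤ → ℝ} {i : V × ℤ}
    (h : ∀ j ∈ predS P ω i, y j = y' j) : step G e P ω y i = step G e P ω y' i := by
  unfold step
  rw [mg_congr (x' := xf P.n (i.2 + 1) y' ω (tm ω i))]
  intro v hv
  refine Finset.sum_congr rfl fun k hk => ?_
  split_ifs with h1
  · rw [h (v, k) (Finset.mem_filter.2 ⟨Finset.mem_product.2 ⟨hv, hk⟩, h1⟩)]
  · rfl

lemma card_predS_lt {ω : Om V} {i j : V × ℤ} (h : j ∈ predS P ω i) :
    (predS P ω j).card < (predS P ω i).card := by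
  have h' := h
  simp only [predS, Finset.mem_filter, Finset.mem_product, Finset.mem_Ico] at h
  refine Finset.card_lt_card ⟨fun l hl => ?_, fun hs => ?_⟩
  · simp only [predS, Finset.mem_filter, Finset.mem_product, Finset.mem_Ico] at hl ⊢
    exact ⟨⟨hl.1.1, hl.1.2.1, by omega⟩, hl.2.trans h.2⟩
  · exact lt_irrefl _ (Finset.mem_filter.1 (hs h')).2

lemma it_stable (ω : Om V) (N : ℕ) : ∀ i, (predS P ω i).card < N → ∀ M, N ≤ M →
    (step G e P ω)^[M] 0 i = (step G e P ω)^[N] 0 i := by
  induction N with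
  | zero => intro i h; omega
  | succ N ih =>
    intro i h M hM
    obtain ⟨M, rfl⟩ : ∃ M', M = M' + 1 := ⟨M - 1, by omega⟩
    rw [Function.iterate_succ_apply', Function.iterate_succ_apply']
    exact step_congr fun j hj => ih j (by have := card_predS_lt hj; omega) M (by omega)

lemma card_predS_le (ω : Om V) (i : V × ℤ) :
    (predS P ω i).card ≤ P.Λ.card * (i.2 + 1 + P.n).toNat := by
  refine (Finset.card_filter_le _ _).trans ?_
  rw [Finset.card_product, Int.card_Ico, sub_neg_eq_add]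

lemma ys_eq_it (ω : Om V) (i : V × ℤ) {M : ℕ} (h : (predS P ω i).card < M) :
    ys G e P ω i = (step G e P ω)^[M] 0 i := by
  unfold ys
  rw [it_stable ω _ i (Nat.lt_succ_self _) M h,
    it_stable ω _ i (Nat.lt_succ_self _) _ (Nat.succ_le_succ (card_predS_le ω i))]

lemma ys_fix (ω : Om V) (i : V × ℤ) :
    ys G e P ω i = yy (ef e P ω i) (mg G P.β P.Λ (XS G e P ω (tm ω i)) i.1) (ω (i.1, i.2, 1)) := by
  rw [ys_eq_it ω i (Nat.lt_succ_self _), Function.iterate_succ_apply',
    step_congr (y' := ys G e P ω) fun j hj => (ys_eq_it ω j (card_predS_lt hj)).symm]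
  unfold step XS
  rw [xf_window' (tm_le ω i) (Int.le_ceil _)]

lemma abs_ys_le (he : Sched e) (ω : Om V) (i : V × ℤ) : |ys G e P ω i| ≤ ef e P ω i := by
  rw [ys_fix]
  exact abs_yy_le (ef_mem he ω i).1 (ef_half he ω i) (abs_mg_le _) _

lemma xf_congr {n : ℕ} {K : ℤ} {ω ω' : Om V} {y y' : V × ℤ → ℝ} {t s : ℝ} (hs : s ≤ t)
    (h : ∀ j, tm ω j < t ∨ tm ω' j < t → ω (j.1, j.2, 0) = ω' (j.1, j.2, 0))
    (hy : ∀ j, tm ω j < t → y j = y' j) : xf n K y ω s = xf n K y' ω' s := by
  funext v
  refine Finset.sum_congr rfl fun k _ => ?_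
  by_cases h1 : tm ω (v, k) < s
  · have h2 : tm ω' (v, k) = tm ω (v, k) := by
      unfold tm; rw [h (v, k) (Or.inl (h1.trans_le hs))]
    rw [if_pos h1, if_pos (h2 ▸ h1), hy _ (h1.trans_le hs)]
  · rw [if_neg h1, if_neg]
    intro h3
    have h2 : tm ω' (v, k) = tm ω (v, k) := by
      unfold tm; rw [h (v, k) (Or.inr (h3.trans_le hs))]
    exact h1 (h2 ▸ h3)

lemma ys_congr {ω ω' : Om V} {t : ℝ}
    (h : ∀ j, tm ω j < t ∨ tm ω' j < t → ω (j.1, j.2, 0) = ω' (j.1, j.2, 0))
    (h' : ∀ j, tm ω j < t → ω (j.1, j.2, 1) = ω' (j.1, j.2, 1)) (j : V × ℤ) (hj : tm ω j < t) :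
    ys G e P ω j = ys G e P ω' j := by
  have : ∀ N j, tm ω j < t → (step G e P ω)^[N] 0 j = (step G e P ω')^[N] 0 j := by
    intro N
    induction N with
    | zero => intro _ _; rfl
    | succ N ih =>
      intro j hj
      rw [Function.iterate_succ_apply', Function.iterate_succ_apply']
      have h2 : tm ω' j = tm ω j := by unfold tm; rw [h j (Or.inl hj)]
      have h3 : ef e P ω' j = ef e P ω j := by unfold ef; rw [h j (Or.inl hj)]
      rw [step, step, h2, h3, xf_congr hj.le h ih, h' j hj]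
  exact this _ j hj

lemma XS_congr {ω ω' : Om V} {t : ℝ}
    (h : ∀ j, tm ω j < t ∨ tm ω' j < t → ω (j.1, j.2, 0) = ω' (j.1, j.2, 0))
    (h' : ∀ j, tm ω j < t → ω (j.1, j.2, 1) = ω' (j.1, j.2, 1)) :
    XS G e P ω t = XS G e P ω' t := xf_congr le_rfl h (ys_congr h h')

section measurable

variable {Ω : Type*} [MeasurableSpace Ω] {w : Ω → Om V}

lemma measurable_coord (hw : Measurable w) (p : V × ℤ × Fin 3) :
    Measurable fun a => (w a p : ℝ) :=
  measurable_subtype_coe.comp ((measurable_pi_apply p).comp hw)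

lemma measurable_tm (hw : Measurable w) (i : V × ℤ) : Measurable fun a => tm (w a) i :=
  (measurable_coord hw _).const_add _

lemma measurable_ef (hw : Measurable w) (i : V × ℤ) : Measurable fun a => ef e P (w a) i := by
  unfold ef
  refine Measurable.ite ?_ measurable_const measurable_const
  exact (MeasurableSet.const _).inter ((MeasurableSet.const _).inter
    (measurableSet_lt (measurable_coord hw _) measurable_const))

lemma measurable_xf (hw : Measurable w) {n : ℕ} {K : ℤ} {y : Ω → V × ℤ → ℝ} (hy : Measurable y)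
    {t : Ω → ℝ} (ht : Measurable t) : Measurable fun a => xf n K (y a) (w a) (t a) :=
  measurable_pi_lambda _ fun v => Finset.measurable_sum _ fun k _ =>
    Measurable.ite (measurableSet_lt (measurable_tm hw _) ht)
      (measurable_ath.comp ((measurable_pi_apply (v, k)).comp hy)) measurable_const

lemma measurable_ys (hw : Measurable w) : Measurable fun a => ys G e P (w a) := by
  have : ∀ N, Measurable fun a => (step G e P (w a))^[N] 0 := by
    intro N
    induction N with
    | zero => exact measurable_const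
    | succ N ih =>
      simp only [Function.iterate_succ_apply']
      exact measurable_pi_lambda _ fun i => measurable_yy (measurable_ef hw i)
        (measurable_mg (measurable_xf hw ih (measurable_tm hw i)) _) (measurable_coord hw _)
  exact measurable_pi_lambda _ fun i => (measurable_pi_apply i).comp (this _)

lemma measurable_XS (hw : Measurable w) (t : ℝ) : Measurable fun a => XS G e P (w a) t :=
  measurable_xf hw (measurable_ys hw) measurable_const

lemma measurable_XS' (hw : Measurable w) {t : Ω → ℝ} (ht : Measurable t) (K : ℤ)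
    (hK : ∀ a, t a ≤ K) : Measurable fun a => XS G e P (w a) (t a) := by
  have : (fun a => XS G e P (w a) (t a)) = fun a => xf P.n K (ys G e P (w a)) (w a) (t a) :=
    funext fun a => xf_window' (Int.le_ceil _) (hK a)
  rw [this]
  exact measurable_xf hw (measurable_ys hw) ht

lemma measurable_XT (hw : Measurable w) (t : ℝ) : Measurable fun a => XT e P (w a) t :=
  measurable_xf hw (measurable_pi_lambda _ fun i => measurable_yy (measurable_ef hw i)
    measurable_const (measurable_coord hw _)) measurable_const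

end measurable

section natural

/-- action of an automorphism on labels -/
def act (g : G ≃g G) (ω : Om V) : Om V := fun p => ω (g p.1, p.2)

lemma measurable_act (g : G ≃g G) : Measurable (act g) := measurable_reindex _

lemma integral_act (g : G ≃g G) {F : Om V → ℝ} (hF : Measurable F) :
    ∫ ω, F (act g ω) ∂PP _ = ∫ ω, F ω ∂PP _ :=
  integral_reindex (e := fun p : V × ℤ × Fin 3 => (g p.1, p.2))
    (fun p q h => by
      simp only [Prod.mk.injEq] at h
      exact Prod.ext (g.injective h.1) h.2) hF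

/-- image of the parameters -/
def Par.map (P : Par V) (g : G ≃g G) : Par V := ⟨P.β, P.n, P.Λ.map g.toEquiv.toEmbedding⟩

lemma ef_map (g : G ≃g G) (ω : Om V) (i : V × ℤ) :
    ef e (P.map g) ω (g i.1, i.2) = ef e P (act g ω) i := by
  have : g i.1 ∈ P.Λ.map g.toEquiv.toEmbedding ↔ i.1 ∈ P.Λ :=
    Finset.mem_map' g.toEquiv.toEmbedding
  unfold ef
  by_cases h : i.1 ∈ P.Λ ∧ -(P.n : ℤ) ≤ i.2 ∧ (ω (g i.1, i.2, 0) : ℝ) < 1 / 2
  · rw [if_pos (by exact ⟨this.2 h.1, h.2⟩), if_pos (by exact h)]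
  · rw [if_neg (fun h' => h ⟨this.1 h'.1, h'.2⟩), if_neg (by exact h)]

lemma ys_map (g : G ≃g G) (ω : Om V) (i : V × ℤ) :
    ys G e (P.map g) ω (g i.1, i.2) = ys G e P (act g ω) i := by
  have : ∀ N (i : V × ℤ), (step G e (P.map g) ω)^[N] 0 (g i.1, i.2) =
      (step G e P (act g ω))^[N] 0 i := by
    intro N
    induction N with
    | zero => intro _; rfl
    | succ N ih =>
      intro i
      rw [Function.iterate_succ_apply', Function.iterate_succ_apply']
      rw [step, step, ef_map]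
      congr 1
      refine (mg_map g i.1).trans ?_
      congr 1
      funext v
      rw [Function.comp_apply, xf, xf]
      refine Finset.sum_congr rfl fun k _ => ?_
      rw [← ih (v, k)]
      rfl
  unfold ys
  rw [this]
  simp [Par.map]

lemma XS_map (g : G ≃g G) (ω : Om V) (t : ℝ) :
    XS G e (P.map g) ω t ∘ g = XS G e P (act g ω) t := by
  funext v
  rw [Function.comp_apply, XS, XS, xf, xf]
  refine Finset.sum_congr rfl fun k _ => ?_
  rw [← ys_map g ω (v, k)]
  rfl

end natural

section frozen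

variable [DecidableEq V]

omit [DecidableEq V] in
lemma time_induction {a : Om V} {all : Finset (V × ℤ)} (hinj : Set.InjOn (tm a) all)
    {Q : ℝ → Prop} (h0 : ∀ t, (∀ j ∈ all, ¬ tm a j < t) → Q t)
    (h1 : ∀ t, ∀ i ∈ all, tm a i < t → (∀ j ∈ all, j ≠ i → (tm a j < t ↔ tm a j < tm a i)) →
      Q (tm a i) → Q t) (t : ℝ) : Q t := by
  classical
  induction h : (all.filter fun j => tm a j < t).card using Nat.strong_induction_on
    generalizing t with
  | _ m ih =>
    rcases (all.filter fun j => tm a j < t).eq_empty_or_nonempty with he | hne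
    · exact h0 t fun j hj hlt => Finset.notMem_empty j (he ▸ Finset.mem_filter.2 ⟨hj, hlt⟩)
    · obtain ⟨i, hi, hmax⟩ := Finset.exists_max_image _ (tm a) hne
      rw [Finset.mem_filter] at hi
      refine h1 t i hi.1 hi.2 (fun j hj hne => ⟨fun hlt => ?_, fun hlt => hlt.trans hi.2⟩)
        (ih _ ?_ _ rfl)
      · exact lt_of_le_of_ne (hmax j (Finset.mem_filter.2 ⟨hj, hlt⟩))
          fun e => hne (hinj hj hi.1 e)
      · rw [← h]
        refine Finset.card_lt_card ⟨fun j hj => ?_, fun hs => ?_⟩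
        · rw [Finset.mem_filter] at hj ⊢
          exact ⟨hj.1, hj.2.trans hi.2⟩
        · exact lt_irrefl _ (Finset.mem_filter.1 (hs (Finset.mem_filter.2 hi))).2

/-- observations made before time `t` -/
noncomputable def mask (ω : Om V) (t : ℝ) (y : V × ℤ → ℝ) : V × ℤ → ℝ :=
  fun j => if tm ω j < t then y j else 0

omit [DecidableEq V] in
lemma xf_mask {n : ℕ} {K : ℤ} (ω : Om V) {t s : ℝ} (hs : s ≤ t) (y : V × ℤ → ℝ) :
    xf n K (mask ω t y) ω s = xf n K y ω s := by
  funext v
  refine Finset.sum_congr rfl fun k _ => ?_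
  split_ifs with h
  · rw [mask, if_pos (h.trans_le hs)]
  · rfl

lemma mask_step {ω : Om V} {L : Finset V} {N : ℕ} {K : ℤ} {t : ℝ} (ht : t ≤ K) {i : V × ℤ}
    (hi : tm ω i < t) (h : ∀ j ∈ L ×ˢ Finset.Ico (-(N : ℤ)) K, j ≠ i →
      (tm ω j < t ↔ tm ω j < tm ω i)) {y : V × ℤ → ℝ}
    (hy : ∀ j : V × ℤ, j.1 ∉ L ∨ j.2 < -(N : ℤ) → y j = 0) :
    mask ω t y = Function.update (mask ω (tm ω i) y) i (y i) := by
  funext j
  by_cases hj : j = i
  · subst hj; simp [mask, hi]
  rw [Function.update_of_ne hj]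
  unfold mask
  by_cases h1 : j ∈ L ×ˢ Finset.Ico (-(N : ℤ)) K
  · simp only [h j h1 hj]
  · rw [Finset.mem_product, Finset.mem_Ico] at h1
    by_cases h2 : j.1 ∉ L ∨ j.2 < -(N : ℤ)
    · simp [hy j h2]
    · have h3 : (K : ℝ) ≤ j.2 := by
        have : K ≤ j.2 := by
          by_contra h4
          exact h1 ⟨by tauto, by omega, by omega⟩
        exact_mod_cast this
      have := le_tm ω j
      rw [if_neg (by linarith), if_neg (by linarith)]

lemma XS_step {ω : Om V} {L : Finset V} {N : ℕ} {K : ℤ} {t : ℝ} (ht : t ≤ K) {i : V × ℤ}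
    (hiL : i ∈ L ×ˢ Finset.Ico (-(N : ℤ)) K)
    (hi : tm ω i < t) (h : ∀ j ∈ L ×ˢ Finset.Ico (-(N : ℤ)) K, j ≠ i →
      (tm ω j < t ↔ tm ω j < tm ω i)) (hL : P.Λ ⊆ L) (hN : P.n ≤ N) :
    XS G e P ω t = XS G e P ω (tm ω i) + Pi.single i.1 (ath (ys G e P ω i)) := by
  have hy : ∀ j : V × ℤ, j.2 < -(P.n : ℤ) → ys G e P ω j = 0 := fun j hj =>
    ys_zero (ef_eq_zero (Or.inr hj))
  unfold XS
  rw [xf_window' (Int.le_ceil _) ht, xf_window' (Int.le_ceil _) (hi.le.trans ht),
    xf_window hN hy ht le_rfl, xf_window hN hy (hi.le.trans ht) le_rfl]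
  funext v
  simp only [Pi.add_apply, xf]
  have e1 : Pi.single (M := fun _ => ℝ) i.1 (ath (ys G e P ω i)) v =
      ∑ k ∈ Finset.Ico (-(N : ℤ)) K, if (v, k) = i then ath (ys G e P ω i) else 0 := by
    by_cases hv : v = i.1
    · subst hv
      rw [Finset.sum_eq_single i.2 (fun b _ hb => if_neg fun h => hb (congrArg Prod.snd h))
        (fun h => absurd (Finset.mem_product.1 hiL).2 h)]
      simp
    · rw [Pi.single_eq_of_ne hv]
      exact (Finset.sum_eq_zero fun k _ => if_neg fun h => hv (congrArg Prod.fst h)).symm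
  rw [e1, ← Finset.sum_add_distrib]
  refine Finset.sum_congr rfl fun k hk => ?_
  by_cases hj : (v, k) = i
  · subst hj; simp [hi]
  rw [if_neg hj, add_zero]
  by_cases hv : v ∈ L
  · simp only [h (v, k) (Finset.mem_product.2 ⟨hv, hk⟩) hj]
  · rw [ys_zero (ef_eq_zero (Or.inl fun h => hv (hL h)))]; simp

lemma pr_step (he : Sched e) {ω : Om V} {i : V × ℤ} (x : V → ℝ) (A : Finset V) :
    pr G P.β P.Λ (x + Pi.single i.1 (ath (ys G e P ω i))) A = pr G P.β P.Λ x A *
      ((1 + sg A i.1 * ys G e P ω i) / (1 + mg G P.β P.Λ x i.1 * ys G e P ω i)) := by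
  by_cases hw : i.1 ∈ P.Λ
  · rw [pr_add_single hw, tanh_ath (((abs_ys_le he ω i).trans (ef_half he ω i)).trans_lt
      (by norm_num))]
  · rw [ys_zero (ef_eq_zero (Or.inl hw))]; simp

lemma mg_step (he : Sched e) {ω : Om V} {i : V × ℤ} (v : V) :
    mg G P.β P.Λ (XS G e P ω (tm ω i) + Pi.single i.1 (ath (ys G e P ω i))) v =
      mg G P.β P.Λ (XS G e P ω (tm ω i)) v + cv G P.β P.Λ (XS G e P ω (tm ω i)) v i.1 *
        eta (ef e P ω i) (mg G P.β P.Λ (XS G e P ω (tm ω i)) i.1) (ω (i.1, i.2, 1)) := by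
  unfold eta
  rw [← ys_fix]
  by_cases hw : i.1 ∈ P.Λ
  · rw [mg_add_single hw, tanh_ath (((abs_ys_le he ω i).trans (ef_half he ω i)).trans_lt
      (by norm_num))]
  · rw [ys_zero (ef_eq_zero (Or.inl hw))]; simp

/-- freeze the clocks -/
noncomputable def frz (a ω : Om V) : Om V := pw {p | p.2.2 = 0} a ω

omit [DecidableEq V] in
lemma frz_zero (a ω : Om V) (v : V) (k : ℤ) : frz a ω (v, k, 0) = a (v, k, 0) :=
  pw_of_mem (S := {p : V × ℤ × Fin 3 | p.2.2 = 0}) (show _ = _ from rfl) _ _

omit [DecidableEq V] in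
lemma frz_one (a ω : Om V) (v : V) (k : ℤ) : frz a ω (v, k, 1) = ω (v, k, 1) :=
  pw_of_notMem (by simp) _ _

omit [DecidableEq V] in
lemma tm_frz (a ω : Om V) : tm (frz a ω) = tm a := by
  funext i; simp only [tm, frz_zero]

omit [DecidableEq V] in
lemma ef_frz (a ω : Om V) : ef e P (frz a ω) = ef e P a := by
  funext i; unfold ef; rw [frz_zero]

omit [DecidableEq V] in
lemma measurable_frz (a : Om V) : Measurable (frz a) := measurable_pw_right _ a

lemma upd_one_ne (ω : Om V) {i j : V × ℤ} (h : j ≠ i) (s : unitInterval) :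
    Function.update ω (i.1, i.2, 1) s (j.1, j.2, 1) = ω (j.1, j.2, 1) :=
  Function.update_of_ne (fun e => h (by
    simp only [Prod.mk.injEq] at e; exact Prod.ext e.1 e.2.1)) _ _

lemma ys_frz_upd (a ω : Om V) (i : V × ℤ) (s : unitInterval) (j : V × ℤ) (hj : tm a j < tm a i) :
    ys G e P (frz a (Function.update ω (i.1, i.2, 1) s)) j = ys G e P (frz a ω) j := by
  refine ys_congr (t := tm a i) (fun j _ => by simp only [frz_zero]) (fun j hj => ?_) j
    (by rwa [tm_frz])
  rw [tm_frz] at hj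
  rw [frz_one, frz_one, upd_one_ne ω (by rintro rfl; exact lt_irrefl _ hj)]

lemma XS_frz_upd (a ω : Om V) (i : V × ℤ) (s : unitInterval) :
    XS G e P (frz a (Function.update ω (i.1, i.2, 1) s)) (tm a i) =
      XS G e P (frz a ω) (tm a i) :=
  xf_congr le_rfl (fun j _ => by simp only [frz_zero]) fun j hj =>
    ys_frz_upd a ω i s j (by rwa [tm_frz] at hj)

theorem frozen_bayes (he : Sched e) {a : Om V} {K : ℤ}
    (hinj : Set.InjOn (tm a) (P.Λ ×ˢ Finset.Ico (-(P.n : ℤ)) K : Finset _)) (A : Finset V)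
    (hA : A ∈ P.Λ.powerset) (t : ℝ) : t ≤ K → ∀ F : (V × ℤ → ℝ) → ℝ, BM F →
      ∫ ω, F (mask a t (ys G e P (frz a ω))) * pr G P.β P.Λ (XS G e P (frz a ω) t) A ∂PP _ =
        pr G P.β P.Λ 0 A *
          ∫ ω : Om V, F (mask a t fun j => sg A j.1 * yy (ef e P a j) 1 (ω (j.1, j.2, 1))) ∂PP _ := by
  have hmm : ∀ (t : ℝ) {y : Om V → V × ℤ → ℝ}, Measurable y → Measurable fun ω => mask a t (y ω) :=
    fun t y hy => measurable_pi_lambda _ fun j => by
      unfold mask
      split_ifs
      · exact (measurable_pi_apply j).comp hy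
      · exact measurable_const
  have hpl : Measurable fun (ω : Om V) (j : V × ℤ) =>
      sg A j.1 * yy (ef e P a j) 1 (ω (j.1, j.2, 1)) :=
    measurable_pi_lambda _ fun j => (measurable_yy measurable_const measurable_const
      (measurable_coord measurable_id _)).const_mul _
  have hpr : ∀ t, BM fun ω => pr G P.β P.Λ (XS G e P (frz a ω) t) A := fun t =>
    BM.of_le (measurable_pr (measurable_XS (measurable_frz a) t) A) 1 fun ω => by
      rw [abs_of_pos (pr_pos A)]; exact pr_le_one hA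
  refine time_induction hinj (Q := fun t => t ≤ K → ∀ F : (V × ℤ → ℝ) → ℝ, BM F →
      ∫ ω, F (mask a t (ys G e P (frz a ω))) * pr G P.β P.Λ (XS G e P (frz a ω) t) A ∂PP _ =
        pr G P.β P.Λ 0 A *
          ∫ ω : Om V, F (mask a t fun j => sg A j.1 * yy (ef e P a j) 1 (ω (j.1, j.2, 1))) ∂PP _)
    ?_ ?_ t
  · intro t h0 ht F _
    have hz : ∀ y : V × ℤ → ℝ, (∀ j : V × ℤ, ef e P a j = 0 → y j = 0) → mask a t y = 0 := by
      intro y hy
      funext j
      unfold mask
      split_ifs with h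
      · refine hy j (ef_eq_zero ?_)
        by_contra hn
        push Not at hn
        refine h0 j (Finset.mem_product.2 ⟨hn.1, Finset.mem_Ico.2 ⟨hn.2, ?_⟩⟩) h
        have := le_tm a j
        exact_mod_cast (show (j.2 : ℝ) < K by linarith)
      · rfl
    have h1 : ∀ ω, mask a t (ys G e P (frz a ω)) = 0 := fun ω =>
      hz _ fun j hj => ys_zero (by rwa [ef_frz])
    have h2 : ∀ ω : Om V, (mask a t fun j => sg A j.1 * yy (ef e P a j) 1 (ω (j.1, j.2, 1))) = 0 :=
      fun ω => hz _ fun j hj => by simp [hj]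
    have h3 : ∀ ω, XS G e P (frz a ω) t = 0 := by
      intro ω
      unfold XS
      rw [← xf_mask _ le_rfl]
      unfold mask
      rw [tm_frz]
      have := h1 ω
      unfold mask at this
      rw [this]
      funext v
      simp [xf]
    simp only [h1, h2, h3, int_const]
    ring
  · intro t i hiL hi h ih ht F hF
    have hs := sg_cases A i.1
    have e0 := (ef_mem (P := P) he a i).1
    have e1 := ef_half (P := P) he a i
    let H : (V × ℤ → ℝ) → ℝ := fun Y =>
      ∫ s : unitInterval, F (Function.update Y i (sg A i.1 * yy (ef e P a i) 1 s))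
    have hH : BM H := BM.integral_right (Ω' := unitInterval) volume
      (F := fun p : (V × ℤ → ℝ) × unitInterval =>
        F (Function.update p.1 i (sg A i.1 * yy (ef e P a i) 1 p.2)))
      (hF.comp (measurable_update'.comp (measurable_fst.prodMk
        ((measurable_yy measurable_const measurable_const
          (measurable_subtype_coe.comp measurable_snd)).const_mul _))))
    have ih' := ih (hi.le.trans ht) H hH
    rw [integral_upd (i.1, i.2, 1) ((hF.comp (hmm t (measurable_ys (measurable_frz a)))).mul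
      (hpr t)), integral_upd (i.1, i.2, 1) (hF.comp (hmm t hpl))]
    have r1 : ∀ (ω : Om V), ∫ s : unitInterval,
        F (mask a t (ys G e P (frz a (Function.update ω (i.1, i.2, 1) s)))) *
          pr G P.β P.Λ (XS G e P (frz a (Function.update ω (i.1, i.2, 1) s)) t) A =
        H (mask a (tm a i) (ys G e P (frz a ω))) *
          pr G P.β P.Λ (XS G e P (frz a ω) (tm a i)) A := by
      intro ω
      have hb := integral_bayes e0 e1
        (abs_mg_le (G := G) (β := P.β) (Λ := P.Λ) (x := XS G e P (frz a ω) (tm a i)) i.1) hs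
        (fun y => F (Function.update (mask a (tm a i) (ys G e P (frz a ω))) i y))
      simp only [H]
      rw [← hb, ← integral_mul_const]
      congr 1
      funext s
      set ω' := frz a (Function.update ω (i.1, i.2, 1) s) with hω'
      have t1 : tm ω' = tm a := tm_frz _ _
      have y1 : ys G e P ω' i = yy (ef e P a i)
          (mg G P.β P.Λ (XS G e P (frz a ω) (tm a i)) i.1) s := by
        rw [ys_fix, t1, hω', ef_frz, XS_frz_upd, frz_one, Function.update_self]
      have m1 := mask_step (ω := a) ht hi h (y := ys G e P ω')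
        fun j hj => ys_zero (ef_eq_zero hj)
      have m2 : mask a (tm a i) (ys G e P ω') = mask a (tm a i) (ys G e P (frz a ω)) := by
        funext j
        unfold mask
        split_ifs with hj
        · exact ys_frz_upd a ω i s j hj
        · rfl
      have x1 := XS_step (G := G) (e := e) (P := P) (ω := ω') ht hiL (t1 ▸ hi) (t1 ▸ h)
        (Finset.Subset.refl _) le_rfl
      rw [m1, m2, x1, pr_step he, t1, hω', XS_frz_upd, ← hω', y1]
      ring
    have r2 : ∀ (ω : Om V), ∫ s : unitInterval, F (mask a t fun j => sg A j.1 *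
        yy (ef e P a j) 1 (Function.update ω (i.1, i.2, 1) s (j.1, j.2, 1))) =
        H (mask a (tm a i) fun j => sg A j.1 * yy (ef e P a j) 1 (ω (j.1, j.2, 1))) := by
      intro ω
      simp only [H]
      congr 1
      funext s
      rw [mask_step (ω := a) ht hi h fun j hj => by simp [ef_eq_zero hj]]
      congr 2
      · funext j
        unfold mask
        split_ifs with hj
        · beta_reduce
          rw [upd_one_ne ω (by rintro rfl; exact lt_irrefl _ hj)]
        · rfl
      · rw [Function.update_self]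
    simp only [r1, r2]
    exact ih'

/-- mean square jump -/
noncomputable def jq (ε ε' C C' m m' : ℝ) : ℝ :=
  ∫ s : unitInterval, (C * eta ε m s - C' * eta ε' m' s) ^ 2

/-- mean square jump of the difference of two samplers at the observation `i` -/
noncomputable def JQ (G : SimpleGraph V) (e : ℤ → ℝ) (P P' : Par V) (v : V) (ω : Om V)
    (i : V × ℤ) : ℝ :=
  jq (ef e P ω i) (ef e P' ω i) (cv G P.β P.Λ (XS G e P ω (tm ω i)) v i.1)
    (cv G P'.β P'.Λ (XS G e P' ω (tm ω i)) v i.1) (mg G P.β P.Λ (XS G e P ω (tm ω i)) i.1)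
    (mg G P'.β P'.Λ (XS G e P' ω (tm ω i)) i.1)

omit [DecidableEq V] in
lemma abs_cv_le_two {β : ℝ} {Λ : Finset V} {x : V → ℝ} (v w : V) : |cv G β Λ x v w| ≤ 2 := by
  unfold cv
  refine (abs_sub _ _).trans ?_
  have h1 : |ex G β Λ x fun A => sg A v * sg A w| ≤ 1 :=
    abs_ex_le fun A => by rw [abs_mul, abs_sg, abs_sg, mul_one]
  have h2 : |mg G β Λ x v * mg G β Λ x w| ≤ 1 := by
    rw [abs_mul]; exact mul_le_one₀ (abs_mg_le _) (abs_nonneg _) (abs_mg_le _)
  linarith

lemma bm_jump {Ω : Type*} [MeasurableSpace Ω] {ε C m : Ω → ℝ} {s : Ω → unitInterval}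
    (hε : Measurable ε) (hC : Measurable C) (hm : Measurable m) (hs : Measurable s)
    (h0 : ∀ a, 0 ≤ ε a) (h1 : ∀ a, ε a ≤ 1 / 2) (h2 : ∀ a, |C a| ≤ 2) (h3 : ∀ a, |m a| ≤ 1) :
    BM fun a => C a * eta (ε a) (m a) (s a) :=
  (BM.of_le hC 2 h2).mul (BM.of_le (measurable_eta hε hm (measurable_subtype_coe.comp hs)) 1
    fun a => (abs_eta_le (h0 a) (h1 a) (h3 a) _).trans (by linarith [h1 a]))

omit [DecidableEq V] in
lemma bm_JQ (he : Sched e) (P P' : Par V) (v : V) (i : V × ℤ) :
    BM fun ω => JQ G e P P' v ω i := by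
  have hX : ∀ P : Par V, Measurable fun p : Om V × unitInterval => XS G e P p.1 (tm p.1 i) :=
    fun P => measurable_XS' measurable_fst (measurable_tm measurable_fst i) _ fun a => tm_le _ i
  have hj : ∀ P : Par V, BM fun p : Om V × unitInterval =>
      cv G P.β P.Λ (XS G e P p.1 (tm p.1 i)) v i.1 *
        eta (ef e P p.1 i) (mg G P.β P.Λ (XS G e P p.1 (tm p.1 i)) i.1) p.2 := fun P =>
    bm_jump (measurable_ef measurable_fst i) (measurable_cv (hX P) _ _) (measurable_mg (hX P) _)
      measurable_snd (fun a => (ef_mem he _ _).1) (fun a => ef_half he _ _)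
      (fun a => abs_cv_le_two _ _) fun a => abs_mg_le _
  exact BM.integral_right volume (((hj P).sub (hj P')).pow 2)

omit [DecidableEq V] in
lemma bm_mg {Ω : Type*} [MeasurableSpace Ω] {X : Ω → V → ℝ} (hX : Measurable X) (β : ℝ)
    (Λ : Finset V) (v : V) : BM fun a => mg G β Λ (X a) v :=
  BM.of_le (measurable_mg hX v) 1 fun _ => abs_mg_le _

theorem frozen_orth (he : Sched e) {P P' : Par V} {a : Om V} {L : Finset V} {N : ℕ} {K : ℤ}
    (hL : P.Λ ⊆ L) (hL' : P'.Λ ⊆ L) (hN : P.n ≤ N) (hN' : P'.n ≤ N)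
    (hinj : Set.InjOn (tm a) (L ×ˢ Finset.Ico (-(N : ℤ)) K : Finset _)) (v : V) (t : ℝ) :
    t ≤ K → ∫ ω, (mg G P.β P.Λ (XS G e P (frz a ω) t) v -
        mg G P'.β P'.Λ (XS G e P' (frz a ω) t) v) ^ 2 ∂PP _ =
      (mg G P.β P.Λ 0 v - mg G P'.β P'.Λ 0 v) ^ 2 +
        ∑ i ∈ L ×ˢ Finset.Ico (-(N : ℤ)) K,
          if tm a i < t then ∫ ω, JQ G e P P' v (frz a ω) i ∂PP _ else 0 := by
  refine time_induction hinj (Q := fun t => t ≤ K →
    ∫ ω, (mg G P.β P.Λ (XS G e P (frz a ω) t) v -
        mg G P'.β P'.Λ (XS G e P' (frz a ω) t) v) ^ 2 ∂PP _ =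
      (mg G P.β P.Λ 0 v - mg G P'.β P'.Λ 0 v) ^ 2 +
        ∑ i ∈ L ×ˢ Finset.Ico (-(N : ℤ)) K,
          if tm a i < t then ∫ ω, JQ G e P P' v (frz a ω) i ∂PP _ else 0) ?_ ?_ t
  · intro t h0 ht
    have h3 : ∀ (P : Par V), P.Λ ⊆ L → P.n ≤ N → ∀ ω, XS G e P (frz a ω) t = 0 := by
      intro P hL hN ω
      unfold XS
      rw [xf_window' (Int.le_ceil _) ht]
      funext v
      refine Finset.sum_eq_zero fun k hk => ?_
      split_ifs with h
      · rw [tm_frz] at h
        rw [ys_zero (ef_eq_zero (Or.inl fun hv => h0 (v, k) (Finset.mem_product.2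
          ⟨hL hv, Finset.Ico_subset_Ico (by omega) le_rfl hk⟩) h))]
        simp
      · rfl
    rw [Finset.sum_eq_zero fun i hi => if_neg (h0 i hi)]
    simp only [h3 P hL hN, h3 P' hL' hN', int_const, add_zero]
  · intro t i hiL hi h ih ht
    have ih' := ih (hi.le.trans ht)
    have hsum : (∑ j ∈ L ×ˢ Finset.Ico (-(N : ℤ)) K,
        if tm a j < t then ∫ ω, JQ G e P P' v (frz a ω) j ∂PP _ else 0) =
        (∑ j ∈ L ×ˢ Finset.Ico (-(N : ℤ)) K,
        if tm a j < tm a i then ∫ ω, JQ G e P P' v (frz a ω) j ∂PP _ else 0) +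
          ∫ ω, JQ G e P P' v (frz a ω) i ∂PP _ := by
      rw [← Finset.add_sum_erase _ _ hiL, ← Finset.add_sum_erase _ _ hiL, if_pos hi,
        if_neg (lt_irrefl _), zero_add, add_comm]
      congr 1
      exact Finset.sum_congr rfl fun j hj => by
        simp only [h j (Finset.mem_of_mem_erase hj) (Finset.ne_of_mem_erase hj)]
    have hD : ∀ t, BM fun ω => (mg G P.β P.Λ (XS G e P (frz a ω) t) v -
        mg G P'.β P'.Λ (XS G e P' (frz a ω) t) v) ^ 2 := fun t =>
      ((bm_mg (measurable_XS (measurable_frz a) t) _ _ v).sub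
        (bm_mg (measurable_XS (measurable_frz a) t) _ _ v)).pow 2
    rw [hsum, ← add_assoc, ← ih', ← int_add (hD _) ((bm_JQ he P P' v i).comp (measurable_frz a)),
      integral_upd (i.1, i.2, 1) (hD t)]
    congr 1
    funext ω
    have r : ∀ (P : Par V), P.Λ ⊆ L → P.n ≤ N → ∀ s : unitInterval,
        mg G P.β P.Λ (XS G e P (frz a (Function.update ω (i.1, i.2, 1) s)) t) v =
          mg G P.β P.Λ (XS G e P (frz a ω) (tm a i)) v +
            cv G P.β P.Λ (XS G e P (frz a ω) (tm a i)) v i.1 *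
              eta (ef e P a i) (mg G P.β P.Λ (XS G e P (frz a ω) (tm a i)) i.1) s := by
      intro P hL hN s
      set ω' := frz a (Function.update ω (i.1, i.2, 1) s) with hω'
      have t1 : tm ω' = tm a := tm_frz _ _
      rw [XS_step (G := G) (e := e) (P := P) (ω := ω') ht hiL (t1 ▸ hi) (t1 ▸ h) hL hN,
        mg_step he, t1, hω', XS_frz_upd, ef_frz, frz_one, Function.update_self]
    simp only [r P hL hN, r P' hL' hN', JQ, jq, tm_frz, ef_frz]
    set D := mg G P.β P.Λ (XS G e P (frz a ω) (tm a i)) v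
    set D' := mg G P'.β P'.Λ (XS G e P' (frz a ω) (tm a i)) v
    set C := cv G P.β P.Λ (XS G e P (frz a ω) (tm a i)) v i.1
    set C' := cv G P'.β P'.Λ (XS G e P' (frz a ω) (tm a i)) v i.1
    set m := mg G P.β P.Λ (XS G e P (frz a ω) (tm a i)) i.1
    set m' := mg G P'.β P'.Λ (XS G e P' (frz a ω) (tm a i)) i.1
    have b1 : BM fun s : unitInterval => C * eta (ef e P a i) m s :=
      bm_jump measurable_const measurable_const measurable_const measurable_id
        (fun _ => (ef_mem he _ _).1) (fun _ => ef_half he _ _) (fun _ => abs_cv_le_two _ _)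
        fun _ => abs_mg_le _
    have b2 : BM fun s : unitInterval => C' * eta (ef e P' a i) m' s :=
      bm_jump measurable_const measurable_const measurable_const measurable_id
        (fun _ => (ef_mem he _ _).1) (fun _ => ef_half he _ _) (fun _ => abs_cv_le_two _ _)
        fun _ => abs_mg_le _
    have z1 := integral_eta (ef_mem (P := P) he a i).1 (ef_half he a i)
      (show |m| ≤ 1 from abs_mg_le _)
    have z2 := integral_eta (ef_mem (P := P') he a i).1 (ef_half he a i)
      (show |m'| ≤ 1 from abs_mg_le _)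
    have e2 : ∀ s : unitInterval, (D + C * eta (ef e P a i) m s - (D' + C' * eta (ef e P' a i) m' s)) ^ 2 =
        ((D - D') ^ 2 + (C * eta (ef e P a i) m s - C' * eta (ef e P' a i) m' s) ^ 2) +
          2 * (D - D') * (C * eta (ef e P a i) m s - C' * eta (ef e P' a i) m' s) := by
      intro s; ring
    simp only [e2]
    rw [int_add (by bm) (by bm), int_add (by bm) (by bm), integral_const_mul, int_sub b1 b2,
      integral_const_mul, integral_const_mul, z1, z2, int_const]
    ring

end frozen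

end Crest.Agent.H5.KS
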