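import Mathlib
import Crest.Agent.H5.KS.Samp

/-!
Averaging over the clocks: Bayes identities and the evolution inequality in finite volume.
-/

set_option autoImplicit false

namespace Crest.Agent.H5.KS

open MeasureTheory Real

variable {V : Type*} {G : SimpleGraph V} {e : ℤ → ℝ} {P : Par V}

lemma int_Ico {a c : ℝ} (h0 : 0 ≤ a) (h : a ≤ c) (h1 : c ≤ 1) :
    ∫ s : unitInterval, (if a ≤ (s : ℝ) ∧ (s : ℝ) < c then (1 : ℝ) else 0) = c - a := by
  rw [integral_subtype (s := unitInterval) measurableSet_Icc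
    (fun z => if a ≤ z ∧ z < c then (1 : ℝ) else 0)]
  have e : (fun z : ℝ => if a ≤ z ∧ z < c then (1 : ℝ) else 0) = (Set.Ico a c).indicator 1 := by
    funext z; simp [Set.indicator, Set.mem_Ico]
  rw [e, integral_indicator_one measurableSet_Ico, Measure.real,
    Measure.restrict_apply measurableSet_Ico, Set.inter_eq_left.2
      (fun z hz => show z ∈ Set.Icc (0 : ℝ) 1 from ⟨h0.trans hz.1, hz.2.le.trans h1⟩),
    Real.volume_Ico,
    ENNReal.toReal_ofReal (by linarith)]

lemma int_half : ∫ s : unitInterval, (if (s : ℝ) < 1 / 2 then (1 : ℝ) else 0) = 1 / 2 := by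
  have := int_Ico (a := 0) (c := 1 / 2) le_rfl (by norm_num) (by norm_num)
  rw [sub_zero] at this
  refine Eq.trans ?_ this
  congr 1
  funext s
  simp [s.2.1]

lemma bm_lt (c : ℝ) : BM fun s : unitInterval => if (s : ℝ) < c then (1 : ℝ) else 0 :=
  (BM.const 1).ite (BM.const 0) (measurableSet_lt measurable_subtype_coe measurable_const)

lemma ae_tm_ne {i j : V × ℤ} (h : i ≠ j) : ∀ᵐ a ∂PO V, tm a i ≠ tm a j := by
  classical
  have hF : BM fun a : Om V => if tm a i = tm a j then (1 : ℝ) else 0 :=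
    (BM.const 1).ite (BM.const 0)
      (measurableSet_eq_fun (measurable_tm measurable_id' i) (measurable_tm measurable_id' j))
  have h0 : ∫ a, (if tm a i = tm a j then (1 : ℝ) else 0) ∂PO V = 0 := by
    rw [integral_upd (i.1, i.2, 0) hF]
    refine (integral_congr_ae (Filter.Eventually.of_forall fun a => ?_)).trans (integral_zero _ _)
    have hne : ((j.1, j.2, 0) : V × ℤ × Fin 3) ≠ (i.1, i.2, 0) := fun e => h (by
      simp only [Prod.mk.injEq] at e; exact Prod.ext e.1.symm e.2.1.symm)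
    simp only [tm, Function.update_self, Function.update_of_ne hne]
    refine (integral_congr_ae ?_).trans (integral_zero _ _)
    have : ({s : unitInterval | (i.2 : ℝ) + s = j.2 + (a (j.1, j.2, 0) : ℝ)}).Subsingleton :=
      fun s hs s' hs' => Subtype.ext (by
        simp only [Set.mem_ofPred_eq] at hs hs'; linarith)
    filter_upwards [measure_eq_zero_iff_ae_notMem.1 (this.measure_zero volume)] with s hs
    exact if_neg hs
  rw [integral_eq_zero_iff_of_nonneg (fun a => by simp only; split_ifs <;> simp) (hF.int _)] at h0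
  filter_upwards [h0] with a ha hh
  simp [hh] at ha

lemma ae_inj (all : Finset (V × ℤ)) : ∀ᵐ a ∂PO V, Set.InjOn (tm a) all := by
  have : ∀ᵐ a ∂PO V, ∀ i ∈ all, ∀ j ∈ all, i ≠ j → tm a i ≠ tm a j := by
    rw [Filter.eventually_all_finset]
    intro i _
    rw [Filter.eventually_all_finset]
    intro j _
    by_cases h : i = j
    · exact Filter.Eventually.of_forall fun a h' => absurd h h'
    · exact (ae_tm_ne h).mono fun a ha _ => ha
  filter_upwards [this] with a ha i hi j hj e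
  by_contra h
  exact ha i hi j hj h e

lemma integral_frz {F : Om V → ℝ} (hF : BM F) :
    ∫ ω, F ω ∂PO V = ∫ a, ∫ ω, F (frz a ω) ∂PO V ∂PO V := integral_pw _ hF

lemma xf_frz {n : ℕ} {K : ℤ} (y : V × ℤ → ℝ) (a ω : Om V) (t : ℝ) :
    xf n K y (frz a ω) t = xf n K y a t := by
  unfold xf; rw [tm_frz]

lemma ath_sg (A : Finset V) (v : V) (y : ℝ) : ath (sg A v * y) = sg A v * ath y := by
  rcases sg_cases A v with h | h <;> simp [h, ath_neg]

lemma xf_sg {n : ℕ} {K : ℤ} (A : Finset V) (y : V × ℤ → ℝ) (a : Om V) (t : ℝ) :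
    xf n K (fun j => sg A j.1 * y j) a t = sg A * xf n K y a t := by
  funext v
  simp only [xf, Pi.mul_apply, Finset.mul_sum, ath_sg, mul_ite, mul_zero]

lemma bm_pr {Ω : Type*} [MeasurableSpace Ω] {X : Ω → V → ℝ} (hX : Measurable X) (β : ℝ)
    {Λ A : Finset V} (hA : A ∈ Λ.powerset) : BM fun a => pr G β Λ (X a) A :=
  BM.of_le (measurable_pr hX A) 1 fun _ => by rw [abs_of_pos (pr_pos A)]; exact pr_le_one hA

lemma measurable_sg_mul {Ω : Type*} [MeasurableSpace Ω] {X : Ω → V → ℝ} (hX : Measurable X)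
    (A : Finset V) : Measurable fun a => sg A * X a :=
  measurable_pi_lambda _ fun v => ((measurable_pi_apply v).comp hX).const_mul _

theorem bayes2 (he : Sched e) {A : Finset V} (hA : A ∈ P.Λ.powerset) {τ t : ℝ} (h : τ ≤ t)
    {Φ : (V → ℝ) × (V → ℝ) → ℝ} (hΦ : BM Φ) :
    ∫ ω, Φ (XS G e P ω τ, XS G e P ω t) * pr G P.β P.Λ (XS G e P ω t) A ∂PO V =
      pr G P.β P.Λ 0 A * ∫ ω, Φ (sg A * XT e P ω τ, sg A * XT e P ω t) ∂PO V := by
  classical
  rw [integral_frz ((hΦ.comp ((measurable_XS measurable_id' τ).prodMk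
      (measurable_XS measurable_id' t))).mul (bm_pr (measurable_XS measurable_id' t) _ hA)),
    integral_frz (hΦ.comp ((measurable_sg_mul (measurable_XT measurable_id' τ) A).prodMk
      (measurable_sg_mul (measurable_XT measurable_id' t) A))), ← integral_const_mul]
  refine integral_congr_ae ?_
  filter_upwards [ae_inj (P.Λ ×ˢ Finset.Ico (-(P.n : ℤ)) ⌈t⌉)] with a ha
  have hm : ∀ s : ℝ, Measurable fun y : V × ℤ → ℝ => xf P.n ⌈s⌉ y a s := fun s =>
    measurable_xf (w := fun _ => a) measurable_const measurable_id' measurable_const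
  have := frozen_bayes (G := G) he ha A hA t (Int.le_ceil t)
    (fun y => Φ (xf P.n ⌈τ⌉ y a τ, xf P.n ⌈t⌉ y a t)) (hΦ.comp ((hm τ).prodMk (hm t)))
  simp only [xf_mask a h, xf_mask a le_rfl, xf_sg] at this
  simp only [XS, XT, xf_frz, ef_frz, frz_one] at this ⊢
  exact this

theorem bayes_mg (he : Sched e) {τ t : ℝ} (h : τ ≤ t) {Φ : (V → ℝ) → ℝ} (hΦ : BM Φ)
    (f : Finset V → ℝ) :
    ∫ ω, Φ (XS G e P ω τ) * ex G P.β P.Λ (XS G e P ω t) f ∂PO V =
      ∑ A ∈ P.Λ.powerset, pr G P.β P.Λ 0 A * f A * ∫ ω, Φ (sg A * XT e P ω τ) ∂PO V := by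
  simp only [ex_eq_sum, Finset.mul_sum, ← mul_assoc]
  rw [int_sum _ fun A hA => (((hΦ.comp (measurable_XS measurable_id' τ)).mul
    (bm_pr (measurable_XS measurable_id' t) _ hA)).mul (BM.const _))]
  refine Finset.sum_congr rfl fun A hA => ?_
  rw [integral_mul_const]
  have := bayes2 (G := G) he hA h (Φ := fun p => Φ p.1) (hΦ.comp measurable_fst)
  simp only at this
  rw [this]
  ring

theorem bayes1 (he : Sched e) (t : ℝ) {Φ : (V → ℝ) → ℝ} (hΦ : BM Φ) :
    ∫ ω, Φ (XS G e P ω t) ∂PO V =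
      ∑ A ∈ P.Λ.powerset, pr G P.β P.Λ 0 A * ∫ ω, Φ (sg A * XT e P ω t) ∂PO V := by
  simpa [ex_one] using bayes_mg (G := G) (P := P) he (le_refl t) hΦ (fun _ => 1)

theorem mart (he : Sched e) {τ t : ℝ} (h : τ ≤ t) (v : V) :
    ∫ ω, (mg G P.β P.Λ (XS G e P ω t) v - mg G P.β P.Λ (XS G e P ω τ) v) ^ 2 ∂PO V =
      ∫ ω, mg G P.β P.Λ (XS G e P ω t) v ^ 2 ∂PO V -
        ∫ ω, mg G P.β P.Λ (XS G e P ω τ) v ^ 2 ∂PO V := by
  have b1 := bm_mg (G := G) (measurable_XS (G := G) (e := e) (P := P) measurable_id' t) P.β P.Λ v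
  have b2 := bm_mg (G := G) (measurable_XS (G := G) (e := e) (P := P) measurable_id' τ) P.β P.Λ v
  have a1 := bayes_mg (G := G) (P := P) he h (bm_mg (G := G) measurable_id' P.β P.Λ v)
    (fun A => sg A v)
  have a2 := bayes_mg (G := G) (P := P) he (le_refl τ) (bm_mg (G := G) measurable_id' P.β P.Λ v)
    (fun A => sg A v)
  rw [← a2] at a1
  have e1 : ∀ a b : ℝ, (a - b) ^ 2 = a ^ 2 - 2 * (b * a) + b * b := fun a b => by ring
  simp only [e1]
  rw [int_add (by bm) (by bm), int_sub (by bm) (by bm), integral_const_mul]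
  unfold mg at a1 ⊢
  rw [a1]
  simp only [sq]
  ring

/-- mean square difference of two samplers -/
noncomputable def ph (G : SimpleGraph V) (e : ℤ → ℝ) (P P' : Par V) (v : V) (t : ℝ) : ℝ :=
  ∫ ω, (mg G P.β P.Λ (XS G e P ω t) v - mg G P'.β P'.Λ (XS G e P' ω t) v) ^ 2 ∂PO V

lemma bm_ph (P P' : Par V) (v : V) (t : ℝ) : BM fun ω =>
    (mg G P.β P.Λ (XS G e P ω t) v - mg G P'.β P'.Λ (XS G e P' ω t) v) ^ 2 :=
  ((bm_mg (measurable_XS measurable_id' t) _ _ v).sub
    (bm_mg (measurable_XS measurable_id' t) _ _ v)).pow 2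

lemma ph_nonneg (P P' : Par V) (v : V) (t : ℝ) : 0 ≤ ph G e P P' v t :=
  integral_nonneg fun _ => sq_nonneg _

lemma sub_sq_le_four {a b : ℝ} (ha : |a| ≤ 1) (hb : |b| ≤ 1) : (a - b) ^ 2 ≤ 4 := by
  rw [abs_le] at ha hb
  nlinarith

lemma ph_le (P P' : Par V) (v : V) (t : ℝ) : ph G e P P' v t ≤ 4 :=
  int_le_const (bm_ph P P' v t) fun _ => sub_sq_le_four (abs_mg_le _) (abs_mg_le _)

lemma jq_nonneg (ε ε' C C' m m' : ℝ) : 0 ≤ jq ε ε' C C' m m' :=
  integral_nonneg fun _ => sq_nonneg _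

lemma bm_JQ_ite (he : Sched e) (P P' : Par V) (v : V) (i : V × ℤ) (t : ℝ) :
    BM fun ω => if tm ω i < t then JQ G e P P' v ω i else 0 :=
  (bm_JQ he P P' v i).ite (BM.const 0)
    (measurableSet_lt (measurable_tm measurable_id' i) measurable_const)

lemma bm_JQ_win (he : Sched e) (P P' : Par V) (v : V) (i : V × ℤ) (t1 t2 : ℝ) :
    BM fun ω => if t1 ≤ tm ω i ∧ tm ω i < t2 then JQ G e P P' v ω i else 0 :=
  (bm_JQ he P P' v i).ite (BM.const 0)
    ((measurableSet_le measurable_const (measurable_tm measurable_id' i)).inter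
      (measurableSet_lt (measurable_tm measurable_id' i) measurable_const))

theorem ph_eq (he : Sched e) {P P' : Par V} {L : Finset V} {N : ℕ} {K : ℤ}
    (hL : P.Λ ⊆ L) (hL' : P'.Λ ⊆ L) (hN : P.n ≤ N) (hN' : P'.n ≤ N) (v : V) {t : ℝ} (ht : t ≤ K) :
    ph G e P P' v t = (mg G P.β P.Λ 0 v - mg G P'.β P'.Λ 0 v) ^ 2 +
      ∑ i ∈ L ×ˢ Finset.Ico (-(N : ℤ)) K,
        ∫ ω, (if tm ω i < t then JQ G e P P' v ω i else 0) ∂PO V := by
  classical
  have hb : ∀ i, BM fun a => ∫ ω, (if tm (frz a ω) i < t then JQ G e P P' v (frz a ω) i else 0)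
      ∂PO V := fun i =>
    BM.integral_right (PO V) ((bm_JQ_ite he P P' v i t).comp (measurable_pw _))
  unfold ph
  rw [integral_frz (bm_ph P P' v t),
    Finset.sum_congr rfl fun i _ => integral_frz (bm_JQ_ite he P P' v i t),
    ← int_sum _ fun i _ => hb i, ← int_const (μ := PO V) ((mg G P.β P.Λ 0 v - _) ^ 2),
    ← int_add (BM.const _) (BM.sum _ fun i _ => hb i)]
  refine integral_congr_ae ?_
  filter_upwards [ae_inj (L ×ˢ Finset.Ico (-(N : ℤ)) K)] with a ha
  rw [frozen_orth he hL hL' hN hN' ha v t ht]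
  congr 1
  refine Finset.sum_congr rfl fun i _ => ?_
  simp only [tm_frz]
  split_ifs <;> simp

theorem ph_sub (he : Sched e) {P P' : Par V} {L : Finset V} {N : ℕ} {K : ℤ}
    (hL : P.Λ ⊆ L) (hL' : P'.Λ ⊆ L) (hN : P.n ≤ N) (hN' : P'.n ≤ N) (v : V) {t1 t2 : ℝ}
    (h : t1 ≤ t2) (ht : t2 ≤ K) :
    ph G e P P' v t2 = ph G e P P' v t1 + ∑ i ∈ L ×ˢ Finset.Ico (-(N : ℤ)) K,
        ∫ ω, (if t1 ≤ tm ω i ∧ tm ω i < t2 then JQ G e P P' v ω i else 0) ∂PO V := by
  rw [ph_eq he hL hL' hN hN' v ht, ph_eq he hL hL' hN hN' v (h.trans ht), add_assoc,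
    ← Finset.sum_add_distrib]
  congr 1
  refine Finset.sum_congr rfl fun i _ => ?_
  rw [← int_add (bm_JQ_ite he P P' v i t1) (bm_JQ_win he P P' v i t1 t2)]
  congr 1
  funext ω
  by_cases h1 : tm ω i < t1
  · simp [h1, h1.trans_le h, not_le.2 h1]
  · simp [h1, not_lt.1 h1]

theorem ph_mono (he : Sched e) (P P' : Par V) (v : V) : Monotone (ph G e P P' v) := by
  classical
  intro t1 t2 h
  rw [ph_sub he Finset.subset_union_left Finset.subset_union_right (le_max_left _ _)
    (le_max_right _ _) v h (Int.le_ceil t2)]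
  refine le_add_of_nonneg_right (Finset.sum_nonneg fun i _ => integral_nonneg fun ω => ?_)
  simp only
  split_ifs
  · exact jq_nonneg _ _ _ _ _ _
  · exact le_rfl

open Classical in
/-- nominal strength -/
noncomputable def en0 (e : ℤ → ℝ) (P : Par V) (w : V) (k : ℤ) : ℝ :=
  if w ∈ P.Λ ∧ -(P.n : ℤ) ≤ k then e k else 0

lemma en0_mem (he : Sched e) (w : V) (k : ℤ) : 0 ≤ en0 e P w k ∧ en0 e P w k ≤ e k := by
  unfold en0; split_ifs
  · exact ⟨(he _).1, le_rfl⟩
  · exact ⟨le_rfl, (he _).1⟩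

lemma ef_eq (ω : Om V) (i : V × ℤ) :
    ef e P ω i = if (ω (i.1, i.2, 0) : ℝ) < 1 / 2 then en0 e P i.1 i.2 else 0 := by
  unfold ef en0
  by_cases h1 : i.1 ∈ P.Λ ∧ -(P.n : ℤ) ≤ i.2
  · rw [if_pos h1]
    by_cases h2 : (ω (i.1, i.2, 0) : ℝ) < 1 / 2
    · rw [if_pos h2, if_pos ⟨h1.1, h1.2, h2⟩]
    · rw [if_neg h2, if_neg fun h => h2 h.2.2]
  · rw [if_neg h1, if_neg fun h => h1 ⟨h.1, h.2.1⟩, ite_self]

/-- mean square jump as a function of the two fields -/
noncomputable def jw (G : SimpleGraph V) (e : ℤ → ℝ) (P P' : Par V) (v : V) (k : ℤ) (w : V)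
    (x x' : V → ℝ) : ℝ :=
  jq (en0 e P w k) (en0 e P' w k) (cv G P.β P.Λ x v w) (cv G P'.β P'.Λ x' v w)
    (mg G P.β P.Λ x w) (mg G P'.β P'.Λ x' w)

lemma jw_nonneg (P P' : Par V) (v : V) (k : ℤ) (w : V) (x x' : V → ℝ) :
    0 ≤ jw G e P P' v k w x x' := jq_nonneg _ _ _ _ _ _

lemma bm_jw (he : Sched e) {Ω : Type*} [MeasurableSpace Ω] {X X' : Ω → V → ℝ}
    (hX : Measurable X) (hX' : Measurable X') (P P' : Par V) (v : V) (k : ℤ) (w : V) :
    BM fun a => jw G e P P' v k w (X a) (X' a) := by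
  classical
  have hj : ∀ (P : Par V) {X : Ω → V → ℝ}, Measurable X → BM fun p : Ω × unitInterval =>
      cv G P.β P.Λ (X p.1) v w * eta (en0 e P w k) (mg G P.β P.Λ (X p.1) w) p.2 := fun P X hX =>
    bm_jump measurable_const (measurable_cv (hX.comp measurable_fst) _ _)
      (measurable_mg (hX.comp measurable_fst) _)
      measurable_snd (fun a => (en0_mem he _ _).1) (fun a => (en0_mem he _ _).2.trans (he _).2)
      (fun a => abs_cv_le_two _ _) fun a => abs_mg_le _
  exact BM.integral_right volume (((hj P hX).sub (hj P' hX')).pow 2)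

/-- rate of growth -/
noncomputable def Gs (G : SimpleGraph V) (e : ℤ → ℝ) (P P' : Par V) (v : V) (k : ℤ)
    (L : Finset V) (τ : ℝ) : ℝ :=
  ∑ w ∈ L, ∫ ω, jw G e P P' v k w (XS G e P ω τ) (XS G e P' ω τ) ∂PO V

lemma measurable_XS_s (k : ℤ) :
    Measurable fun p : unitInterval × Om V => XS G e P p.2 (k + p.1) :=
  measurable_XS' measurable_snd ((measurable_subtype_coe.comp measurable_fst).const_add _) (k + 1)
    fun p => by push_cast; linarith [p.1.2.2]

lemma bm_Gs (he : Sched e) (P P' : Par V) (v : V) (k : ℤ) (L : Finset V) :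
    BM fun s : unitInterval => Gs G e P P' v k L (k + s) :=
  BM.sum _ fun w _ => BM.integral_right (PO V)
    (bm_jw he (measurable_XS_s k) (measurable_XS_s k) P P' v k w)

lemma ms_win (k : ℤ) (t1 t2 : ℝ) :
    MeasurableSet {s : unitInterval | t1 ≤ k + (s : ℝ) ∧ k + (s : ℝ) < t2} :=
  (measurableSet_le measurable_const (measurable_subtype_coe.const_add _)).inter
    (measurableSet_lt (measurable_subtype_coe.const_add _) measurable_const)

attribute [local irreducible] XS jw JQ in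
lemma palm_one (he : Sched e) (P P' : Par V) (v w : V) (k : ℤ) (t1 t2 : ℝ) :
    ∫ ω, (if t1 ≤ tm ω (w, k) ∧ tm ω (w, k) < t2 then JQ G e P P' v ω (w, k) else 0) ∂PO V ≤
      2 * ∫ s : unitInterval, if t1 ≤ k + (s : ℝ) ∧ k + (s : ℝ) < t2 then
        ∫ ω, jw G e P P' v k w (XS G e P ω (k + s)) (XS G e P' ω (k + s)) ∂PO V else 0 := by
  classical
  have hF := bm_JQ_win (G := G) he P P' v (w, k) t1 t2
  have hF' := hF.comp (measurable_update' (a := ((w, k, 0) : V × ℤ × Fin 3)))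
  have hJ := bm_jw (G := G) he (measurable_XS_s (G := G) (e := e) (P := P) k)
    (measurable_XS_s (G := G) (e := e) (P := P') k) P P' v k w
  rw [integral_upd (w, k, 0) hF, integral_integral_swap (hF'.int _), ← integral_const_mul]
  refine int_mono (BM.integral_right (PO V) (hF'.comp measurable_swap))
    ((BM.const 2).mul ((BM.integral_right (PO V) hJ).ite (BM.const 0) (ms_win k t1 t2)))
    fun s => ?_
  have ht : ∀ (ω : Om V) (s : unitInterval),
      tm (Function.update ω (w, k, 0) s) (w, k) = k + s := fun ω s => by simp [tm]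
  simp only [ht]
  split_ifs with h
  swap
  · simp
  have hJs : BM fun ω => jw G e P P' v k w (XS G e P ω (k + s)) (XS G e P' ω (k + s)) :=
    hJ.comp (measurable_prodMk_left (x := s))
  rw [integral_upd (w, k, 0) hJs, ← integral_const_mul]
  refine int_mono ((bm_JQ he P P' v _).comp (measurable_update'.comp
      (measurable_id'.prodMk measurable_const)))
    ((BM.const 2).mul (BM.integral_right volume (hJs.comp measurable_update'))) fun ω => ?_
  by_cases hs : (s : ℝ) < 1 / 2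
  swap
  · have : ∀ P : Par V, ef e P (Function.update ω (w, k, 0) s) (w, k) = 0 := fun P => by
      rw [ef_eq, if_neg (by simpa using hs)]
    simp only [JQ, this, jq, eta_zero, mul_zero, sub_zero]
    simp only [ne_eq, OfNat.ofNat_ne_zero, not_false_eq_true, zero_pow, integral_zero]
    exact mul_nonneg zero_le_two (integral_nonneg fun _ => jw_nonneg _ _ _ _ _ _ _)
  have e1 : ∀ P : Par V, ef e P (Function.update ω (w, k, 0) s) (w, k) = en0 e P w k :=
    fun P => by rw [ef_eq, if_pos (by simpa using hs)]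
  have e2 : JQ G e P P' v (Function.update ω (w, k, 0) s) (w, k) =
      jw G e P P' v k w (XS G e P (Function.update ω (w, k, 0) s) (k + s))
        (XS G e P' (Function.update ω (w, k, 0) s) (k + s)) := by
    simp only [JQ, jw, e1, ht]
  have e3 : ∀ (P : Par V) (s' : unitInterval), ¬ (s' : ℝ) < 1 / 2 →
      XS G e P (Function.update ω (w, k, 0) s) (k + s) =
        XS G e P (Function.update ω (w, k, 0) s') (k + s) := by
    intro P s' hs'
    refine XS_congr (fun j hj => ?_) fun j _ => ?_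
    · by_cases hjw : j = (w, k)
      · subst hjw
        rw [ht, ht] at hj
        rcases hj with hj | hj <;> linarith
      · have hne : ((j.1, j.2, 0) : V × ℤ × Fin 3) ≠ (w, k, 0) := fun e => hjw (by
          simp only [Prod.mk.injEq] at e; exact Prod.ext e.1 e.2.1)
        rw [Function.update_of_ne hne, Function.update_of_ne hne]
    · rw [Function.update_of_ne (by simp), Function.update_of_ne (by simp)]
  rw [e2]
  set b := jw G e P P' v k w (XS G e P (Function.update ω (w, k, 0) s) (k + s))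
        (XS G e P' (Function.update ω (w, k, 0) s) (k + s)) with hb
  have : ∫ s' : unitInterval, (1 - if (s' : ℝ) < 1 / 2 then (1 : ℝ) else 0) * b ≤
      ∫ s' : unitInterval, jw G e P P' v k w (XS G e P (Function.update ω (w, k, 0) s') (k + s))
        (XS G e P' (Function.update ω (w, k, 0) s') (k + s)) := by
    refine int_mono (((BM.const 1).sub (bm_lt _)).mul (BM.const _))
      (hJs.comp (measurable_update _)) fun s' => ?_
    split_ifs with hs'
    · simpa using jw_nonneg _ _ _ _ _ _ _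
    · rw [hb, e3 P s' hs', e3 P' s' hs']; simp
  rw [integral_mul_const, int_sub (BM.const 1) (bm_lt _), int_half, int_const] at this
  linarith

theorem palm (he : Sched e) {P P' : Par V} {L : Finset V} (hL : P.Λ ⊆ L) (hL' : P'.Λ ⊆ L)
    (v : V) (k : ℤ) {t1 t2 : ℝ} (h1 : k ≤ t1) (h : t1 ≤ t2) (h2 : t2 ≤ k + 1) :
    ph G e P P' v t2 ≤ ph G e P P' v t1 + 2 * ∫ s : unitInterval,
      if t1 ≤ k + (s : ℝ) ∧ k + (s : ℝ) < t2 then Gs G e P P' v k L (k + s) else 0 := by
  classical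
  rw [ph_sub he hL hL' (N := max (max P.n P'.n) k.natAbs) (K := k + 1) (by omega) (by omega) v h
    (by push_cast; exact h2), Finset.sum_product]
  refine add_le_add le_rfl ?_
  have hJ : ∀ w, BM fun s : unitInterval => if t1 ≤ k + (s : ℝ) ∧ k + (s : ℝ) < t2 then
      ∫ ω, jw G e P P' v k w (XS G e P ω (k + s)) (XS G e P' ω (k + s)) ∂PO V else 0 := fun w =>
    (BM.integral_right (PO V) (bm_jw (G := G) he (measurable_XS_s (G := G) (e := e) (P := P) k)
      (measurable_XS_s (G := G) (e := e) (P := P') k) P P' v k w)).ite (BM.const 0)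
        (ms_win k t1 t2)
  have e1 : (∫ s : unitInterval,
      if t1 ≤ k + (s : ℝ) ∧ k + (s : ℝ) < t2 then Gs G e P P' v k L (k + s) else 0) =
      ∑ w ∈ L, ∫ s : unitInterval, if t1 ≤ k + (s : ℝ) ∧ k + (s : ℝ) < t2 then
        ∫ ω, jw G e P P' v k w (XS G e P ω (k + s)) (XS G e P' ω (k + s)) ∂PO V else 0 := by
    rw [← int_sum _ fun w _ => hJ w]
    congr 1
    funext s
    split_ifs
    · rfl
    · simp
  rw [e1, Finset.mul_sum]
  refine Finset.sum_le_sum fun w _ => ?_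
  rw [Finset.sum_eq_single k]
  · exact palm_one he P P' v w k t1 t2
  · intro j _ hj
    refine (integral_congr_ae (Filter.Eventually.of_forall fun ω => ?_)).trans (integral_zero _ _)
    split_ifs with hh
    · have hs : ¬ (ω (w, j, 0) : ℝ) < 1 / 2 := by
        intro hs
        have a1 := (ω (w, j, 0)).2.1
        simp only [tm] at hh
        have a2 : ((k - 1 : ℤ) : ℝ) < j := by push_cast; linarith [hh.1]
        have a3 : (j : ℝ) < ((k + 1 : ℤ) : ℝ) := by push_cast; linarith [hh.2]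
        have a4 : k - 1 < j := by exact_mod_cast a2
        have a5 : j < k + 1 := by exact_mod_cast a3
        omega
      have : ∀ P : Par V, ef e P ω (w, j) = 0 := fun P => by rw [ef_eq, if_neg hs]
      simp [JQ, this, jq]
    · rfl
  · intro hk
    exact absurd (Finset.mem_Ico.2 ⟨by omega, by omega⟩) hk

lemma int_win {k : ℤ} {t1 t2 : ℝ} (h1 : k ≤ t1) (h : t1 ≤ t2) (h2 : t2 ≤ k + 1) (b : ℝ) :
    (∫ s : unitInterval, if t1 ≤ k + (s : ℝ) ∧ k + (s : ℝ) < t2 then b else 0) =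
      (t2 - t1) * b := by
  have := int_Ico (a := t1 - k) (c := t2 - k) (by linarith) (by linarith) (by linarith)
  rw [show t2 - t1 = t2 - k - (t1 - k) by ring, ← this, ← integral_mul_const]
  congr 1
  funext s
  by_cases hh : t1 ≤ k + (s : ℝ) ∧ k + (s : ℝ) < t2
  · rw [if_pos hh, if_pos ⟨by linarith [hh.1], by linarith [hh.2]⟩, one_mul]
  · rw [if_neg hh, if_neg fun h' => hh ⟨by linarith [h'.1], by linarith [h'.2]⟩, zero_mul]

theorem palm_sup (he : Sched e) {P P' : Par V} {L : Finset V} (hL : P.Λ ⊆ L) (hL' : P'.Λ ⊆ L)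
    (v : V) (k : ℤ) {t1 t2 b : ℝ} (h1 : k ≤ t1) (h : t1 ≤ t2) (h2 : t2 ≤ k + 1)
    (hb : ∀ τ, t1 ≤ τ → τ ≤ t2 → Gs G e P P' v k L τ ≤ b) :
    ph G e P P' v t2 ≤ ph G e P P' v t1 + 2 * ((t2 - t1) * b) := by
  refine (palm he hL hL' v k h1 h h2).trans ?_
  rw [← int_win h1 h h2]
  refine add_le_add le_rfl (mul_le_mul_of_nonneg_left (int_mono
    ((bm_Gs he P P' v k L).ite (BM.const 0) (ms_win k t1 t2))
    ((BM.const b).ite (BM.const 0) (ms_win k t1 t2)) fun s => ?_) zero_le_two)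
  split_ifs with hh
  · exact hb _ hh.1 hh.2.le
  · exact le_rfl

lemma jq_le_lip {ε C C' m m' : ℝ} (h0 : 0 ≤ ε) (h1 : ε ≤ 1 / 2) (hm : |m| ≤ 1) (hm' : |m'| ≤ 1) :
    jq ε ε C C' m m' ≤ 8 * ε ^ 2 * (C - C') ^ 2 + 128 * ε ^ 4 * C' ^ 2 * (m - m') ^ 2 := by
  have hb : ∀ {m : ℝ}, |m| ≤ 1 → BM fun s : unitInterval => eta ε m s := fun hm =>
    BM.of_le (measurable_eta measurable_const measurable_const measurable_subtype_coe) _
      (abs_eta_le h0 h1 hm)
  have b1 := hb hm
  have b2 := hb hm'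
  refine int_le_const (by bm) fun s => ?_
  have a1 := sq_le_sq' (abs_le.1 (abs_eta_le h0 h1 hm s)).1 (abs_le.1 (abs_eta_le h0 h1 hm s)).2
  have a2 := pow_le_pow_left₀ (abs_nonneg _) (eta_lip h0 h1 hm hm' s) 2
  rw [sq_abs, mul_pow, mul_pow, sq_abs] at a2
  set a := eta ε m s
  set a' := eta ε m' s
  have e1 : C * a - C' * a' = (C - C') * a + C' * (a - a') := by ring
  have a3 : ∀ p q : ℝ, (p + q) ^ 2 ≤ 2 * p ^ 2 + 2 * q ^ 2 := fun p q => by
    nlinarith [sq_nonneg (p - q)]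
  rw [e1]
  refine (a3 _ _).trans ?_
  rw [mul_pow, mul_pow]
  nlinarith [mul_le_mul_of_nonneg_left a1 (sq_nonneg (C - C')),
    mul_le_mul_of_nonneg_left a2 (sq_nonneg C')]

lemma jq_le_crude {ε ε' C C' m m' : ℝ} (h0 : 0 ≤ ε) (h1 : ε ≤ 1 / 2) (h0' : 0 ≤ ε')
    (h1' : ε' ≤ 1 / 2) (hm : |m| ≤ 1) (hm' : |m'| ≤ 1) :
    jq ε ε' C C' m m' ≤ 2 * C ^ 2 + 2 * C' ^ 2 := by
  have b1 : BM fun s : unitInterval => eta ε m s :=
    BM.of_le (measurable_eta measurable_const measurable_const measurable_subtype_coe) _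
      (abs_eta_le h0 h1 hm)
  have b2 : BM fun s : unitInterval => eta ε' m' s :=
    BM.of_le (measurable_eta measurable_const measurable_const measurable_subtype_coe) _
      (abs_eta_le h0' h1' hm')
  refine int_le_const (by bm) fun s => ?_
  have a1 := sq_le_one_of_abs ((abs_eta_le h0 h1 hm s).trans (by linarith : 2 * ε ≤ 1))
  have a2 := sq_le_one_of_abs ((abs_eta_le h0' h1' hm' s).trans (by linarith : 2 * ε' ≤ 1))
  nlinarith [sq_nonneg (C * eta ε m s + C' * eta ε' m' s),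
    mul_le_mul_of_nonneg_left a1 (sq_nonneg C), mul_le_mul_of_nonneg_left a2 (sq_nonneg C')]

end Crest.Agent.H5.KS
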