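import Mathlib
import Crest.Agent.H5.KS.Palm

/-!
The infinite-volume limit of the samplers below the Kesten–Stigum threshold.
-/

set_option autoImplicit false

namespace Crest.Agent.H5.KS

open MeasureTheory Real Filter Topology

variable {V : Type*} {G : SimpleGraph V} {e : ℤ → ℝ} {d : ℕ}

/-- regular tree -/
structure Tr (G : SimpleGraph V) [G.LocallyFinite] (d : ℕ) : Prop where
  tree : G.IsTree
  reg : G.IsRegularOfDegree d
  three : 3 ≤ d

/-- strictly below the threshold -/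
def Sc (d : ℕ) (θ : ℝ) : Prop := 0 ≤ θ ∧ ((d : ℝ) - 1) * θ ^ 2 < 1

lemma two_le_D (hd : 3 ≤ d) : (2 : ℝ) ≤ (d : ℝ) - 1 := by
  have : (3 : ℝ) ≤ d := by exact_mod_cast hd
  linarith

lemma Sc.half {θ : ℝ} (h : Sc d θ) (hd : 3 ≤ d) : θ ^ 2 ≤ 1 / 2 := by
  nlinarith [two_le_D hd, h.2, sq_nonneg θ]

/-- product of the edge factors along a geodesic -/
noncomputable def Gp (G : SimpleGraph V) (θ : ℝ) (μ : V → V → ℝ) (v w : V) : ℝ :=
  ∏ i ∈ Finset.range (G.dist v w), (θ * a0 θ (μ (geo G v w i) (geo G v w (i + 1))))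

/-- covariance written through the messages -/
noncomputable def Cp (G : SimpleGraph V) (θ : ℝ) (μ : V → V → ℝ) (v w : V) : ℝ :=
  (1 - μ v v ^ 2) * Gp G θ μ v w

/-- the belief propagation relation on a directed edge -/
def BPe (θ : ℝ) (μ : V → V → ℝ) (u v : V) : Prop :=
  μ v v * (1 + θ * μ u v * μ v u) = μ u v + θ * μ v u

/-- messages bounded by one -/
def Bd (μ : V → V → ℝ) : Prop := ∀ u v, |μ u v| ≤ 1

lemma mu_lip {θ θ' : ℝ} {μ μ' : V → V → ℝ} {u v : V} (h0 : 0 ≤ θ) (h1 : θ ^ 2 ≤ 1 / 2)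
    (h0' : 0 ≤ θ') (h1' : θ' ^ 2 ≤ 1 / 2) (hμ : Bd μ) (hμ' : Bd μ') (e1 : BPe θ μ u v)
    (e2 : BPe θ μ v u) (e1' : BPe θ' μ' u v) (e2' : BPe θ' μ' v u) :
    |μ u v - μ' u v| ≤ 100000 * (|μ u u - μ' u u| + |μ v v - μ' v v| + |θ - θ'|) :=
  cav_lip h0 h1 h0' h1' (hμ u v) (hμ v u) (hμ' u v) (hμ' v u) e1
    (by unfold BPe at e2; linear_combination e2) e1' (by unfold BPe at e2'; linear_combination e2')

lemma cav_self (β : ℝ) (Λ : Finset V) (x : V → ℝ) (v : V) : cav G β Λ x v v = mg G β Λ x v := by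
  classical
  unfold cav
  rw [Finset.filter_true_of_mem fun z _ => mem_br_self G v z]

lemma bd_cav (β : ℝ) (Λ : Finset V) (x : V → ℝ) : Bd (cav G β Λ x) := fun u v => abs_cav_le u v

lemma bpe_cav (hT : G.IsTree) {β : ℝ} {Λ : Finset V} (x : V → ℝ) {u v : V} (h : G.Adj u v)
    (hu : u ∈ Λ) (hv : v ∈ Λ) : BPe (tanh β) (cav G β Λ x) u v := by
  unfold BPe; rw [cav_self]; exact mg_edge hT h hu hv

lemma cv_eq_Cp (hT : G.IsTree) {β : ℝ} {Λ : Finset V} (x : V → ℝ) {v w : V}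
    (hΛ : ∀ i ≤ G.dist v w, geo G v w i ∈ Λ) :
    cv G β Λ x v w = Cp G (tanh β) (cav G β Λ x) v w := by
  rw [cv_prod hT v w hΛ, Cp, Gp, cav_self]

lemma cv_symm (β : ℝ) (Λ : Finset V) (x : V → ℝ) (v w : V) : cv G β Λ x v w = cv G β Λ x w v := by
  simp only [cv, mul_comm]

lemma Gp_eq (θ : ℝ) (μ : V → V → ℝ) (v w : V) : Gp G θ μ v w =
    θ ^ G.dist v w * ∏ i ∈ Finset.range (G.dist v w), a0 θ (μ (geo G v w i) (geo G v w (i + 1))) := by
  rw [Gp, Finset.prod_mul_distrib, Finset.prod_const, Finset.card_range]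

lemma Gp_mem {θ : ℝ} {μ : V → V → ℝ} (h0 : 0 ≤ θ) (h1 : θ ^ 2 ≤ 1 / 2) (hμ : Bd μ) (v w : V) :
    0 ≤ Gp G θ μ v w ∧ Gp G θ μ v w ≤ θ ^ G.dist v w := by
  rw [Gp_eq]
  exact ⟨mul_nonneg (pow_nonneg h0 _) (Finset.prod_nonneg fun i _ => a0_nonneg h1 (hμ _ _)),
    mul_le_of_le_one_right (pow_nonneg h0 _) (Finset.prod_le_one
      (fun i _ => a0_nonneg h1 (hμ _ _)) fun i _ => a0_le_one h1 (hμ _ _))⟩

lemma Cp_mem {θ : ℝ} {μ : V → V → ℝ} (h0 : 0 ≤ θ) (h1 : θ ^ 2 ≤ 1 / 2) (hμ : Bd μ) (v w : V) :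
    0 ≤ Cp G θ μ v w ∧ Cp G θ μ v w ≤ Gp G θ μ v w := by
  have := sq_le_one_of_abs (hμ v v)
  have h := (Gp_mem (G := G) h0 h1 hμ v w).1
  exact ⟨mul_nonneg (by linarith) h, mul_le_of_le_one_left h (by nlinarith [sq_nonneg (μ v v)])⟩

lemma Cp_lip (hT : G.IsTree) {θ : ℝ} {μ μ' : V → V → ℝ} (h0 : 0 ≤ θ) (h1 : θ ^ 2 ≤ 1 / 2)
    (hμ : Bd μ) (hμ' : Bd μ') {v w : V}
    (hb : ∀ i < G.dist v w, BPe θ μ (geo G v w i) (geo G v w (i + 1)) ∧
      BPe θ μ (geo G v w (i + 1)) (geo G v w i) ∧ BPe θ μ' (geo G v w i) (geo G v w (i + 1)) ∧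
      BPe θ μ' (geo G v w (i + 1)) (geo G v w i)) :
    (Cp G θ μ v w - Cp G θ μ' v w) ^ 2 ≤ 4 * 10 ^ 12 * (θ ^ 2) ^ G.dist v w *
      ((G.dist v w + 1 : ℕ) * ∑ i ∈ Finset.range (G.dist v w + 1),
        (μ (geo G v w i) (geo G v w i) - μ' (geo G v w i) (geo G v w i)) ^ 2) := by
  set j := G.dist v w
  set Δ : ℕ → ℝ := fun i => |μ (geo G v w i) (geo G v w i) - μ' (geo G v w i) (geo G v w i)|
  have hΔ : ∀ i, 0 ≤ Δ i := fun i => abs_nonneg _
  have a1 := abs_prod_sub_prod_le (Finset.range j)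
    (f := fun i => a0 θ (μ (geo G v w i) (geo G v w (i + 1))))
    (g := fun i => a0 θ (μ' (geo G v w i) (geo G v w (i + 1))))
    (fun i _ => by rw [abs_of_nonneg (a0_nonneg h1 (hμ _ _))]; exact a0_le_one h1 (hμ _ _))
    (fun i _ => by rw [abs_of_nonneg (a0_nonneg h1 (hμ' _ _))]; exact a0_le_one h1 (hμ' _ _))
  have a2 : ∑ i ∈ Finset.range j, |a0 θ (μ (geo G v w i) (geo G v w (i + 1))) -
      a0 θ (μ' (geo G v w i) (geo G v w (i + 1)))| ≤
      800000 * (∑ i ∈ Finset.range j, Δ i + ∑ i ∈ Finset.range j, Δ (i + 1)) := by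
    rw [← Finset.sum_add_distrib, Finset.mul_sum]
    refine Finset.sum_le_sum fun i hi => (a0_lip h1 (hμ _ _) (hμ' _ _)).trans ?_
    obtain ⟨b1, b2, b3, b4⟩ := hb i (Finset.mem_range.1 hi)
    have := mu_lip h0 h1 h0 h1 hμ hμ' b1 b2 b3 b4
    rw [sub_self, abs_zero, add_zero] at this
    simp only [Δ]
    linarith
  have a3 := Finset.sum_range_succ Δ j
  have a4 := Finset.sum_range_succ' Δ j
  have a5 : |(1 - μ v v ^ 2) - (1 - μ' v v ^ 2)| ≤ 2 * Δ 0 := by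
    rw [sub_sub_sub_cancel_left, abs_sub_comm]
    simp only [Δ, geo_zero hT]
    refine (abs_sq_sub_sq _ _).trans (mul_le_mul_of_nonneg_right ?_ (abs_nonneg _))
    linarith [hμ v v, hμ' v v]
  have a6 := abs_mul_sub_mul_le (A := 1) (B := 1) (a := 1 - μ v v ^ 2) (a' := 1 - μ' v v ^ 2)
    (b := ∏ i ∈ Finset.range j, a0 θ (μ (geo G v w i) (geo G v w (i + 1))))
    (b' := ∏ i ∈ Finset.range j, a0 θ (μ' (geo G v w i) (geo G v w (i + 1))))
    (by
      have := sq_le_one_of_abs (hμ v v)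
      rw [abs_le]; constructor <;> nlinarith [sq_nonneg (μ v v)])
    (by
      rw [abs_of_nonneg (Finset.prod_nonneg fun i _ => a0_nonneg h1 (hμ' _ _))]
      exact Finset.prod_le_one (fun i _ => a0_nonneg h1 (hμ' _ _)) fun i _ => a0_le_one h1 (hμ' _ _))
  have a7 : 0 ≤ ∑ i ∈ Finset.range j, Δ (i + 1) := Finset.sum_nonneg fun i _ => hΔ _
  have a8 := sq_sum_le_card_mul_sum_sq (s := Finset.range (j + 1)) (f := Δ)
  simp only [Δ, sq_abs, Finset.card_range] at a8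
  have e1 : Cp G θ μ v w - Cp G θ μ' v w = θ ^ j * ((1 - μ v v ^ 2) *
      ∏ i ∈ Finset.range j, a0 θ (μ (geo G v w i) (geo G v w (i + 1))) - (1 - μ' v v ^ 2) *
      ∏ i ∈ Finset.range j, a0 θ (μ' (geo G v w i) (geo G v w (i + 1)))) := by
    simp only [Cp, Gp_eq]; ring
  rw [e1, mul_pow, ← pow_mul, mul_comm j 2, pow_mul, mul_comm (4 * 10 ^ 12 : ℝ), mul_assoc]
  refine mul_le_mul_of_nonneg_left ?_ (by positivity)
  have a9 := pow_le_pow_left₀ (abs_nonneg _) (a6.trans (show _ ≤ 2000000 *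
    ∑ i ∈ Finset.range (j + 1), Δ i by linarith [hΔ j, hΔ 0])) 2
  rw [sq_abs, mul_pow] at a9
  refine a9.trans ?_
  have : (2000000 : ℝ) ^ 2 = 4 * 10 ^ 12 := by norm_num
  rw [this]
  exact mul_le_mul_of_nonneg_left a8 (by norm_num)

lemma ae_summable {Ω : Type*} [MeasurableSpace Ω] {μ : Measure Ω} [IsProbabilityMeasure μ]
    {X : ℕ → Ω → ℝ} (hX : ∀ n, BM (X n)) {A ζ : ℝ} (h0 : 0 ≤ ζ) (h1 : ζ < 1)
    (h : ∀ n, ∫ ω, X n ω ^ 2 ∂μ ≤ A * ζ ^ n) : ∀ᵐ ω ∂μ, Summable fun n => |X n ω| := by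
  have hA : 0 ≤ A := by
    simpa using (integral_nonneg fun ω => sq_nonneg (X 0 ω)).trans (h 0)
  have hs : Summable fun n => √A * √ζ ^ n :=
    (summable_geometric_of_lt_one (sqrt_nonneg _) ((sqrt_lt' one_pos).2 (by rwa [one_pow]))).mul_left _
  have hb : ∀ n, ∫⁻ ω, ‖X n ω‖ₑ ∂μ ≤ ENNReal.ofReal (√A * √ζ ^ n) := by
    intro n
    rw [← ofReal_integral_norm_eq_lintegral_enorm ((hX n).int μ)]
    refine ENNReal.ofReal_le_ofReal (abs_le_of_sq_le_sq' ?_ (by positivity)).2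
    rw [mul_pow, sq_sqrt hA, ← pow_mul, mul_comm n 2, pow_mul, sq_sqrt h0]
    refine (sq_int_le (hX n).abs).trans ?_
    simpa only [sq_abs] using h n
  have hfin : ∫⁻ ω, ∑' n, ‖X n ω‖ₑ ∂μ ≠ ⊤ := by
    rw [lintegral_tsum fun n => (hX n).meas.enorm.aemeasurable]
    refine ne_top_of_le_ne_top ?_ (ENNReal.tsum_le_tsum hb)
    rw [← ENNReal.ofReal_tsum_of_nonneg (fun n => by positivity) hs]
    exact ENNReal.ofReal_ne_top
  filter_upwards [ae_lt_top' (AEMeasurable.tsum fun n => (hX n).meas.enorm.aemeasurable)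
    hfin] with ω hω
  have := ENNReal.tsum_coe_ne_top_iff_summable_coe.1 hω.ne
  simpa using this

lemma limsup_int {Ω : Type*} [MeasurableSpace Ω] {μ : Measure Ω} [IsProbabilityMeasure μ]
    {F : ℕ → Ω → ℝ} {g : Ω → ℝ} (hF : ∀ n, BM (F n)) (hg : BM g) (C : ℝ) (hC : ∀ n ω, F n ω ≤ C)
    (h : ∀ ω, ∀ δ > 0, ∀ᶠ n in atTop, F n ω ≤ g ω + δ) {δ : ℝ} (hδ : 0 < δ) :
    ∀ᶠ n in atTop, ∫ ω, F n ω ∂μ ≤ ∫ ω, g ω ∂μ + δ := by
  obtain ⟨D, hD⟩ := hg.bdd
  have hm : ∀ n, BM fun ω => max (F n ω - g ω) 0 := fun n =>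
    ((hF n).sub hg).cont (φ := fun x => max x 0) (by fun_prop)
  have := tendsto_int (μ := μ) (f := fun _ => 0) (F := fun n ω => max (F n ω - g ω) 0)
    (fun n => (hm n).meas) (|C| + |D|)
    (fun n ω => by
      rw [abs_of_nonneg (le_max_right _ _)]
      refine max_le ?_ (by positivity)
      linarith [hC n ω, le_abs_self C, le_abs_self D, neg_abs_le (g ω), hD ω])
    (Eventually.of_forall fun ω => by
      refine tendsto_order.2 ⟨fun a ha => Eventually.of_forall fun n =>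
        ha.trans_le (le_max_right _ _), fun a ha => ?_⟩
      filter_upwards [h ω (a / 2) (by linarith)] with n hn
      exact max_lt (by linarith) ha)
  rw [integral_zero] at this
  filter_upwards [this.eventually (gt_mem_nhds hδ)] with n hn
  have := int_mono (μ := μ) ((hF n).sub hg) (hm n) fun ω => le_max_left _ _
  rw [int_sub (hF n) hg] at this
  linarith

lemma piece (M : ℕ) (hM : 0 < M) (i : ℤ) :
    ((i / M : ℤ) : ℝ) ≤ (i : ℝ) / M ∧ ((i : ℝ) + 1) / M ≤ ((i / M : ℤ) : ℝ) + 1 := by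
  have h0 : (0 : ℝ) < M := by exact_mod_cast hM
  have h1 := Int.ediv_mul_le i (b := M) (by omega)
  have h2 := Int.lt_ediv_add_one_mul_self i (b := M) (by omega)
  rw [le_div_iff₀ h0, div_le_iff₀ h0]
  constructor
  · exact_mod_cast h1
  · exact_mod_cast (show i + 1 ≤ (i / M + 1) * M by omega)

variable [G.LocallyFinite]

lemma sum_u_le (hG : Tr G d) {y : ℝ} (h0 : 0 ≤ y) (h1 : ((d : ℝ) - 1) * y < 1) :
    ∃ c, 0 < c ∧ ∀ (v : V) (L : Finset V),
      ∑ w ∈ L, y ^ G.dist v w * ((G.dist v w + 1 : ℕ) : ℝ) ^ 2 ≤ c := by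
  have hD := two_le_D hG.three
  have hq : ‖((d : ℝ) - 1) * y‖ < 1 := by rw [Real.norm_of_nonneg (by positivity)]; exact h1
  have hs : Summable fun j : ℕ => 2 * ((d : ℝ) - 1) ^ j * (y ^ j * ((j + 1 : ℕ) : ℝ) ^ 2) := by
    have s2 := summable_pow_mul_geometric_of_norm_lt_one 2 hq
    have s1 := summable_pow_mul_geometric_of_norm_lt_one 1 hq
    have s0 := summable_pow_mul_geometric_of_norm_lt_one 0 hq
    refine ((s2.add ((s1.mul_left 2).add s0)).mul_left 2).congr fun j => ?_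
    rw [mul_pow]; push_cast; ring
  refine ⟨_ + 1, add_pos_of_nonneg_of_pos (tsum_nonneg fun j => by positivity :
    0 ≤ ∑' j : ℕ, 2 * ((d : ℝ) - 1) ^ j * (y ^ j * ((j + 1 : ℕ) : ℝ) ^ 2)) one_pos, fun v L => ?_⟩
  have hL : L ⊆ sub G (L.sup (G.dist v)) v v := fun w hw =>
    (mem_ball hG.tree).2 (Finset.le_sup (f := G.dist v) hw)
  refine (Finset.sum_le_sum_of_subset_of_nonneg hL fun _ _ _ => by positivity).trans ?_
  refine (sum_radial_le hG.tree hG.three hG.reg v _ (fun j => y ^ j * ((j + 1 : ℕ) : ℝ) ^ 2)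
    fun j => by positivity).trans ?_
  exact (hs.sum_le_tsum _ fun j _ => by positivity).trans (le_add_of_nonneg_right zero_le_one)

lemma exists_zeta {θ : ℝ} (hθ : Sc d θ) (hd : 3 ≤ d) :
    ∃ ζ, 0 < ζ ∧ ζ < 1 ∧ ((d : ℝ) - 1) * (θ ^ 2 / ζ) < 1 := by
  have hD := two_le_D hd
  have : 0 ≤ ((d : ℝ) - 1) * θ ^ 2 := by positivity
  refine ⟨(1 + ((d : ℝ) - 1) * θ ^ 2) / 2, by positivity, by linarith [hθ.2], ?_⟩
  rw [← mul_div_assoc, div_lt_one (by positivity)]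
  linarith [hθ.2]

lemma ball_geo (hT : G.IsTree) {v w : V} {r i : ℕ} (hi : i ≤ G.dist v w) (hr : G.dist v w ≤ r) :
    sub G (r - i) (geo G v w i) (geo G v w i) ⊆ sub G r v v := fun z hz => by
  rw [mem_ball hT] at hz ⊢
  have := tri hT v (geo G v w i) z
  have := (geo_spec hT hi).1
  omega

lemma self_mem_ball (hT : G.IsTree) (r : ℕ) (v : V) : v ∈ sub G r v v := by
  simp [mem_ball hT]

lemma vol_step (hG : Tr G d) {β : ℝ} (hβ : Sc d (tanh β)) (he : Sched e) (n : ℕ)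
    (Λ Λ' : Finset V) {ζ c : ℝ} (hζ : 0 < ζ) (hζ1 : ζ < 1)
    (hc : ∀ (v : V) (L : Finset V),
      ∑ w ∈ L, (tanh β ^ 2 / ζ) ^ G.dist v w * ((G.dist v w + 1 : ℕ) : ℝ) ^ 2 ≤ c)
    (R0 : ℕ) {k : ℤ} {t1 t2 A1 : ℝ} (h1 : k ≤ t1) (h : t1 ≤ t2) (h2 : t2 ≤ k + 1)
    (hh : (t2 - t1) * c * (4 * 10 ^ 13) ≤ 1) (hA : 0 ≤ A1)
    (H : ∀ r ≤ R0, ∀ v, sub G r v v ⊆ Λ → sub G r v v ⊆ Λ' →
      ph G e ⟨β, n, Λ⟩ ⟨β, n, Λ'⟩ v t1 ≤ A1 * ζ ^ r) :
    ∀ r ≤ R0, ∀ v, sub G r v v ⊆ Λ → sub G r v v ⊆ Λ' →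
      ph G e ⟨β, n, Λ⟩ ⟨β, n, Λ'⟩ v t2 ≤ (2 * A1 + 1) * ζ ^ r := by
  classical
  have hT := hG.tree
  have hθ := hβ.half hG.three
  set P : Par V := ⟨β, n, Λ⟩
  set P' : Par V := ⟨β, n, Λ'⟩
  set S : Set ℝ := insert 0 {a | ∃ r ≤ R0, ∃ v, sub G r v v ⊆ Λ ∧ sub G r v v ⊆ Λ' ∧
    a = ph G e P P' v t2 / ζ ^ r}
  have hS : BddAbove S := by
    refine ⟨4 / ζ ^ R0, ?_⟩
    rintro a (rfl | ⟨r, hr, v, _, _, rfl⟩)
    · positivity
    · exact div_le_div₀ (by norm_num) (ph_le _ _ _ _) (by positivity)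
        (pow_le_pow_of_le_one hζ.le hζ1.le hr)
  have hA2 : 0 ≤ sSup S := le_csSup hS (Set.mem_insert _ _)
  have H2 : ∀ r ≤ R0, ∀ v, sub G r v v ⊆ Λ → sub G r v v ⊆ Λ' →
      ph G e P P' v t2 ≤ sSup S * ζ ^ r := fun r hr v a1 a2 => by
    rw [← div_le_iff₀ (by positivity)]
    exact le_csSup hS (Or.inr ⟨r, hr, v, a1, a2, rfl⟩)
  have H3 : ∀ r ≤ R0, ∀ v, sub G r v v ⊆ Λ → sub G r v v ⊆ Λ' →
      ph G e P P' v t2 ≤ (A1 + sSup S / 2 + 1 / 2) * ζ ^ r := by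
    intro r hr v a1 a2
    have hw : ∀ τ, t1 ≤ τ → τ ≤ t2 → ∀ w,
        ∫ ω, jw G e P P' v k w (XS G e P ω τ) (XS G e P' ω τ) ∂PO V ≤
          (10 ^ 13 * sSup S + 4) * ζ ^ r *
            ((tanh β ^ 2 / ζ) ^ G.dist v w * ((G.dist v w + 1 : ℕ) : ℝ) ^ 2) := by
      intro τ _ b2 w
      have bj := bm_jw (G := G) he (measurable_XS (G := G) (e := e) (P := P) measurable_id' τ)
        (measurable_XS (G := G) (e := e) (P := P') measurable_id' τ) P P' v k w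
      have hj1 : (1 : ℝ) ≤ ((G.dist v w + 1 : ℕ) : ℝ) := by exact_mod_cast Nat.le_add_left 1 _
      by_cases hr' : G.dist v w ≤ r
      · have hp : ∀ i ≤ G.dist v w, geo G v w i ∈ sub G r v v := fun i hi =>
          ball_geo hT hi hr' (self_mem_ball hT _ _)
        have hw : w ∈ sub G r v v := (mem_ball hT).2 hr'
        have e1 : en0 e P' w k = en0 e P w k := by
          unfold en0
          by_cases hk : -(n : ℤ) ≤ k
          · rw [if_pos ⟨a2 hw, hk⟩, if_pos ⟨a1 hw, hk⟩]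
          · rw [if_neg fun h => hk h.2, if_neg fun h => hk h.2]
        have e2 := en0_mem (P := P) he w k
        have e3 := e2.2.trans (he k).2
        have hφ : ∀ i ∈ Finset.range (G.dist v w + 1), ph G e P P' (geo G v w i) τ ≤
            sSup S * (ζ ^ r / ζ ^ G.dist v w) := by
          intro i hi
          have hi' := Nat.lt_succ_iff.1 (Finset.mem_range.1 hi)
          refine (ph_mono he P P' _ b2).trans ((H2 (r - i) (by omega) _
            ((ball_geo hT hi' hr').trans a1) ((ball_geo hT hi' hr').trans a2)).trans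
            (mul_le_mul_of_nonneg_left ?_ hA2))
          rw [div_eq_mul_inv, ← pow_sub₀ _ hζ.ne' hr']
          exact pow_le_pow_of_le_one hζ.le hζ1.le (by omega)
        have hpt : ∀ ω, jw G e P P' v k w (XS G e P ω τ) (XS G e P' ω τ) ≤
            10 ^ 13 * (tanh β ^ 2) ^ G.dist v w * ((G.dist v w + 1 : ℕ) *
              ∑ i ∈ Finset.range (G.dist v w + 1), (mg G β Λ (XS G e P ω τ) (geo G v w i) -
                mg G β Λ' (XS G e P' ω τ) (geo G v w i)) ^ 2) := by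
          intro ω
          unfold jw
          rw [e1]
          refine (jq_le_lip e2.1 e3 (abs_mg_le _) (abs_mg_le _)).trans ?_
          have c1 := Cp_lip hT hβ.1 hθ (bd_cav β Λ (XS G e P ω τ)) (bd_cav β Λ' (XS G e P' ω τ))
            (v := v) (w := w) fun i hi =>
              ⟨bpe_cav hT _ (geo_adj hT hi) (a1 (hp _ hi.le)) (a1 (hp _ hi)),
                bpe_cav hT _ (geo_adj hT hi).symm (a1 (hp _ hi)) (a1 (hp _ hi.le)),
                bpe_cav hT _ (geo_adj hT hi) (a2 (hp _ hi.le)) (a2 (hp _ hi)),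
                bpe_cav hT _ (geo_adj hT hi).symm (a2 (hp _ hi)) (a2 (hp _ hi.le))⟩
          rw [← cv_eq_Cp hT _ fun i hi => a1 (hp i hi), ← cv_eq_Cp hT _ fun i hi => a2 (hp i hi)]
            at c1
          simp only [cav_self] at c1
          have c2 := pow_le_pow_left₀ (abs_nonneg _)
            (abs_cv_le (Λ := Λ') (x := XS G e P' ω τ) hT hβ.1 hθ v w) 2
          rw [sq_abs, ← pow_mul, mul_comm _ 2, pow_mul] at c2
          have c3 := Finset.single_le_sum (f := fun i => (mg G β Λ (XS G e P ω τ) (geo G v w i) -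
                mg G β Λ' (XS G e P' ω τ) (geo G v w i)) ^ 2) (fun i _ => sq_nonneg _)
            (Finset.self_mem_range_succ (G.dist v w))
          simp only [geo_dist hT] at c3
          set Sg := ∑ i ∈ Finset.range (G.dist v w + 1), (mg G β Λ (XS G e P ω τ) (geo G v w i) -
                mg G β Λ' (XS G e P' ω τ) (geo G v w i)) ^ 2
          have c4 : 0 ≤ Sg := (sq_nonneg _).trans c3
          have c5 : en0 e P w k ^ 2 ≤ 1 / 4 := by nlinarith [e2.1]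
          have c6 : en0 e P w k ^ 4 ≤ 1 / 16 := by nlinarith [sq_nonneg (en0 e P w k)]
          have c7 := mul_le_mul c2 (c3.trans (le_mul_of_one_le_left c4 hj1)) (sq_nonneg _)
            (by positivity)
          have c8 := mul_le_mul c5 c1 (sq_nonneg _) (by norm_num)
          have c9 := mul_le_mul c6 c7 (by positivity) (by norm_num)
          have c10 : 0 ≤ (tanh β ^ 2) ^ G.dist v w * (((G.dist v w + 1 : ℕ) : ℝ) * Sg) := by
            positivity
          simp only [P, P'] at c8 c9 ⊢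
          nlinarith
        have bs : ∀ i, BM fun ω => (mg G β Λ (XS G e P ω τ) (geo G v w i) -
            mg G β Λ' (XS G e P' ω τ) (geo G v w i)) ^ 2 := fun i => bm_ph P P' _ τ
        refine (int_mono bj ((BM.const _).mul ((BM.const _).mul (BM.sum _ fun i _ => bs i)))
          hpt).trans ?_
        rw [integral_const_mul, integral_const_mul, int_sum _ fun i _ => bs i]
        have c1 := Finset.sum_le_card_nsmul _ _ _ hφ
        rw [Finset.card_range, nsmul_eq_mul] at c1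
        have c2 := mul_le_mul_of_nonneg_left (mul_le_mul_of_nonneg_left c1
          (zero_le_one.trans hj1)) (show (0 : ℝ) ≤ 10 ^ 13 * (tanh β ^ 2) ^ G.dist v w by positivity)
        refine c2.trans ?_
        rw [div_pow]
        have : 0 ≤ 4 * ζ ^ r * ((tanh β ^ 2) ^ G.dist v w / ζ ^ G.dist v w *
          ((G.dist v w + 1 : ℕ) : ℝ) ^ 2) := by positivity
        refine le_of_le_of_eq (le_add_of_nonneg_right this) ?_
        ring
      · refine int_le_const bj fun ω => ?_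
        have e2 := en0_mem (P := P) he w k
        have e2' := en0_mem (P := P') he w k
        refine (jq_le_crude e2.1 (e2.2.trans (he k).2) e2'.1 (e2'.2.trans (he k).2)
          (abs_mg_le _) (abs_mg_le _)).trans ?_
        have c2 := pow_le_pow_left₀ (abs_nonneg _)
          (abs_cv_le (Λ := Λ') (x := XS G e P' ω τ) hT hβ.1 hθ v w) 2
        have c1 := pow_le_pow_left₀ (abs_nonneg _)
          (abs_cv_le (Λ := Λ) (x := XS G e P ω τ) hT hβ.1 hθ v w) 2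
        rw [sq_abs, ← pow_mul, mul_comm _ 2, pow_mul] at c1 c2
        have c3 : (tanh β ^ 2) ^ G.dist v w ≤ ζ ^ r * (tanh β ^ 2 / ζ) ^ G.dist v w := by
          rw [div_pow, ← mul_div_assoc, le_div_iff₀ (by positivity), mul_comm]
          exact mul_le_mul_of_nonneg_right (pow_le_pow_of_le_one hζ.le hζ1.le (by omega))
            (by positivity)
        have c4 : ζ ^ r * (tanh β ^ 2 / ζ) ^ G.dist v w ≤ ζ ^ r * ((tanh β ^ 2 / ζ) ^ G.dist v w *
            ((G.dist v w + 1 : ℕ) : ℝ) ^ 2) := mul_le_mul_of_nonneg_left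
          (le_mul_of_one_le_right (by positivity) (one_le_pow₀ hj1)) (by positivity)
        have c5 : 0 ≤ sSup S * (ζ ^ r * ((tanh β ^ 2 / ζ) ^ G.dist v w *
            ((G.dist v w + 1 : ℕ) : ℝ) ^ 2)) := by positivity
        simp only [P, P'] at c1 c2 ⊢
        nlinarith
    have := palm_sup (G := G) he (P := P) (P' := P') (L := Λ ∪ Λ') Finset.subset_union_left
      Finset.subset_union_right v k (b := (10 ^ 13 * sSup S + 4) * ζ ^ r * c) h1 h h2
      fun τ b1 b2 => (Finset.sum_le_sum fun w _ => hw τ b1 b2 w).trans (by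
        rw [← Finset.mul_sum]
        exact mul_le_mul_of_nonneg_left (hc v _) (by positivity))
    have a3 := H r hr v a1 a2
    have a4 : 0 < ζ ^ r := by positivity
    have a5 := mul_le_mul_of_nonneg_right hh (mul_nonneg hA2 a4.le)
    have a6 := mul_le_mul_of_nonneg_right hh a4.le
    have a7 : 0 ≤ c := (Finset.sum_nonneg fun _ _ => by positivity).trans (hc v ∅)
    have a8 : 0 ≤ (t2 - t1) * c * ζ ^ r := by have := sub_nonneg.2 h; positivity
    nlinarith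
  have H4 : sSup S ≤ A1 + sSup S / 2 + 1 / 2 := by
    refine csSup_le ⟨0, Set.mem_insert _ _⟩ ?_
    rintro a (rfl | ⟨r, hr, v, a1, a2, rfl⟩)
    · positivity
    · rw [div_le_iff₀ (by positivity)]
      exact H3 r hr v a1 a2
  intro r hr v a1 a2
  exact (H2 r hr v a1 a2).trans (mul_le_mul_of_nonneg_right (by linarith) (by positivity))

omit [G.LocallyFinite] in
lemma XS_start (P : Par V) (ω : Om V) : XS G e P ω (-(P.n : ℝ)) = 0 := by
  funext v
  have : ⌈-(P.n : ℝ)⌉ = -(P.n : ℤ) := by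
    rw [← Int.ceil_intCast (R := ℝ) (-(P.n : ℤ))]; simp
  simp [XS, xf, this]

theorem vol_cauchy (hG : Tr G d) {β : ℝ} (hβ : Sc d (tanh β)) (he : Sched e) (n : ℕ) (t : ℝ) :
    ∃ A ζ : ℝ, 0 < ζ ∧ ζ < 1 ∧ ∀ (Λ Λ' : Finset V) (r : ℕ) (v : V), sub G r v v ⊆ Λ →
      sub G r v v ⊆ Λ' → ph G e ⟨β, n, Λ⟩ ⟨β, n, Λ'⟩ v t ≤ A * ζ ^ r := by
  obtain ⟨ζ, hζ, hζ1, hq⟩ := exists_zeta hβ hG.three
  obtain ⟨c, hc0, hc⟩ := sum_u_le hG (by positivity) hq
  obtain ⟨M, hM⟩ := exists_nat_gt (c * (4 * 10 ^ 13))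
  have hM0 : (0 : ℝ) < M := lt_trans (by positivity) hM
  have key : ∀ i : ℕ, ∃ A, 0 ≤ A ∧ ∀ (Λ Λ' : Finset V) (R0 : ℕ), ∀ r ≤ R0, ∀ v, sub G r v v ⊆ Λ →
      sub G r v v ⊆ Λ' →
        ph G e ⟨β, n, Λ⟩ ⟨β, n, Λ'⟩ v (((i - n * M : ℤ) : ℝ) / M) ≤ A * ζ ^ r := by
    intro i
    induction i with
    | zero =>
      refine ⟨0, le_rfl, fun Λ Λ' R0 r _ v a1 a2 => ?_⟩
      have : ((((0 : ℕ) : ℤ) - n * M : ℤ) : ℝ) / M = -(n : ℝ) := by
        push_cast; field_simp; ring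
      rw [this]
      have b1 := XS_start (G := G) (e := e) ⟨β, n, Λ⟩
      have b2 := XS_start (G := G) (e := e) ⟨β, n, Λ'⟩
      simp only at b1 b2
      simp [ph, b1, b2, mg_zero (a1 (self_mem_ball hG.tree _ _)),
        mg_zero (a2 (self_mem_ball hG.tree _ _))]
    | succ i ih =>
      obtain ⟨A, hA, H⟩ := ih
      refine ⟨2 * A + 1, by positivity, fun Λ Λ' R0 => ?_⟩
      have hp := piece M (by exact_mod_cast hM0) (i - n * M)
      have e1 : ((((i + 1 : ℕ) : ℤ) - n * M : ℤ) : ℝ) = ((i - n * M : ℤ) : ℝ) + 1 := by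
        push_cast; ring
      rw [e1]
      refine vol_step hG hβ he n Λ Λ' hζ hζ1 hc R0 hp.1
        (div_le_div_of_nonneg_right (by linarith) hM0.le) hp.2 ?_ hA (H Λ Λ' R0)
      rw [← sub_div, add_sub_cancel_left, mul_assoc, one_div_mul_eq_div, div_le_one hM0]
      exact hM.le
  obtain ⟨A, _, H⟩ := key ((n + ⌈t⌉₊) * M)
  refine ⟨A, ζ, hζ, hζ1, fun Λ Λ' r v a1 a2 => (ph_mono he _ _ v ?_).trans (H Λ Λ' r r le_rfl v a1 a2)⟩
  rw [le_div_iff₀ hM0]
  push_cast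
  nlinarith [Nat.le_ceil t]

end Crest.Agent.H5.KS
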