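import Mathlib
import Crest.Agent.H5.KS.Vol

/-!
Infinite-volume messages and the evolution inequality in infinite volume.
-/

set_option autoImplicit false

namespace Crest.Agent.H5.KS

open MeasureTheory Real Filter Topology

variable {V : Type*} {G : SimpleGraph V} [G.LocallyFinite] {e : ℤ → ℝ} {d : ℕ}

/-- the sampler in a ball -/
noncomputable def Pb (G : SimpleGraph V) [G.LocallyFinite] (β : ℝ) (n : ℕ) (o : V) (R : ℕ) :
    Par V := ⟨β, n, sub G R o o⟩

/-- cavity magnetisations of the sampler in a ball -/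
noncomputable def cb (G : SimpleGraph V) [G.LocallyFinite] (e : ℤ → ℝ) (β : ℝ) (n : ℕ) (o : V)
    (R : ℕ) (ω : Om V) (τ : ℝ) : V → V → ℝ :=
  cav G β (sub G R o o) (XS G e (Pb G β n o R) ω τ)

/-- infinite-volume messages -/
noncomputable def mu (G : SimpleGraph V) [G.LocallyFinite] (e : ℤ → ℝ) (β : ℝ) (n : ℕ)
    (ω : Om V) (τ : ℝ) : V → V → ℝ :=
  fun u v => limsup (fun R => cb G e β n v R ω τ u v) atTop

variable {β : ℝ} {n : ℕ}

lemma bd_cb (o : V) (R : ℕ) (ω : Om V) (τ : ℝ) : Bd (cb G e β n o R ω τ) := bd_cav _ _ _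

lemma abs_limsup_le {f : ℕ → ℝ} {c : ℝ} (h : ∀ n, |f n| ≤ c) : |limsup f atTop| ≤ c :=
  abs_le.2 ⟨le_limsup_of_frequently_le (Frequently.of_forall fun n => (abs_le.1 (h n)).1)
      (isBoundedUnder_of ⟨c, fun n => (abs_le.1 (h n)).2⟩),
    limsup_le_of_le (isCoboundedUnder_le_of_le atTop (x := -c) fun n => (abs_le.1 (h n)).1)
      (Eventually.of_forall fun n => (abs_le.1 (h n)).2)⟩

lemma bd_mu (ω : Om V) (τ : ℝ) : Bd (mu G e β n ω τ) := fun u v =>
  abs_limsup_le fun R => bd_cb v R ω τ u v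

lemma measurable_cb (o : V) (R : ℕ) (τ : ℝ) (u v : V) :
    Measurable fun ω => cb G e β n o R ω τ u v :=
  measurable_cav (measurable_XS measurable_id' τ) u v

lemma measurable_mu (τ : ℝ) (u v : V) : Measurable fun ω => mu G e β n ω τ u v :=
  Measurable.limsup fun R => measurable_cb v R τ u v

lemma bm_cb (o : V) (R : ℕ) (τ : ℝ) (u v : V) : BM fun ω => cb G e β n o R ω τ u v :=
  BM.of_le (measurable_cb o R τ u v) 1 fun ω => bd_cb o R ω τ u v

lemma bm_mu (τ : ℝ) (u v : V) : BM fun ω => mu G e β n ω τ u v :=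
  BM.of_le (measurable_mu τ u v) 1 fun ω => bd_mu ω τ u v

lemma cb_self (o : V) (R : ℕ) (ω : Om V) (τ : ℝ) (v : V) :
    cb G e β n o R ω τ v v = mg G β (sub G R o o) (XS G e (Pb G β n o R) ω τ) v := cav_self _ _ _ _

lemma cb_map (hT : G.IsTree) (g : G ≃g G) (o : V) (R : ℕ) (ω : Om V) (τ : ℝ) (u v : V) :
    cb G e β n (g o) R ω τ (g u) (g v) = cb G e β n o R (act g ω) τ u v := by
  unfold cb
  have : Pb G β n (g o) R = (Pb G β n o R).map g := by
    simp only [Pb, Par.map, iso_ball hT]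
  rw [← iso_ball hT g, cav_map hT, this, XS_map]

lemma mu_map (hT : G.IsTree) (g : G ≃g G) (ω : Om V) (τ : ℝ) (u v : V) :
    mu G e β n ω τ (g u) (g v) = mu G e β n (act g ω) τ u v := by
  simp only [mu, cb_map hT]

/-- convergence of all finite-volume messages -/
def Conv (G : SimpleGraph V) [G.LocallyFinite] (e : ℤ → ℝ) (β : ℝ) (n : ℕ) (ω : Om V) (τ : ℝ) :
    Prop := ∀ o u v, Good G u v →
  Tendsto (fun R => cb G e β n o R ω τ u v) atTop (𝓝 (mu G e β n ω τ u v))

lemma ev_mem_ball (hT : G.IsTree) (o v : V) : ∀ᶠ R in atTop, v ∈ sub G R o o :=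
  (eventually_ge_atTop (G.dist o v)).mono fun _ h => (mem_ball hT).2 h

theorem ae_conv (hG : Tr G d) (hβ : Sc d (tanh β)) (he : Sched e) (τ : ℝ) :
    ∀ᵐ ω ∂PO V, Conv G e β n ω τ := by
  have hT := hG.tree
  have hθ := hβ.half hG.three
  have := countable_of_tree hT
  obtain ⟨A, ζ, hζ, hζ1, H⟩ := vol_cauchy hG hβ he n τ
  have h1 : ∀ᵐ ω ∂PO V, ∀ v, Summable fun R =>
      |cb G e β n v R ω τ v v - cb G e β n v (R + 1) ω τ v v| := by
    rw [ae_all_iff]
    intro v
    refine ae_summable (A := A) (fun R => (bm_cb v R τ v v).sub (bm_cb v (R + 1) τ v v)) hζ.le hζ1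
      fun R => ?_
    simp only [cb_self]
    exact H (sub G R v v) (sub G (R + 1) v v) R v (Finset.Subset.refl _) fun z hz => by
      rw [mem_ball hT] at hz ⊢; omega
  have h2 : ∀ᵐ ω ∂PO V, ∀ o v, Summable fun R =>
      |cb G e β n o (R + G.dist o v) ω τ v v - cb G e β n v R ω τ v v| := by
    rw [ae_all_iff]
    intro o
    rw [ae_all_iff]
    intro v
    refine ae_summable (A := A) (fun R => (bm_cb o _ τ v v).sub (bm_cb v R τ v v)) hζ.le hζ1
      fun R => ?_
    simp only [cb_self]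
    exact H (sub G (R + G.dist o v) o o) (sub G R v v) R v (fun z hz => by
      rw [mem_ball hT] at hz ⊢
      have := tri hT o v z
      omega) (Finset.Subset.refl _)
  filter_upwards [h1, h2] with ω h1 h2
  have a1 : ∀ o v, Tendsto (fun R => cb G e β n o R ω τ v v) atTop (𝓝 (mu G e β n ω τ v v)) := by
    intro o v
    obtain ⟨m, hm⟩ := cauchySeq_tendsto_of_complete
      (cauchySeq_of_summable_dist (f := fun R => cb G e β n v R ω τ v v) (h1 v))
    have e1 : mu G e β n ω τ v v = m := hm.limsup_eq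
    rw [e1, ← tendsto_add_atTop_iff_nat (G.dist o v)]
    have := ((tendsto_zero_iff_abs_tendsto_zero _).2 (h2 o v).tendsto_atTop_zero).add hm
    simpa using this
  intro o u v huv
  rcases huv with rfl | huv
  · exact a1 o u
  have a2 : ∀ o o' R R', u ∈ sub G R o o → v ∈ sub G R o o → u ∈ sub G R' o' o' →
      v ∈ sub G R' o' o' → dist (cb G e β n o R ω τ u v) (cb G e β n o' R' ω τ u v) ≤
        100000 * (dist (cb G e β n o R ω τ u u) (cb G e β n o' R' ω τ u u) +
          dist (cb G e β n o R ω τ v v) (cb G e β n o' R' ω τ v v)) := by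
    intro o o' R R' b1 b2 b3 b4
    have := mu_lip hβ.1 hθ hβ.1 hθ (bd_cb (e := e) (n := n) o R ω τ)
      (bd_cb (e := e) (n := n) o' R' ω τ) (bpe_cav hT _ huv b1 b2)
      (bpe_cav hT _ huv.symm b2 b1) (bpe_cav hT _ huv b3 b4) (bpe_cav hT _ huv.symm b4 b3)
    simpa [Real.dist_eq] using this
  have a3 : CauchySeq fun R => cb G e β n v R ω τ u v := by
    rw [cauchySeq_iff_tendsto_dist_atTop_0]
    have b1 := cauchySeq_iff_tendsto_dist_atTop_0.1 (a1 v u).cauchySeq
    have b2 := cauchySeq_iff_tendsto_dist_atTop_0.1 (a1 v v).cauchySeq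
    have b3 := (b1.add b2).const_mul 100000
    rw [add_zero, mul_zero] at b3
    refine squeeze_zero' (Eventually.of_forall fun _ => dist_nonneg) ?_ b3
    filter_upwards [eventually_ge_atTop (G.dist v u, G.dist v u)] with p hp
    exact a2 v v p.1 p.2 ((mem_ball hT).2 hp.1) (self_mem_ball hT _ _) ((mem_ball hT).2 hp.2)
      (self_mem_ball hT _ _)
  obtain ⟨m, hm⟩ := cauchySeq_tendsto_of_complete a3
  have e1 : mu G e β n ω τ u v = m := hm.limsup_eq
  rw [e1]
  refine hm.congr_dist ?_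
  have b3 := (((a1 v u).dist (a1 o u)).add ((a1 v v).dist (a1 o v))).const_mul 100000
  simp only [dist_self, add_zero, mul_zero] at b3
  refine squeeze_zero' (Eventually.of_forall fun _ => dist_nonneg) ?_ b3
  filter_upwards [ev_mem_ball hT v u, ev_mem_ball hT o u, ev_mem_ball hT o v] with R b1 b2 b3
  exact a2 v o R R b1 (self_mem_ball hT _ _) b2 b3

variable {ω : Om V} {τ : ℝ}

lemma Conv.bpe (h : Conv G e β n ω τ) (hT : G.IsTree) {u v : V} (huv : G.Adj u v) :
    BPe (tanh β) (mu G e β n ω τ) u v := by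
  have a1 := h v v v (Or.inl rfl)
  have a2 := h v u v (Or.inr huv)
  have a3 := h v v u (Or.inr huv.symm)
  refine tendsto_nhds_unique_of_eventuallyEq
    (a1.mul (((a2.const_mul (tanh β)).mul a3).const_add 1)) (a2.add (a3.const_mul (tanh β))) ?_
  filter_upwards [ev_mem_ball hT v u] with R hR
  exact bpe_cav hT _ huv hR (self_mem_ball hT _ _)

lemma Conv.Gp (h : Conv G e β n ω τ) (hT : G.IsTree) (hθ : tanh β ^ 2 ≤ 1 / 2) (o v w : V) :
    Tendsto (fun R => Gp G (tanh β) (cb G e β n o R ω τ) v w) atTop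
      (𝓝 (Gp G (tanh β) (mu G e β n ω τ) v w)) :=
  tendsto_finsetProd _ fun _ hi => ((continuousAt_a0 hθ (bd_mu ω τ _ _)).tendsto.comp
    (h o _ _ (Or.inr (geo_adj hT (Finset.mem_range.1 hi))))).const_mul _

lemma ev_geo_mem (hT : G.IsTree) (o v w : V) :
    ∀ᶠ R in atTop, ∀ i ≤ G.dist v w, geo G v w i ∈ sub G R o o := by
  filter_upwards [eventually_ge_atTop (G.dist o v + G.dist v w)] with R hR i hi
  rw [mem_ball hT]
  have := tri hT o v (geo G v w i)
  have := (geo_spec hT hi).1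
  omega

lemma Conv.cv (h : Conv G e β n ω τ) (hT : G.IsTree) (hθ : tanh β ^ 2 ≤ 1 / 2) (o v w : V) :
    Tendsto (fun R => cv G β (sub G R o o) (XS G e (Pb G β n o R) ω τ) v w) atTop
      (𝓝 (Cp G (tanh β) (mu G e β n ω τ) v w)) := by
  refine Tendsto.congr' ?_ ((((h o v v (Or.inl rfl)).pow 2).const_sub 1).mul (h.Gp hT hθ o v w))
  filter_upwards [ev_geo_mem hT o v w] with R hR
  rw [cv_eq_Cp hT _ hR]
  rfl

lemma Conv.Cp_symm (h : Conv G e β n ω τ) (hT : G.IsTree) (hθ : tanh β ^ 2 ≤ 1 / 2) (v w : V) :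
    Cp G (tanh β) (mu G e β n ω τ) v w = Cp G (tanh β) (mu G e β n ω τ) w v :=
  tendsto_nhds_unique (h.cv hT hθ v v w) (by
    simpa only [cv_symm β _ _ w v] using h.cv hT hθ v w v)

lemma Conv.mg (h : Conv G e β n ω τ) (o v : V) :
    Tendsto (fun R => mg G β (sub G R o o) (XS G e (Pb G β n o R) ω τ) v) atTop
      (𝓝 (mu G e β n ω τ v v)) := by
  simpa only [cb_self] using h o v v (Or.inl rfl)

/-- mean square difference of two infinite-volume samplers -/
noncomputable def phi (G : SimpleGraph V) [G.LocallyFinite] (e : ℤ → ℝ) (β : ℝ) (n : ℕ) (β' : ℝ)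
    (n' : ℕ) (v : V) (t : ℝ) : ℝ :=
  ∫ ω, (mu G e β n ω t v v - mu G e β' n' ω t v v) ^ 2 ∂PO V

variable {β' : ℝ} {n' : ℕ}

lemma tendsto_ph (hG : Tr G d) (hβ : Sc d (tanh β)) (hβ' : Sc d (tanh β')) (he : Sched e)
    (v : V) (t : ℝ) : Tendsto (fun R => ph G e (Pb G β n v R) (Pb G β' n' v R) v t) atTop
      (𝓝 (phi G e β n β' n' v t)) := by
  refine tendsto_int (fun R => (bm_ph _ _ v t).meas) 4 (fun R ω => by
    rw [abs_of_nonneg (sq_nonneg _)]; exact sub_sq_le_four (abs_mg_le _) (abs_mg_le _)) ?_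
  filter_upwards [ae_conv (n := n) hG hβ he t, ae_conv (n := n') hG hβ' he t] with ω h h'
  exact ((h.mg v v).sub (h'.mg v v)).pow 2

lemma phi_mono (hG : Tr G d) (hβ : Sc d (tanh β)) (hβ' : Sc d (tanh β')) (he : Sched e)
    (v : V) : Monotone (phi G e β n β' n' v) := fun t1 t2 h =>
  le_of_tendsto_of_tendsto' (tendsto_ph hG hβ hβ' he v t1) (tendsto_ph hG hβ hβ' he v t2)
    fun _ => ph_mono he _ _ v h

lemma phi_nonneg (v : V) (t : ℝ) : 0 ≤ phi G e β n β' n' v t :=
  integral_nonneg fun _ => sq_nonneg _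

lemma phi_trans (hG : Tr G d) (v w : V) (t : ℝ) :
    phi G e β n β' n' w t = phi G e β n β' n' v t := by
  obtain ⟨g, rfl, -⟩ := two_point hG.tree hG.reg (o := v) (z := v) (o' := w) (z' := w) (by simp)
  unfold phi
  simp only [mu_map hG.tree]
  exact integral_act g (((bm_mu t v v).sub (bm_mu t v v)).pow 2).meas

omit [G.LocallyFinite] in
lemma measurable_Gp {Ω : Type*} [MeasurableSpace Ω] {M : Ω → V → V → ℝ}
    (hM : ∀ u v, Measurable fun a => M a u v) (θ : ℝ) (v w : V) :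
    Measurable fun a => Gp G θ (M a) v w :=
  Finset.measurable_prod _ fun _ _ => ((measurable_a0 θ).comp (hM _ _)).const_mul θ

omit [G.LocallyFinite] in
lemma bm_Gp {Ω : Type*} [MeasurableSpace Ω] {M : Ω → V → V → ℝ}
    (hM : ∀ u v, Measurable fun a => M a u v) (hb : ∀ a, Bd (M a)) {θ : ℝ} (h0 : 0 ≤ θ)
    (h1 : θ ^ 2 ≤ 1 / 2) (v w : V) : BM fun a => Gp G θ (M a) v w :=
  BM.of_le (measurable_Gp hM θ v w) _ fun a => by
    rw [abs_of_nonneg (Gp_mem h0 h1 (hb a) v w).1]; exact (Gp_mem h0 h1 (hb a) v w).2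

omit [G.LocallyFinite] in
lemma bm_Cp {Ω : Type*} [MeasurableSpace Ω] {M : Ω → V → V → ℝ}
    (hM : ∀ u v, Measurable fun a => M a u v) (hb : ∀ a, Bd (M a)) {θ : ℝ} (h0 : 0 ≤ θ)
    (h1 : θ ^ 2 ≤ 1 / 2) (v w : V) : BM fun a => Cp G θ (M a) v w :=
  ((BM.const 1).sub ((BM.of_le (hM v v) 1 fun a => hb a v v).pow 2)).mul (bm_Gp hM hb h0 h1 v w)

/-- bound on the mean square jump -/
noncomputable def Bw (G : SimpleGraph V) (ε θ θ' : ℝ) (μ μ' : V → V → ℝ) (v w : V) : ℝ :=
  8 * ε ^ 2 * (Cp G θ μ v w - Cp G θ' μ' v w) ^ 2 +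
    128 * ε ^ 4 * Cp G θ' μ' v w ^ 2 * (μ w w - μ' w w) ^ 2

theorem evolve (hG : Tr G d) (hβ : Sc d (tanh β)) (hβ' : Sc d (tanh β')) (he : Sched e)
    (v : V) {k : ℤ} (hk : -(n : ℤ) ≤ k) (hk' : -(n' : ℤ) ≤ k) {t1 t2 b : ℝ} (h1 : k ≤ t1)
    (h : t1 ≤ t2) (h2 : t2 ≤ k + 1)
    (hb : ∀ τ, t1 ≤ τ → τ ≤ t2 → ∀ J, ∑ w ∈ sub G J v v,
      ∫ ω, Bw G (e k) (tanh β) (tanh β') (mu G e β n ω τ) (mu G e β' n' ω τ) v w ∂PO V ≤ b) :
    phi G e β n β' n' v t2 ≤ phi G e β n β' n' v t1 + 2 * ((t2 - t1) * b) := by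
  classical
  have hT := hG.tree
  have hθ := hβ.half hG.three
  have hθ' := hβ'.half hG.three
  obtain ⟨ζ, hζ, hζ1, hq⟩ := exists_zeta (θ := max (tanh β) (tanh β'))
    (by rcases max_cases (tanh β) (tanh β') with h | h <;> rw [h.1] <;> assumption) hG.three
  obtain ⟨c, hc0, hc⟩ := sum_u_le hG (by positivity) hq
  set y := max (tanh β) (tanh β') ^ 2 / ζ with hy
  have hcr : ∀ R τ w J, J ≤ G.dist v w → ∫ ω, jw G e (Pb G β n v R) (Pb G β' n' v R) v k w
      (XS G e (Pb G β n v R) ω τ) (XS G e (Pb G β' n' v R) ω τ) ∂PO V ≤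
        4 * ζ ^ J * (y ^ G.dist v w * ((G.dist v w + 1 : ℕ) : ℝ) ^ 2) := by
    intro R τ w J hJ
    refine int_le_const (bm_jw he (measurable_XS measurable_id' τ)
      (measurable_XS measurable_id' τ) _ _ v k w) fun ω => ?_
    have e2 := en0_mem (P := Pb G β n v R) he w k
    have e2' := en0_mem (P := Pb G β' n' v R) he w k
    refine (jq_le_crude e2.1 (e2.2.trans (he k).2) e2'.1 (e2'.2.trans (he k).2)
      (abs_mg_le _) (abs_mg_le _)).trans ?_
    have c1 := pow_le_pow_left₀ (abs_nonneg _) ((abs_cv_le (Λ := sub G R v v)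
      (x := XS G e (Pb G β n v R) ω τ) hT hβ.1 hθ v w).trans
        (pow_le_pow_left₀ hβ.1 (le_max_left _ (tanh β')) _)) 2
    have c2 := pow_le_pow_left₀ (abs_nonneg _) ((abs_cv_le (Λ := sub G R v v)
      (x := XS G e (Pb G β' n' v R) ω τ) hT hβ'.1 hθ' v w).trans
        (pow_le_pow_left₀ hβ'.1 (le_max_right (tanh β) _) _)) 2
    rw [sq_abs, ← pow_mul, mul_comm _ 2, pow_mul] at c1 c2
    have c3 : (max (tanh β) (tanh β') ^ 2) ^ G.dist v w ≤ ζ ^ J * y ^ G.dist v w := by
      rw [hy, div_pow, ← mul_div_assoc, le_div_iff₀ (by positivity), mul_comm]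
      exact mul_le_mul_of_nonneg_right (pow_le_pow_of_le_one hζ.le hζ1.le hJ) (by positivity)
    have hj1 : (1 : ℝ) ≤ ((G.dist v w + 1 : ℕ) : ℝ) := by exact_mod_cast Nat.le_add_left 1 _
    have c4 : ζ ^ J * y ^ G.dist v w ≤ ζ ^ J * (y ^ G.dist v w *
        ((G.dist v w + 1 : ℕ) : ℝ) ^ 2) := mul_le_mul_of_nonneg_left
      (le_mul_of_one_le_right (by positivity) (one_le_pow₀ hj1)) (by positivity)
    simp only [Pb] at c1 c2 ⊢
    linarith
  have hGs : ∀ τ, t1 ≤ τ → τ ≤ t2 → ∀ δ > 0, ∀ᶠ R in atTop,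
      Gs G e (Pb G β n v R) (Pb G β' n' v R) v k (sub G R v v) τ ≤ b + δ := by
    intro τ b1 b2 δ hδ
    obtain ⟨J, hJ⟩ := ((tendsto_pow_atTop_nhds_zero_of_lt_one hζ.le hζ1).const_mul
      (4 * c)).eventually (gt_mem_nhds (show 4 * c * 0 < δ / 2 by linarith)) |>.exists
    have hlim : Tendsto (fun R => ∑ w ∈ sub G J v v, ∫ ω, (8 * e k ^ 2 *
        (cv G β (sub G R v v) (XS G e (Pb G β n v R) ω τ) v w -
          cv G β' (sub G R v v) (XS G e (Pb G β' n' v R) ω τ) v w) ^ 2 + 128 * e k ^ 4 *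
          cv G β' (sub G R v v) (XS G e (Pb G β' n' v R) ω τ) v w ^ 2 *
          (mg G β (sub G R v v) (XS G e (Pb G β n v R) ω τ) w -
            mg G β' (sub G R v v) (XS G e (Pb G β' n' v R) ω τ) w) ^ 2) ∂PO V) atTop
        (𝓝 (∑ w ∈ sub G J v v, ∫ ω, Bw G (e k) (tanh β) (tanh β') (mu G e β n ω τ)
          (mu G e β' n' ω τ) v w ∂PO V)) := by
      refine tendsto_finsetSum _ fun w _ => tendsto_int (fun R => ?_)
        (8 * e k ^ 2 * 16 + 128 * e k ^ 4 * 4 * 4) (fun R ω => ?_) ?_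
      · have m1 := measurable_XS (G := G) (e := e) (P := Pb G β n v R) measurable_id' τ
        have m2 := measurable_XS (G := G) (e := e) (P := Pb G β' n' v R) measurable_id' τ
        exact ((((measurable_cv m1 v w).sub (measurable_cv m2 v w)).pow_const 2).const_mul _).add
          ((((measurable_cv m2 v w).pow_const 2).const_mul _).mul
            (((measurable_mg m1 w).sub (measurable_mg m2 w)).pow_const 2))
      · rw [abs_of_nonneg (by positivity)]
        have c1 := abs_le.1 (abs_cv_le_two (G := G) (β := β) (Λ := sub G R v v)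
          (x := XS G e (Pb G β n v R) ω τ) v w)
        have c2 := abs_le.1 (abs_cv_le_two (G := G) (β := β') (Λ := sub G R v v)
          (x := XS G e (Pb G β' n' v R) ω τ) v w)
        gcongr
        · nlinarith
        · nlinarith
        · exact sub_sq_le_four (abs_mg_le _) (abs_mg_le _)
      · filter_upwards [ae_conv (n := n) hG hβ he τ, ae_conv (n := n') hG hβ' he τ] with ω h h'
        exact ((((h.cv hT hθ v v w).sub (h'.cv hT hθ' v v w)).pow 2).const_mul _).add
          ((((h'.cv hT hθ' v v w).pow 2).const_mul _).mul (((h.mg v w).sub (h'.mg v w)).pow 2))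
    filter_upwards [hlim.eventually (gt_mem_nhds (show _ < b + δ / 2 by
      linarith [hb τ b1 b2 J])), eventually_ge_atTop J] with R hR hJR
    have hsub : sub G J v v ⊆ sub G R v v := fun z hz => by
      rw [mem_ball hT] at hz ⊢; omega
    unfold Gs
    rw [← Finset.sum_sdiff hsub]
    have s1 := (Finset.sum_le_sum (s := sub G R v v \ sub G J v v) fun w hw => hcr R τ w J (by
      have := (Finset.mem_sdiff.1 hw).2
      rw [mem_ball hT] at this; omega)).trans (show _ ≤ 4 * ζ ^ J * c by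
        rw [← Finset.mul_sum]
        exact mul_le_mul_of_nonneg_left (hc v _) (by positivity))
    refine (add_le_add s1 (le_trans (Finset.sum_le_sum fun w hw => ?_) hR.le)).trans (by linarith)
    have m1 := measurable_XS (G := G) (e := e) (P := Pb G β n v R) measurable_id' τ
    have m2 := measurable_XS (G := G) (e := e) (P := Pb G β' n' v R) measurable_id' τ
    have b1 := BM.of_le (measurable_cv (G := G) (β := β) (Λ := sub G R v v) m1 v w) 2
      fun _ => abs_cv_le_two _ _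
    have b2 := BM.of_le (measurable_cv (G := G) (β := β') (Λ := sub G R v v) m2 v w) 2
      fun _ => abs_cv_le_two _ _
    have b3 := bm_mg (G := G) m1 β (sub G R v v) w
    have b4 := bm_mg (G := G) m2 β' (sub G R v v) w
    refine int_mono (bm_jw he m1 m2 _ _ v k w) (by bm) fun ω => ?_
    have e1 : en0 e (Pb G β n v R) w k = e k := if_pos ⟨hsub hw, hk⟩
    have e2 : en0 e (Pb G β' n' v R) w k = e k := if_pos ⟨hsub hw, hk'⟩
    unfold jw
    rw [e1, e2]
    exact jq_le_lip (he k).1 (he k).2 (abs_mg_le _) (abs_mg_le _)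
  refine le_of_forall_pos_le_add fun δ hδ => ?_
  have hev := limsup_int (μ := volume) (F := fun R (s : unitInterval) =>
      if t1 ≤ k + (s : ℝ) ∧ k + (s : ℝ) < t2 then
        Gs G e (Pb G β n v R) (Pb G β' n' v R) v k (sub G R v v) (k + s) else 0)
    (g := fun s => if t1 ≤ k + (s : ℝ) ∧ k + (s : ℝ) < t2 then b else 0)
    (fun R => (bm_Gs he _ _ v k _).ite (BM.const 0) (ms_win k t1 t2))
    ((BM.const b).ite (BM.const 0) (ms_win k t1 t2)) (4 * ζ ^ 0 * c)
    (fun R s => by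
      split_ifs
      · refine (Finset.sum_le_sum fun w _ => hcr R _ w 0 (Nat.zero_le _)).trans ?_
        rw [← Finset.mul_sum]
        exact mul_le_mul_of_nonneg_left (hc v _) (by positivity)
      · positivity)
    (fun s δ hδ => by
      split_ifs with hs
      · exact hGs _ hs.1 hs.2.le δ hδ
      · exact Eventually.of_forall fun _ => by linarith) (half_pos hδ)
  rw [int_win h1 h h2] at hev
  refine le_of_tendsto_of_tendsto (tendsto_ph hG hβ hβ' he v t2)
    (((tendsto_ph hG hβ hβ' he v t1).add_const _).add_const δ) ?_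
  filter_upwards [hev] with R hR
  have := palm (G := G) he (P := Pb G β n v R) (P' := Pb G β' n' v R) (L := sub G R v v)
    (Finset.Subset.refl _) (Finset.Subset.refl _) v k h1 h h2
  linarith

/-- mean square magnetisation -/
noncomputable def vv (G : SimpleGraph V) [G.LocallyFinite] (e : ℤ → ℝ) (β : ℝ) (n : ℕ) (v : V)
    (t : ℝ) : ℝ := ∫ ω, mu G e β n ω t v v ^ 2 ∂PO V

lemma tendsto_vv (hG : Tr G d) (hβ : Sc d (tanh β)) (he : Sched e) (o v : V) (t : ℝ) :
    Tendsto (fun R => ∫ ω, mg G β (sub G R o o) (XS G e (Pb G β n o R) ω t) v ^ 2 ∂PO V) atTop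
      (𝓝 (vv G e β n v t)) := by
  refine tendsto_int (fun R => (measurable_mg (measurable_XS measurable_id' t) v).pow_const 2) 1
    (fun R ω => by rw [abs_of_nonneg (sq_nonneg _)]; exact sq_le_one_of_abs (abs_mg_le _)) ?_
  filter_upwards [ae_conv (n := n) hG hβ he t] with ω h
  exact (h.mg o v).pow 2

theorem mart_lim (hG : Tr G d) (hβ : Sc d (tanh β)) (he : Sched e) {τ t : ℝ} (h : τ ≤ t) (v : V) :
    ∫ ω, (mu G e β n ω t v v - mu G e β n ω τ v v) ^ 2 ∂PO V =
      vv G e β n v t - vv G e β n v τ := by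
  refine tendsto_nhds_unique ?_ (((tendsto_vv hG hβ he v v t).sub
    (tendsto_vv hG hβ he v v τ)).congr fun R => (mart (P := Pb G β n v R) he h v).symm)
  refine tendsto_int (fun R => ((measurable_mg (measurable_XS measurable_id' t) v).sub
    (measurable_mg (measurable_XS measurable_id' τ) v)).pow_const 2) 4 (fun R ω => by
    rw [abs_of_nonneg (sq_nonneg _)]; exact sub_sq_le_four (abs_mg_le _) (abs_mg_le _)) ?_
  filter_upwards [ae_conv (n := n) hG hβ he t, ae_conv (n := n) hG hβ he τ] with ω h h'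
  exact ((h.mg v v).sub (h'.mg v v)).pow 2

lemma vv_trans (hG : Tr G d) (v w : V) (t : ℝ) : vv G e β n w t = vv G e β n v t := by
  obtain ⟨g, rfl, -⟩ := two_point hG.tree hG.reg (o := v) (z := v) (o' := w) (z' := w) (by simp)
  unfold vv
  simp only [mu_map hG.tree]
  exact integral_act g ((bm_mu t v v).pow 2).meas

lemma vv_mem (v : V) (t : ℝ) : 0 ≤ vv G e β n v t ∧ vv G e β n v t ≤ 1 :=
  ⟨integral_nonneg fun _ => sq_nonneg _,
    int_le_const ((bm_mu t v v).pow 2) fun ω => sq_le_one_of_abs (bd_mu ω t v v)⟩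

lemma vv_mono (hG : Tr G d) (hβ : Sc d (tanh β)) (he : Sched e) (v : V) :
    Monotone (vv G e β n v) := fun t1 t2 h => by
  rw [← sub_nonneg, ← mart_lim hG hβ he h]
  exact integral_nonneg fun _ => sq_nonneg _

end Crest.Agent.H5.KS
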