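import Mathlib
import Crest.Agent.H5.KS.Prob

/-!
Random variables with the Nishimori symmetry.
-/

set_option autoImplicit false

namespace Crest.Agent.H5.KS

open MeasureTheory Real

lemma BM.cont₂ {Ω : Type*} [MeasurableSpace Ω] {f g : Ω → ℝ} (hf : BM f) (hg : BM g)
    {φ : ℝ → ℝ → ℝ} (hφ : Continuous fun p : ℝ × ℝ => φ p.1 p.2) : BM fun ω => φ (f ω) (g ω) := by
  obtain ⟨C, hC⟩ := hf.bdd
  obtain ⟨C', hC'⟩ := hg.bdd
  obtain ⟨D, hD⟩ := ((isCompact_Icc (a := -C) (b := C)).prod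
    (isCompact_Icc (a := -C') (b := C'))).exists_bound_of_continuousOn hφ.continuousOn
  exact ⟨hφ.measurable.comp (hf.meas.prodMk hg.meas), D,
    fun ω => hD (f ω, g ω) ⟨abs_le.1 (hC ω), abs_le.1 (hC' ω)⟩⟩

lemma exp_two (x : ℝ) : exp (-2 * x) * (1 + tanh x) = 1 - tanh x := by
  have h1 := exp_neg_eq x
  have h2 := exp_neg_eq (-x)
  rw [neg_neg, cosh_neg, tanh_neg, sub_neg_eq_add] at h2
  have h3 : exp (-2 * x) * exp x = exp (-x) := by rw [← exp_add]; congr 1; ring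
  rw [h1, h2] at h3
  have := cosh_pos x
  apply mul_left_cancel₀ this.ne'
  linear_combination h3

variable {ι : Type*} {X Y : (ι → unitInterval) → ℝ} {S T : Set ι}

/-- the Nishimori symmetry -/
def Nish (X : (ι → unitInterval) → ℝ) : Prop := ∀ g : ℝ → ℝ, Continuous g →
  ∫ ω, g (X ω) ∂PP ι = ∫ ω, exp (-2 * X ω) * g (-X ω) ∂PP ι

/-- mean square of the hyperbolic tangent -/
noncomputable def vq (X : (ι → unitInterval) → ℝ) : ℝ := ∫ ω, tanh (X ω) ^ 2 ∂PP ι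

lemma vq_nonneg (X : (ι → unitInterval) → ℝ) : 0 ≤ vq X := integral_nonneg fun _ => sq_nonneg _

lemma vq_le (hX : BM X) {H : ℝ} (h : ∀ ω, |X ω| ≤ H) : vq X ≤ H ^ 2 :=
  int_le_const (hX.tanh.pow 2) fun ω => by
    rw [← sq_abs]
    exact pow_le_pow_left₀ (abs_nonneg _) ((abs_tanh_le _).trans (h ω)) 2

lemma vq_le_one (hX : BM X) : vq X ≤ 1 := int_le_const (hX.tanh.pow 2) fun _ => tanh_sq_le_one _

lemma Nish.even (h : Nish X) (hX : BM X) {g : ℝ → ℝ} (hg : Continuous g) :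
    ∫ ω, g (X ω) ∂PP ι =
      ∫ ω, ((1 + tanh (X ω)) * g (X ω) + (1 - tanh (X ω)) * g (-X ω)) / 2 ∂PP ι := by
  have a1 := h (fun x => (1 - tanh x) * g x) ((continuous_const.sub continuous_tanh).mul hg)
  simp only [tanh_neg, sub_neg_eq_add, ← mul_assoc, exp_two] at a1
  have b1 := hX.cont hg
  have b2 := hX.neg.cont hg
  rw [integral_div, int_add (by bm) (by bm), ← a1, ← int_add (by bm) (by bm), ← integral_div]
  congr 1
  funext ω
  ring

lemma Nish.param (h : Nish Y) (hX : BM X) (hY : BM Y) (dX : Dep S X) (dY : Dep T Y)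
    (hST : Disjoint S T) {Φ : ℝ → ℝ → ℝ} (hΦ : Continuous fun p : ℝ × ℝ => Φ p.1 p.2) :
    ∫ ω, Φ (X ω) (Y ω) ∂PP ι = ∫ ω, exp (-2 * Y ω) * Φ (X ω) (-Y ω) ∂PP ι := by
  rw [integral_dep dX dY hST Φ (hX.cont₂ hY hΦ),
    integral_dep dX dY hST (fun x y => exp (-2 * y) * Φ x (-y))
      (((BM.const _).mul hY).exp.mul (hX.cont₂ hY.neg hΦ))]
  congr 1
  funext ω
  exact h (Φ (X ω)) (hΦ.comp (Continuous.prodMk_right (X ω)))

lemma Nish.even_param (h : Nish Y) (hX : BM X) (hY : BM Y) (dX : Dep S X) (dY : Dep T Y)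
    (hST : Disjoint S T) {Φ : ℝ → ℝ → ℝ} (hΦ : Continuous fun p : ℝ × ℝ => Φ p.1 p.2) :
    ∫ ω, Φ (X ω) (Y ω) ∂PP ι = ∫ ω, ((1 + tanh (Y ω)) * Φ (X ω) (Y ω) +
      (1 - tanh (Y ω)) * Φ (X ω) (-Y ω)) / 2 ∂PP ι := by
  have b1 := hX.cont₂ hY hΦ
  have b2 := hX.cont₂ hY.neg hΦ
  rw [integral_dep dX dY hST Φ b1,
    integral_dep dX dY hST (fun x y => ((1 + tanh y) * Φ x y + (1 - tanh y) * Φ x (-y)) / 2)
      (by bm)]
  congr 1
  funext ω
  exact h.even hY (hΦ.comp (Continuous.prodMk_right (X ω)))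

lemma Nish.add (h : Nish X) (h' : Nish Y) (hX : BM X) (hY : BM Y) (dX : Dep S X) (dY : Dep T Y)
    (hST : Disjoint S T) : Nish fun ω => X ω + Y ω := by
  intro g hg
  rw [h'.param hX hY dX dY hST (Φ := fun x y => g (x + y)) (by fun_prop),
    h.param hY hX dY dX hST.symm (Φ := fun y x => exp (-2 * y) * g (x + -y)) (by fun_prop)]
  congr 1
  funext ω
  rw [← mul_assoc, ← exp_add, neg_add, mul_add]

lemma oplus_pt (x y : ℝ) :
    ((1 + tanh x) * (((1 + tanh y) * tanh (x + y) ^ 2 + (1 - tanh y) * tanh (x + -y) ^ 2) / 2) +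
      (1 - tanh x) * (((1 + tanh y) * tanh (-x + y) ^ 2 +
        (1 - tanh y) * tanh (-x + -y) ^ 2) / 2)) / 2 =
      (tanh x ^ 2 + tanh y ^ 2 - 2 * (tanh x ^ 2 * tanh y ^ 2)) /
        (1 - tanh x ^ 2 * tanh y ^ 2) := by
  have h1 := one_add_mul_pos (abs_tanh_lt_one x) (abs_tanh_le_one y)
  have h2 := one_add_mul_pos (abs_tanh_lt_one x) (abs_tanh_le_one (-y))
  simp only [tanh_add', tanh_neg] at h2 ⊢
  set a := tanh x
  set b := tanh y
  have e1 : 1 + -a * b = 1 + a * -b := by ring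
  have e2 : 1 + -a * -b = 1 + a * b := by ring
  have e3 : 1 - a ^ 2 * b ^ 2 = (1 + a * b) * (1 + a * -b) := by ring
  rw [e1, e2, e3]
  generalize hp : 1 + a * b = p at h1 ⊢
  generalize hq : 1 + a * -b = q at h2 ⊢
  field_simp
  rw [← hp, ← hq]
  ring

lemma Nish.oplus (h : Nish X) (h' : Nish Y) (hX : BM X) (hY : BM Y) (dX : Dep S X) (dY : Dep T Y)
    (hST : Disjoint S T) :
    1 - 2 * vq (fun ω => X ω + Y ω) ≤ (1 - 2 * vq X) * (1 - 2 * vq Y) ∧
      (1 - vq X) * (1 - vq Y) ≤ 1 - vq fun ω => X ω + Y ω := by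
  have ct := continuous_tanh
  have a1 := h'.even_param hX hY dX dY hST (Φ := fun x y => tanh (x + y) ^ 2) (by fun_prop)
  have hc : Continuous fun p : ℝ × ℝ => ((1 + tanh p.1) * tanh (p.2 + p.1) ^ 2 +
    (1 - tanh p.1) * tanh (p.2 + -p.1) ^ 2) / 2 := by fun_prop
  have a2 := h.even_param hY hX dY dX hST.symm (Φ := fun y x => ((1 + tanh y) * tanh (x + y) ^ 2 +
    (1 - tanh y) * tanh (x + -y) ^ 2) / 2) hc
  have b0 : BM fun ω => ((1 + tanh (X ω)) * (((1 + tanh (Y ω)) * tanh (X ω + Y ω) ^ 2 +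
      (1 - tanh (Y ω)) * tanh (X ω + -Y ω) ^ 2) / 2) + (1 - tanh (X ω)) * (((1 + tanh (Y ω)) *
        tanh (-X ω + Y ω) ^ 2 + (1 - tanh (Y ω)) * tanh (-X ω + -Y ω) ^ 2) / 2)) / 2 := by bm
  rw [a2] at a1
  simp only [oplus_pt] at a1 b0
  have a3 := integral_mul_dep (dX.map fun x => tanh x ^ 2) (dY.map fun x => tanh x ^ 2) hST
    (by bm) (by bm)
  have hd : ∀ ω, 0 < 1 - tanh (X ω) ^ 2 * tanh (Y ω) ^ 2 := fun ω => by
    have := one_add_mul_pos (abs_tanh_lt_one (X ω)) (abs_tanh_le_one (Y ω))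
    have := one_add_mul_pos (abs_tanh_lt_one (X ω)) (abs_tanh_le_one (-Y ω))
    rw [tanh_neg] at this
    nlinarith
  have l1 := int_mono (μ := PP ι) (f := fun ω => tanh (X ω) ^ 2 + tanh (Y ω) ^ 2 -
      2 * (tanh (X ω) ^ 2 * tanh (Y ω) ^ 2)) (by bm) b0 fun ω => by
    rw [le_div_iff₀ (hd ω)]
    have p1 := tanh_sq_le_one (X ω)
    have p2 := tanh_sq_le_one (Y ω)
    have p3 := sq_nonneg (tanh (X ω))
    have p4 := sq_nonneg (tanh (Y ω))
    refine mul_le_of_le_one_right ?_ (by nlinarith [mul_nonneg p3 p4])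
    nlinarith [mul_nonneg p3 (sub_nonneg.2 p2), mul_nonneg p4 (sub_nonneg.2 p1)]
  have l2 := int_mono (μ := PP ι) (g := fun ω => tanh (X ω) ^ 2 + tanh (Y ω) ^ 2 -
      (tanh (X ω) ^ 2 * tanh (Y ω) ^ 2)) b0 (by bm) fun ω => by
    rw [div_le_iff₀ (hd ω)]
    have p1 := tanh_sq_le_one (X ω)
    have p2 := tanh_sq_le_one (Y ω)
    have p3 := sq_nonneg (tanh (X ω))
    have p4 := sq_nonneg (tanh (Y ω))
    nlinarith [mul_nonneg (mul_nonneg p3 p4) (mul_nonneg (sub_nonneg.2 p1) (sub_nonneg.2 p2))]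
  rw [int_sub (by bm) (by bm), int_add (by bm) (by bm), ← a1] at l1 l2
  rw [integral_const_mul] at l1
  rw [a3] at l1 l2
  unfold vq
  constructor <;> nlinarith

lemma Nish.zero : Nish fun _ : ι → unitInterval => (0 : ℝ) := fun g _ => by simp

lemma dep_biUnion_sum {κ : Type*} (C : Finset κ) {F : κ → (ι → unitInterval) → ℝ} {S : κ → Set ι}
    (h : ∀ c ∈ C, Dep (S c) (F c)) : Dep (⋃ c ∈ C, S c) fun ω => ∑ c ∈ C, F c ω :=
  Dep.sum C fun c hc => (h c hc).mono (Set.subset_biUnion_of_mem (u := S) hc)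

theorem nish_sum {κ : Type*} (C : Finset κ) {F : κ → (ι → unitInterval) → ℝ} {T : κ → Set ι}
    (h : Nish X) (hX : BM X) (dX : Dep S X) (hF : ∀ c ∈ C, Nish (F c)) (bF : ∀ c ∈ C, BM (F c))
    (dF : ∀ c ∈ C, Dep (T c) (F c)) (h1 : ∀ c ∈ C, Disjoint S (T c))
    (h2 : ∀ c ∈ C, ∀ c' ∈ C, c ≠ c' → Disjoint (T c) (T c')) :
    Nish (fun ω => X ω + ∑ c ∈ C, F c ω) ∧
      (∀ a t, a ≤ vq X → a ≤ 1 / 2 → (∀ c ∈ C, t ≤ vq (F c) ∧ vq (F c) ≤ 1 / 2) →
        1 - 2 * vq (fun ω => X ω + ∑ c ∈ C, F c ω) ≤ (1 - 2 * a) * (1 - 2 * t) ^ C.card) ∧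
      (∀ a t, vq X ≤ a → a ≤ 1 → t ≤ 1 → (∀ c ∈ C, vq (F c) ≤ t) →
        (1 - a) * (1 - t) ^ C.card ≤ 1 - vq fun ω => X ω + ∑ c ∈ C, F c ω) := by
  classical
  induction C using Finset.induction_on with
  | empty =>
    simp only [Finset.sum_empty, add_zero, Finset.card_empty, pow_zero, mul_one]
    exact ⟨h, fun a t h _ _ => by linarith, fun a t h _ _ _ => by linarith⟩
  | insert c C hc ih =>
    have m := Finset.mem_insert_self c C
    obtain ⟨i1, i2, i3⟩ := ih (fun c h => hF c (Finset.mem_insert_of_mem h))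
      (fun c h => bF c (Finset.mem_insert_of_mem h)) (fun c h => dF c (Finset.mem_insert_of_mem h))
      (fun c h => h1 c (Finset.mem_insert_of_mem h))
      fun c h c' h' => h2 c (Finset.mem_insert_of_mem h) c' (Finset.mem_insert_of_mem h')
    have b1 : BM fun ω => X ω + ∑ c ∈ C, F c ω :=
      hX.add (BM.sum _ fun c h => bF c (Finset.mem_insert_of_mem h))
    have d1 : Dep (S ∪ ⋃ c ∈ C, T c) fun ω => X ω + ∑ c ∈ C, F c ω :=
      (dX.mono Set.subset_union_left).map₂ ((dep_biUnion_sum C fun c h =>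
        dF c (Finset.mem_insert_of_mem h)).mono Set.subset_union_right) (· + ·)
    have hd : Disjoint (S ∪ ⋃ c ∈ C, T c) (T c) := by
      rw [Set.disjoint_union_left, Set.disjoint_iUnion₂_left]
      exact ⟨h1 c m, fun c' h => h2 c' (Finset.mem_insert_of_mem h) c m fun e => hc (e ▸ h)⟩
    have e1 : (fun ω => X ω + ∑ c ∈ insert c C, F c ω) =
        fun ω => (X ω + ∑ c ∈ C, F c ω) + F c ω := by
      funext ω; rw [Finset.sum_insert hc]; ring
    have o := i1.oplus (hF c m) b1 (bF c m) d1 (dF c m) hd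
    rw [e1, Finset.card_insert_of_notMem hc]
    refine ⟨i1.add (hF c m) b1 (bF c m) d1 (dF c m) hd, fun a t a1 a2 a3 => ?_,
      fun a t a1 a2 a3 a4 => ?_⟩
    · have p1 := i2 a t a1 a2 fun c h => a3 c (Finset.mem_insert_of_mem h)
      have p2 := a3 c m
      have p3 : 0 ≤ (1 - 2 * a) * (1 - 2 * t) ^ C.card :=
        mul_nonneg (by linarith) (pow_nonneg (by linarith) _)
      rw [pow_succ, ← mul_assoc]
      exact o.1.trans ((mul_le_mul_of_nonneg_right p1 (by linarith)).trans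
        (mul_le_mul_of_nonneg_left (by linarith) p3))
    · have p1 := i3 a t a1 a2 a3 fun c h => a4 c (Finset.mem_insert_of_mem h)
      have p2 := a4 c m
      rw [pow_succ, ← mul_assoc]
      refine le_trans ?_ o.2
      exact mul_le_mul p1 (by linarith) (by linarith) (by linarith [vq_le_one b1])

theorem prod_dep {κ : Type*} (C : Finset κ) {F : κ → (ι → unitInterval) → ℝ} {T : κ → Set ι}
    (bF : ∀ c ∈ C, BM (F c)) (dF : ∀ c ∈ C, Dep (T c) (F c))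
    (h2 : ∀ c ∈ C, ∀ c' ∈ C, c ≠ c' → Disjoint (T c) (T c')) :
    ∫ ω, ∏ c ∈ C, F c ω ∂PP ι = ∏ c ∈ C, ∫ ω, F c ω ∂PP ι := by
  classical
  induction C using Finset.induction_on with
  | empty => simp
  | insert c C hc ih =>
    have m := Finset.mem_insert_self c C
    simp only [Finset.prod_insert hc]
    rw [← ih (fun c h => bF c (Finset.mem_insert_of_mem h))
      (fun c h => dF c (Finset.mem_insert_of_mem h))
      fun c h c' h' => h2 c (Finset.mem_insert_of_mem h) c' (Finset.mem_insert_of_mem h')]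
    refine integral_mul_dep (T := ⋃ c ∈ C, T c) (dF c m) (fun ω ω' e => Finset.prod_congr rfl
      fun c' h => dF c' (Finset.mem_insert_of_mem h) ω ω' fun i hi =>
        e i (Set.mem_biUnion h hi)) ?_ (bF c m)
      (BM.prod _ fun c h => bF c (Finset.mem_insert_of_mem h))
    rw [Set.disjoint_iUnion₂_right]
    exact fun c' h => h2 c m c' (Finset.mem_insert_of_mem h) fun e => hc (e ▸ h)

theorem var_sum {κ : Type*} (C : Finset κ) {F : κ → (ι → unitInterval) → ℝ} {T : κ → Set ι}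
    (bF : ∀ c ∈ C, BM (F c)) (dF : ∀ c ∈ C, Dep (T c) (F c))
    (h2 : ∀ c ∈ C, ∀ c' ∈ C, c ≠ c' → Disjoint (T c) (T c'))
    (h0 : ∀ c ∈ C, ∫ ω, F c ω ∂PP ι = 0) :
    ∫ ω, (∑ c ∈ C, F c ω) ^ 2 ∂PP ι = ∑ c ∈ C, ∫ ω, F c ω ^ 2 ∂PP ι := by
  simp only [sq, Finset.sum_mul_sum]
  rw [int_sum _ fun c h => BM.sum _ fun c' h' => (bF c h).mul (bF c' h')]
  refine Finset.sum_congr rfl fun c h => ?_
  rw [int_sum _ fun c' h' => (bF c h).mul (bF c' h'), Finset.sum_eq_single_of_mem c h]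
  intro c' h' hne
  rw [integral_mul_dep (dF c h) (dF c' h') (h2 c h c' h' hne.symm) (bF c h) (bF c' h'), h0 c h,
    zero_mul]

lemma var_le {Ω : Type*} [MeasurableSpace Ω] {μ : Measure Ω} [IsProbabilityMeasure μ]
    {f : Ω → ℝ} (hf : BM f) (c : ℝ) :
    ∫ ω, (f ω - ∫ ω, f ω ∂μ) ^ 2 ∂μ ≤ ∫ ω, (f ω - c) ^ 2 ∂μ := by
  have e1 : ∀ c : ℝ, ∫ ω, (f ω - c) ^ 2 ∂μ = ∫ ω, f ω ^ 2 ∂μ - 2 * c * ∫ ω, f ω ∂μ + c ^ 2 := by
    intro c
    rw [← integral_const_mul, ← int_sub (by bm) (by bm), ← int_const (μ := μ) (c ^ 2),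
      ← int_add (by bm) (by bm)]
    congr 1; funext ω; ring
  rw [e1, e1]
  nlinarith [sq_nonneg (c - ∫ ω, f ω ∂μ)]

lemma exp_msg {θ : ℝ} (h0 : 0 ≤ θ) (h1 : θ ≤ 1) (h : ℝ) :
    (1 + θ) + (1 - θ) * exp (-2 * h) =
      exp (-2 * -msg θ h) * ((1 + θ) * exp (-2 * h) + (1 - θ)) := by
  have a1 := exp_two h
  have a2 := exp_two (-msg θ h)
  rw [tanh_neg, tanh_msg h0 h1] at a2
  have p1 : 0 < 1 + tanh h := by linarith [neg_abs_le (tanh h), abs_tanh_lt_one h]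
  apply mul_right_cancel₀ p1.ne'
  linear_combination ((1 - θ) - exp (-2 * -msg θ h) * (1 + θ)) * a1 - 2 * a2

lemma Nish.flip (h : Nish X) (hX : BM X) (hY : BM Y) (dX : Dep S X) (dY : Dep T Y)
    (hST : Disjoint S T) {θ : ℝ} (h0 : 0 ≤ θ) (h1 : θ ≤ 1)
    (hl : ∀ φ : ℝ → ℝ, ∫ ω, φ (Y ω) ∂PP ι = (1 + θ) / 2 * φ 1 + (1 - θ) / 2 * φ (-1)) :
    Nish fun ω => Y ω * msg θ (X ω) := by
  have cm := continuous_msg h0 h1
  have key : ∀ g : ℝ → ℝ, Continuous g → ∫ ω, g (Y ω * msg θ (X ω)) ∂PP ι =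
      ∫ ω, ((1 + θ) / 2 + (1 - θ) / 2 * exp (-2 * X ω)) * g (msg θ (X ω)) ∂PP ι := by
    intro g hg
    have b1 := (hX.cont cm).cont hg
    have b2 := (hX.cont cm).neg.cont hg
    rw [integral_dep dX dY hST (fun x y => g (y * msg θ x)) ((hY.mul (hX.cont cm)).cont hg)]
    have hl' : ∀ m : ℝ, ∫ ω, g (Y ω * m) ∂PP ι = (1 + θ) / 2 * g m + (1 - θ) / 2 * g (-m) :=
      fun m => by simpa using hl fun y => g (y * m)
    simp only [hl']
    rw [int_add (by bm) (by bm), integral_const_mul ((1 - θ) / 2),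
      h (fun x => g (-msg θ x)) (by fun_prop), ← integral_const_mul, ← int_add (by bm) (by
        simp only [msg_neg, neg_neg]; bm)]
    congr 1
    funext ω
    rw [msg_neg, neg_neg]
    ring
  intro g hg
  rw [key g hg]
  have b1 := (hX.cont cm).cont hg
  have b2 := (hX.cont cm).neg.cont hg
  have b3 := hX.cont cm
  rw [integral_dep dX dY hST (fun x y => exp (-2 * (y * msg θ x)) * g (-(y * msg θ x)))
    (((BM.const _).mul (hY.mul b3)).exp.mul ((hY.mul b3).neg.cont hg))]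
  have hl' : ∀ m : ℝ, ∫ ω, exp (-2 * (Y ω * m)) * g (-(Y ω * m)) ∂PP ι =
      (1 + θ) / 2 * (exp (-2 * m) * g (-m)) + (1 - θ) / 2 * (exp (-2 * -m) * g m) :=
    fun m => by simpa using hl fun y => exp (-2 * (y * m)) * g (-(y * m))
  simp only [hl']
  rw [int_add (by bm) (by bm), integral_const_mul ((1 + θ) / 2),
    h (fun x => exp (-2 * msg θ x) * g (-msg θ x)) (by fun_prop), ← integral_const_mul,
    ← int_add (by simp only [msg_neg, neg_neg]; bm) (by bm)]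
  congr 1
  funext ω
  rw [msg_neg, neg_neg]
  linear_combination g (msg θ (X ω)) / 2 * exp_msg h0 h1 (X ω)

lemma cosh_le_cosh_of_abs {x y : ℝ} (h : |x| ≤ |y|) : cosh x ≤ cosh y := cosh_le_cosh.2 h

lemma Nish.exp_le (h : Nish X) (hX : BM X) (a : ℝ) :
    ∫ ω, exp (a * X ω) ∂PP ι ≤ ∫ ω, cosh ((|a| + 1) * X ω) ∂PP ι := by
  rw [h.even hX (g := fun x => exp (a * x)) (by fun_prop)]
  refine int_mono (by bm) (by bm) fun ω => ?_
  set x := X ω
  have e1 : ((1 + tanh x) * exp (a * x) + (1 - tanh x) * exp (a * -x)) / 2 =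
      cosh (a * x) + tanh x * sinh (a * x) := by
    rw [mul_neg, ← cosh_add_sinh, ← cosh_sub_sinh]; ring
  have e2 : cosh ((|a| + 1) * x) = cosh (|a * x| + |x|) := by
    rw [← cosh_abs, abs_mul, abs_mul, abs_of_nonneg (by positivity : 0 ≤ |a| + 1)]
    congr 1; ring
  rw [e1, e2, cosh_add, cosh_abs, cosh_abs, ← abs_sinh, ← abs_sinh]
  have p1 := one_le_cosh x
  have p2 := one_le_cosh (a * x)
  have p3 : |tanh x| ≤ |sinh x| := by
    rw [tanh_eq_sinh_div_cosh, abs_div, abs_of_pos (cosh_pos x)]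
    exact div_le_self (abs_nonneg _) p1
  have p4 := le_abs_self (tanh x * sinh (a * x))
  rw [abs_mul] at p4
  nlinarith [mul_le_mul_of_nonneg_right p3 (abs_nonneg (sinh (a * x)))]

lemma Nish.exp_neg_le (h : Nish X) (hX : BM X) : ∫ ω, exp (-X ω) ∂PP ι ≤ 1 - vq X / 2 := by
  have e1 : 1 - vq X / 2 = ∫ ω, (1 - tanh (X ω) ^ 2 / 2) ∂PP ι := by
    rw [int_sub (by bm) (by bm), integral_div, int_const, vq]
  rw [h.even hX (g := fun x => exp (-x)) (by fun_prop), e1]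
  refine int_mono (by bm) (by bm) fun ω => ?_
  set x := X ω
  rw [exp_neg_eq, exp_neg_eq, cosh_neg, tanh_neg]
  have p1 := one_le_cosh x
  have p2 : cosh x ^ 2 * (1 - tanh x ^ 2) = 1 := by
    rw [tanh_eq_sinh_div_cosh, div_pow, mul_sub, mul_div_cancel₀ _ (by positivity), mul_one,
      cosh_sq_sub_sinh_sq]
  nlinarith [sq_nonneg (cosh x * (1 - tanh x ^ 2) - 1)]

lemma Nish.crude (h : Nish X) (hX : BM X) {H : ℝ} (hH : ∀ ω, |X ω| ≤ H) (y : ℝ) :
    exp (-2 * H) * vq X / 2 ≤ ∫ ω, tanh (X ω + y) ^ 2 ∂PP ι := by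
  have ct := continuous_tanh
  have a1 := h (fun x => tanh (x + y) ^ 2) (by fun_prop)
  have a2 : exp (-2 * H) * vq X ≤ ∫ ω, tanh (X ω + y) ^ 2 ∂PP ι +
      ∫ ω, exp (-2 * X ω) * tanh (-X ω + y) ^ 2 ∂PP ι := by
    rw [vq, ← integral_const_mul, ← int_add (by bm) (by bm)]
    refine int_mono (by bm) (by bm) fun ω => ?_
    have p1 : exp (-2 * H) ≤ exp (-2 * X ω) := exp_le_exp.2 (by linarith [(abs_le.1 (hH ω)).2])
    have p2 : exp (-2 * H) ≤ 1 := exp_le_one_iff.2 (by linarith [(abs_nonneg _).trans (hH ω)])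
    have p3 : tanh (X ω) ^ 2 ≤ tanh (X ω + y) ^ 2 ∨ tanh (X ω) ^ 2 ≤ tanh (-X ω + y) ^ 2 := by
      simp only [sq_le_sq]
      by_cases hc : |X ω| ≤ |X ω + y|
      · exact Or.inl (abs_tanh_mono hc)
      · refine Or.inr (abs_tanh_mono ?_)
        have := abs_add_le (X ω + y) (-(-X ω + y))
        rw [abs_neg, show X ω + y + -(-X ω + y) = 2 * X ω by ring, abs_mul, abs_two] at this
        linarith [not_le.1 hc]
    have p4 := exp_pos (-2 * H)
    rcases p3 with p3 | p3 <;>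
      nlinarith [sq_nonneg (tanh (X ω)), sq_nonneg (tanh (X ω + y)), sq_nonneg (tanh (-X ω + y)),
        mul_nonneg (exp_pos (-2 * X ω)).le (sq_nonneg (tanh (-X ω + y)))]
  linarith

end Crest.Agent.H5.KS
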