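import Mathlib
import Crest.Agent.H5.KS.Lim
import Crest.Agent.H5.KS.Nish

/-!
Decay of correlations for factors of independent labels on a regular tree.
-/

set_option autoImplicit false

namespace Crest.Agent.H5.KS

open MeasureTheory Real Filter Topology

variable {V : Type*} {G : SimpleGraph V} {d : ℕ}

/-- labels of a set of vertices -/
def LS (A : Set V) : Set (V × ℤ × Fin 3) := {p | p.1 ∈ A}

/-- conditional expectation given the labels in `A` -/
noncomputable def cE (A : Set V) (f : Om V → ℝ) (ω : Om V) : ℝ := ∫ ω', f (pw (LS A) ω ω') ∂PO V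

variable {f g : Om V → ℝ}

lemma bm_cE (A : Set V) (hf : BM f) : BM (cE A f) :=
  BM.integral_right (PO V) (hf.comp (measurable_pw _))

lemma dep_cE (A : Set V) (f : Om V → ℝ) : Dep (LS A) (cE A f) := fun ω ω' h => by
  unfold cE
  congr 1
  funext a
  congr 1
  funext p
  by_cases hp : p ∈ LS A
  · rw [pw_of_mem hp, pw_of_mem hp, h p hp]
  · rw [pw_of_notMem hp, pw_of_notMem hp]

lemma int_mul_cE {B : Set V} {F : Om V → ℝ} (hF : BM F) (dF : Dep (LS B) F) (hg : BM g) :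
    ∫ ω, F ω * cE B g ω ∂PO V = ∫ ω, F ω * g ω ∂PO V := by
  rw [integral_pw (LS B) (hF.mul hg)]
  congr 1
  funext ω
  rw [cE, ← integral_const_mul]
  congr 1
  funext ω'
  rw [dF (pw (LS B) ω ω') ω fun p hp => pw_of_mem hp _ _]

lemma int_cE_diff {A B : Set V} (h : A ⊆ B) (hf : BM f) (hg : BM g) :
    ∫ ω, (cE B f ω - cE A f ω) * (cE B g ω - cE A g ω) ∂PO V =
      ∫ ω, cE B f ω * g ω ∂PO V - ∫ ω, cE A f ω * g ω ∂PO V := by
  have b1 := bm_cE A hf
  have b2 := bm_cE B hf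
  have b3 := bm_cE A hg
  have b4 := bm_cE B hg
  have hL : LS A ⊆ LS B := fun p hp => h hp
  have a1 := int_mul_cE b2 (dep_cE B f) hg
  have a2 := int_mul_cE b1 (dep_cE A f) hg
  have a3 := int_mul_cE b1 ((dep_cE A f).mono hL) hg
  have a4 := int_mul_cE b3 ((dep_cE A g).mono hL) hf
  have a5 := int_mul_cE b3 (dep_cE A g) hf
  have e1 : ∀ ω, (cE B f ω - cE A f ω) * (cE B g ω - cE A g ω) = cE B f ω * cE B g ω -
      cE A g ω * cE B f ω - cE A f ω * cE B g ω + cE A g ω * cE A f ω := fun ω => by ring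
  simp only [e1]
  rw [int_add (by bm) (by bm), int_sub (by bm) (by bm), int_sub (by bm) (by bm), a1, a3, a4, a5]
  ring

lemma cE_congr {Λ A A' : Set V} (hf : Dep (LS Λ) f) (h : ∀ z ∈ Λ, z ∈ A ↔ z ∈ A') :
    cE A f = cE A' f := by
  funext ω
  unfold cE
  congr 1
  funext ω'
  refine hf _ _ fun p hp => ?_
  by_cases hA : p ∈ LS A
  · rw [pw_of_mem hA, pw_of_mem (S := LS A') ((h _ hp).1 hA)]
  · rw [pw_of_notMem hA, pw_of_notMem (S := LS A') fun h' => hA ((h _ hp).2 h')]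

lemma telescope {L : Type*} [LinearOrder L] (u : V → L) (Λ : Finset V) : Set.InjOn u Λ →
    ∀ v : Set V → ℝ, (∀ A A', (∀ z ∈ Λ, z ∈ A ↔ z ∈ A') → v A = v A') →
      ∑ z ∈ Λ, (v {y | u y < u z ∨ y = z} - v {y | u y < u z}) = v Set.univ - v ∅ := by
  classical
  induction Λ using Finset.induction_on_max_value u with
  | empty => intro _ v hv; simp [hv Set.univ ∅ (by simp)]
  | insert a s ha hmax ih =>
    intro hinj v hv
    have hlt : ∀ z ∈ s, u z < u a := fun z hz => lt_of_le_of_ne (hmax z hz) fun e =>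
      ha (hinj (Finset.mem_insert_of_mem hz) (Finset.mem_insert_self _ _) e ▸ hz)
    have := ih (hinj.mono (Finset.subset_insert _ _)) (fun A => v (A \ {a})) fun A A' h =>
      hv _ _ fun z hz => by
        rcases Finset.mem_insert.1 hz with rfl | hz
        · simp
        · simp [h z hz]
    have e1 : ∀ z ∈ s, v ({y | u y < u z ∨ y = z} \ {a}) - v ({y | u y < u z} \ {a}) =
        v {y | u y < u z ∨ y = z} - v {y | u y < u z} := by
      intro z hz
      rw [Set.sdiff_singleton_eq_self, Set.sdiff_singleton_eq_self]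
      · exact fun h => lt_asymm h (hlt z hz)
      · rintro (h | h)
        · exact lt_asymm h (hlt z hz)
        · exact ha (h ▸ hz)
    rw [Finset.sum_congr rfl e1] at this
    rw [Finset.sum_insert ha, this, Set.empty_sdiff,
      hv {y | u y < u a ∨ y = a} Set.univ, hv {y | u y < u a} (Set.univ \ {a})]
    · ring
    · intro z hz
      rcases Finset.mem_insert.1 hz with rfl | hz
      · simp
      · simpa [hlt z hz] using fun h : z = a => ha (h ▸ hz)
    · intro z hz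
      rcases Finset.mem_insert.1 hz with rfl | hz
      · simp
      · simp [hlt z hz]

lemma ae_injOn (Λ : Finset V) : ∀ᵐ u ∂PP V, Set.InjOn u Λ := by
  have := ae_inj (V := V) (Λ.map ⟨fun z => (z, 0), fun a b h => (Prod.mk.inj h).1⟩)
  have hm := Measure.map_infinitePi_infinitePi_of_inj
    (P := fun _ : V × ℤ × Fin 3 => (volume : Measure unitInterval))
    (f := fun z : V => ((z, 0, 0) : V × ℤ × Fin 3)) fun a b h => (Prod.mk.inj h).1
  unfold PP
  rw [← hm, ae_map_iff (measurable_reindex _).aemeasurable]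
  · filter_upwards [this] with a ha y hy z hz e
    refine (Prod.mk.inj (ha (x₁ := (y, 0)) (x₂ := (z, 0)) ?_ ?_ ?_)).1
    · exact Finset.mem_coe.2 (Finset.mem_map_of_mem _ hy)
    · exact Finset.mem_coe.2 (Finset.mem_map_of_mem _ hz)
    · simp only [tm] at e ⊢; rw [e]
  · have : {u : V → unitInterval | Set.InjOn u Λ} =
        ⋂ y ∈ Λ, ⋂ z ∈ Λ, {u | u y = u z → y = z} := by
      ext u; simp [Set.InjOn]
    rw [this]
    refine Finset.measurableSet_biInter _ fun y _ => Finset.measurableSet_biInter _ fun z _ => ?_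
    exact (measurableSet_eq_fun (measurable_pi_apply y) (measurable_pi_apply z)).imp
      (MeasurableSet.const _)

/-- martingale difference along a random ordering -/
noncomputable def Dz (f : Om V → ℝ) (z : V) (q : (V → unitInterval) × Om V) : ℝ :=
  cE {y | q.1 y < q.1 z ∨ y = z} f q.2 - cE {y | q.1 y < q.1 z} f q.2

lemma bm_cE_param {S : (V → unitInterval) → Set V} (hS : ∀ y, MeasurableSet {u | y ∈ S u})
    (hf : BM f) : BM fun q : (V → unitInterval) × Om V => cE (S q.1) f q.2 := by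
  refine BM.integral_right (PO V) (F := fun r : ((V → unitInterval) × Om V) × Om V =>
    f (pw (LS (S r.1.1)) r.1.2 r.2)) (hf.comp (measurable_pi_lambda _ fun p => ?_))
  unfold pw
  exact Measurable.ite ((measurable_fst.comp measurable_fst) (hS p.1)) (by fun_prop) (by fun_prop)

lemma bm_Dz (hf : BM f) (z : V) : BM (Dz f z) :=
  (bm_cE_param (S := fun u => {y | u y < u z ∨ y = z}) (fun y =>
    (measurableSet_lt (measurable_pi_apply y) (measurable_pi_apply z)).union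
      (MeasurableSet.const _)) hf).sub
    (bm_cE_param (S := fun u => {y | u y < u z}) (fun y =>
      measurableSet_lt (measurable_pi_apply y) (measurable_pi_apply z)) hf)

/-- share of the vertex `z` in the covariance -/
noncomputable def pz (f g : Om V → ℝ) (z : V) : ℝ := ∫ u, ∫ ω, Dz f z (u, ω) * Dz g z (u, ω) ∂PO V ∂PP V

lemma sum_pz {Λ : Finset V} (hf : BM f) (hg : BM g) (df : Dep (LS Λ) f) :
    ∑ z ∈ Λ, pz f g z = ∫ ω, f ω * g ω ∂PO V - (∫ ω, f ω ∂PO V) * ∫ ω, g ω ∂PO V := by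
  unfold pz
  rw [← int_sum _ fun z _ => BM.integral_right (PO V) ((bm_Dz hf z).mul (bm_Dz hg z)),
    ← int_const (μ := PP V) (_ - _)]
  refine integral_congr_ae ?_
  filter_upwards [ae_injOn Λ] with u hu
  simp only [Dz]
  rw [Finset.sum_congr rfl fun z _ => int_cE_diff (A := {y | u y < u z})
      (B := {y | u y < u z ∨ y = z}) (fun y hy => Or.inl hy) hf hg,
    telescope u Λ hu (fun A => ∫ ω, cE A f ω * g ω ∂PO V) fun A A' h => by rw [cE_congr df h]]
  have e1 : ∀ ω, cE Set.univ f ω = f ω := fun ω => by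
    have : ∀ ω', pw (LS Set.univ) ω ω' = ω := fun ω' => funext fun p => pw_of_mem (S := LS Set.univ) trivial _ _
    simp [cE, this]
  have e2 : ∀ ω, cE ∅ f ω = ∫ ω, f ω ∂PO V := fun ω => by
    have : ∀ ω', pw (LS ∅) ω ω' = ω' := fun ω' => funext fun p => pw_of_notMem (S := LS ∅) id _ _
    simp [cE, this]
  simp only [e1, e2, integral_const_mul]

lemma pz_nonneg (f : Om V → ℝ) (z : V) : 0 ≤ pz f f z :=
  integral_nonneg fun _ => integral_nonneg fun _ => mul_self_nonneg _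

lemma sum_pz_le {Λ : Finset V} (hf : BM f) (df : Dep (LS Λ) f) (L : Finset V) :
    ∑ z ∈ L, pz f f z ≤ ∫ ω, f ω ^ 2 ∂PO V := by
  classical
  refine (Finset.sum_le_sum_of_subset_of_nonneg (Finset.subset_union_left (s₂ := Λ))
    fun z _ _ => pz_nonneg f z).trans ?_
  rw [sum_pz hf hf (df.mono fun p hp => by simpa [LS] using Or.inr hp)]
  simp only [sq]
  linarith [mul_self_nonneg (∫ ω, f ω ∂PO V)]

lemma abs_pz_le (hf : BM f) (hg : BM g) (z : V) {M : ℝ} (hM : 0 < M) :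
    |pz f g z| ≤ (M * pz f f z + pz g g z / M) / 2 := by
  have b1 := bm_Dz hf z
  have b2 := bm_Dz hg z
  have e1 : ∀ {F : (V → unitInterval) × Om V → ℝ}, BM F → ∫ u, ∫ ω, F (u, ω) ∂PO V ∂PP V =
      ∫ q, F q ∂(PP V).prod (PO V) := fun hF => (integral_prod _ (hF.int _)).symm
  unfold pz
  rw [e1 (b1.mul b2), e1 (b1.mul b1), e1 (b2.mul b2), ← integral_const_mul, ← integral_div,
    ← int_add (by bm) (by bm), ← integral_div]
  refine abs_integral_le_integral_abs.trans (int_mono (by bm) (by bm) fun q => ?_)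
  rw [abs_mul, ← abs_mul_abs_self (Dz f z q), ← abs_mul_abs_self (Dz g z q),
    le_div_iff₀ two_pos, ← sub_nonneg]
  have : M * (|Dz f z q| * |Dz f z q|) + |Dz g z q| * |Dz g z q| / M - |Dz f z q| * |Dz g z q| * 2 =
      (M * |Dz f z q| - |Dz g z q|) ^ 2 / M := by field_simp; ring
  rw [this]; positivity

lemma cE_act (γ : G ≃g G) (hf : BM f) (h : ∀ ω, f (act γ ω) = f ω) (A : Set V) (ω : Om V) :
    cE A f ω = cE (γ ⁻¹' A) f (act γ ω) := by
  unfold cE
  rw [← integral_act γ (F := fun ω' => f (pw (LS (γ ⁻¹' A)) (act γ ω) ω'))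
    (hf.meas.comp (measurable_pw_right _ _))]
  congr 1
  funext ω'
  rw [← h]
  congr 1

lemma pz_act (γ : G ≃g G) (hf : BM f) (h : ∀ ω, f (act γ ω) = f ω) (z : V) :
    pz f f (γ z) = pz f f z := by
  have e1 : ∀ u ω, Dz f (γ z) (u, ω) = Dz f z (fun y => u (γ y), act γ ω) := fun u ω => by
    simp only [Dz]
    rw [cE_act γ hf h, cE_act γ hf h {y | u y < u (γ z)}]
    congr 2
    ext y
    simp
  have b := (bm_Dz hf z).mul (bm_Dz hf z)
  unfold pz
  simp only [e1]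
  rw [← integral_reindex γ.injective (F := fun u => ∫ ω, Dz f z (u, ω) * Dz f z (u, ω) ∂PO V)
    (BM.integral_right (PO V) b).meas]
  congr 1
  funext u
  exact integral_act γ (F := fun ω => Dz f z (fun y => u (γ y), ω) * Dz f z (fun y => u (γ y), ω))
    (b.meas.comp measurable_prodMk_left)

lemma bsv_half {κ : Type*} {Λ L : Finset V} (hf : BM f) (hg : BM g) (df : Dep (LS Λ) f)
    (dg : Dep (LS Λ) g) (Y : Finset κ) (γ : κ → G ≃g G) (hγ : ∀ y ∈ Y, ∀ ω, f (act (γ y) ω) = f ω)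
    (hd : ∀ y ∈ Y, ∀ y' ∈ Y, ∀ z ∈ L, ∀ z' ∈ L, γ y z = γ y' z' → y = y') {M σ : ℝ} (hM : 0 < M)
    (hY : M ^ 2 ≤ Y.card) (h1 : ∫ ω, f ω ^ 2 ∂PO V ≤ σ) (h2 : ∫ ω, g ω ^ 2 ∂PO V ≤ σ) :
    ∑ z ∈ L, |pz f g z| ≤ σ / M := by
  classical
  have a1 : M ^ 2 * ∑ z ∈ L, pz f f z ≤ σ := by
    refine (mul_le_mul_of_nonneg_right hY (Finset.sum_nonneg fun z _ => pz_nonneg f z)).trans ?_
    rw [← nsmul_eq_mul, ← Finset.sum_const, Finset.sum_congr rfl fun y hy =>
      Finset.sum_congr rfl fun z _ => (pz_act (γ y) hf (hγ y hy) z).symm, ← Finset.sum_product',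
      ← Finset.sum_image (g := fun p : κ × V => γ p.1 p.2) (f := pz f f)]
    · exact (sum_pz_le hf df _).trans h1
    · intro p hp q hq e
      rw [Finset.mem_coe, Finset.mem_product] at hp hq
      have := hd _ hp.1 _ hq.1 _ hp.2 _ hq.2 e
      simp only [this] at e
      exact Prod.ext this ((γ q.1).injective e)
  have a2 := (sum_pz_le hg dg L).trans h2
  refine (Finset.sum_le_sum fun z _ => abs_pz_le hf hg z hM).trans ?_
  rw [← Finset.sum_div, Finset.sum_add_distrib, ← Finset.mul_sum, ← Finset.sum_div,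
    div_le_iff₀ two_pos]
  have a3 : M * ∑ z ∈ L, pz f f z ≤ σ / M := by rw [le_div_iff₀ hM]; linarith
  have a4 := div_le_div_of_nonneg_right a2 hM.le
  linarith

lemma pz_comm (f g : Om V → ℝ) (z : V) : pz f g z = pz g f z := by simp only [pz, mul_comm]

variable [G.LocallyFinite]

lemma conj_branches (hG : Tr G d) {a b y0 : V} (hab : G.Adj a b) {m : ℕ} (h0 : y0 ∈ lev G m a b) :
    ∃ γ : V → G ≃g G, (∀ y ∈ lev G m a b, γ y a = a ∧ γ y b = b) ∧
      ∀ y ∈ lev G m a b, ∀ y' ∈ lev G m a b, ∀ z ∈ br G (par G a y0) y0,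
        ∀ z' ∈ br G (par G a y0) y0, γ y z = γ y' z' → y = y' := by
  have hT := hG.tree
  have hl : ∀ y ∈ lev G m a b, G.dist a y = m + 1 ∧ geo G a y 1 = b := fun y hy => by
    rw [mem_lev hT _ (Or.inr hab), mem_br_iff hT hab] at hy
    exact ⟨by omega, geo_unique hT (SimpleGraph.dist_eq_one_iff_adj.2 hab) (by omega)⟩
  have : ∀ y, ∃ g : G ≃g G, y ∈ lev G m a b → g a = a ∧ g y0 = y := fun y => by
    by_cases hy : y ∈ lev G m a b
    · obtain ⟨g, hg⟩ := two_point hT hG.reg (o := a) (z := y0) (o' := a) (z' := y)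
        (by rw [(hl y0 h0).1, (hl y hy).1])
      exact ⟨g, fun _ => hg⟩
    · exact ⟨SimpleGraph.Iso.refl, fun h => absurd h hy⟩
  choose γ hγ using this
  have key : ∀ y ∈ lev G m a b, ∀ z ∈ br G (par G a y0) y0,
      geo G a (γ y z) (m + 1) = y := by
    intro y hy z hz
    have hne : y0 ≠ a := by
      intro e; have := (hl y0 h0).1; rw [e] at this; simp at this
    have hp := par_spec hT hne
    have ho : a ∉ br G (par G a y0) y0 := by
      rw [not_mem_br_iff hT hp.1, SimpleGraph.dist_comm (u := y0),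
        SimpleGraph.dist_comm (u := par G a y0)]; omega
    have h1 := br_cross hT hp.1 ho _ z hz rfl
    have h2 : geo G a z (m + 1) = y0 := geo_unique hT (hl y0 h0).1 (by have := (hl y0 h0).1; omega)
    conv_lhs => rw [← (hγ y hy).1]
    rw [iso_geo hT _ (by have := (hl y0 h0).1; omega), h2, (hγ y hy).2]
  refine ⟨γ, fun y hy => ⟨(hγ y hy).1, ?_⟩, fun y hy y' hy' z hz z' hz' e => ?_⟩
  · conv_lhs => rw [← (hl y0 h0).2]
    rw [← iso_geo hT _ (by have := (hl y0 h0).1; omega), (hγ y hy).1, (hγ y hy).2, (hl y hy).2]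
  · rw [← key y hy z hz, e, key y' hy' z' hz']

lemma pow_half_ge (k : ℕ) : (3 / 4 * (9 / 8) ^ k : ℝ) ^ 2 ≤ 2 ^ (k / 2) := by
  have a1 : ((9 / 8 : ℝ) ^ 4) ^ (k / 2) ≤ 2 ^ (k / 2) :=
    pow_le_pow_left₀ (by positivity) (by norm_num) _
  have a2 : ((9 / 8 : ℝ) ^ k) ^ 2 ≤ ((9 / 8) ^ 4) ^ (k / 2) * (9 / 8) ^ 2 := by
    rw [← pow_mul, ← pow_mul, ← pow_add]
    exact pow_le_pow_right₀ (by norm_num) (by omega)
  rw [mul_pow]
  nlinarith [show (0 : ℝ) < 2 ^ (k / 2) by positivity]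

theorem bsv_pair (hG : Tr G d) {F : Om V → V → V → ℝ} (hF : ∀ u v, BM fun ω => F ω u v)
    (hD : ∀ u v, ∃ Λ : Finset V, Dep (LS Λ) fun ω => F ω u v)
    (hE : ∀ (γ : G ≃g G) ω u v, F (act γ ω) u v = F ω (γ u) (γ v)) {v w : V} {i k : ℕ}
    (h : i + k < G.dist v w) {σ : ℝ}
    (h1 : ∫ ω, F ω (geo G v w i) (geo G v w (i + 1)) ^ 2 ∂PO V ≤ σ)
    (h2 : ∫ ω, F ω (geo G v w (i + k)) (geo G v w (i + k + 1)) ^ 2 ∂PO V ≤ σ) :
    ∫ ω, F ω (geo G v w i) (geo G v w (i + 1)) *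
      F ω (geo G v w (i + k)) (geo G v w (i + k + 1)) ∂PO V -
      (∫ ω, F ω (geo G v w i) (geo G v w (i + 1)) ∂PO V) *
        ∫ ω, F ω (geo G v w (i + k)) (geo G v w (i + k + 1)) ∂PO V ≤ 8 / 3 * σ * (8 / 9) ^ k := by
  classical
  have hT := hG.tree
  obtain ⟨Λ1, d1⟩ := hD (geo G v w i) (geo G v w (i + 1))
  obtain ⟨Λ2, d2⟩ := hD (geo G v w (i + k)) (geo G v w (i + k + 1))
  replace d1 := d1.mono (T := LS (Λ1 ∪ Λ2 : Finset V)) fun p hp => by simpa [LS] using Or.inl hp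
  replace d2 := d2.mono (T := LS (Λ1 ∪ Λ2 : Finset V)) fun p hp => by simpa [LS] using Or.inr hp
  have gd : ∀ a b, a ≤ b → b ≤ G.dist v w → G.dist (geo G v w a) (geo G v w b) = b - a :=
    fun a b h1 h2 => by
      have := dist_geo_geo hT (o := v) (w := w) (j := a) (i := b - a) (by omega)
      rwa [Nat.add_sub_cancel' h1] at this
  have gd' : ∀ a b, a ≤ b → b ≤ G.dist v w → G.dist (geo G v w b) (geo G v w a) = b - a :=
    fun a b h1 h2 => by rw [SimpleGraph.dist_comm, gd a b h1 h2]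
  have j1 := geo_adj hT (show i < G.dist v w by omega)
  have j2 := geo_adj hT h
  have j3 := geo_adj hT (show i + k / 2 < G.dist v w by omega)
  have m1 : geo G v w (i + k / 2 + 1) ∈ lev G (k / 2) (geo G v w i) (geo G v w (i + 1)) := by
    rw [mem_lev hT _ (Or.inr j1), mem_br_iff hT j1, gd _ _ (by omega) (by omega),
      gd _ _ (by omega) (by omega)]
    omega
  have m2 : geo G v w (i + k / 2) ∈
      lev G (k - k / 2) (geo G v w (i + k + 1)) (geo G v w (i + k)) := by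
    rw [mem_lev hT _ (Or.inr j2.symm), mem_br_iff hT j2.symm, gd' _ _ (by omega) (by omega),
      gd' _ _ (by omega) (by omega)]
    omega
  have p1 : par G (geo G v w i) (geo G v w (i + k / 2 + 1)) = geo G v w (i + k / 2) :=
    par_eq hT j3 (by rw [gd _ _ (by omega) (by omega), gd _ _ (by omega) (by omega)]; omega)
  have p2 : par G (geo G v w (i + k + 1)) (geo G v w (i + k / 2)) = geo G v w (i + k / 2 + 1) :=
    par_eq hT j3.symm (by rw [gd' _ _ (by omega) (by omega), gd' _ _ (by omega) (by omega)]; omega)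
  obtain ⟨γ, g1, g2⟩ := conj_branches hG j1 m1
  obtain ⟨γ', g1', g2'⟩ := conj_branches hG j2.symm m2
  rw [p1] at g2
  rw [p2] at g2'
  have c : ∀ n, k / 2 ≤ n → (3 / 4 * (9 / 8) ^ k : ℝ) ^ 2 ≤ ((d - 1) ^ n : ℕ) := fun n hn => by
    refine (pow_half_ge k).trans ?_
    have : 2 ^ (k / 2) ≤ (d - 1) ^ n := (Nat.pow_le_pow_left (by have := hG.three; omega) _).trans
      (Nat.pow_le_pow_right (by have := hG.three; omega) hn)
    exact_mod_cast this
  have s1 := bsv_half (M := 3 / 4 * (9 / 8) ^ k) (L := (Λ1 ∪ Λ2).filter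
      (· ∈ br G (geo G v w (i + k / 2)) (geo G v w (i + k / 2 + 1)))) (hF _ _) (hF _ _) d1 d2 _ γ
    (fun y hy ω => by rw [hE, (g1 y hy).1, (g1 y hy).2])
    (fun y hy y' hy' z hz z' hz' => g2 y hy y' hy' z (Finset.mem_filter.1 hz).2 z'
      (Finset.mem_filter.1 hz').2) (by positivity)
    (by rw [card_lev_adj hT hG.reg _ j1]; exact c _ le_rfl) h1 h2
  have s2 := bsv_half (M := 3 / 4 * (9 / 8) ^ k) (L := (Λ1 ∪ Λ2).filter
      (· ∉ br G (geo G v w (i + k / 2)) (geo G v w (i + k / 2 + 1)))) (hF _ _) (hF _ _) d2 d1 _ γ'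
    (fun y hy ω => by rw [hE, (g1' y hy).1, (g1' y hy).2])
    (fun y hy y' hy' z hz z' hz' => g2' y hy y' hy' z
      ((not_mem_br_iff' hT j3).1 (Finset.mem_filter.1 hz).2) z'
      ((not_mem_br_iff' hT j3).1 (Finset.mem_filter.1 hz').2)) (by positivity)
    (by rw [card_lev_adj hT hG.reg _ j2.symm]; exact c _ (by omega)) h2 h1
  simp only [pz_comm (fun ω => F ω (geo G v w (i + k)) (geo G v w (i + k + 1)))] at s2
  rw [← sum_pz (hF _ _) (hF _ _) d1]
  refine (Finset.sum_le_sum fun z _ => le_abs_self _).trans ?_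
  rw [← Finset.sum_filter_add_sum_filter_not _
    (· ∈ br G (geo G v w (i + k / 2)) (geo G v w (i + k / 2 + 1)))]
  refine (add_le_add s1 s2).trans_eq ?_
  rw [div_pow, div_pow]
  field_simp
  ring

omit [G.LocallyFinite] in
lemma sum_geom_abs (j i : ℕ) (c : ℕ → ℝ) (h1 : ∀ k, i + k < j → c (i + k) ≤ (8 / 9) ^ k)
    (h2 : ∀ a k, a + k = i → c a ≤ (8 / 9) ^ k) : ∑ a ∈ Finset.range j, c a ≤ 18 := by
  have g : ∀ n, ∑ k ∈ Finset.range n, (8 / 9 : ℝ) ^ k ≤ 9 := fun n => by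
    rw [geom_sum_eq (by norm_num), div_le_iff_of_neg (by norm_num)]
    linarith [show (0 : ℝ) ≤ (8 / 9) ^ n by positivity]
  have a1 : ∀ n ≤ i, ∑ a ∈ Finset.range n, c a ≤ 9 := fun n hn => by
    refine le_trans ?_ (g n)
    rw [← Finset.sum_range_reflect (fun k => (8 / 9 : ℝ) ^ k)]
    refine Finset.sum_le_sum fun a ha => (h2 a (i - a) (by have := Finset.mem_range.1 ha; omega)).trans
      (pow_le_pow_of_le_one (by norm_num) (by norm_num) (by omega))
  rcases le_total j i with h | h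
  · linarith [a1 j h]
  · obtain ⟨n, rfl⟩ := Nat.exists_eq_add_of_le h
    rw [Finset.sum_range_add]
    have := (Finset.sum_le_sum fun k hk => h1 k (by have := Finset.mem_range.1 hk; omega)).trans (g n)
    linarith [a1 i le_rfl]

theorem bsv_path (hG : Tr G d) {F : Om V → V → V → ℝ} (hF : ∀ u v, BM fun ω => F ω u v)
    (hD : ∀ u v, ∃ Λ : Finset V, Dep (LS Λ) fun ω => F ω u v)
    (hE : ∀ (γ : G ≃g G) ω u v, F (act γ ω) u v = F ω (γ u) (γ v)) (v w : V) {σ : ℝ} (hσ : 0 ≤ σ)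
    (h1 : ∀ i < G.dist v w, ∫ ω, F ω (geo G v w i) (geo G v w (i + 1)) ^ 2 ∂PO V ≤ σ) :
    ∫ ω, (∑ i ∈ Finset.range (G.dist v w), (F ω (geo G v w i) (geo G v w (i + 1)) -
      ∫ ω, F ω (geo G v w i) (geo G v w (i + 1)) ∂PO V)) ^ 2 ∂PO V ≤ 48 * G.dist v w * σ := by
  set Z : ℕ → Om V → ℝ := fun i ω => F ω (geo G v w i) (geo G v w (i + 1))
  have b : ∀ i, BM (Z i) := fun i => hF _ _
  have e1 : ∀ i i', ∫ ω, (Z i ω - ∫ ω, Z i ω ∂PO V) * (Z i' ω - ∫ ω, Z i' ω ∂PO V) ∂PO V =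
      ∫ ω, Z i ω * Z i' ω ∂PO V - (∫ ω, Z i ω ∂PO V) * ∫ ω, Z i' ω ∂PO V := by
    intro i i'
    have b1 := b i
    have b2 := b i'
    simp only [sub_mul, mul_sub]
    rw [int_sub (by bm) (by bm), int_sub (by bm) (by bm), int_sub (by bm) (by bm),
      integral_const_mul, integral_mul_const, int_const]
    ring
  show ∫ ω, (∑ i ∈ Finset.range (G.dist v w), (Z i ω - ∫ ω, Z i ω ∂PO V)) ^ 2 ∂PO V ≤ _
  simp only [sq, Finset.sum_mul_sum]
  rw [int_sum _ fun i _ => BM.sum _ fun i' _ => ((b i).sub (BM.const _)).mul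
    ((b i').sub (BM.const _))]
  refine (Finset.sum_le_card_nsmul _ _ (48 * σ) fun i hi => ?_).trans_eq
    (by rw [Finset.card_range, nsmul_eq_mul]; ring)
  rw [int_sum _ fun i' _ => ((b i).sub (BM.const _)).mul ((b i').sub (BM.const _))]
  simp only [e1]
  rw [Finset.mem_range] at hi
  rcases hσ.eq_or_lt with rfl | hσ'
  · refine (Finset.sum_nonpos fun i' hi' => ?_).trans (by simp)
    rw [Finset.mem_range] at hi'
    rcases le_total i i' with h | h
    · obtain ⟨k, rfl⟩ := Nat.exists_eq_add_of_le h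
      simpa using bsv_pair hG hF hD hE hi' (h1 _ hi) (h1 _ hi')
    · obtain ⟨k, rfl⟩ := Nat.exists_eq_add_of_le h
      simpa [mul_comm] using bsv_pair hG hF hD hE hi (h1 _ hi') (h1 _ hi)
  have := sum_geom_abs (G.dist v w) i (fun i' => (∫ ω, Z i ω * Z i' ω ∂PO V -
    (∫ ω, Z i ω ∂PO V) * ∫ ω, Z i' ω ∂PO V) / (8 / 3 * σ)) (fun k hk => by
      rw [div_le_iff₀' (by positivity)]
      exact bsv_pair hG hF hD hE hk (h1 _ hi) (h1 _ hk)) fun a k hk => by
      subst hk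
      rw [div_le_iff₀' (by positivity)]
      simpa only [mul_comm] using bsv_pair hG hF hD hE hi (h1 a (by omega)) (h1 _ hi)
  rw [← Finset.sum_div, div_le_iff₀ (by positivity)] at this
  linarith

theorem bsv_lim (hG : Tr G d) {F : ℕ → Om V → V → V → ℝ} {Z : Om V → V → V → ℝ} (C : ℝ)
    (hF : ∀ R u v, Measurable fun ω => F R ω u v) (hC : ∀ R ω u v, |F R ω u v| ≤ C)
    (hD : ∀ R u v, ∃ Λ : Finset V, Dep (LS Λ) fun ω => F R ω u v)
    (hE : ∀ R (γ : G ≃g G) ω u v, F R (act γ ω) u v = F R ω (γ u) (γ v))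
    (hZ : ∀ᵐ ω ∂PO V, ∀ u v, G.Adj u v → Tendsto (fun R => F R ω u v) atTop (𝓝 (Z ω u v)))
    (v w : V) {σ : ℝ} (hσ : 0 ≤ σ) (h1 : ∀ a b, G.Adj a b → ∫ ω, Z ω a b ^ 2 ∂PO V ≤ σ) :
    ∫ ω, (∑ i ∈ Finset.range (G.dist v w), (Z ω (geo G v w i) (geo G v w (i + 1)) -
      ∫ ω, Z ω (geo G v w i) (geo G v w (i + 1)) ∂PO V)) ^ 2 ∂PO V ≤ 48 * G.dist v w * σ := by
  have hT := hG.tree
  have b : ∀ R u v, BM fun ω => F R ω u v := fun R u v => BM.of_le (hF R u v) C fun ω => hC R ω u v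
  have t1 : ∀ a b, G.Adj a b → Tendsto (fun R => ∫ ω, F R ω a b ∂PO V) atTop
      (𝓝 (∫ ω, Z ω a b ∂PO V)) := fun a b h =>
    tendsto_int (fun R => hF R a b) C (fun R ω => hC R ω a b) (hZ.mono fun ω hω => hω a b h)
  have t2 : ∀ a b, G.Adj a b → Tendsto (fun R => ∫ ω, F R ω a b ^ 2 ∂PO V) atTop
      (𝓝 (∫ ω, Z ω a b ^ 2 ∂PO V)) := fun a b h =>
    tendsto_int (fun R => (hF R a b).pow_const 2) (C ^ 2) (fun R ω => by
      rw [abs_pow]; exact pow_le_pow_left₀ (abs_nonneg _) (hC R ω a b) 2)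
      (hZ.mono fun ω hω => (hω a b h).pow 2)
  have t3 : Tendsto (fun R => ∫ ω, (∑ i ∈ Finset.range (G.dist v w),
      (F R ω (geo G v w i) (geo G v w (i + 1)) -
        ∫ ω, F R ω (geo G v w i) (geo G v w (i + 1)) ∂PO V)) ^ 2 ∂PO V) atTop
      (𝓝 (∫ ω, (∑ i ∈ Finset.range (G.dist v w), (Z ω (geo G v w i) (geo G v w (i + 1)) -
        ∫ ω, Z ω (geo G v w i) (geo G v w (i + 1)) ∂PO V)) ^ 2 ∂PO V)) := by
    refine tendsto_int (fun R => (Finset.measurable_sum _ fun i _ =>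
      (hF R _ _).sub_const _).pow_const 2) ((G.dist v w * (C + C)) ^ 2) (fun R ω => ?_) ?_
    · rw [abs_pow]
      refine pow_le_pow_left₀ (abs_nonneg _) ((Finset.abs_sum_le_sum_abs _ _).trans
        ((Finset.sum_le_card_nsmul _ _ (C + C) fun i _ => (abs_sub _ _).trans
          (add_le_add (hC _ _ _ _) (abs_integral_le_integral_abs.trans
            (int_le_const (b R _ _).abs fun ω => hC _ _ _ _)))).trans_eq (by rw [Finset.card_range, nsmul_eq_mul]))) 2
    · filter_upwards [hZ] with ω hω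
      exact (tendsto_finsetSum _ fun i hi => (hω _ _ (geo_adj hT (Finset.mem_range.1 hi))).sub
        (t1 _ _ (geo_adj hT (Finset.mem_range.1 hi)))).pow 2
  refine le_of_forall_pos_le_add fun δ hδ => ?_
  have hδ' : 0 < δ / (48 * G.dist v w + 1) := by positivity
  refine (le_of_tendsto (b := 48 * G.dist v w * (σ + δ / (48 * G.dist v w + 1))) t3 ?_).trans ?_
  · have : ∀ᶠ R in atTop, ∀ i ∈ Finset.range (G.dist v w),
        ∫ ω, F R ω (geo G v w i) (geo G v w (i + 1)) ^ 2 ∂PO V <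
          σ + δ / (48 * G.dist v w + 1) := by
      rw [eventually_all_finset]
      intro i hi
      have ha := geo_adj hT (Finset.mem_range.1 hi)
      exact (t2 _ _ ha).eventually (gt_mem_nhds (by linarith [h1 _ _ ha]))
    filter_upwards [this] with R hR
    exact bsv_path hG (b R) (hD R) (hE R) v w (by positivity)
      fun i hi => (hR i (Finset.mem_range.2 hi)).le
  · rw [mul_add, ← mul_div_assoc]
    refine add_le_add le_rfl ?_
    rw [div_le_iff₀ (by positivity)]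
    nlinarith

omit [G.LocallyFinite] in
lemma XS_dep {e : ℤ → ℝ} (P : Par V) (t : ℝ) {ω ω' : Om V} (h : ∀ p ∈ LS P.Λ, ω p = ω' p) :
    ∀ v ∈ P.Λ, XS G e P ω t v = XS G e P ω' t v := by
  have h0 : ∀ v ∈ P.Λ, ∀ k, tm ω (v, k) = tm ω' (v, k) := fun v hv k => by
    unfold tm; rw [h (v, k, 0) hv]
  have h1 : ∀ (K : ℤ) (t : ℝ) (y y' : V × ℤ → ℝ), (∀ i : V × ℤ, i.1 ∈ P.Λ → y i = y' i) →
      ∀ v ∈ P.Λ, xf P.n K y ω t v = xf P.n K y' ω' t v := fun K t y y' hy v hv =>
    Finset.sum_congr rfl fun k _ => by rw [h0 v hv, hy (v, k) hv]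
  have h2 : ∀ N (i : V × ℤ), i.1 ∈ P.Λ →
      (step G e P ω)^[N] 0 i = (step G e P ω')^[N] 0 i := by
    intro N
    induction N with
    | zero => intro _ _; rfl
    | succ N ih =>
      intro i hi
      rw [Function.iterate_succ_apply', Function.iterate_succ_apply', step, step, ef_eq, ef_eq,
        h (i.1, i.2, 0) hi, h (i.1, i.2, 1) hi, h0 i.1 hi i.2, mg_congr (h1 _ _ _ _ ih)]
  exact h1 _ _ _ _ fun i hi => h2 _ i hi

lemma dep_cb {e : ℤ → ℝ} (β : ℝ) (n : ℕ) (o : V) (R : ℕ) (t : ℝ) :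
    Dep (LS (sub G R o o)) fun ω => cb G e β n o R ω t := by
  classical
  intro ω ω' h
  funext u v
  exact mg_congr (fun z hz => XS_dep (Pb G β n o R) t h z (Finset.mem_filter.1 hz).1) v

end Crest.Agent.H5.KS
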