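import Mathlib
import Crest.Agent.H5.KS.Lim

/-!
The planted model: broadcast spins, gauge transformation, transfer of static estimates.
-/

set_option autoImplicit false

namespace Crest.Agent.H5.KS

open MeasureTheory Real Filter Topology

variable {V : Type*} {G : SimpleGraph V} {e : ℤ → ℝ} {d : ℕ}

/-- closed under taking parents -/
def PC (G : SimpleGraph V) (o : V) (S : Finset V) : Prop := o ∈ S ∧ ∀ v ∈ S, par G o v ∈ S

open Classical in
/-- broadcast weight -/
noncomputable def Wt (G : SimpleGraph V) (θ : ℝ) (o : V) (S : Finset V) (η : V → ℝ) : ℝ :=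
  1 / 2 * ∏ v ∈ S.erase o, (1 + θ * (η (par G o v) * η v)) / 2

/-- smoothed indicator -/
noncomputable def Ind (S : Finset V) (η s : V → ℝ) : ℝ := ∏ v ∈ S, (1 + η v * s v) / 2

/-- sign valued -/
def Sgn (η : V → ℝ) : Prop := ∀ v, η v = 1 ∨ η v = -1

lemma pc_induction [DecidableEq V] (hT : G.IsTree) {o : V} {Q : Finset V → Prop} (h0 : Q {o})
    (h1 : ∀ S v, PC G o S → v ∉ S → par G o v ∈ S → (∀ z ∈ S, G.dist o z ≤ G.dist o v) → Q S →
      Q (insert v S)) (S : Finset V) (hS : PC G o S) : Q S := by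
  induction hc : S.card using Nat.strong_induction_on generalizing S with
  | _ m ih =>
    obtain ⟨v, hv, hmax⟩ := Finset.exists_max_image S (G.dist o) ⟨o, hS.1⟩
    by_cases hvo : v = o
    · have : S = {o} := Finset.eq_singleton_iff_unique_mem.2 ⟨hS.1, fun z hz => by
        have := hmax z hz
        rw [hvo, SimpleGraph.dist_self] at this
        exact (dist_zero hT (Nat.le_zero.1 this)).symm⟩
      rw [this]; exact h0
    have hp : ∀ z ∈ S, par G o z ∈ S.erase v := fun z hz => by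
      refine Finset.mem_erase.2 ⟨fun h => ?_, hS.2 z hz⟩
      by_cases hz' : z = o
      · rw [hz', par_self hT] at h; exact hvo h.symm
      · have := (par_spec hT hz').2
        have := hmax z hz
        rw [h] at *; omega
    have hS' : PC G o (S.erase v) :=
      ⟨Finset.mem_erase.2 ⟨Ne.symm hvo, hS.1⟩, fun z hz => hp z (Finset.mem_of_mem_erase hz)⟩
    rw [← Finset.insert_erase hv]
    exact h1 _ v hS' (Finset.notMem_erase _ _) (hp v hv)
      (fun z hz => hmax z (Finset.mem_of_mem_erase hz))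
      (ih _ (hc ▸ Finset.card_erase_lt_of_mem hv) _ hS' rfl)

lemma Wt_single (θ : ℝ) (o : V) (η : V → ℝ) : Wt G θ o {o} η = 1 / 2 := by simp [Wt]

lemma Wt_insert [DecidableEq V] (θ : ℝ) {o v : V} {S : Finset V} (ho : o ∈ S) (hv : v ∉ S)
    (η : V → ℝ) :
    Wt G θ o (insert v S) η = Wt G θ o S η * ((1 + θ * (η (par G o v) * η v)) / 2) := by
  have hne : v ≠ o := fun h => hv (h ▸ ho)
  unfold Wt
  rw [mul_assoc]
  congr 1
  convert Finset.prod_insert (s := S.erase o) (a := v)
    (f := fun v => (1 + θ * (η (par G o v) * η v)) / 2) (fun h => hv (Finset.mem_of_mem_erase h))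
    using 1
  · congr 1
    ext z
    simp only [Finset.mem_erase, Finset.mem_insert]
    constructor
    · rintro ⟨h1, h2 | h2⟩
      · exact Or.inl h2
      · exact Or.inr ⟨h1, h2⟩
    · rintro (rfl | ⟨h1, h2⟩)
      · exact ⟨hne, Or.inl rfl⟩
      · exact ⟨h1, Or.inr h2⟩
  · rw [mul_comm]
    congr
    exact Subsingleton.elim _ _

lemma Ind_mul {S : Finset V} {η s : V → ℝ} (hη : Sgn η) (hs : Sgn s) {u : V} (hu : u ∈ S) :
    Ind S η s * s u = η u * Ind S η s := by
  classical
  unfold Ind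
  rw [← Finset.mul_prod_erase _ _ hu]
  rcases hη u with h | h <;> rcases hs u with h' | h' <;> rw [h, h'] <;> ring

lemma ex_affine {β : ℝ} {Λ : Finset V} {x : V → ℝ} (a b : ℝ) (f : Finset V → ℝ) :
    ex G β Λ x (fun A => a + b * f A) = a + b * ex G β Λ x f := by
  simp only [ex_eq_sum, mul_add, Finset.sum_add_distrib, ← Finset.sum_mul, sum_pr, one_mul,
    Finset.mul_sum, mul_left_comm b]

lemma leaf_br (hT : G.IsTree) {o v z : V} (hv : v ≠ o) (hz : z ≠ v)
    (h : G.dist o z ≤ G.dist o v) : z ∈ br G v (par G o v) := by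
  have hp := par_spec hT hv
  rw [← not_mem_br_iff' hT hp.1]
  intro hb
  have ho : o ∉ br G (par G o v) v := by
    rw [not_mem_br_iff hT hp.1, SimpleGraph.dist_comm (u := v),
      SimpleGraph.dist_comm (u := par G o v)]; omega
  have := br_cross hT hp.1 ho _ z hb rfl
  exact hz (dist_zero hT (by omega)).symm

theorem ex_Ind (hT : G.IsTree) (β : ℝ) {o : V} {η : V → ℝ} (hη : Sgn η) {S : Finset V}
    (hS : PC G o S) : ∀ Λ, S ⊆ Λ → ex G β Λ 0 (fun A => Ind S η (sg A)) = Wt G (tanh β) o S η := by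
  classical
  refine pc_induction hT (Q := fun S => ∀ Λ, S ⊆ Λ →
    ex G β Λ 0 (fun A => Ind S η (sg A)) = Wt G (tanh β) o S η) ?_ ?_ S hS
  · intro Λ h
    have := ex_affine (G := G) (β := β) (Λ := Λ) (x := 0) (1 / 2) (η o / 2) fun A => sg A o
    rw [Wt_single, ← mg, mg_zero (h (Finset.mem_singleton_self o)), mul_zero, add_zero] at *
    rw [← this]
    congr 1
    funext A
    simp only [Ind, Finset.prod_singleton]
    ring
  · intro S v hS hv hu hmax ih Λ h
    have hne : v ≠ o := fun h => hv (h ▸ hS.1)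
    have hp := (par_spec hT hne).1
    have hb : ∀ z ∈ S, z ∈ br G v (par G o v) := fun z hz =>
      leaf_br hT hne (fun h => hv (h ▸ hz)) (hmax z hz)
    have hvΛ := h (Finset.mem_insert_self _ _)
    have huΛ := h (Finset.mem_insert_of_mem hu)
    have a1 := ex_cut (β := β) (Λ := Λ) (x := 0) hT hp (f := fun A => Ind S η (sg A))
      (g := fun A => 1 / 2 + η v / 2 * sg A v)
      (fun A B hB => Finset.prod_congr rfl fun z hz => by rw [dep_out hT hp (hb z hz) A B hB])
      (fun A B hA => by rw [dep_in hT hp (self_mem_br _ _ _) A B hA])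
    have a2 : mg G β (Λ.filter (· ∈ br G (par G o v) v)) 0 v = 0 :=
      mg_zero (Finset.mem_filter.2 ⟨hvΛ, self_mem_br _ _ _⟩)
    have a3 : cav G β Λ 0 (par G o v) v = 0 := a2
    have a4 : ∀ A, (1 / 2 + η v / 2 * sg A v) * sg A v = η v / 2 + 1 / 2 * sg A v := fun A => by
      linear_combination η v / 2 * sg_mul_self A v
    have a5 : ∀ A, Ind S η (sg A) * sg A (par G o v) = 0 + η (par G o v) * Ind S η (sg A) :=
      fun A => by rw [Ind_mul hη (sg_cases A) hu, zero_add]
    simp only [a3, a4, a5, ex_affine, if_pos (And.intro huΛ hvΛ), mul_zero, zero_mul, add_zero,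
      mul_one] at a1
    rw [← mg, a2, ih _ fun z hz => Finset.mem_filter.2 ⟨h (Finset.mem_insert_of_mem hz), hb z hz⟩]
      at a1
    rw [Wt_insert _ hS.1 hv]
    refine Eq.trans ?_ (a1.trans (by ring))
    congr 1
    funext A
    rw [Ind, Finset.prod_insert hv, ← Ind]
    ring

/-- a biased sign -/
noncomputable def fl (θ : ℝ) (ω : Om V) (v : V) : ℝ :=
  if (ω (v, 0, 2) : ℝ) < (1 + θ) / 2 then 1 else -1

lemma fl_sgn (θ : ℝ) (ω : Om V) : Sgn (fl θ ω) := fun v => by unfold fl; split_ifs <;> simp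

lemma Sgn.abs {η : V → ℝ} (h : Sgn η) (v : V) : |η v| = 1 := by
  rcases h v with h | h <;> simp [h]

lemma measurable_fl (θ : ℝ) (v : V) : Measurable fun ω : Om V => fl θ ω v :=
  Measurable.ite (measurableSet_lt (measurable_coord measurable_id' _) measurable_const)
    measurable_const measurable_const

lemma bm_fl (θ : ℝ) (v : V) : BM fun ω : Om V => fl θ ω v :=
  BM.of_le (measurable_fl θ v) 1 fun ω => ((fl_sgn θ ω).abs v).le

lemma int_flip {θ : ℝ} (h : |θ| ≤ 1) (a b : ℝ) :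
    ∫ s : unitInterval, (if (s : ℝ) < (1 + θ) / 2 then a else b) =
      (1 + θ) / 2 * a + (1 - θ) / 2 * b := by
  rw [abs_le] at h
  have := int_Ico (a := 0) (c := (1 + θ) / 2) le_rfl (by linarith) (by linarith)
  simp only [unitInterval.nonneg, true_and, sub_zero] at this
  have e1 : ∀ s : unitInterval, (if (s : ℝ) < (1 + θ) / 2 then a else b) =
      (if (s : ℝ) < (1 + θ) / 2 then (1 : ℝ) else 0) * (a - b) + b := fun s => by
    split_ifs <;> ring
  simp only [e1]
  rw [int_add ((bm_lt _).mul (BM.const _)) (BM.const _), integral_mul_const, this, int_const]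
  ring

/-- broadcast spins -/
noncomputable def sig (G : SimpleGraph V) (θ : ℝ) (o : V) (ω : Om V) : V → ℝ := fun v =>
  fl 0 ω o * ∏ i ∈ Finset.range (G.dist o v), fl θ ω (geo G o v (i + 1))

lemma sig_self (θ : ℝ) (o : V) (ω : Om V) : sig G θ o ω o = fl 0 ω o := by simp [sig]

lemma sig_step (hT : G.IsTree) (θ : ℝ) {o v : V} (hv : v ≠ o) (ω : Om V) :
    sig G θ o ω v = sig G θ o ω (par G o v) * fl θ ω v := by
  have hp := (par_spec hT hv).2
  unfold sig
  rw [← hp, Finset.prod_range_succ, hp, geo_dist hT, mul_assoc]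
  congr 2
  refine Finset.prod_congr rfl fun i hi => ?_
  rw [Finset.mem_range] at hi
  conv_rhs => rw [par]
  rw [geo_geo_left hT (by omega) (by omega)]

lemma sig_sgn (θ : ℝ) (o : V) (ω : Om V) : Sgn (sig G θ o ω) := fun v => by
  rw [← abs_eq zero_le_one, sig, abs_mul, Finset.abs_prod]
  simp [(fl_sgn _ ω).abs]

lemma measurable_sig (θ : ℝ) (o : V) : Measurable (sig G θ o) :=
  measurable_pi_lambda _ fun _ => (measurable_fl 0 o).mul
    (Finset.measurable_prod _ fun _ _ => measurable_fl θ _)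

lemma abs_Ind_le (S : Finset V) {η s : V → ℝ} (hη : ∀ v, |η v| ≤ 1) (hs : ∀ v, |s v| ≤ 1) :
    |Ind S η s| ≤ 1 := by
  rw [Ind, Finset.abs_prod]
  refine Finset.prod_le_one (fun _ _ => abs_nonneg _) fun v _ => ?_
  have : |η v * s v| ≤ 1 := by rw [abs_mul]; exact mul_le_one₀ (hη v) (abs_nonneg _) (hs v)
  rw [abs_le] at this ⊢
  constructor <;> linarith

lemma bm_Ind {Ω : Type*} [MeasurableSpace Ω] {X : Ω → V → ℝ} (hX : Measurable X) (S : Finset V)
    {η : V → ℝ} (hη : Sgn η) (hs : ∀ a v, |X a v| ≤ 1) : BM fun a => Ind S η (X a) :=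
  BM.of_le (Finset.measurable_prod _ fun v _ =>
    ((((measurable_pi_apply v).comp hX).const_mul _).const_add 1).div_const 2) 1
    fun a => abs_Ind_le S (fun v => (hη.abs v).le) (hs a)

theorem int_Ind (hT : G.IsTree) {θ : ℝ} (hθ : |θ| ≤ 1) {o : V} {η : V → ℝ} (hη : Sgn η)
    {S : Finset V} (hS : PC G o S) : ∫ ω, Ind S η (sig G θ o ω) ∂PO V = Wt G θ o S η := by
  classical
  refine pc_induction hT (Q := fun S => ∫ ω, Ind S η (sig G θ o ω) ∂PO V = Wt G θ o S η)
    ?_ ?_ S hS
  · simp only [Ind, Finset.prod_singleton, sig_self, Wt_single, fl]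
    rw [integral_eval ((o, 0, 2) : V × ℤ × Fin 3)
      (g := fun s => (1 + η o * if (s : ℝ) < (1 + 0) / 2 then 1 else -1) / 2)
      (((Measurable.ite (measurableSet_lt measurable_subtype_coe measurable_const)
        measurable_const measurable_const).const_mul _).const_add 1 |>.div_const 2)]
    simp only [mul_ite, add_ite, ite_div]
    rw [int_flip (by simp)]
    ring
  · intro S v hS hv hu hmax ih
    have hne : v ≠ o := fun h => hv (h ▸ hS.1)
    have e1 : ∀ ω, Ind (insert v S) η (sig G θ o ω) =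
        Ind S η (sig G θ o ω) * ((1 + η (par G o v) * η v * fl θ ω v) / 2) := fun ω => by
      rw [Ind, Finset.prod_insert hv, ← Ind, sig_step hT θ hne]
      linear_combination η v * fl θ ω v / 2 * Ind_mul hη (sig_sgn (G := G) θ o ω) hu
    have b1 := bm_Ind (measurable_sig (G := G) θ o) S hη fun ω z => ((sig_sgn θ o ω).abs z).le
    have b2 := bm_fl θ v
    simp only [e1]
    rw [integral_upd (v, 0, 2) (by bm), Wt_insert _ hS.1 hv, ← ih, ← integral_mul_const]
    congr 1
    funext ω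
    have e2 : ∀ s, Ind S η (sig G θ o (Function.update ω (v, 0, 2) s)) = Ind S η (sig G θ o ω) := by
      intro s
      refine Finset.prod_congr rfl fun z hz => ?_
      have f1 : ∀ θ y, y ≠ v → fl θ (Function.update ω (v, 0, 2) s) y = fl θ ω y := fun θ y hy => by
        unfold fl; rw [Function.update_of_ne (by simpa using hy)]
      unfold sig
      rw [f1 0 o hne.symm, Finset.prod_congr rfl fun i hi => f1 θ _ ?_]
      intro h
      have a1 := geo_spec hT (show i + 1 ≤ G.dist o z from Finset.mem_range.1 hi)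
      have a2 := hmax z hz
      rw [h] at a1
      exact hv (dist_zero hT (show G.dist v z = 0 by omega) ▸ hz)
    simp only [e2, fl, Function.update_self]
    rw [integral_const_mul]
    simp only [mul_ite, add_ite, ite_div]
    rw [int_flip hθ]
    ring

open Classical in
lemma sum_Ind (Λ : Finset V) {s : V → ℝ} (hs : Sgn s) (f : Finset V → ℝ) :
    ∑ A ∈ Λ.powerset, Ind Λ (sg A) s * f A = f (Λ.filter fun z => s z = 1) := by
  rw [Finset.sum_eq_single (Λ.filter fun z => s z = 1)]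
  · rw [Ind, Finset.prod_eq_one, one_mul]
    intro z hz
    rcases hs z with h | h
    · simp [sg, hz, h]
    · have : s z ≠ 1 := by rw [h]; norm_num
      have h2 : z ∉ Λ.filter fun z => s z = 1 := fun h' => this (Finset.mem_filter.1 h').2
      rw [sg, if_neg h2, h]; norm_num
  · intro A hA hne
    rw [Finset.mem_powerset] at hA
    obtain ⟨z, hz⟩ : ∃ z, ¬ (z ∈ A ↔ z ∈ Λ.filter fun z => s z = 1) := by
      by_contra h
      push Not at h
      exact hne (Finset.ext h)
    rw [Finset.mem_filter] at hz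
    by_cases h1 : z ∈ A
    · have h2 : s z = -1 := (hs z).resolve_left fun h => hz ⟨fun _ => ⟨hA h1, h⟩, fun _ => h1⟩
      rw [Ind, Finset.prod_eq_zero (hA h1) (by simp [sg, h1, h2]), zero_mul]
    · have h2 : z ∈ Λ ∧ s z = 1 := by
        by_contra h
        exact hz ⟨fun h' => absurd h' h1, fun h' => absurd h' h⟩
      rw [Ind, Finset.prod_eq_zero h2.1 (by simp [sg, h1, h2.2]), zero_mul]
  · intro h
    exact absurd (Finset.mem_powerset.2 (Finset.filter_subset _ _)) h

lemma pr_eq_Wt (hT : G.IsTree) (β : ℝ) {o : V} {Λ A : Finset V} (hΛ : PC G o Λ)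
    (hA : A ∈ Λ.powerset) : pr G β Λ 0 A = Wt G (tanh β) o Λ (sg A) := by
  classical
  rw [← ex_Ind hT β (sg_cases A) hΛ Λ (Finset.Subset.refl _), ex_eq_sum]
  have e1 : ∀ B, pr G β Λ 0 B * Ind Λ (sg A) (sg B) = Ind Λ (sg B) (sg A) * pr G β Λ 0 B :=
    fun B => by simp only [Ind, mul_comm]
  simp only [e1]
  rw [sum_Ind Λ (sg_cases A)]
  congr 1
  ext z
  rw [Finset.mem_filter]
  constructor
  · exact fun h => ⟨Finset.mem_powerset.1 hA h, if_pos h⟩
  · rintro ⟨_, h⟩
    by_contra h'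
    rw [sg, if_neg h'] at h
    norm_num at h

lemma dep_sig (θ : ℝ) (o : V) : Dep {p : V × ℤ × Fin 3 | p.2.2 = 2} (sig G θ o) := by
  intro ω ω' h
  have : ∀ θ v, fl θ ω v = fl θ ω' v := fun θ v => by unfold fl; rw [h (v, 0, 2) rfl]
  funext v
  simp only [sig, this]

theorem planted (hT : G.IsTree) (β : ℝ) {o : V} {Λ : Finset V} (hΛ : PC G o Λ)
    {X : Om V → V → ℝ} (hX : Measurable X) (hD : Dep {p : V × ℤ × Fin 3 | p.2.2 ≠ 2} X)
    {Φ : (V → ℝ) → ℝ} (hΦ : BM Φ) (hΦ' : ∀ x x', (∀ z ∈ Λ, x z = x' z) → Φ x = Φ x') :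
    ∑ A ∈ Λ.powerset, pr G β Λ 0 A * ∫ ω, Φ (sg A * X ω) ∂PO V =
      ∫ ω, Φ (sig G (tanh β) o ω * X ω) ∂PO V := by
  classical
  have b1 : ∀ A, BM fun ω => Ind Λ (sg A) (sig G (tanh β) o ω) := fun A =>
    bm_Ind (measurable_sig _ o) Λ (sg_cases A) fun ω z => ((sig_sgn _ o ω).abs z).le
  have b2 : ∀ A, BM fun ω => Φ (sg A * X ω) := fun A => hΦ.comp (measurable_sg_mul hX A)
  have e1 : ∀ ω, Φ (sig G (tanh β) o ω * X ω) =
      ∑ A ∈ Λ.powerset, Ind Λ (sg A) (sig G (tanh β) o ω) * Φ (sg A * X ω) := by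
    intro ω
    rw [sum_Ind Λ (sig_sgn _ o ω)]
    refine hΦ' _ _ fun z hz => ?_
    simp only [Pi.mul_apply, sg, Finset.mem_filter, hz, true_and]
    rcases sig_sgn (G := G) (tanh β) o ω z with h | h <;> rw [h] <;> norm_num
  simp only [e1]
  rw [int_sum _ fun A _ => (b1 A).mul (b2 A)]
  refine Finset.sum_congr rfl fun A hA => ?_
  rw [integral_mul_dep ((dep_sig _ o).map _) (hD.map fun x => Φ (sg A * x))
    (Set.disjoint_left.2 fun p h1 h2 => h2 h1) (b1 A) (b2 A),
    int_Ind hT (abs_tanh_le_one β) (sg_cases A) hΛ, pr_eq_Wt hT β hΛ hA]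

/-- the planted field in infinite volume -/
noncomputable def XI (e : ℤ → ℝ) (n : ℕ) (ω : Om V) (τ : ℝ) : V → ℝ := fun v =>
  XT e ⟨0, n, {v}⟩ ω τ v

lemma XT_eq {P : Par V} {v : V} (hv : v ∈ P.Λ) (ω : Om V) (τ : ℝ) :
    XT e P ω τ v = XI e P.n ω τ v := by
  have : ∀ k, ef e P ω (v, k) = ef e ⟨0, P.n, {v}⟩ ω (v, k) := fun k => by
    rw [ef_eq, ef_eq]
    unfold en0
    by_cases hk : -(P.n : ℤ) ≤ k
    · rw [if_pos (And.intro hv hk), if_pos (And.intro (Finset.mem_singleton_self v) hk)]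
    · rw [if_neg fun h : _ ∧ _ => hk h.2, if_neg fun h : _ ∧ _ => hk h.2]
  simp only [XI, XT, xf, this]

lemma measurable_XI (n : ℕ) (τ : ℝ) : Measurable fun ω : Om V => XI e n ω τ :=
  measurable_pi_lambda _ fun v => (measurable_pi_apply v).comp (measurable_XT measurable_id' τ)

lemma dep_XI (n : ℕ) (τ : ℝ) (v : V) :
    Dep {p : V × ℤ × Fin 3 | p.1 = v ∧ p.2.2 ≠ 2} fun ω => XI e n ω τ v := by
  intro ω ω' h
  have h0 : ∀ k, ω (v, k, 0) = ω' (v, k, 0) := fun k => h _ ⟨rfl, by simp⟩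
  have h1 : ∀ k, ω (v, k, 1) = ω' (v, k, 1) := fun k => h _ ⟨rfl, by simp⟩
  simp only [XI, XT, xf, tm, ef_eq, h0, h1]

variable [G.LocallyFinite]

/-- gauge transformed belief propagation fields -/
noncomputable def hh (G : SimpleGraph V) [G.LocallyFinite] (θ : ℝ) (t x : V → ℝ) :
    ℕ → V → V → ℝ
  | 0, _, v => x v
  | n + 1, u, v => x v + ∑ c ∈ ch G u v, t c * msg θ (hh G θ t x n v c)

lemma msg_sgn (θ : ℝ) {s : ℝ} (hs : s = 1 ∨ s = -1) (h : ℝ) : msg θ (s * h) = s * msg θ h := by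
  rcases hs with rfl | rfl <;> simp [msg_neg]

lemma bp_gauge (hT : G.IsTree) (θ : ℝ) (o : V) (ω : Om V) (x : V → ℝ) (n : ℕ) : ∀ v,
    bp G θ (sig G θ o ω * x) n (par G o v) v =
      sig G θ o ω v * hh G θ (fl θ ω) x n (par G o v) v := by
  induction n with
  | zero => intro v; rfl
  | succ n ih =>
    intro v
    simp only [bp, hh, Pi.mul_apply, mul_add, Finset.mul_sum]
    congr 1
    refine Finset.sum_congr rfl fun c hc => ?_
    rw [mem_ch_par hT] at hc
    have e1 := par_eq hT hc.1 hc.2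
    have hco : c ≠ o := by rintro rfl; simp at hc
    have := ih c
    rw [e1] at this
    rw [this, msg_sgn θ (sig_sgn θ o ω c), sig_step hT θ hco, e1, mul_assoc]

lemma pc_ball (hT : G.IsTree) (o : V) (R : ℕ) : PC G o (sub G R o o) :=
  ⟨self_mem_ball hT R o, fun v hv => by
    rw [mem_ball hT] at hv ⊢
    by_cases h : v = o
    · rw [h, par_self hT]; simp
    · have := (par_spec hT h).2
      omega⟩

omit [G.LocallyFinite] in
lemma good_par (hT : G.IsTree) (o z : V) : Good G (par G o z) z := by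
  by_cases h : z = o
  · rw [h, par_self hT]; exact Or.inl rfl
  · exact Or.inr (par_spec hT h).1

lemma cav_par (hT : G.IsTree) {β : ℝ} (h0 : 0 ≤ tanh β) {o z : V} {R : ℕ} (hz : G.dist o z ≤ R)
    (x : V → ℝ) : cav G β (sub G R o o) x (par G o z) z =
      tanh (bp G (tanh β) x (R - G.dist o z) (par G o z) z) := by
  by_cases h : z = o
  · subst h
    rw [par_self hT, cav_self, mg_sub hT h0 _ (Or.inl rfl)]
    simp
  · exact cav_ball hT h0 (par_spec hT h).1 (par_spec hT h).2 (by omega)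

lemma measurable_hh {Ω : Type*} [MeasurableSpace Ω] {t X : Ω → V → ℝ} (θ : ℝ)
    (ht : ∀ v, Measurable fun a => t a v) (hX : ∀ v, Measurable fun a => X a v) (n : ℕ) :
    ∀ u v, Measurable fun a => hh G θ (t a) (X a) n u v := by
  induction n with
  | zero => exact fun u v => hX v
  | succ n ih =>
    exact fun u v => (hX v).add
      (Finset.measurable_sum _ fun c _ => (ht c).mul ((measurable_msg θ).comp (ih v c)))

theorem transfer (hG : Tr G d) {β : ℝ} (hβ : Sc d (tanh β)) (he : Sched e) (n : ℕ) (τ : ℝ) (o : V)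
    (S : Finset V) {Ψ : (V → ℝ) → ℝ} (hm : Measurable Ψ) (C : ℝ)
    (hb : ∀ a, (∀ z, |a z| ≤ 1) → |Ψ a| ≤ C)
    (hc : ∀ a, (∀ z, |a z| ≤ 1) → ContinuousAt Ψ a)
    (hev : ∀ a a', (∀ z ∈ S, |a z| = |a' z|) → Ψ a = Ψ a') :
    Tendsto (fun R => ∫ ω, Ψ (fun z => tanh (hh G (tanh β) (fl (tanh β) ω) (XI e n ω τ)
      (R - G.dist o z) (par G o z) z)) ∂PO V) atTop
      (𝓝 (∫ ω, Ψ (fun z => mu G e β n ω τ (par G o z) z) ∂PO V)) := by
  classical
  have hT := hG.tree
  have h1 : Tendsto (fun R => ∫ ω, Ψ (fun z => cb G e β n o R ω τ (par G o z) z) ∂PO V) atTop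
      (𝓝 (∫ ω, Ψ (fun z => mu G e β n ω τ (par G o z) z) ∂PO V)) := by
    refine tendsto_int (fun R => hm.comp (measurable_pi_lambda _ fun z => measurable_cb _ _ _ _ _))
      C (fun R ω => hb _ fun z => bd_cb _ _ _ _ _ _) ?_
    filter_upwards [ae_conv (n := n) hG hβ he τ] with ω h
    exact (hc _ fun z => bd_mu _ _ _ _).tendsto.comp
      (tendsto_pi_nhds.2 fun z => h o _ _ (good_par hT o z))
  refine h1.congr' ?_
  filter_upwards [eventually_ge_atTop (S.sup (G.dist o))] with R hR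
  have hS : ∀ z ∈ S, G.dist o z ≤ R := fun z hz => (Finset.le_sup (f := G.dist o) hz).trans hR
  have hΦ : BM fun x : V → ℝ => Ψ fun z => cav G β (sub G R o o) x (par G o z) z :=
    BM.of_le (hm.comp (measurable_pi_lambda _ fun z => measurable_cav measurable_id' _ _)) C
      fun x => hb _ fun z => abs_cav_le _ _
  have hΦ' : ∀ x x' : V → ℝ, (∀ z ∈ sub G R o o, x z = x' z) →
      (Ψ fun z => cav G β (sub G R o o) x (par G o z) z) =
        Ψ fun z => cav G β (sub G R o o) x' (par G o z) z := by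
    intro x x' h
    congr 1
    funext z
    exact mg_congr (fun y hy => h y (Finset.mem_filter.1 hy).1) _
  have a1 := bayes1 (G := G) (P := Pb G β n o R) he τ hΦ
  have a2 := planted hT β (pc_ball hT o R) (measurable_XI (e := e) n τ)
    (fun ω ω' h => funext fun v => dep_XI n τ v ω ω' fun p hp => h p hp.2) hΦ hΦ'
  refine a1.trans (Eq.trans ?_ (a2.trans ?_))
  · refine Finset.sum_congr rfl fun A _ => ?_
    congr 2
    funext ω
    refine hΦ' _ _ fun z hz => ?_
    rw [Pi.mul_apply, Pi.mul_apply, XT_eq (P := Pb G β n o R) hz]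
    rfl
  · congr 1
    funext ω
    refine hev _ _ fun z hz => ?_
    rw [cav_par hT hβ.1 (hS z hz), bp_gauge hT, abs_tanh_eq, abs_tanh_eq, abs_mul,
      (sig_sgn _ o ω).abs, one_mul]

lemma abs_mu_le (hG : Tr G d) {β : ℝ} (hβ : Sc d (tanh β)) {n : ℕ} {ω : Om V} {τ H : ℝ}
    (hH : ∀ (P : Par V) (v : V), P.n = n → |XS G e P ω τ v| ≤ H) {u v : V} (huv : Good G u v) :
    |mu G e β n ω τ u v| ≤ tanh (H + 3 * d) := by
  classical
  refine abs_limsup_le fun R => ?_
  have : (sub G R v v).filter (· ∈ br G u v) = sub G R u v := by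
    ext z
    rw [Finset.mem_filter, mem_ball hG.tree, mem_sub hG.tree huv, and_comm]
  unfold cb cav
  rw [this, mg_sub hG.tree hβ.1 R huv]
  exact abs_tanh_le_tanh (abs_bp_le hG.reg hβ.1 (hβ.half hG.three) (hH _ v rfl))

end Crest.Agent.H5.KS
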