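import Mathlib
import Crest.Agent.H5.KS.Plant
import Crest.Agent.H5.KS.Nish

/-!
Static estimates for the belief propagation recursion with independent Nishimori fields.
-/

set_option autoImplicit false

namespace Crest.Agent.H5.KS

open MeasureTheory Real

variable {V : Type*} {G : SimpleGraph V} {d : ℕ}

/-- observation labels of a vertex -/
def own (v : V) : Set (V × ℤ × Fin 3) := {p | p.1 = v ∧ p.2.2 ≠ 2}

/-- labels of a branch -/
def BR (G : SimpleGraph V) (u v : V) : Set (V × ℤ × Fin 3) := {p | p.1 ∈ br G u v}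

/-- labels of a branch without its root -/
def OS (G : SimpleGraph V) (u v : V) : Set (V × ℤ × Fin 3) := {p | p.1 ∈ br G u v ∧ p.1 ≠ v}

/-- independent Nishimori fields -/
structure Fld (x : Om V → V → ℝ) (H κ : ℝ) : Prop where
  meas : ∀ v, Measurable fun ω => x ω v
  dep : ∀ v, Dep (own v) fun ω => x ω v
  bdd : ∀ ω v, |x ω v| ≤ H
  nish : ∀ v, Nish fun ω => x ω v
  low : ∀ v, κ ≤ vq fun ω => x ω v

lemma Fld.bm {x : Om V → V → ℝ} {H κ : ℝ} (h : Fld x H κ) (v : V) : BM fun ω => x ω v :=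
  BM.of_le (h.meas v) H fun ω => h.bdd ω v

lemma Fld.nonneg {x : Om V → V → ℝ} {H κ : ℝ} (h : Fld x H κ) (v : V) : 0 ≤ H :=
  (abs_nonneg _).trans (h.bdd (fun _ => 0) v)

lemma sub_BR (u v : V) : own v ∪ OS G u v ⊆ BR G u v := by
  rintro p (h | h)
  · show p.1 ∈ br G u v
    rw [h.1]; exact self_mem_br _ _ _
  · exact h.1

lemma disj_own_OS (u v : V) : Disjoint (own v) (OS G u v) :=
  Set.disjoint_left.2 fun _ h h' => h'.2 h.1

lemma disj_flip (u v : V) : Disjoint (own v ∪ OS G u v) {((v, 0, 2) : V × ℤ × Fin 3)} := by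
  rw [Set.disjoint_singleton_right]
  rintro (h | h)
  · exact h.2 rfl
  · exact h.2 rfl

lemma dep_fl (θ : ℝ) (c : V) : Dep {((c, 0, 2) : V × ℤ × Fin 3)} fun ω => fl θ ω c :=
  fun ω ω' h => by simp only [fl, h _ rfl]

lemma law_fl {θ : ℝ} (h : |θ| ≤ 1) (c : V) (φ : ℝ → ℝ) :
    ∫ ω, φ (fl θ ω c) ∂PP (V × ℤ × Fin 3) = (1 + θ) / 2 * φ 1 + (1 - θ) / 2 * φ (-1) := by
  simp only [fl, apply_ite φ]
  rw [integral_eval ((c, 0, 2) : V × ℤ × Fin 3)
    (g := fun s => if (s : ℝ) < (1 + θ) / 2 then φ 1 else φ (-1))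
    (Measurable.ite (measurableSet_lt measurable_subtype_coe measurable_const)
      measurable_const measurable_const), int_flip h]

lemma one_sub_pow_ge {x : ℝ} (_h0 : 0 ≤ x) (h1 : x ≤ 1) {D : ℕ} (hD : 2 ≤ D) :
    1 - D * x + x ^ 2 ≤ (1 - x) ^ D := by
  induction D, hD using Nat.le_induction with
  | base => push_cast; nlinarith
  | succ D hD ih =>
    have : (2 : ℝ) ≤ D := by exact_mod_cast hD
    rw [pow_succ (1 - x)]
    push_cast
    nlinarith [mul_le_mul_of_nonneg_right ih (sub_nonneg.2 h1), sq_nonneg x,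
      mul_nonneg (sq_nonneg x) (sub_nonneg.2 h1)]

lemma exp_neg_le_quad {z : ℝ} (h : 0 ≤ z) : exp (-z) ≤ 1 - z + z ^ 2 / 2 := by
  have := quadratic_le_exp_of_nonneg h
  rw [exp_neg, inv_le_iff_one_le_mul₀ (exp_pos z)]
  have h2 : 0 ≤ 1 - z + z ^ 2 / 2 := by nlinarith [sq_nonneg (z - 1)]
  nlinarith [mul_le_mul_of_nonneg_left this h2, sq_nonneg (z ^ 2)]

lemma one_sub_pow_le {y : ℝ} (h0 : 0 ≤ y) (h1 : y ≤ 1) (D : ℕ) :
    (1 - y) ^ D ≤ 1 - D * y + (D * y) ^ 2 / 2 := by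
  refine le_trans ?_ (exp_neg_le_quad (by positivity))
  rw [← mul_neg, exp_nat_mul]
  exact pow_le_pow_left₀ (by linarith) (by linarith [add_one_le_exp (-y)]) _

lemma cosh_eight {h M : ℝ} (hM : |h| ≤ M) :
    cosh (8 * h) ≤ 1 + 32 * cosh (4 * M) ^ 4 * tanh h ^ 2 := by
  have hM0 : 0 ≤ M := (abs_nonneg h).trans hM
  have e1 : cosh (8 * h) = 1 + 2 * sinh (4 * h) ^ 2 := by
    rw [show 8 * h = 2 * (4 * h) by ring, cosh_two_mul, cosh_sq]; ring
  have e2 : ∀ y, sinh y = tanh y * cosh y := fun y => by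
    rw [tanh_eq_sinh_div_cosh, div_mul_cancel₀ _ (cosh_pos y).ne']
  have a1 : sinh (4 * h) ^ 2 ≤ (4 * h) ^ 2 * cosh (4 * M) ^ 2 := by
    rw [e2, mul_pow]
    refine mul_le_mul (sq_le_sq.2 (abs_tanh_le _)) (pow_le_pow_left₀ (cosh_pos _).le
      (cosh_le_cosh.2 ?_) 2) (sq_nonneg _) (sq_nonneg _)
    rw [abs_mul, abs_mul, abs_of_nonneg hM0]; gcongr
  have a2 : h ^ 2 ≤ tanh h ^ 2 * cosh (4 * M) ^ 2 := by
    refine le_trans (b := sinh h ^ 2) (sq_le_sq.2 ?_) ?_
    · rw [abs_sinh]; exact self_le_sinh_iff.2 (abs_nonneg h)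
    · rw [e2, mul_pow]
      refine mul_le_mul_of_nonneg_left (pow_le_pow_left₀ (cosh_pos _).le
        (cosh_le_cosh.2 ?_) 2) (sq_nonneg _)
      rw [abs_of_nonneg (by linarith : 0 ≤ 4 * M)]; linarith
  rw [e1]
  nlinarith [mul_le_mul_of_nonneg_right a2 (sq_nonneg (cosh (4 * M)))]

lemma cosh_le_exp_abs (x : ℝ) : cosh x ≤ exp |x| := by
  rw [cosh_eq]
  have := exp_le_exp.2 (le_abs_self x)
  have := exp_le_exp.2 (neg_le_abs x)
  linarith

lemma phi_half {x : ℝ} (h : 0 ≤ x) : exp (x / 2) - 1 - x / 2 ≤ (exp x - 1 - x) / 4 := by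
  have e1 : exp x = exp (x / 2) ^ 2 := by rw [← exp_nat_mul]; congr 1; push_cast; ring
  have hd : ∀ y, HasDerivAt (fun y => exp y ^ 2 - 4 * exp y + 2 * y) (2 * (exp y - 1) ^ 2) y :=
    fun y => by
      have := ((((hasDerivAt_exp y).pow 2).sub ((hasDerivAt_exp y).const_mul 4)).add
        ((hasDerivAt_id y).const_mul 2))
      exact this.congr_deriv (by norm_num; ring)
  have := monotone_of_hasDerivAt_nonneg hd (fun y => by positivity) (show 0 ≤ x / 2 by linarith)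
  simp only [exp_zero] at this
  rw [e1]
  linarith

lemma phi_scale {x t c : ℝ} (t0 : 0 ≤ t) (t1 : t ≤ 1 / 2) (hx : -c ≤ x) (c0 : 0 ≤ c)
    (c1 : c ≤ 1) : exp (t * x) ≤ 1 + t * x + t * ((exp x - 1 - x) / 2 + c ^ 2) := by
  have p0 : 0 ≤ exp x - 1 - x := by linarith [add_one_le_exp x]
  rcases le_total 0 x with h | h
  · have a1 := convexOn_exp.2 (Set.mem_univ (x / 2)) (Set.mem_univ 0) (show 0 ≤ 2 * t by linarith)
      (show 0 ≤ 1 - 2 * t by linarith) (by ring)
    simp only [smul_eq_mul, mul_zero, add_zero, exp_zero, mul_one] at a1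
    rw [show 2 * t * (x / 2) = t * x by ring] at a1
    nlinarith [mul_le_mul_of_nonneg_left (phi_half h) t0, mul_nonneg t0 (sq_nonneg c)]
  · have a2 : |t * x| ≤ 1 := by
      rw [abs_mul, abs_of_nonneg t0, abs_of_nonpos h]; nlinarith
    have a1 := (abs_le.1 (abs_exp_sub_one_sub_id_le a2)).2
    have a3 : x ^ 2 ≤ c ^ 2 := by nlinarith
    have a4 : (t * x) ^ 2 ≤ t * c ^ 2 := by
      rw [mul_pow]
      exact mul_le_mul (by nlinarith) a3 (sq_nonneg _) t0
    nlinarith [mul_nonneg t0 p0]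

variable [G.LocallyFinite]

lemma BR_sub (hT : G.IsTree) {u v c : V} (h : Good G u v) (hc : c ∈ ch G u v) :
    BR G v c ⊆ OS G u v := fun _ hp => ⟨br_ch_subset hT h hc hp, fun e =>
      not_mem_br hT (mem_ch.1 hc).2 (e ▸ hp)⟩

lemma disj_BR (hT : G.IsTree) (u v : V) :
    ∀ c ∈ ch G u v, ∀ c' ∈ ch G u v, c ≠ c' → Disjoint (BR G v c) (BR G v c') :=
  fun _ hc _ hc' hne => Set.disjoint_left.2 fun _ h h' =>
    hne (br_disjoint hT (mem_ch.1 hc).2 (mem_ch.1 hc').2 h h')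

lemma card_ch_le (hG : Tr G d) (u v : V) : (ch G u v).card ≤ d := by
  classical
  unfold ch
  convert Finset.card_erase_le
  rw [SimpleGraph.card_neighborFinset_eq_degree, hG.reg v]

lemma card_ch_cast (hG : Tr G d) {u v : V} (h : G.Adj u v) :
    ((ch G u v).card : ℝ) = (d : ℝ) - 1 := by
  rw [card_ch_adj hG.reg h, Nat.cast_sub (by linarith [hG.three])]; simp

/-- the gauge field as a random variable -/
noncomputable def hg (G : SimpleGraph V) [G.LocallyFinite] (θ : ℝ) (x : Om V → V → ℝ) (n : ℕ)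
    (u v : V) (ω : Om V) : ℝ := hh G θ (fl θ ω) (x ω) n u v

/-- the message sent by a child -/
noncomputable def yc (G : SimpleGraph V) [G.LocallyFinite] (θ : ℝ) (x : Om V → V → ℝ) (n : ℕ)
    (v c : V) (ω : Om V) : ℝ := fl θ ω c * msg θ (hg G θ x n v c ω)

variable {θ H κ : ℝ} {x : Om V → V → ℝ}

lemma hg_zero (u v : V) : hg G θ x 0 u v = fun ω => x ω v := rfl

lemma hg_succ (n : ℕ) (u v : V) :
    hg G θ x (n + 1) u v = fun ω => x ω v + ∑ c ∈ ch G u v, yc G θ x n v c ω := rfl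

lemma abs_yc (n : ℕ) (v c : V) (ω : Om V) : |yc G θ x n v c ω| = |msg θ (hg G θ x n v c ω)| := by
  rw [yc, abs_mul, (fl_sgn θ ω).abs, one_mul]

lemma abs_hg_le (hG : Tr G d) (hθ : Sc d θ) (hx : Fld x H κ) (n : ℕ) (u v : V) (ω : Om V) :
    |hg G θ x n u v ω| ≤ H + 3 * d := by
  cases n with
  | zero => rw [hg_zero]; linarith [hx.bdd ω v, show (0 : ℝ) ≤ 3 * d by positivity]
  | succ n =>
    rw [hg_succ]
    refine (abs_add_le _ _).trans (add_le_add (hx.bdd ω v)
      ((Finset.abs_sum_le_sum_abs _ _).trans ?_))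
    refine (Finset.sum_le_card_nsmul _ _ 3 fun c _ => ?_).trans ?_
    · rw [abs_yc]; exact abs_msg_le_three hθ.1 (hθ.half hG.three) _
    · rw [nsmul_eq_mul, mul_comm]
      exact mul_le_mul_of_nonneg_left (by exact_mod_cast card_ch_le hG u v) (by norm_num)

lemma bm_hg (hG : Tr G d) (hθ : Sc d θ) (hx : Fld x H κ) (n : ℕ) (u v : V) :
    BM (hg G θ x n u v) :=
  BM.of_le (measurable_hh θ (measurable_fl θ) hx.meas n u v) _ (abs_hg_le hG hθ hx n u v)

lemma Sc.le_one (hθ : Sc d θ) (hd : 3 ≤ d) : θ ≤ 1 := by nlinarith [hθ.half hd, hθ.1]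

lemma bm_yc (hG : Tr G d) (hθ : Sc d θ) (hx : Fld x H κ) (n : ℕ) (u v : V) :
    BM (yc G θ x n u v) :=
  (bm_fl θ v).mul ((bm_hg hG hθ hx n u v).cont (continuous_msg hθ.1 (hθ.le_one hG.three)))

omit [G.LocallyFinite] in
lemma flip_sub (u v : V) : {((v, 0, 2) : V × ℤ × Fin 3)} ⊆ BR G u v :=
  Set.singleton_subset_iff.2 (self_mem_br G u v)

lemma dep_hg (hT : G.IsTree) (hx : Fld x H κ) (n : ℕ) :
    ∀ {u v : V}, Good G u v → Dep (own v ∪ OS G u v) (hg G θ x n u v) := by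
  induction n with
  | zero => exact fun _ => (hx.dep _).mono Set.subset_union_left
  | succ n ih =>
    intro u v h
    refine ((hx.dep v).mono Set.subset_union_left).map₂ (Dep.sum _ fun c hc => ?_) (· + ·)
    exact (((dep_fl θ c).mono (flip_sub v c)).map₂ ((ih (Or.inr (mem_ch.1 hc).2)).mono
      (sub_BR v c)) fun a b => a * msg θ b).mono ((BR_sub hT h hc).trans Set.subset_union_right)

lemma dep_yc (hT : G.IsTree) (hx : Fld x H κ) (n : ℕ) {v c : V} (h : G.Adj v c) :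
    Dep (BR G v c) (yc G θ x n v c) :=
  ((dep_fl θ c).mono (flip_sub v c)).map₂ ((dep_hg hT hx n (Or.inr h)).mono (sub_BR v c))
    fun a b => a * msg θ b

lemma vq_yc (hG : Tr G d) (hθ : Sc d θ) (n : ℕ) (v c : V) :
    vq (yc G θ x n v c) = θ ^ 2 * vq (hg G θ x n v c) := by
  unfold vq
  rw [← integral_const_mul]
  congr 1
  funext ω
  rw [← sq_abs, abs_tanh_eq, abs_yc, ← abs_tanh_eq, sq_abs, tanh_msg hθ.1 (hθ.le_one hG.three),
    mul_pow]

lemma nish_step (hG : Tr G d) (hθ : Sc d θ) (hx : Fld x H κ) {n : ℕ} {u v : V} (h : Good G u v)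
    (ih : ∀ c ∈ ch G u v, Nish (yc G θ x n v c)) :
    Nish (hg G θ x (n + 1) u v) ∧
      (∀ a t, a ≤ vq (fun ω => x ω v) → a ≤ 1 / 2 → (∀ c ∈ ch G u v, t ≤ vq (yc G θ x n v c) ∧
        vq (yc G θ x n v c) ≤ 1 / 2) →
        1 - 2 * vq (hg G θ x (n + 1) u v) ≤ (1 - 2 * a) * (1 - 2 * t) ^ (ch G u v).card) ∧
      (∀ a t, vq (fun ω => x ω v) ≤ a → a ≤ 1 → t ≤ 1 →
        (∀ c ∈ ch G u v, vq (yc G θ x n v c) ≤ t) →
        (1 - a) * (1 - t) ^ (ch G u v).card ≤ 1 - vq (hg G θ x (n + 1) u v)) :=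
  nish_sum (ch G u v) (hx.nish v) (hx.bm v) (hx.dep v) ih (fun c _ => bm_yc hG hθ hx n v c)
    (fun _ hc => dep_yc hG.tree hx n (mem_ch.1 hc).2)
    (fun _ hc => (disj_own_OS u v).mono_right (BR_sub hG.tree h hc)) (disj_BR hG.tree u v)

lemma nish_flip (hG : Tr G d) (hθ : Sc d θ) (hx : Fld x H κ) {n : ℕ} {v c : V} (h : G.Adj v c)
    (ih : Nish (hg G θ x n v c)) : Nish (yc G θ x n v c) :=
  ih.flip (bm_hg hG hθ hx n v c) (bm_fl θ c) (dep_hg hG.tree hx n (Or.inr h)) (dep_fl θ c)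
    (disj_flip v c) hθ.1 (hθ.le_one hG.three)
    (law_fl (by rw [abs_of_nonneg hθ.1]; exact hθ.le_one hG.three) c)

lemma nish_hg (hG : Tr G d) (hθ : Sc d θ) (hx : Fld x H κ) (n : ℕ) :
    ∀ {u v : V}, Good G u v → Nish (hg G θ x n u v) := by
  induction n with
  | zero => exact fun _ => hx.nish _
  | succ n ih =>
    exact fun h => (nish_step hG hθ hx h fun c hc =>
      nish_flip hG hθ hx (mem_ch.1 hc).2 (ih (Or.inr (mem_ch.1 hc).2))).1

lemma nish_yc (hG : Tr G d) (hθ : Sc d θ) (hx : Fld x H κ) (n : ℕ) (u v : V) :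
    ∀ c ∈ ch G u v, Nish (yc G θ x n v c) := fun _ hc =>
  nish_flip hG hθ hx (mem_ch.1 hc).2 (nish_hg hG hθ hx n (Or.inr (mem_ch.1 hc).2))

theorem vq_up (hG : Tr G d) (hθ : Sc d θ) (hx : Fld x H κ) (n : ℕ) {u v : V} (h : Good G u v) :
    vq (hg G θ x n u v) ≤ 2 * (((d : ℝ) - 1) * H) := by
  have hD := two_le_D hG.three
  have H0 := hx.nonneg v
  by_cases hH : 1 ≤ ((d : ℝ) - 1) * H
  · linarith [vq_le_one (bm_hg hG hθ hx n u v)]
  push Not at hH
  have H1 : H ≤ 1 / 2 := by nlinarith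
  have a0 : ∀ v, vq (fun ω => x ω v) ≤ H ^ 2 := fun v => vq_le (hx.bm v) fun ω => hx.bdd ω v
  have a1 : 1 - ((d : ℝ) - 1) * H ≤ (1 - H ^ 2) * (1 - H) ^ (d - 1) := by
    have := one_sub_pow_ge H0 (by linarith) (D := d - 1) (by have := hG.three; omega)
    rw [Nat.cast_sub (by linarith [hG.three]), Nat.cast_one] at this
    refine le_trans ?_ (mul_le_mul_of_nonneg_left this (by nlinarith))
    nlinarith [mul_nonneg (sq_nonneg H) (show 0 ≤ ((d : ℝ) - 1) * H - H ^ 2 by nlinarith)]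
  have a2 : ∀ {n : ℕ} {v c : V}, vq (hg G θ x n v c) ≤ ((d : ℝ) - 1) * H →
      vq (yc G θ x n v c) ≤ H := fun h => by
    rw [vq_yc hG hθ]
    nlinarith [mul_le_mul_of_nonneg_left h (sq_nonneg θ), hθ.2]
  have a3 : ∀ n, ∀ {u v : V}, G.Adj u v → vq (hg G θ x n u v) ≤ ((d : ℝ) - 1) * H := by
    intro n
    induction n with
    | zero => intro u v _; rw [hg_zero]; nlinarith [a0 v]
    | succ n ih =>
      intro u v h
      have := (nish_step hG hθ hx (Or.inr h) (nish_yc hG hθ hx n u v)).2.2 _ H (a0 v)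
        (by nlinarith) (by linarith) fun c hc => a2 (ih (mem_ch.1 hc).2)
      rw [card_ch_adj hG.reg h] at this
      linarith
  cases n with
  | zero => rw [hg_zero]; nlinarith [a0 v]
  | succ n =>
    have b1 := (nish_step hG hθ hx h (nish_yc hG hθ hx n u v)).2.2 _ H (a0 v)
      (by nlinarith) (by linarith) fun c hc => a2 (a3 n (mem_ch.1 hc).2)
    have b2 : (1 - H) ^ (d - 1 + 1) ≤ (1 - H) ^ (ch G u v).card :=
      pow_le_pow_of_le_one (by linarith) (by linarith) (by have := card_ch_le hG u v; omega)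
    have b3 := mul_le_mul_of_nonneg_left b2 (show 0 ≤ 1 - H ^ 2 by nlinarith)
    rw [pow_succ (1 - H), ← mul_assoc] at b3
    nlinarith [mul_le_mul_of_nonneg_right a1 (show 0 ≤ 1 - H by linarith)]

lemma exp_hg_le (hG : Tr G d) (hθ : Sc d θ) (hx : Fld x H κ) (n : ℕ) {u v : V} (h : G.Adj u v)
    (a b K : ℝ) (hb : (|a| + 1) * θ ≤ b)
    (ih : ∀ c, G.Adj v c → ∫ ω, cosh (b * hg G θ x n v c ω) ∂PO V ≤ exp K) :
    ∫ ω, exp (a * hg G θ x (n + 1) u v ω) ∂PO V ≤ exp (|a| * H + ((d : ℝ) - 1) * K) := by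
  have by' := fun c => bm_yc hG hθ hx n v c
  have a1 : ∫ ω, exp (a * hg G θ x (n + 1) u v ω) ∂PO V ≤
      ∫ ω, exp (|a| * H) * ∏ c ∈ ch G u v, exp (a * yc G θ x n v c ω) ∂PO V := by
    refine int_mono ((BM.const _).mul (bm_hg hG hθ hx _ u v)).exp (by bm) fun ω => ?_
    rw [hg_succ, ← exp_sum, ← exp_add, exp_le_exp, mul_add, Finset.mul_sum]
    refine add_le_add ((le_abs_self _).trans ?_) le_rfl
    rw [abs_mul]
    exact mul_le_mul_of_nonneg_left (hx.bdd ω v) (abs_nonneg a)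
  rw [integral_const_mul, prod_dep (ch G u v) (fun c _ => ((BM.const a).mul (by' c)).exp)
    (fun c hc => (dep_yc hG.tree hx n (mem_ch.1 hc).2).map fun y => exp (a * y))
    (disj_BR hG.tree u v)] at a1
  refine a1.trans ?_
  rw [exp_add, ← card_ch_cast hG h, exp_nat_mul, ← Finset.prod_const]
  refine mul_le_mul_of_nonneg_left (Finset.prod_le_prod
    (fun c _ => integral_nonneg fun _ => (exp_pos _).le) fun c hc => ?_) (exp_pos _).le
  refine ((nish_yc hG hθ hx n u v c hc).exp_le (by' c) a).trans (le_trans ?_ (ih c (mem_ch.1 hc).2))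
  refine int_mono ((BM.const _).mul (by' c)).cosh
    ((BM.const _).mul (bm_hg hG hθ hx n v c)).cosh fun ω => cosh_le_cosh.2 ?_
  have b0 : 0 ≤ (|a| + 1) * θ := mul_nonneg (by positivity) hθ.1
  rw [abs_mul, abs_mul, abs_yc, abs_of_nonneg (by positivity : 0 ≤ |a| + 1),
    abs_of_nonneg (b0.trans hb)]
  refine (mul_le_mul_of_nonneg_left (abs_msg_le hθ.1 (hθ.le_one hG.three) _)
    (by positivity)).trans ?_
  rw [← mul_assoc]
  exact mul_le_mul_of_nonneg_right hb (abs_nonneg _)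

/-- a constant depending only on the degree -/
noncomputable def Cc (d : ℕ) : ℝ := 64 * cosh (4 * (2 + 3 * d)) ^ 4 * ((d : ℝ) - 1) + 24

theorem cosh_up (hG : Tr G d) (hθ : Sc d θ) (hx : Fld x H κ) (H2 : H ≤ 2) (j : ℕ) :
    ∀ (n : ℕ) {u v : V}, G.Adj u v → ∫ ω, cosh (8 * (5 / 4) ^ j * hg G θ x n u v ω) ∂PO V ≤
      exp (((d : ℝ) - 1) ^ j * H * Cc d) := by
  have hD := two_le_D hG.three
  have key : ∀ (n : ℕ) {u v : V}, G.Adj u v →
      ∫ ω, cosh (8 * (5 / 4) ^ j * hg G θ x n u v ω) ∂PO V ≤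
        exp (((d : ℝ) - 1) ^ j * H * (Cc d - 24 * (5 / 8) ^ j)) := by
    induction j with
    | zero =>
      intro n u v h
      have bh := bm_hg hG hθ hx n u v
      have a1 := int_mono (μ := PO V) (f := fun ω => cosh (8 * hg G θ x n u v ω))
        (g := fun ω => 1 + 32 * cosh (4 * (2 + 3 * d)) ^ 4 * tanh (hg G θ x n u v ω) ^ 2)
        (by bm) (by bm) fun ω => cosh_eight ((abs_hg_le hG hθ hx n u v ω).trans (by linarith))
      rw [int_add (by bm) (by bm), int_const, integral_const_mul] at a1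
      have a2 := mul_le_mul_of_nonneg_left (vq_up hG hθ hx n (Or.inr h))
        (show 0 ≤ 32 * cosh (4 * (2 + 3 * (d : ℝ))) ^ 4 by positivity)
      simp only [pow_zero, mul_one, one_mul, Cc, add_sub_cancel_right]
      refine le_trans ?_ (add_one_le_exp _)
      unfold vq at a2
      linarith
    | succ j ih =>
      intro n u v h
      have H0 := hx.nonneg v
      have p1 : (1 : ℝ) ≤ (5 / 4) ^ j := one_le_pow₀ (by norm_num)
      have p2 : (8 : ℝ) * (5 / 4) ^ (j + 1) ≤ ((d : ℝ) - 1) ^ (j + 1) * (9 * (5 / 8) ^ j) := by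
        refine le_trans ?_ (mul_le_mul_of_nonneg_right (pow_le_pow_left₀ zero_le_two hD _)
          (by positivity))
        rw [pow_succ, pow_succ, show (5 / 4 : ℝ) ^ j = 2 ^ j * (5 / 8) ^ j by
          rw [← mul_pow]; norm_num]
        nlinarith [show (0 : ℝ) < 2 ^ j * (5 / 8) ^ j by positivity]
      have p3 : 0 ≤ Cc d - 24 * (5 / 8) ^ j := by
        have : (5 / 8 : ℝ) ^ j ≤ 1 := pow_le_one₀ (by norm_num) (by norm_num)
        have : 0 ≤ 64 * cosh (4 * (2 + 3 * (d : ℝ))) ^ 4 * ((d : ℝ) - 1) := by positivity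
        unfold Cc; linarith
      have p4 : 8 * (5 / 4) ^ (j + 1) * H + ((d : ℝ) - 1) *
          (((d : ℝ) - 1) ^ j * H * (Cc d - 24 * (5 / 8) ^ j)) ≤
          ((d : ℝ) - 1) ^ (j + 1) * H * (Cc d - 24 * (5 / 8) ^ (j + 1)) := by
        have := mul_le_mul_of_nonneg_right p2 H0
        rw [pow_succ ((d : ℝ) - 1), pow_succ (5 / 8 : ℝ)] at *
        linarith
      refine le_trans ?_ (exp_le_exp.2 p4)
      cases n with
      | zero =>
        refine int_le_const ((BM.const _).mul (bm_hg hG hθ hx _ u v)).cosh fun ω =>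
          (cosh_le_exp_abs _).trans (exp_le_exp.2 ?_)
        rw [abs_mul, abs_of_pos (by positivity), hg_zero]
        exact le_add_of_le_of_nonneg (mul_le_mul_of_nonneg_left (hx.bdd ω v) (by positivity))
          (by positivity)
      | succ n =>
        have t1 : θ ≤ 71 / 100 := by nlinarith [hθ.half hG.three, hθ.1]
        have q : (|(8 : ℝ) * (5 / 4) ^ (j + 1)| + 1) * θ ≤ 8 * (5 / 4) ^ j := by
          rw [abs_of_pos (by positivity), pow_succ]
          nlinarith [hθ.1]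
        have b1 := exp_hg_le hG hθ hx n h _ _ _ q fun c hc => ih n hc
        have b2 := exp_hg_le hG hθ hx n h (-(8 * (5 / 4) ^ (j + 1))) _ _ (by rwa [abs_neg])
          fun c hc => ih n hc
        rw [abs_neg] at b2
        rw [abs_of_pos (by positivity)] at b1 b2
        have bh := bm_hg hG hθ hx (n + 1) u v
        simp only [cosh_eq, neg_mul] at b2 ⊢
        rw [integral_div, int_add (by bm) (by bm)]
        linarith
  intro n u v h
  refine (key n h).trans (exp_le_exp.2 (mul_le_mul_of_nonneg_left ?_ ?_))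
  · linarith [show (0 : ℝ) ≤ 24 * (5 / 8) ^ j by positivity]
  · exact mul_nonneg (by positivity) (hx.nonneg v)

theorem vq_low (hG : Tr G d) (hθ : Sc d θ) {g : ℝ} (hx : Fld x H (g ^ 2)) (g0 : 0 < g)
    (g1 : g ≤ 1 / 2) (hq : 1 - g / 4 ≤ ((d : ℝ) - 1) * θ ^ 2) :
    ∃ n0, ∀ n ≥ n0, ∀ {u v : V}, G.Adj u v → g / 4 ≤ vq (hg G θ x n u v) := by
  have key : ∀ n : ℕ, ∀ {u v : V}, G.Adj u v → min (n * (g ^ 2 / 4)) (g / 4) ≤
      vq (hg G θ x n u v) := by
    intro n
    induction n with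
    | zero => intro u v _; exact (min_le_left _ _).trans (by simpa using vq_nonneg _)
    | succ n ih =>
      intro u v h
      set t := min (n * (g ^ 2 / 4)) (g / 4) with ht
      have t0 : 0 ≤ t := le_min (by positivity) (by positivity)
      have t1 : t ≤ g / 4 := min_le_right _ _
      have h2 := hθ.half hG.three
      have a1 := (nish_step hG hθ hx (Or.inr h) (nish_yc hG hθ hx n u v)).2.1 (g ^ 2) (θ ^ 2 * t)
        (hx.low v) (by nlinarith) fun c hc => by
          rw [vq_yc hG hθ]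
          exact ⟨mul_le_mul_of_nonneg_left (ih (mem_ch.1 hc).2) (sq_nonneg _), by
            nlinarith [vq_le_one (bm_hg hG hθ hx n v c), vq_nonneg (hg G θ x n v c), sq_nonneg θ]⟩
      have a2 := one_sub_pow_le (y := 2 * (θ ^ 2 * t)) (by positivity) (by nlinarith [sq_nonneg θ])
        (ch G u v).card
      rw [card_ch_cast hG h] at a2
      have a3 := a1.trans (mul_le_mul_of_nonneg_left a2 (by nlinarith))
      set q := ((d : ℝ) - 1) * θ ^ 2 with hq'
      have e1 : ((d : ℝ) - 1) * (2 * (θ ^ 2 * t)) = 2 * (q * t) := by rw [hq']; ring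
      rw [e1] at a3
      have q1 : q ≤ 1 := hθ.2.le
      have a4 : t + g ^ 2 / 4 ≤ vq (hg G θ x (n + 1) u v) := by
        have b1 : t - g / 4 * t ≤ q * t := by nlinarith
        have b2 : q * t ≤ t := by nlinarith
        have b3 : g / 4 * t ≤ g ^ 2 / 16 := by nlinarith
        have b4 : (q * t) ^ 2 ≤ g ^ 2 / 16 := by
          have := pow_le_pow_left₀ (mul_nonneg (by linarith) t0) (b2.trans t1) 2
          linarith
        have b5 : g ^ 2 * (q * t) ≤ g ^ 2 / 8 := by nlinarith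
        nlinarith [mul_nonneg (sq_nonneg g) (sq_nonneg (q * t))]
      refine le_trans ?_ a4
      rcases min_cases (n * (g ^ 2 / 4)) (g / 4) with h1 | h1
      · refine (min_le_left _ _).trans ?_
        rw [ht, h1.1]; push_cast; linarith
      · refine (min_le_right _ _).trans ?_
        rw [ht, h1.1]; nlinarith
  obtain ⟨n0, hn0⟩ := exists_nat_ge (1 / g)
  refine ⟨n0, fun n hn u v h => le_trans (le_min ?_ le_rfl) (key n h)⟩
  have : (n0 : ℝ) ≤ n := by exact_mod_cast hn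
  rw [div_le_iff₀ g0] at hn0
  nlinarith

end Crest.Agent.H5.KS
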