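import Mathlib
import Crest.Agent.H5.KS.Static

/-!
Moments of the weighted number of descendants.
-/

set_option autoImplicit false

namespace Crest.Agent.H5.KS

open MeasureTheory Real

variable {V : Type*} {G : SimpleGraph V} {d : ℕ}

/-- the critical value -/
def Cr (d : ℕ) (θc : ℝ) : Prop := 0 < θc ∧ ((d : ℝ) - 1) * θc ^ 2 = 1

lemma Sc.lt_cr {θ θc : ℝ} (hθ : Sc d θ) (hc : Cr d θc) (hd : 3 ≤ d) : θ < θc := by
  have hD := two_le_D hd
  refine lt_of_pow_lt_pow_left₀ 2 hc.1.le ?_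
  nlinarith [hθ.2, hc.2]

/-- normalised edge weight -/
noncomputable def om (θc θ h : ℝ) : ℝ := θ / θc * a0 θ (tanh h)

section om

variable {θ θc : ℝ} (hθ : Sc d θ) (hc : Cr d θc) (hd : 3 ≤ d)
include hθ hc hd

lemma rho_mem : 0 ≤ θ / θc ∧ θ / θc ≤ 1 :=
  ⟨div_nonneg hθ.1 hc.1.le, (div_le_one hc.1).2 (hθ.lt_cr hc hd).le⟩

lemma om_nonneg (h : ℝ) : 0 ≤ om θc θ h :=
  mul_nonneg (rho_mem hθ hc hd).1 (a0_nonneg (hθ.half hd) (abs_tanh_le_one h))

lemma om_le (h : ℝ) : om θc θ h ≤ θ / θc * (1 - tanh h ^ 2 / 2) :=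
  mul_le_mul_of_nonneg_left (a0_le (hθ.half hd) (abs_tanh_le_one h)) (rho_mem hθ hc hd).1

lemma om_le' (h : ℝ) : om θc θ h ≤ 1 - tanh h ^ 2 / 2 :=
  (om_le hθ hc hd h).trans (mul_le_of_le_one_left (by linarith [tanh_sq_le_one h])
    (rho_mem hθ hc hd).2)

lemma om_le_one (h : ℝ) : om θc θ h ≤ 1 := by linarith [om_le' hθ hc hd h, sq_nonneg (tanh h)]

lemma om_sub_sq (h : ℝ) : (om θc θ h - θ / θc) ^ 2 ≤ tanh h ^ 4 := by
  have a1 := le_a0 (hθ.half hd) (abs_tanh_le_one h)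
  have a2 := a0_le_one (hθ.half hd) (abs_tanh_le_one h)
  obtain ⟨r0, r1⟩ := rho_mem hθ hc hd
  rw [show tanh h ^ 4 = (tanh h ^ 2) ^ 2 by ring]
  unfold om
  refine sq_le_sq' ?_ ?_ <;> nlinarith [sq_nonneg (tanh h)]

lemma bm_om {Ω : Type*} [MeasurableSpace Ω] {f : Ω → ℝ} (hf : Measurable f) :
    BM fun a => om θc θ (f a) :=
  BM.of_le (((measurable_a0 θ).comp (measurable_tanh.comp hf)).const_mul _) 1 fun a => by
    rw [abs_of_nonneg (om_nonneg hθ hc hd _)]; exact om_le_one hθ hc hd _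

end om

variable [G.LocallyFinite]

/-- weighted number of descendants -/
noncomputable def Yn (G : SimpleGraph V) [G.LocallyFinite] (θc θ s : ℝ) (x : Om V → V → ℝ)
    (r : ℕ) : ℕ → V → V → Om V → ℝ
  | 0, _, _ => fun _ => 1
  | J + 1, u, v => fun ω => 1 + s * θc ^ 2 *
      ∑ c ∈ ch G u v, om θc θ (hg G θ x (r + J) v c ω) * Yn G θc θ s x r J v c ω

/-- weighted number of descendants, including the weight of the root edge -/
noncomputable def Nn (G : SimpleGraph V) [G.LocallyFinite] (θc θ s : ℝ) (x : Om V → V → ℝ)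
    (r J : ℕ) (u v : V) (ω : Om V) : ℝ :=
  om θc θ (hg G θ x (r + J) u v ω) * Yn G θc θ s x r J u v ω

variable {θ θc s H κ : ℝ} {x : Om V → V → ℝ} {r : ℕ}

lemma Yn_succ (J : ℕ) (u v : V) : Yn G θc θ s x r (J + 1) u v =
    fun ω => 1 + s * θc ^ 2 * ∑ c ∈ ch G u v, Nn G θc θ s x r J v c ω := rfl

section main

variable (hG : Tr G d) (hθ : Sc d θ) (hc : Cr d θc) (hx : Fld x H κ)
include hG hθ hc hx

lemma bm_omh (n : ℕ) (u v : V) : BM fun ω => om θc θ (hg G θ x n u v ω) :=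
  bm_om hθ hc hG.three (bm_hg hG hθ hx n u v).meas

lemma bm_Yn (J : ℕ) : ∀ u v, BM (Yn G θc θ s x r J u v) := by
  induction J with
  | zero => exact fun _ _ => BM.const 1
  | succ J ih =>
    exact fun u v => (BM.const 1).add ((BM.const _).mul
      (BM.sum _ fun c _ => (bm_omh hG hθ hc hx _ v c).mul (ih v c)))

lemma bm_Nn (J : ℕ) (u v : V) : BM (Nn G θc θ s x r J u v) :=
  (bm_omh hG hθ hc hx _ u v).mul (bm_Yn hG hθ hc hx J u v)

omit hx in
lemma one_le_Yn (hs : 0 ≤ s) (J : ℕ) : ∀ u v ω, 1 ≤ Yn G θc θ s x r J u v ω := by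
  induction J with
  | zero => exact fun _ _ _ => le_rfl
  | succ J ih =>
    exact fun u v ω => le_add_of_nonneg_right (mul_nonneg (by positivity) (Finset.sum_nonneg
      fun c _ => mul_nonneg (om_nonneg hθ hc hG.three _) (zero_le_one.trans (ih v c ω))))

omit hx in
lemma Nn_nonneg (hs : 0 ≤ s) (J : ℕ) (u v : V) (ω : Om V) : 0 ≤ Nn G θc θ s x r J u v ω :=
  mul_nonneg (om_nonneg hθ hc hG.three _) (zero_le_one.trans (one_le_Yn hG hθ hc hs J u v ω))

omit hx in
lemma Nn_le_Yn (hs : 0 ≤ s) (J : ℕ) (u v : V) (ω : Om V) :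
    Nn G θc θ s x r J u v ω ≤ Yn G θc θ s x r J u v ω :=
  mul_le_of_le_one_left (zero_le_one.trans (one_le_Yn hG hθ hc hs J u v ω))
    (om_le_one hθ hc hG.three _)

omit hθ hc in
lemma dep_Yn (J : ℕ) : ∀ {u v : V}, Good G u v → Dep (OS G u v) (Yn G θc θ s x r J u v) := by
  induction J with
  | zero => exact fun _ _ _ _ => rfl
  | succ J ih =>
    intro u v h
    refine (Dep.sum _ fun c hc => ?_).map fun y => 1 + s * θc ^ 2 * y
    have ha := (mem_ch.1 hc).2
    exact (((dep_hg hG.tree hx _ (Or.inr ha)).map₂ ((ih (Or.inr ha)).mono Set.subset_union_right)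
      fun a b => om θc θ a * b).mono (sub_BR v c)).mono (BR_sub hG.tree h hc)

omit hθ hc in
lemma dep_Nn (J : ℕ) {v c : V} (ha : G.Adj v c) : Dep (BR G v c) (Nn G θc θ s x r J v c) :=
  ((dep_hg hG.tree hx _ (Or.inr ha)).map₂ ((dep_Yn hG hx J (Or.inr ha)).mono
    Set.subset_union_right) fun a b => om θc θ a * b).mono (sub_BR v c)

lemma int_Yn_le (hs : 0 ≤ s) {J : ℕ} {u v : V} {B : ℝ} (_hB : 0 ≤ B)
    (h : ∀ c, G.Adj v c → ∫ ω, Nn G θc θ s x r J v c ω ∂PO V ≤ B) :
    ∫ ω, Yn G θc θ s x r (J + 1) u v ω ∂PO V ≤ 1 + s * θc ^ 2 * ((ch G u v).card * B) := by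
  have b := fun c => bm_Nn (s := s) (r := r) hG hθ hc hx J v c
  rw [Yn_succ, int_add (by bm) (by bm), int_const, integral_const_mul, int_sum _ fun c _ => b c]
  refine add_le_add le_rfl (mul_le_mul_of_nonneg_left ?_ (by positivity))
  rw [← nsmul_eq_mul]
  exact Finset.sum_le_card_nsmul _ _ _ fun c hc => h c (mem_ch.1 hc).2

lemma int_Yn_le' (hs : 0 ≤ s) {J : ℕ} {u v : V} (huv : G.Adj u v) {B : ℝ} (hB : 0 ≤ B)
    (h : ∀ c, G.Adj v c → ∫ ω, Nn G θc θ s x r J v c ω ∂PO V ≤ B) :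
    ∫ ω, Yn G θc θ s x r (J + 1) u v ω ∂PO V ≤ 1 + s * B := by
  refine (int_Yn_le hG hθ hc hx hs hB h).trans_eq ?_
  rw [card_ch_cast hG huv]
  linear_combination s * B * hc.2

theorem fine {γ q : ℝ} (γ0 : 0 < γ) (γ1 : γ ≤ 1 / 2) (hs : 0 ≤ s) (hs1 : s ≤ 1 + γ / 4)
    (q0 : 0 ≤ q) (q1 : q ^ 2 ≤ γ / 8)
    (h1 : ∀ n ≥ r, ∀ {u v : V}, G.Adj u v → ∫ ω, om θc θ (hg G θ x n u v ω) ∂PO V ≤ 1 - γ)
    (h2 : ∀ n, ∀ {u v : V}, G.Adj u v → ∫ ω, tanh (hg G θ x n u v ω) ^ 4 ∂PO V ≤ q ^ 2) (J : ℕ) :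
    ∀ {u v : V}, G.Adj u v → ∫ ω, Nn G θc θ s x r J u v ω ∂PO V ≤ 4 / γ := by
  set B := 4 / γ with hB
  have B0 : 0 ≤ B := by positivity
  have B1 : γ * B = 4 := by rw [hB]; field_simp
  set A := 1 + s * B with hA
  have A0 : 0 ≤ A := by positivity
  have step : ∀ (J : ℕ) {u v : V}, G.Adj u v → ∫ ω, Yn G θc θ s x r J u v ω ∂PO V ≤ A →
      ∫ ω, (Yn G θc θ s x r J u v ω - ∫ ω, Yn G θc θ s x r J u v ω ∂PO V) ^ 2 ∂PO V ≤
        (4 * q * A) ^ 2 →
      ∫ ω, Nn G θc θ s x r J u v ω ∂PO V ≤ B ∧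
      ∫ ω, (Nn G θc θ s x r J u v ω - ∫ ω, Nn G θc θ s x r J u v ω ∂PO V) ^ 2 ∂PO V ≤
        (5 * q * A) ^ 2 := by
    intro J u v h a1 a2
    have b1 := bm_omh hG hθ hc hx (r + J) u v
    have b2 := bm_Yn (s := s) (r := r) hG hθ hc hx J u v
    have b3 := bm_hg hG hθ hx (r + J) u v
    set E := ∫ ω, Yn G θc θ s x r J u v ω ∂PO V with hE
    have E0 : 0 ≤ E := integral_nonneg fun ω => zero_le_one.trans (one_le_Yn hG hθ hc hs J u v ω)
    have c1 : ∫ ω, (om θc θ (hg G θ x (r + J) u v ω) - θ / θc) ^ 2 ∂PO V ≤ q ^ 2 :=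
      (int_mono (by bm) (by bm) fun ω => om_sub_sq hθ hc hG.three _).trans (h2 _ h)
    constructor
    · have c2 := (abs_le.1 (int_cs' (μ := PO V) (b1.sub (BM.const (θ / θc)))
        (b2.sub (BM.const E)) q0 (by positivity) c1 a2)).2
      have e1 : ∀ ω, Nn G θc θ s x r J u v ω = (om θc θ (hg G θ x (r + J) u v ω) - θ / θc) *
          (Yn G θc θ s x r J u v ω - E) + (θ / θc * (Yn G θc θ s x r J u v ω - E) +
            E * om θc θ (hg G θ x (r + J) u v ω)) := fun ω => by unfold Nn; ring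
      simp only [e1]
      rw [int_add (by bm) (by bm), int_add (by bm) (by bm), integral_const_mul, integral_const_mul,
        int_sub b2 (BM.const _), int_const, ← hE, sub_self, mul_zero, zero_add]
      have c3 := mul_le_mul_of_nonneg_left (h1 (r + J) (by omega) h) E0
      have c4 := mul_le_mul_of_nonneg_right a1 (show 0 ≤ 1 - γ by linarith)
      have c5 := mul_le_mul_of_nonneg_right q1 A0
      have c6 : A ≤ 2 + B := by nlinarith
      nlinarith
    · refine (var_le (bm_Nn hG hθ hc hx J u v) (θ / θc * E)).trans ?_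
      have c2 := int_mono (μ := PO V)
        (f := fun ω => (Nn G θc θ s x r J u v ω - θ / θc * E) ^ 2)
        (g := fun ω => 5 / 4 * (Yn G θc θ s x r J u v ω - E) ^ 2 +
          5 * A ^ 2 * (om θc θ (hg G θ x (r + J) u v ω) - θ / θc) ^ 2)
        (by unfold Nn; bm) (by bm) fun ω => by
          have o0 := om_nonneg hθ hc hG.three (hg G θ x (r + J) u v ω)
          have o1 := om_le_one hθ hc hG.three (hg G θ x (r + J) u v ω)
          unfold Nn
          set o := om θc θ (hg G θ x (r + J) u v ω)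
          set Y := Yn G θc θ s x r J u v ω
          have e1 : o * Y - θ / θc * E = o * (Y - E) + E * (o - θ / θc) := by ring
          have d1 : (o * (Y - E)) ^ 2 ≤ (Y - E) ^ 2 := by
            rw [mul_pow]; exact mul_le_of_le_one_left (sq_nonneg _) (by nlinarith)
          have d2 : (E * (o - θ / θc)) ^ 2 ≤ A ^ 2 * (o - θ / θc) ^ 2 := by
            rw [mul_pow]; gcongr
          rw [e1]
          nlinarith [sq_nonneg (o * (Y - E) / 2 - 2 * (E * (o - θ / θc)))]
      rw [int_add (by bm) (by bm), integral_const_mul, integral_const_mul] at c2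
      nlinarith [mul_le_mul_of_nonneg_left c1 (sq_nonneg A)]
  have key : ∀ (J : ℕ) {u v : V}, G.Adj u v → ∫ ω, Yn G θc θ s x r J u v ω ∂PO V ≤ A ∧
      ∫ ω, (Yn G θc θ s x r J u v ω - ∫ ω, Yn G θc θ s x r J u v ω ∂PO V) ^ 2 ∂PO V ≤
        (4 * q * A) ^ 2 := by
    intro J
    induction J with
    | zero =>
      intro u v _
      simp only [Yn, int_const, sub_self]
      exact ⟨le_add_of_nonneg_right (by positivity), by simpa using sq_nonneg _⟩
    | succ J ih =>
      intro u v h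
      refine ⟨int_Yn_le' hG hθ hc hx hs h B0 fun c hc => (step J hc (ih hc).1 (ih hc).2).1, ?_⟩
      have b := fun c => bm_Nn (s := s) (r := r) hG hθ hc hx J v c
      have a1 := var_sum (ch G u v) (T := BR G v)
        (F := fun c ω => Nn G θc θ s x r J v c ω - ∫ ω, Nn G θc θ s x r J v c ω ∂PO V)
        (fun c _ => by bm) (fun c hc => (dep_Nn hG hx J (mem_ch.1 hc).2).map fun y => y - _)
        (disj_BR hG.tree u v) fun c _ => by rw [int_sub (b c) (BM.const _), int_const, sub_self]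
      have a2 := Finset.sum_le_card_nsmul (ch G u v) _ _ fun c hc =>
        (step J (mem_ch.1 hc).2 (ih (mem_ch.1 hc).2).1 (ih (mem_ch.1 hc).2).2).2
      rw [← a1, nsmul_eq_mul, card_ch_cast hG h] at a2
      rw [Yn_succ, int_add (by bm) (by bm), int_const, integral_const_mul, int_sum _ fun c _ => b c]
      simp only [add_sub_add_left_eq_sub, ← mul_sub, ← Finset.sum_sub_distrib, mul_pow]
      rw [integral_const_mul]
      refine (mul_le_mul_of_nonneg_left a2 (by positivity)).trans ?_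
      have hD := two_le_D hG.three
      have t1 : θc ^ 2 ≤ 1 / 2 := by nlinarith [hc.2, sq_nonneg θc]
      have t2 : s ^ 2 * θc ^ 2 ≤ 16 / 25 := by
        have : s ^ 2 ≤ 81 / 64 := by nlinarith
        nlinarith [sq_nonneg s, sq_nonneg θc]
      have e1 : s ^ 2 * (θc ^ 2) ^ 2 * (((d : ℝ) - 1) * (5 * q * A) ^ 2) =
          s ^ 2 * θc ^ 2 * (25 * (q ^ 2 * A ^ 2)) := by
        linear_combination s ^ 2 * θc ^ 2 * (25 * (q ^ 2 * A ^ 2)) * hc.2
      rw [e1]
      nlinarith [mul_le_mul_of_nonneg_right t2 (show 0 ≤ 25 * (q ^ 2 * A ^ 2) by positivity)]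
  intro u v h
  exact (step J h (key J h).1 (key J h).2).1

theorem om_low {g : ℝ} (hκ : κ = g ^ 2) (g0 : 0 < g) (g1 : g ≤ 1 / 2) :
    ∃ n0, ∀ n ≥ n0, ∀ {u v : V}, G.Adj u v →
      ∫ ω, om θc θ (hg G θ x n u v ω) ∂PO V ≤ 1 - g / 8 := by
  subst hκ
  by_cases hq : 1 - g / 4 ≤ ((d : ℝ) - 1) * θ ^ 2
  · obtain ⟨n0, h⟩ := vq_low hG hθ hx g0 g1 hq
    refine ⟨n0, fun n hn u v huv => ?_⟩
    have b := bm_hg hG hθ hx n u v
    refine (int_mono (bm_omh hG hθ hc hx n u v) (by bm) fun ω => om_le' hθ hc hG.three _).trans ?_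
    rw [int_sub (by bm) (by bm), int_const, integral_div]
    have := h n hn huv
    unfold vq at this
    linarith
  · refine ⟨0, fun n _ u v _ => int_le_const (bm_omh hG hθ hc hx n u v) fun ω =>
      (om_le hθ hc hG.three _).trans ?_⟩
    have r := rho_mem hθ hc hG.three
    have e1 : (θ / θc) ^ 2 = ((d : ℝ) - 1) * θ ^ 2 := by
      rw [div_pow, div_eq_iff (pow_pos hc.1 2).ne']
      linear_combination (-θ ^ 2) * hc.2
    have : θ / θc ≤ 1 - g / 8 := by
      refine le_of_pow_le_pow_left₀ two_ne_zero (by linarith) ?_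
      nlinarith
    nlinarith [sq_nonneg (tanh (hg G θ x n u v ω))]

theorem crude (κ0 : 0 < κ) (J : ℕ) : ∀ {u v : V}, G.Adj u v →
    ∫ ω, Nn G θc θ 1 x r J u v ω ∂PO V ≤ 4 * exp (2 * H) / κ := by
  set B := 4 * exp (2 * H) / κ with hB
  have B0 : 0 ≤ B := by positivity
  have step : ∀ (J : ℕ) {u v : V}, G.Adj u v → ∫ ω, Yn G θc θ 1 x r J u v ω ∂PO V ≤ 1 + B →
      ∫ ω, Nn G θc θ 1 x r J u v ω ∂PO V ≤ B := by
    intro J u v h a1
    obtain ⟨R, dR, eR⟩ : ∃ R : Om V → ℝ, Dep (OS G u v) R ∧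
        hg G θ x (r + J) u v = fun ω => x ω v + R ω := by
      cases r + J with
      | zero => exact ⟨fun _ => 0, fun _ _ _ => rfl, by simp [hg_zero]⟩
      | succ n =>
        exact ⟨_, Dep.sum _ fun c hc => (dep_yc hG.tree hx n (mem_ch.1 hc).2).mono
          (BR_sub hG.tree (Or.inr h) hc), hg_succ n u v⟩
    have b1 := bm_Nn (s := 1) (r := r) hG hθ hc hx J u v
    have b2 := bm_Yn (s := 1) (r := r) hG hθ hc hx J u v
    unfold Nn at b1 ⊢
    rw [eR] at b1 ⊢
    have d1 := dR.map₂ (dep_Yn (θc := θc) (θ := θ) (s := 1) (r := r) hG hx J (Or.inr h)) Prod.mk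
    have a2 := integral_dep d1 (hx.dep v) (disj_own_OS u v).symm
      (fun p y => om θc θ (y + p.1) * p.2) b1
    have b3 := bm_dep d1 (hx.dep v) (disj_own_OS u v).symm (fun p y => om θc θ (y + p.1) * p.2) b1
    simp only at a2 b3
    rw [a2]
    have bx := hx.bm v
    have e1 : exp (-2 * H) * exp (2 * H) = 1 := by rw [← exp_add]; simp
    have e2 : exp (-2 * H) * κ / 4 * B = 1 := by
      rw [hB]; field_simp; simpa [mul_comm] using e1
    have g1 : exp (-2 * H) * κ / 4 ≤ 1 := by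
      have := exp_le_one_iff.2 (show -2 * H ≤ 0 by linarith [hx.nonneg v])
      have := (hx.low v).trans (vq_le_one bx)
      nlinarith [exp_pos (-2 * H)]
    refine (int_mono b3 (g := fun ω => (1 - exp (-2 * H) * κ / 4) * Yn G θc θ 1 x r J u v ω)
      (by bm) fun ω => ?_).trans ?_
    · rw [integral_mul_const]
      refine mul_le_mul_of_nonneg_right ?_
        (zero_le_one.trans (one_le_Yn hG hθ hc zero_le_one J u v ω))
      refine (int_mono (bm_om hθ hc hG.three (bx.add (BM.const _)).meas) (by bm)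
        fun ω => om_le' hθ hc hG.three _).trans ?_
      rw [int_sub (by bm) (by bm), int_const, integral_div]
      have := (hx.nish v).crude bx (fun ω => hx.bdd ω v) (R ω)
      nlinarith [mul_le_mul_of_nonneg_left (hx.low v) (exp_pos (-2 * H)).le]
    · rw [integral_const_mul]
      refine (mul_le_mul_of_nonneg_left a1 (by linarith)).trans ?_
      nlinarith [show 0 ≤ exp (-2 * H) * κ / 4 by positivity]
  induction J with
  | zero => exact fun h => step 0 h (by simpa [Yn] using B0)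
  | succ J ih =>
    exact fun h => step _ h (by
      simpa using int_Yn_le' hG hθ hc hx zero_le_one h B0 fun c hc => ih hc)

lemma exp_Yn_le {J : ℕ} {u v : V} {a K : ℝ}
    (h : ∀ c, G.Adj v c → ∫ ω, exp (a * θc ^ 2 * Nn G θc θ 1 x r J v c ω) ∂PO V ≤ exp K) :
    ∫ ω, exp (a * Yn G θc θ 1 x r (J + 1) u v ω) ∂PO V ≤ exp (a + (ch G u v).card * K) := by
  have b := fun c => bm_Nn (s := 1) (r := r) hG hθ hc hx J v c
  have e1 : ∀ ω, exp (a * Yn G θc θ 1 x r (J + 1) u v ω) =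
      exp a * ∏ c ∈ ch G u v, exp (a * θc ^ 2 * Nn G θc θ 1 x r J v c ω) := fun ω => by
    rw [Yn_succ, ← exp_sum, ← exp_add, ← Finset.mul_sum]
    congr 1; ring
  simp only [e1]
  rw [integral_const_mul, prod_dep (ch G u v) (fun c _ => by bm)
    (fun c hc => (dep_Nn hG hx J (mem_ch.1 hc).2).map fun y => exp (a * θc ^ 2 * y))
    (disj_BR hG.tree u v), exp_add, exp_nat_mul, ← Finset.prod_const]
  exact mul_le_mul_of_nonneg_left (Finset.prod_le_prod
    (fun c _ => integral_nonneg fun _ => (exp_pos _).le) fun c hc => h c (mem_ch.1 hc).2)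
    (exp_pos _).le

theorem mgf0 {B : ℝ} (B0 : 0 ≤ B)
    (hB : ∀ J, ∀ {u v : V}, G.Adj u v → ∫ ω, Nn G θc θ 1 x r J u v ω ∂PO V ≤ B) (J : ℕ) :
    ∀ {u v : V}, G.Adj u v → ∫ ω, exp (1 / (10 * (1 + B)) * (Nn G θc θ 1 x r J u v ω -
      ∫ ω, Nn G θc θ 1 x r J u v ω ∂PO V)) ∂PO V ≤ 2 := by
  set a := 1 / (10 * (1 + B)) with ha
  have a0 : 0 < a := by positivity
  have a1 : a * (1 + B) = 1 / 10 := by rw [ha]; field_simp
  have x1 : exp (1 / 10 : ℝ) ≤ 10 / 9 := by
    have := exp_bound_div_one_sub_of_interval (x := 1 / 10) (by norm_num) (by norm_num)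
    linarith
  have x2 : exp (51 / 100 : ℝ) ≤ 17 / 10 := by
    have h1 := exp_bound_div_one_sub_of_interval (x := 51 / 800) (by norm_num) (by norm_num)
    have h2 : exp (51 / 100 : ℝ) = exp (51 / 800) ^ 8 := by rw [← exp_nat_mul]; norm_num
    rw [h2]
    exact (pow_le_pow_left₀ (exp_pos _).le h1 8).trans (by norm_num)
  have N0 : ∀ J u v, 0 ≤ ∫ ω, Nn G θc θ 1 x r J u v ω ∂PO V := fun J u v =>
    integral_nonneg (Nn_nonneg hG hθ hc zero_le_one J u v)
  have step : ∀ (J : ℕ) {u v : V}, ∫ ω, Yn G θc θ 1 x r J u v ω ∂PO V ≤ 1 + B →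
      ∫ ω, exp (a * (Yn G θc θ 1 x r J u v ω - ∫ ω, Yn G θc θ 1 x r J u v ω ∂PO V)) ∂PO V ≤
        17 / 10 → ∫ ω, exp (a * (Nn G θc θ 1 x r J u v ω -
      ∫ ω, Nn G θc θ 1 x r J u v ω ∂PO V)) ∂PO V ≤ 2 := by
    intro J u v h1 h2
    have b1 := bm_Nn (s := 1) (r := r) hG hθ hc hx J u v
    have b2 := bm_Yn (s := 1) (r := r) hG hθ hc hx J u v
    set E := ∫ ω, Yn G θc θ 1 x r J u v ω ∂PO V
    refine (int_mono (g := fun ω => 10 / 9 * (exp (a * (Yn G θc θ 1 x r J u v ω - E)) + 1 / 10))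
      (by bm) (by bm) fun ω => ?_).trans ?_
    · have y1 := one_le_Yn (x := x) (r := r) hG hθ hc zero_le_one J u v ω
      have y2 := Nn_le_Yn (x := x) (r := r) hG hθ hc zero_le_one J u v ω
      have y3 := N0 J u v
      refine (exp_le_exp.2 (show _ ≤ 1 / 10 + a * (Yn G θc θ 1 x r J u v ω - E) by
        nlinarith)).trans ?_
      rw [exp_add]
      gcongr
      linarith
    · rw [integral_const_mul, int_add (by bm) (by bm), int_const]
      linarith
  induction J with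
  | zero =>
    intro u v _
    refine step 0 (by simpa [Yn] using B0) ?_
    simp only [Yn, int_const, sub_self, mul_zero, exp_zero]
    norm_num
  | succ J ih =>
    intro u v h
    refine step _ (by simpa using int_Yn_le' hG hθ hc hx zero_le_one h B0 fun c hc => hB J hc) ?_
    have b := fun c => bm_Nn (s := 1) (r := r) hG hθ hc hx J v c
    rw [Yn_succ, int_add (by bm) (by bm), int_const, integral_const_mul, int_sum _ fun c _ => b c]
    simp only [add_sub_add_left_eq_sub, ← mul_sub, ← Finset.sum_sub_distrib, Finset.mul_sum,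
      exp_sum]
    rw [prod_dep (ch G u v) (fun c _ => by bm)
      (fun c hc => (dep_Nn hG hx J (mem_ch.1 hc).2).map fun y => exp (a * (1 * θc ^ 2 * (y - _))))
      (disj_BR hG.tree u v)]
    refine le_trans ?_ x2
    have hD := two_le_D hG.three
    have t1 : θc ^ 2 ≤ 1 / 2 := by nlinarith [hc.2, sq_nonneg θc]
    have e1 : exp (51 / 100 : ℝ) = ∏ _c ∈ ch G u v, exp (θc ^ 2 * (51 / 100)) := by
      rw [Finset.prod_const, ← exp_nat_mul, card_ch_cast hG h, ← mul_assoc, hc.2, one_mul]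
    rw [e1]
    refine Finset.prod_le_prod (fun c _ => integral_nonneg fun _ => (exp_pos _).le) fun c hc' => ?_
    have i1 := ih (mem_ch.1 hc').2
    have i2 := hB J (mem_ch.1 hc').2
    have bc := b c
    set E := ∫ ω, Nn G θc θ 1 x r J v c ω ∂PO V with hE
    have i3 : ∫ ω, a * (Nn G θc θ 1 x r J v c ω - E) ∂PO V = 0 := by
      rw [integral_const_mul, int_sub bc (BM.const _), int_const, sub_self, mul_zero]
    refine (int_mono (g := fun ω => 1 + θc ^ 2 * (a * (Nn G θc θ 1 x r J v c ω - E)) + θc ^ 2 *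
      ((exp (a * (Nn G θc θ 1 x r J v c ω - E)) - 1 - a * (Nn G θc θ 1 x r J v c ω - E)) / 2 +
        (1 / 10) ^ 2)) (by bm) (by bm) fun ω => ?_).trans ?_
    · rw [one_mul, mul_left_comm]
      refine phi_scale (sq_nonneg _) t1 ?_ (by norm_num) (by norm_num)
      nlinarith [Nn_nonneg (x := x) (r := r) hG hθ hc zero_le_one J v c ω]
    · rw [int_add (by bm) (by bm), int_add (by bm) (by bm), integral_const_mul,
        integral_const_mul (θc ^ 2), int_add (by bm) (by bm), integral_div, int_sub (by bm) (by bm),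
        int_sub (by bm) (by bm), i3]
      simp only [int_const]
      refine le_trans ?_ (add_one_le_exp _)
      nlinarith [sq_nonneg θc]

theorem mgf {B : ℝ} (B0 : 0 ≤ B)
    (hB : ∀ J, ∀ {u v : V}, G.Adj u v → ∫ ω, Nn G θc θ 1 x r J u v ω ∂PO V ≤ B) (j J : ℕ)
    (u v : V) :
    ∫ ω, exp (((d : ℝ) - 1) ^ (j + 1) / (10 * (1 + B)) * Yn G θc θ 1 x r J u v ω) ∂PO V ≤
      exp (((d : ℝ) - 1) ^ (j + 1) / (10 * (1 + B)) * (2 * (j + 1) + 18 * (1 + B))) := by
  have hD := two_le_D hG.three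
  have e0 : ∀ j : ℕ, ((d : ℝ) - 1) ^ (j + 1) / (10 * (1 + B)) * θc ^ 2 =
      ((d : ℝ) - 1) ^ j / (10 * (1 + B)) := fun j => by
    rw [pow_succ]
    linear_combination ((d : ℝ) - 1) ^ j / (10 * (1 + B)) * hc.2
  have key : ∀ (j J : ℕ) {u v : V}, G.Adj u v →
      ∫ ω, exp (((d : ℝ) - 1) ^ j / (10 * (1 + B)) * Nn G θc θ 1 x r J u v ω) ∂PO V ≤
        exp (((d : ℝ) - 1) ^ j / (10 * (1 + B)) * (j + 11 * (1 + B))) := by
    intro j
    induction j with
    | zero =>
      intro J u v h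
      have a1 := mgf0 hG hθ hc hx B0 hB J h
      have a2 := hB J h
      have b1 := bm_Nn (s := 1) (r := r) hG hθ hc hx J u v
      simp only [mul_sub, exp_sub] at a1
      rw [integral_div, div_le_iff₀ (exp_pos _)] at a1
      rw [pow_zero]
      refine a1.trans ?_
      have e1 : 1 / (10 * (1 + B)) * (((0 : ℕ) : ℝ) + 11 * (1 + B)) = 1 + 1 / 10 := by
        field_simp; ring
      rw [e1, exp_add]
      refine mul_le_mul (by linarith [add_one_le_exp 1]) (exp_le_exp.2 ?_) (exp_pos _).le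
        (exp_pos _).le
      rw [one_div_mul_eq_div, div_le_iff₀ (by positivity)]
      linarith
    | succ j ih =>
      intro J u v h
      refine (int_mono ((BM.const _).mul (bm_Nn hG hθ hc hx J u v)).exp
        ((BM.const _).mul (bm_Yn hG hθ hc hx J u v)).exp fun ω => exp_le_exp.2
          (mul_le_mul_of_nonneg_left (Nn_le_Yn hG hθ hc zero_le_one J u v ω)
            (by positivity))).trans ?_
      cases J with
      | zero =>
        simp only [Yn, int_const, exp_le_exp]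
        refine mul_le_mul_of_nonneg_left ?_ (by positivity)
        push_cast
        linarith [show (0 : ℝ) ≤ j by positivity]
      | succ J =>
        refine (exp_Yn_le hG hθ hc hx fun c hc => by rw [e0]; exact ih J hc).trans_eq ?_
        rw [card_ch_cast hG h]
        congr 1
        push_cast
        ring
  cases J with
  | zero =>
    simp only [Yn, int_const, exp_le_exp]
    refine mul_le_mul_of_nonneg_left ?_ (by positivity)
    linarith [show (0 : ℝ) ≤ j by positivity]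
  | succ J =>
    refine (exp_Yn_le hG hθ hc hx fun c hc => by rw [e0]; exact key j J hc).trans
      (exp_le_exp.2 ?_)
    have a1 : ((ch G u v).card : ℝ) ≤ 3 / 2 * ((d : ℝ) - 1) := by
      have : ((ch G u v).card : ℝ) ≤ d := by exact_mod_cast card_ch_le hG u v
      linarith
    have a2 := mul_le_mul_of_nonneg_right a1 (show 0 ≤ ((d : ℝ) - 1) ^ j / (10 * (1 + B)) *
      (j + 11 * (1 + B)) by positivity)
    refine (add_le_add le_rfl a2).trans ?_
    have e1 : ((d : ℝ) - 1) ^ (j + 1) / (10 * (1 + B)) + 3 / 2 * ((d : ℝ) - 1) *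
        (((d : ℝ) - 1) ^ j / (10 * (1 + B)) * (j + 11 * (1 + B))) =
        ((d : ℝ) - 1) ^ (j + 1) / (10 * (1 + B)) * (1 + 3 / 2 * (j + 11 * (1 + B))) := by ring
    rw [e1]
    refine mul_le_mul_of_nonneg_left ?_ (by positivity)
    linarith [show (0 : ℝ) ≤ j by positivity]

end main

end Crest.Agent.H5.KS
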