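import Mathlib
import Crest.Agent.H5.KS.Tilt

/-!
The planted fields, and transfer of the static estimates to the infinite-volume messages.
-/

set_option autoImplicit false

namespace Crest.Agent.H5.KS

open MeasureTheory Real Filter Topology

variable {V : Type*} {G : SimpleGraph V} {d : ℕ} {e : ℤ → ℝ}

lemma abs_xf_le (he : Sched e) {n : ℕ} {K : ℤ} {y : V × ℤ → ℝ} (hy : ∀ i, |y i| ≤ e i.2)
    (ω : Om V) (t : ℝ) (v : V) : |xf n K y ω t v| ≤ ∑ k ∈ Finset.Ico (-(n : ℤ)) K, 2 * e k := by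
  refine (Finset.abs_sum_le_sum_abs _ _).trans (Finset.sum_le_sum fun k _ => ?_)
  split_ifs
  · exact (abs_ath_le_two ((hy (v, k)).trans (he k).2)).trans (by linarith [hy (v, k)])
  · simpa using (he k).1

lemma abs_XS_le (he : Sched e) (P : Par V) (ω : Om V) {t : ℝ} {K : ℤ} (h : t ≤ K) (v : V) :
    |XS G e P ω t v| ≤ ∑ k ∈ Finset.Ico (-(P.n : ℤ)) K, 2 * e k := by
  unfold XS
  rw [xf_window' (Int.le_ceil _) h]
  exact abs_xf_le he (fun i => (abs_ys_le he ω i).trans (ef_mem he ω i).2) ω t v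

/-- the planted field of one round -/
noncomputable def xi (e : ℤ → ℝ) (n : ℕ) (τ : ℝ) (v : V) (k : ℤ) (ω : Om V) : ℝ :=
  if tm ω (v, k) < τ then ath (yy (ef e ⟨0, n, {v}⟩ ω (v, k)) 1 (ω (v, k, 1))) else 0

lemma XI_eq {n : ℕ} {τ : ℝ} {K : ℤ} (h : τ ≤ K) (ω : Om V) (v : V) :
    XI e n ω τ v = ∑ k ∈ Finset.Ico (-(n : ℤ)) K, xi e n τ v k ω := by
  unfold XI XT
  rw [xf_window' (Int.le_ceil _) h]
  rfl

lemma tanh_xi (he : Sched e) (n : ℕ) (τ : ℝ) (v : V) (k : ℤ) (ω : Om V) :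
    tanh (xi e n τ v k ω) =
      if tm ω (v, k) < τ then yy (ef e ⟨0, n, {v}⟩ ω (v, k)) 1 (ω (v, k, 1)) else 0 := by
  unfold xi
  split_ifs
  · exact tanh_ath (((abs_yy_le (ef_mem he ω _).1 (ef_half he ω _) (by simp) _).trans
      (ef_half he ω _)).trans_lt (by norm_num))
  · simp

lemma bm_xi (he : Sched e) (n : ℕ) (τ : ℝ) (v : V) (k : ℤ) : BM (xi e n τ v k) := by
  refine BM.of_le (Measurable.ite (measurableSet_lt (measurable_tm measurable_id' _)
    measurable_const) (measurable_ath.comp (measurable_yy (measurable_ef measurable_id' _)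
      measurable_const (measurable_coord measurable_id' _))) measurable_const) 1 fun ω => ?_
  unfold xi
  split_ifs
  · have := (abs_yy_le (ef_mem (P := ⟨0, n, {v}⟩) he ω (v, k)).1 (ef_half he ω _)
      (show |(1 : ℝ)| ≤ 1 by simp) (ω (v, k, 1))).trans (ef_half he ω _)
    exact (abs_ath_le_two this).trans (by linarith)
  · simp

lemma dep_xi (n : ℕ) (τ : ℝ) (v : V) (k : ℤ) :
    Dep {p : V × ℤ × Fin 3 | p.2.1 = k} (xi e n τ v k) := fun ω ω' h => by
  simp only [xi, tm, ef_eq, h (v, k, 0) rfl, h (v, k, 1) rfl]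

lemma disj_round (C : Finset ℤ) : ∀ k ∈ C, ∀ k' ∈ C, k ≠ k' →
    Disjoint {p : V × ℤ × Fin 3 | p.2.1 = k} {p : V × ℤ × Fin 3 | p.2.1 = k'} :=
  fun _ _ _ _ h => Set.disjoint_left.2 fun _ h1 h2 => h (h1.symm.trans h2)

lemma int_xi (he : Sched e) (n : ℕ) (τ : ℝ) (v : V) (k : ℤ) {g : ℝ → ℝ} (hg : Continuous g) :
    ∫ ω, g (xi e n τ v k ω) ∂PO V = ∫ ω, (if tm ω (v, k) < τ then
      ∫ s : unitInterval, g (ath (yy (ef e ⟨0, n, {v}⟩ ω (v, k)) 1 s)) else g 0) ∂PO V := by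
  classical
  rw [integral_upd (v, k, 1) ((bm_xi he n τ v k).cont hg)]
  congr 1
  funext ω
  have : ∀ s, Function.update ω (v, k, 1) s (v, k, 0) = ω (v, k, 0) := fun s =>
    Function.update_of_ne (by simp) _ _
  simp only [xi, tm, ef_eq, this, Function.update_self]
  split_ifs <;> simp

lemma nish_xi (he : Sched e) (n : ℕ) (τ : ℝ) (v : V) (k : ℤ) : Nish (xi e n τ v k) := by
  intro g hg
  rw [int_xi he n τ v k hg, int_xi he n τ v k (g := fun x => exp (-2 * x) * g (-x)) (by fun_prop)]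
  congr 1
  funext ω
  split_ifs
  · have := integral_nish (ef_mem (P := ⟨0, n, {v}⟩) he ω (v, k)).1 (ef_half he ω _)
      fun a => exp a * g a
    simp only [← mul_assoc, ← exp_add, neg_add_cancel, exp_zero, one_mul] at this
    rw [this]
    congr 1
    funext s
    congr 2
    ring
  · simp

lemma vq_xi_le (he : Sched e) (n : ℕ) (τ : ℝ) (v : V) (k : ℤ) : vq (xi e n τ v k) ≤ 1 / 2 := by
  refine int_le_const ((bm_xi he n τ v k).tanh.pow 2) fun ω => ?_
  rw [tanh_xi he]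
  split_ifs
  · have := (abs_yy_le (ef_mem (P := ⟨0, n, {v}⟩) he ω (v, k)).1 (ef_half he ω _)
      (show |(1 : ℝ)| ≤ 1 by simp) (ω (v, k, 1))).trans (ef_half he ω _)
    rw [abs_le] at this
    nlinarith
  · simp

lemma vq_xi (he : Sched e) {n : ℕ} {τ : ℝ} (v : V) {k : ℤ} (h1 : -(n : ℤ) ≤ k) (h2 : k + 1 ≤ τ) :
    vq (xi e n τ v k) = e k ^ 2 / 6 := by
  unfold vq
  rw [int_xi he n τ v k (g := fun x => tanh x ^ 2) (continuous_tanh.pow 2)]
  have e1 : ∀ ω : Om V, (if tm ω (v, k) < τ then ∫ s : unitInterval,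
      tanh (ath (yy (ef e ⟨0, n, {v}⟩ ω (v, k)) 1 s)) ^ 2 else tanh 0 ^ 2) =
      (if (ω (v, k, 0) : ℝ) < 1 / 2 then 1 else 0) * (e k ^ 2 / 3) := by
    intro ω
    rw [ef_eq]
    by_cases h : (ω (v, k, 0) : ℝ) < 1 / 2
    · have : en0 e ⟨0, n, {v}⟩ v k = e k := if_pos ⟨Finset.mem_singleton_self v, h1⟩
      rw [if_pos h, if_pos h, if_pos (by simp only [tm]; linarith), this, one_mul,
        ← integral_yy_sq (he k).1 (he k).2]
      congr 1
      funext s
      rw [tanh_ath (((abs_yy_le (he k).1 (he k).2 (by simp) _).trans (he k).2).trans_lt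
        (by norm_num))]
    · rw [if_neg h, if_neg h]; simp
  simp only [e1]
  rw [integral_mul_const, integral_eval ((v, k, 0) : V × ℤ × Fin 3) (bm_lt (1 / 2)).meas, int_half]
  ring

lemma nish_XI (he : Sched e) (n : ℕ) (τ : ℝ) (v : V) : Nish fun ω : Om V => XI e n ω τ v := by
  have := (nish_sum (S := ∅) (Finset.Ico (-(n : ℤ)) ⌈τ⌉) Nish.zero (BM.const 0) (fun _ _ _ => rfl)
    (fun k _ => nish_xi he n τ v k) (fun k _ => bm_xi he n τ v k) (fun k _ => dep_xi n τ v k)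
    (fun _ _ => Set.empty_disjoint _) (disj_round _)).1
  simpa only [zero_add, ← XI_eq (Int.le_ceil τ)] using this

lemma low_XI (he : Sched e) {n : ℕ} {τ : ℝ} {k : ℤ} (h1 : -(n : ℤ) ≤ k) (h2 : k + 1 ≤ τ) (v : V) :
    e k ^ 2 / 6 ≤ vq fun ω : Om V => XI e n ω τ v := by
  have hk : k ∈ Finset.Ico (-(n : ℤ)) ⌈τ⌉ := Finset.mem_Ico.2 ⟨h1, by
    exact_mod_cast (show (k : ℝ) < ⌈τ⌉ by linarith [Int.le_ceil τ])⟩
  have hd : ∀ c ∈ (Finset.Ico (-(n : ℤ)) ⌈τ⌉).erase k,
      Disjoint {p : V × ℤ × Fin 3 | p.2.1 = k} {p : V × ℤ × Fin 3 | p.2.1 = c} :=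
    fun c hc => Set.disjoint_left.2 fun _ h1 h2 => Finset.ne_of_mem_erase hc (h2.symm.trans h1)
  have := (nish_sum ((Finset.Ico (-(n : ℤ)) ⌈τ⌉).erase k) (nish_xi he n τ v k) (bm_xi he n τ v k)
    (dep_xi n τ v k) (fun k _ => nish_xi he n τ v k) (fun k _ => bm_xi he n τ v k)
    (fun k _ => dep_xi n τ v k) hd (disj_round _)).2.1 (e k ^ 2 / 6) 0
    (vq_xi he v h1 h2).ge (by nlinarith [(he k).1, (he k).2])
    fun c _ => ⟨vq_nonneg _, vq_xi_le he n τ v c⟩
  have e1 : (fun ω => xi e n τ v k ω + ∑ c ∈ (Finset.Ico (-(n : ℤ)) ⌈τ⌉).erase k,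
      xi e n τ v c ω) = fun ω => XI e n ω τ v := funext fun ω => by
    rw [XI_eq (Int.le_ceil τ), Finset.add_sum_erase _ (fun k => xi e n τ v k ω) hk]
  rw [e1] at this
  simp only [mul_zero, sub_zero, one_pow, mul_one] at this
  linarith

theorem fld_XI (he : Sched e) {n : ℕ} {τ H : ℝ} {K k : ℤ} (hτ : τ ≤ K)
    (hH : ∑ k ∈ Finset.Ico (-(n : ℤ)) K, 2 * e k ≤ H) (h1 : -(n : ℤ) ≤ k) (h2 : k + 1 ≤ τ) :
    Fld (fun ω : Om V => XI e n ω τ) H (e k ^ 2 / 6) := by
  have hm : ∀ v, Measurable fun ω : Om V => XI e n ω τ v := fun v =>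
    measurable_pi_iff.1 (measurable_XI n τ) v
  refine ⟨hm, fun v => dep_XI n τ v,
    fun ω v => ?_, nish_XI he n τ, low_XI he h1 h2⟩
  unfold XI XT
  rw [xf_window' (Int.le_ceil _) hτ]
  exact (abs_xf_le he (fun i => (abs_yy_le (ef_mem he ω i).1 (ef_half he ω i) (by simp) _).trans
    (ef_mem he ω i).2) ω τ v).trans hH

theorem exp_XI (he : Sched e) (h : ∀ k, 0 ≤ k → e k = 1 / 2) (n T : ℕ) (v : V) :
    ∫ ω, exp (-XI e n ω T v) ∂PO V ≤ (47 / 48) ^ T := by
  simp only [XI_eq (K := T) (τ := T) (by simp), ← Finset.sum_neg_distrib, exp_sum]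
  rw [prod_dep _ (fun k _ => (bm_xi he n T v k).neg.exp)
    (fun k _ => (dep_xi n T v k).map fun x => exp (-x)) (disj_round _)]
  have a := fun k => (nish_xi he n T v k).exp_neg_le (bm_xi he n T v k)
  refine (Finset.prod_le_prod_of_subset_of_le_one (s := Finset.Ico (0 : ℤ) T)
    (Finset.Ico_subset_Ico (by omega) le_rfl)
    (fun k _ => integral_nonneg fun _ => (exp_pos _).le)
    fun k _ _ => (a k).trans (by linarith [vq_nonneg (xi e n T v k)])).trans ?_
  refine (Finset.prod_le_prod (g := fun _ => (47 / 48 : ℝ))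
    (fun k _ => integral_nonneg fun _ => (exp_pos _).le) fun k hk => ?_).trans_eq
    (by rw [Finset.prod_const]; simp only [Int.card_Ico, sub_zero, Int.toNat_natCast])
  rw [Finset.mem_Ico] at hk
  have := a k
  rw [vq_xi he v (by omega) (by exact_mod_cast hk.2), h k hk.1] at this
  linarith

/-- the schedule -/
noncomputable def sch (Q : ℝ) (k : ℤ) : ℝ := 1 / 2 * Q⁻¹ ^ (-k).toNat

lemma sch_neg (Q : ℝ) (k : ℕ) : sch Q (-k) = 1 / 2 * Q⁻¹ ^ k := by simp [sch]

lemma sch_nonneg (Q : ℝ) {k : ℤ} (h : 0 ≤ k) : sch Q k = 1 / 2 := by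
  simp [sch, Int.toNat_of_nonpos (neg_nonpos.2 h)]

lemma sch_pos {Q : ℝ} (hQ : 2 ≤ Q) (k : ℤ) : 0 < sch Q k := by unfold sch; positivity

lemma sched_sch {Q : ℝ} (hQ : 2 ≤ Q) : Sched (sch Q) := fun k =>
  ⟨(sch_pos hQ k).le, mul_le_of_le_one_right (by norm_num)
    (pow_le_one₀ (by positivity) (inv_le_one_of_one_le₀ (by linarith)))⟩

lemma sch_pred {Q : ℝ} (hQ : 2 ≤ Q) (k : ℤ) : sch Q k / Q ≤ sch Q (k - 1) := by
  rcases le_or_gt k 0 with h | h
  · obtain ⟨m, rfl⟩ := Int.exists_eq_neg_ofNat h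
    rw [show -(m : ℤ) - 1 = -((m + 1 : ℕ) : ℤ) by push_cast; ring, sch_neg, sch_neg, pow_succ]
    exact le_of_eq (by ring)
  · rw [sch_nonneg Q h.le, sch_nonneg Q (by omega)]
    exact div_le_self (by norm_num) (by linarith)

lemma sum_sch_neg {Q : ℝ} (hQ : 2 ≤ Q) (n k : ℕ) :
    ∑ j ∈ Finset.Ico (-(n : ℤ)) (-(k : ℤ) + 1), 2 * sch Q j ≤ 4 * sch Q (-k) := by
  have key : ∀ m : ℕ, ∑ j ∈ Finset.Ico (-((k + m : ℕ) : ℤ)) (-(k : ℤ) + 1), 2 * sch Q j ≤
      4 * sch Q (-k) - 2 * sch Q (-(k + m : ℕ)) := by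
    intro m
    induction m with
    | zero => simp only [add_zero, Finset.Ico_add_one_right_eq_Icc, Finset.Icc_self,
        Finset.sum_singleton]; linarith
    | succ m ih =>
      rw [← Finset.insert_Ico_add_one_left_eq_Ico (by omega), Finset.sum_insert (by rw [Finset.mem_Ico]; omega),
        show -((k + (m + 1) : ℕ) : ℤ) + 1 = -((k + m : ℕ) : ℤ) by push_cast; ring]
      have : 2 * sch Q (-(k + (m + 1) : ℕ)) ≤ sch Q (-(k + m : ℕ)) := by
        rw [sch_neg, sch_neg, ← add_assoc, pow_succ]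
        have : Q⁻¹ ≤ 1 / 2 := by rw [one_div]; exact inv_anti₀ two_pos hQ
        nlinarith [show 0 < Q⁻¹ ^ (k + m) by positivity]
      linarith
  refine (Finset.sum_le_sum_of_subset_of_nonneg (Finset.Ico_subset_Ico (by omega) le_rfl)
    fun j _ _ => by linarith [sch_pos hQ j]).trans ((key n).trans ?_)
  linarith [sch_pos hQ (-(k + n : ℕ))]

lemma sum_sch {Q : ℝ} (hQ : 2 ≤ Q) (n T : ℕ) :
    ∑ j ∈ Finset.Ico (-(n : ℤ)) T, 2 * sch Q j ≤ 2 + T := by
  have a1 := sum_sch_neg hQ n 0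
  have a2 : ∑ j ∈ Finset.Ico (1 : ℤ) (T + 1), 2 * sch Q j ≤ T := by
    refine (Finset.sum_le_card_nsmul _ _ 1 fun j _ => by
      linarith [(sched_sch hQ j).2]).trans_eq (by simp)
  simp only [Nat.cast_zero, neg_zero, zero_add, sch_nonneg Q le_rfl] at a1
  refine (Finset.sum_le_sum_of_subset_of_nonneg (Finset.Ico_subset_Ico le_rfl
    (show (T : ℤ) ≤ T + 1 by omega)) fun j _ _ => by linarith [sch_pos hQ j]).trans ?_
  rw [← Finset.Ico_union_Ico_eq_Ico (b := 1) (by omega) (by omega), Finset.sum_union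
    (Finset.Ico_disjoint_Ico_consecutive _ _ _)]
  linarith

variable [G.LocallyFinite]

/-- weighted sum over descendants -/
noncomputable def Sp (G : SimpleGraph V) [G.LocallyFinite] (b : V → ℝ) (J : ℕ) (u v : V) : ℝ :=
  ∑ w ∈ sub G J u v, ∏ i ∈ Finset.range (G.dist v w), b (geo G v w (i + 1))

lemma Sp_zero (b : V → ℝ) (u v : V) : Sp G b 0 u v = 1 := by simp [Sp, sub, lev]

lemma Sp_succ (hT : G.IsTree) (b : V → ℝ) (J : ℕ) {u v : V} (h : Good G u v) :
    Sp G b (J + 1) u v = 1 + ∑ c ∈ ch G u v, b c * Sp G b J v c := by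
  unfold Sp
  rw [sum_sub hT h, Finset.sum_range_succ', add_comm]
  congr 1
  · simp [lev]
  simp only [sum_lev_succ hT]
  rw [Finset.sum_comm]
  refine Finset.sum_congr rfl fun c hc => ?_
  have ha := (mem_ch.1 hc).2
  rw [sum_sub hT (Or.inr ha), Finset.mul_sum]
  refine Finset.sum_congr rfl fun j _ => ?_
  rw [Finset.mul_sum]
  refine Finset.sum_congr rfl fun w hw => ?_
  rw [mem_lev hT _ (Or.inr ha), mem_br_iff hT ha] at hw
  have e1 : geo G v w 1 = c := geo_unique hT (SimpleGraph.dist_eq_one_iff_adj.2 ha) (by omega)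
  rw [hw.1, Finset.prod_range_succ', mul_comm, zero_add, e1]
  congr 1
  refine Finset.prod_congr rfl fun i hi => ?_
  rw [Finset.mem_range] at hi
  rw [← e1, geo_geo_right hT (by omega), add_comm 1]

lemma Yn_eq_Sp (hT : G.IsTree) (θc θ s : ℝ) (x : Om V → V → ℝ) (r R : ℕ) (o : V) (ω : Om V)
    (J : ℕ) : ∀ v, G.dist o v + r + J = R → Yn G θc θ s x r J (par G o v) v ω =
      Sp G (fun z => s * θc ^ 2 * om θc θ (hg G θ x (R - G.dist o z) (par G o z) z ω)) J
        (par G o v) v := by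
  induction J with
  | zero => intro v _; rw [Sp_zero]; rfl
  | succ J ih =>
    intro v h
    rw [Sp_succ hT _ _ (good_par hT o v), Yn_succ]
    simp only [Finset.mul_sum]
    congr 1
    refine Finset.sum_congr rfl fun c hc => ?_
    rw [mem_ch_par hT] at hc
    have e1 := par_eq hT hc.1 hc.2
    have := ih c (by omega)
    rw [e1] at this
    rw [Nn, this, e1, show R - G.dist o c = r + J by omega, ← mul_assoc]

/-- weighted sum of the edge products over a ball -/
noncomputable def Ms (G : SimpleGraph V) [G.LocallyFinite] (θ c : ℝ) (μ : V → V → ℝ) (J : ℕ)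
    (v : V) : ℝ := ∑ w ∈ sub G J v v, c ^ G.dist v w * Gp G θ μ v w

variable {β : ℝ} {n : ℕ} {τ : ℝ}

theorem trans_vv (hG : Tr G d) (hβ : Sc d (tanh β)) (he : Sched e) {H κ : ℝ}
    (hx : Fld (fun ω : Om V => XI e n ω τ) H κ) (v : V) :
    vv G e β n v τ ≤ 2 * (((d : ℝ) - 1) * H) := by
  have := transfer hG hβ he n τ v {v} (Ψ := fun a => a v ^ 2) (by fun_prop) 1
    (fun a h => by rw [abs_of_nonneg (sq_nonneg _)]; exact sq_le_one_of_abs (h v))
    (fun a _ => ((continuous_apply v).pow 2).continuousAt) fun a a' h => by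
      rw [← sq_abs, h v (Finset.mem_singleton_self v), sq_abs]
  simp only [par_self hG.tree] at this
  exact le_of_tendsto' this fun R => vq_up hG hβ hx _ (Or.inl rfl)

theorem trans_cosh (hG : Tr G d) (hβ : Sc d (tanh β)) (he : Sched e) {H κ : ℝ}
    (hx : Fld (fun ω : Om V => XI e n ω τ) H κ) (H2 : H ≤ 2) (j : ℕ) {u v : V} (h : G.Adj u v) :
    ∫ ω, cosh (8 * (5 / 4) ^ j * mu G e β n ω τ u v) ∂PO V ≤
      exp (((d : ℝ) - 1) ^ j * H * Cc d) := by
  have := transfer hG hβ he n τ u {v} (Ψ := fun a => cosh (8 * (5 / 4) ^ j * a v)) (by fun_prop)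
    (cosh (8 * (5 / 4) ^ j * 1))
    (fun a h => by
      rw [abs_of_pos (cosh_pos _), cosh_le_cosh, abs_mul, abs_mul (8 * _), abs_one]
      exact mul_le_mul_of_nonneg_left (h v) (abs_nonneg _))
    (fun a _ => (continuous_cosh.comp (continuous_const.mul (continuous_apply v))).continuousAt)
    fun a a' h => by
      rw [← cosh_abs, abs_mul, h v (Finset.mem_singleton_self v), ← abs_mul, cosh_abs]
  have e1 : par G u v = u := par_eq hG.tree h (by simp [SimpleGraph.dist_eq_one_iff_adj.2 h])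
  simp only [e1] at this
  refine le_of_tendsto' this fun R => le_trans ?_ (cosh_up hG hβ hx H2 j (R - G.dist u v) h)
  have b := bm_hg hG hβ hx (R - G.dist u v) u v
  refine int_mono ((BM.const _).mul b.tanh).cosh ((BM.const _).mul b).cosh fun ω => ?_
  rw [cosh_le_cosh, abs_mul, abs_mul (8 * _)]
  exact mul_le_mul_of_nonneg_left (abs_tanh_le _) (abs_nonneg _)

lemma a0_abs (θ μ : ℝ) : a0 θ |μ| = a0 θ μ := by simp [a0]

theorem trans_Ms (hG : Tr G d) (hβ : Sc d (tanh β)) (he : Sched e) {θc : ℝ} (hc : Cr d θc)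
    (s : ℝ) (J : ℕ) (v : V) {F : ℝ → ℝ} (hF : Continuous F) {c : ℝ} (r0 : ℕ)
    (h : ∀ r ≥ r0, ∫ ω, F (Yn G θc (tanh β) s (fun ω => XI e n ω τ) r J v v ω) ∂PO V ≤ c) :
    ∫ ω, F (Ms G (tanh β) (s * θc) (mu G e β n ω τ) J v) ∂PO V ≤ c := by
  have hT := hG.tree
  have hθ := hβ.half hG.three
  obtain ⟨C, hC⟩ := (isCompact_Icc (a := -Sp G (fun _ => |s * θc * tanh β|) J v v)
    (b := Sp G (fun _ => |s * θc * tanh β|) J v v)).exists_bound_of_continuousOn hF.continuousOn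
  have := transfer hG hβ he n τ v (sub G J v v)
    (Ψ := fun a => F (Sp G (fun z => s * θc * tanh β * a0 (tanh β) (a z)) J v v))
    (hF.measurable.comp (Finset.measurable_sum _ fun w _ => Finset.measurable_prod _ fun i _ =>
      ((measurable_a0 _).comp (measurable_pi_apply _)).const_mul _)) C
    (fun a h => hC _ (abs_le.1 ((Finset.abs_sum_le_sum_abs _ _).trans
      (Finset.sum_le_sum fun w _ => by
        rw [Finset.abs_prod]
        refine Finset.prod_le_prod (fun _ _ => abs_nonneg _) fun i _ => ?_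
        rw [abs_mul, abs_of_nonneg (a0_nonneg hθ (h _))]
        exact mul_le_of_le_one_right (abs_nonneg _) (a0_le_one hθ (h _))))))
    (fun a h => hF.continuousAt.comp (tendsto_finsetSum _ fun w _ => tendsto_finsetProd _
      fun i _ => ((continuousAt_a0 hθ (h _)).tendsto.comp
        (continuousAt_apply _ a)).const_mul _))
    fun a a' h => by
      unfold Sp
      congr 1
      refine Finset.sum_congr rfl fun w hw => Finset.prod_congr rfl fun i hi => ?_
      rw [Finset.mem_range] at hi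
      beta_reduce
      rw [← a0_abs, h _ ((mem_ball hT).2 (by
        rw [(geo_spec hT hi).1]; exact le_trans hi ((mem_ball hT).1 hw))), a0_abs]
  have e1 : ∀ ω, Sp G (fun z => s * θc * tanh β * a0 (tanh β) (mu G e β n ω τ (par G v z) z)) J v v =
      Ms G (tanh β) (s * θc) (mu G e β n ω τ) J v := by
    intro ω
    refine Finset.sum_congr rfl fun w _ => ?_
    rw [Gp, ← Finset.card_range (G.dist v w), ← Finset.prod_const, Finset.card_range,
      ← Finset.prod_mul_distrib]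
    refine Finset.prod_congr rfl fun i hi => ?_
    rw [Finset.mem_range] at hi
    beta_reduce
    rw [par_eq hT (geo_adj hT hi) (by rw [(geo_spec hT hi.le).1, (geo_spec hT hi).1]), mul_assoc]
  simp only [e1] at this
  refine le_of_tendsto this ?_
  filter_upwards [eventually_ge_atTop (r0 + J)] with R hR
  refine le_of_eq_of_le ?_ (h (R - J) (by omega))
  congr 1
  funext ω
  have := Yn_eq_Sp hT θc (tanh β) s (fun ω => XI e n ω τ) (R - J) R v ω J v (by simp; omega)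
  rw [par_self hT] at this
  rw [this]
  congr 2
  funext z
  unfold om hg
  field_simp [hc.1.ne']

end Crest.Agent.H5.KS
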