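import Mathlib
import Crest.Agent.H5.KS.Field
import Crest.Agent.H5.KS.BSV

/-!
Two estimates for the rate of separation of two infinite-volume samplers.
-/

set_option autoImplicit false

namespace Crest.Agent.H5.KS

open MeasureTheory Real Filter Topology

variable {V : Type*} {G : SimpleGraph V} {d : ℕ}

lemma sqrt_add_sub_sq_le {a b a' b' : ℝ} (ha : 0 ≤ a) (hb : 0 ≤ b) (ha' : 0 ≤ a') (hb' : 0 ≤ b') :
    (√(a + b) - √(a' + b')) ^ 2 ≤ (√a - √a') ^ 2 + (√b - √b') ^ 2 := by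
  have := sqrt_sum_sub_sq_le (Finset.univ : Finset Bool) (f := fun t => if t then a else b)
    (g := fun t => if t then a' else b') (fun t => by split_ifs <;> assumption)
    (fun t => by split_ifs <;> assumption)
  simpa using this

lemma chi_nonneg {θ μ : ℝ} (h1 : θ ^ 2 ≤ 1 / 2) (h : |μ| < 1) : 0 ≤ chi θ μ :=
  le_trans (by positivity) (le_chi h1 h)

/-- exponent of the covariance -/
noncomputable def Sx (G : SimpleGraph V) (θc θ : ℝ) (μ : V → V → ℝ) (v w : V) : ℝ :=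
  chi 0 (μ v v) + ∑ i ∈ Finset.range (G.dist v w),
    (chi θ (μ (geo G v w i) (geo G v w (i + 1))) + log (θc / θ))

/-- messages bounded away from one -/
def Bdr (G : SimpleGraph V) (r : ℝ) (μ : V → V → ℝ) : Prop := ∀ u v, Good G u v → |μ u v| ≤ r

lemma Cp_eq_exp (hT : G.IsTree) {θc θ r : ℝ} {μ : V → V → ℝ} (h0 : 0 < θ) (hc : 0 < θc)
    (h1 : θ ^ 2 ≤ 1 / 2) (hr : r < 1) (hμ : Bdr G r μ) (v w : V) :
    Cp G θ μ v w = θc ^ G.dist v w * exp (-Sx G θc θ μ v w) := by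
  rw [Sx, neg_add, exp_add, exp_neg_chi (by norm_num) ((hμ v v (Or.inl rfl)).trans_lt hr), a0_zero,
    ← Finset.sum_neg_distrib, exp_sum, Cp, Gp, mul_left_comm, ← Finset.card_range (G.dist v w),
    ← Finset.prod_const, Finset.card_range, ← Finset.prod_mul_distrib]
  congr 1
  refine Finset.prod_congr rfl fun i hi => ?_
  rw [neg_add, exp_add, exp_neg_chi h1 ((hμ _ _ (Or.inr (geo_adj hT
    (Finset.mem_range.1 hi)))).trans_lt hr), exp_neg, exp_log (by positivity)]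
  field_simp

lemma Gp_split (hT : G.IsTree) (θ : ℝ) (μ : V → V → ℝ) {v w : V} {i : ℕ} (hi : i ≤ G.dist v w) :
    Gp G θ μ v w = Gp G θ μ v (geo G v w i) * Gp G θ μ (geo G v w i) w := by
  have h := geo_spec hT hi
  unfold Gp
  rw [h.1, show G.dist v w = i + G.dist (geo G v w i) w by omega, Finset.prod_range_add]
  congr 1
  · refine Finset.prod_congr rfl fun j hj => ?_
    rw [Finset.mem_range] at hj
    rw [geo_geo_left hT hj.le hi, geo_geo_left hT hj hi]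
  · refine Finset.prod_congr rfl fun j hj => ?_
    rw [Finset.mem_range] at hj
    rw [geo_geo_right hT (by omega), geo_geo_right hT (by omega), add_assoc]

lemma Gp_map (hT : G.IsTree) (g : G ≃g G) (θ : ℝ) {μ μ' : V → V → ℝ}
    (h : ∀ a b, μ' a b = μ (g a) (g b)) (v w : V) : Gp G θ μ' v w = Gp G θ μ (g v) (g w) := by
  unfold Gp
  rw [iso_dist hT]
  refine Finset.prod_congr rfl fun i hi => ?_
  rw [Finset.mem_range] at hi
  rw [h, iso_geo hT g hi.le, iso_geo hT g hi]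

variable [G.LocallyFinite]

lemma Ms_map (hT : G.IsTree) (g : G ≃g G) (θ c : ℝ) {μ μ' : V → V → ℝ}
    (h : ∀ a b, μ' a b = μ (g a) (g b)) (J : ℕ) (v : V) :
    Ms G θ c μ' J v = Ms G θ c μ J (g v) := by
  unfold Ms
  rw [← iso_ball hT g, Finset.sum_map]
  refine Finset.sum_congr rfl fun w _ => ?_
  rw [Gp_map hT g θ h]
  congr 2
  exact (iso_dist hT g v w).symm

/-- an invariant random field of messages -/
structure MF (G : SimpleGraph V) (θ r : ℝ) (μ : Om V → V → V → ℝ) : Prop where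
  meas : ∀ u v, Measurable fun ω => μ ω u v
  bd : ∀ ω, Bd (μ ω)
  bdr : ∀ ω, Bdr G r (μ ω)
  eqv : ∀ (g : G ≃g G) ω u v, μ (act g ω) u v = μ ω (g u) (g v)
  bp : ∀ᵐ ω ∂PO V, (∀ u v, G.Adj u v → BPe θ (μ ω) u v) ∧
    ∀ v w, Cp G θ (μ ω) v w = Cp G θ (μ ω) w v

variable {θc θ θ' r : ℝ} {μ μ' : Om V → V → V → ℝ}

omit [G.LocallyFinite] in
lemma MF.bm (h : MF G θ r μ) (u v : V) : BM fun ω => μ ω u v :=
  BM.of_le (h.meas u v) 1 fun ω => h.bd ω u v

lemma MF.bm_Ms (h : MF G θ r μ) (h0 : 0 ≤ θ) (h1 : θ ^ 2 ≤ 1 / 2) (c : ℝ) (J : ℕ) (v : V) :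
    BM fun ω => Ms G θ c (μ ω) J v :=
  BM.sum _ fun w _ => (BM.const _).mul (bm_Gp h.meas h.bd h0 h1 v w)

lemma int_trans (hG : Tr G d) {F : Om V → V → V → ℝ} (hF : ∀ u v, Measurable fun ω => F ω u v)
    (hE : ∀ (g : G ≃g G) ω u v, F (act g ω) u v = F ω (g u) (g v)) {u v u' v' : V}
    (h : G.dist u v = G.dist u' v') : ∫ ω, F ω u' v' ∂PO V = ∫ ω, F ω u v ∂PO V := by
  obtain ⟨g, rfl, rfl⟩ := two_point hG.tree hG.reg h
  simp only [← hE]
  exact integral_act g (hF u v)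

theorem mass_transport (hG : Tr G d) (hθ : Sc d θ) (hc : 0 ≤ θc) (h : MF G θ r μ)
    {D : Om V → V → ℝ} (bD : ∀ q, BM fun ω => D ω q) (D0 : ∀ ω q, 0 ≤ D ω q)
    (eD : ∀ (g : G ≃g G) ω q, D (act g ω) q = D ω (g q)) (J : ℕ) (v : V) :
    ∑ w ∈ sub G J v v, ∫ ω, θc ^ G.dist v w * Cp G θ (μ ω) v w *
      ∑ i ∈ Finset.range (G.dist v w + 1), D ω (geo G v w i) ∂PO V ≤
      ∫ ω, D ω v * Ms G θ θc (μ ω) J v ^ 2 ∂PO V := by
  classical
  have hT := hG.tree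
  have h1 := hθ.half hG.three
  have bG := bm_Gp (G := G) h.meas h.bd hθ.1 h1
  have bC := bm_Cp (G := G) h.meas h.bd hθ.1 h1
  have bM := fun q => h.bm_Ms hθ.1 h1 θc J q
  have G0 := fun ω a b => (Gp_mem (G := G) hθ.1 h1 (h.bd ω) a b).1
  have a1 : ∀ q ∈ sub G J v v, ∫ ω, θc ^ G.dist q v * Gp G θ (μ ω) q v *
      (D ω q * Ms G θ θc (μ ω) J q) ∂PO V = ∫ ω, θc ^ G.dist v q * Gp G θ (μ ω) v q *
      (D ω v * Ms G θ θc (μ ω) J v) ∂PO V := fun q _ =>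
    int_trans hG (F := fun ω a b => θc ^ G.dist a b * Gp G θ (μ ω) a b *
      (D ω a * Ms G θ θc (μ ω) J a)) (fun a b => (((BM.const _).mul (bG a b)).mul
        ((bD a).mul (bM a))).meas) (fun g ω a b => by
      rw [Gp_map hT g θ (h.eqv g ω), Ms_map hT g θ θc (h.eqv g ω), eD, iso_dist hT])
      SimpleGraph.dist_comm
  have a2 : ∫ ω, D ω v * Ms G θ θc (μ ω) J v ^ 2 ∂PO V = ∫ ω, ∑ q ∈ sub G J v v,
      θc ^ G.dist q v * Gp G θ (μ ω) q v * (D ω q * Ms G θ θc (μ ω) J q) ∂PO V := by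
    rw [int_sum _ fun q _ => ((BM.const _).mul (bG q v)).mul ((bD q).mul (bM q)),
      Finset.sum_congr rfl a1,
      ← int_sum _ fun q _ => ((BM.const _).mul (bG v q)).mul ((bD v).mul (bM v))]
    congr 1
    funext ω
    rw [← Finset.sum_mul, ← Ms]
    ring
  rw [a2, ← int_sum _ fun w _ => ((BM.const _).mul (bC v w)).mul (BM.sum _ fun i _ => bD _)]
  refine int_mono_ae (BM.sum _ fun w _ => ((BM.const _).mul (bC v w)).mul (BM.sum _ fun i _ => bD _))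
    (BM.sum _ fun q _ => ((BM.const _).mul (bG q v)).mul ((bD q).mul (bM q))) ?_
  filter_upwards [h.bp] with ω hω
  set T : V → V → ℝ := fun q w => θc ^ G.dist q v * Gp G θ (μ ω) q v *
    (D ω q * (θc ^ G.dist q w * Gp G θ (μ ω) q w))
  have T0 : ∀ q w, 0 ≤ T q w := fun q w => by
    have := G0 ω q v
    have := G0 ω q w
    have := D0 ω q
    positivity
  have b1 : ∀ w ∈ sub G J v v, θc ^ G.dist v w * Cp G θ (μ ω) v w *
      ∑ i ∈ Finset.range (G.dist v w + 1), D ω (geo G v w i) ≤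
      ∑ q ∈ sub G J v v, if w ∈ sub G J q q then T q w else 0 := by
    intro w hw
    rw [mem_ball hT] at hw
    rw [← Finset.sum_filter, Finset.mul_sum]
    refine le_trans (Finset.sum_le_sum (g := fun i => T (geo G v w i) w) fun i hi => ?_) ?_
    · have hi' := Nat.lt_succ_iff.1 (Finset.mem_range.1 hi)
      have s := geo_spec hT hi'
      have c1 : Cp G θ (μ ω) v w ≤ Gp G θ (μ ω) (geo G v w i) v * Gp G θ (μ ω) (geo G v w i) w := by
        rw [Cp, Gp_split hT θ _ hi', ← mul_assoc, ← Cp, hω.2]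
        exact mul_le_mul_of_nonneg_right (Cp_mem hθ.1 h1 (h.bd ω) _ _).2 (G0 ω _ _)
      refine (mul_le_mul_of_nonneg_right (mul_le_mul_of_nonneg_left c1 (by positivity))
        (D0 ω _)).trans_eq ?_
      simp only [T]
      rw [SimpleGraph.dist_comm (u := geo G v w i) (v := v), s.1, ← s.2, pow_add]
      ring
    · rw [← Finset.sum_image (g := fun i => geo G v w i) (f := fun q => T q w)]
      · refine Finset.sum_le_sum_of_subset_of_nonneg (fun q hq => ?_) fun _ _ _ => T0 _ _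
        obtain ⟨i, hi, rfl⟩ := Finset.mem_image.1 hq
        have s := geo_spec hT (Nat.lt_succ_iff.1 (Finset.mem_range.1 hi))
        rw [Finset.mem_filter, mem_ball hT, mem_ball hT]
        omega
      · intro i hi j hj e
        have s := geo_spec hT (Nat.lt_succ_iff.1 (Finset.mem_range.1 hi))
        have s' := geo_spec hT (Nat.lt_succ_iff.1 (Finset.mem_range.1 hj))
        simp only at e
        rw [e] at s
        omega
  refine (Finset.sum_le_sum b1).trans ?_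
  rw [Finset.sum_comm]
  refine Finset.sum_le_sum fun q _ => ?_
  rw [← Finset.sum_filter, Ms, Finset.mul_sum, Finset.mul_sum]
  exact Finset.sum_le_sum_of_subset_of_nonneg (fun w hw => (Finset.mem_filter.1 hw).2)
    fun w _ _ => T0 q w

omit [G.LocallyFinite] in
lemma one_le_inv_sq {r : ℝ} (r0 : 0 ≤ r) (hr : r < 1) : 1 ≤ ((1 - r ^ 2) ^ 2)⁻¹ := by
  have : 0 < 1 - r ^ 2 := by nlinarith
  exact (one_le_inv₀ (by positivity)).2 (pow_le_one₀ this.le (by nlinarith))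

omit [G.LocallyFinite] in
lemma sqrt_Sx (hT : G.IsTree) (hd : 3 ≤ d) (hθ : Sc d θ) (hθ' : Sc d θ') (hc : Cr d θc)
    (h0 : 0 < θ) (h0' : 0 < θ') (hr : r < 1) {m m' : V → V → ℝ} (b : Bd m) (b' : Bd m')
    (br : Bdr G r m) (br' : Bdr G r m') (p : ∀ u v, G.Adj u v → BPe θ m u v)
    (p' : ∀ u v, G.Adj u v → BPe θ' m' u v) {δ : ℝ} (d1 : (θ - θ') ^ 2 ≤ δ)
    (d2 : log (θc / θ) ≤ δ) (d3 : log (θc / θ') ≤ δ) (v w : V) :
    (√(Sx G θc θ m v w) - √(Sx G θc θ' m' v w)) ^ 2 ≤ 10 ^ 12 * ((1 - r ^ 2) ^ 2)⁻¹ *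
      ∑ i ∈ Finset.range (G.dist v w + 1),
        ((m (geo G v w i) (geo G v w i) - m' (geo G v w i) (geo G v w i)) ^ 2 + δ) := by
  have h1 := hθ.half hd
  have h1' := hθ'.half hd
  have l1 : 0 ≤ log (θc / θ) := log_nonneg ((one_le_div h0).2 (hθ.lt_cr hc hd).le)
  have l2 : 0 ≤ log (θc / θ') := log_nonneg ((one_le_div h0').2 (hθ'.lt_cr hc hd).le)
  have r0 : 0 ≤ r := (abs_nonneg _).trans (br v v (Or.inl rfl))
  have q1 := one_le_inv_sq r0 hr
  set q := ((1 - r ^ 2) ^ 2)⁻¹ with hq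
  have δ0 : 0 ≤ δ := (sq_nonneg _).trans d1
  set Δ : ℕ → ℝ := fun i => (m (geo G v w i) (geo G v w i) - m' (geo G v w i) (geo G v w i)) ^ 2 + δ
  have hΔ : ∀ i, 0 ≤ Δ i := fun i => add_nonneg (sq_nonneg _) δ0
  have sl : ∀ {θ θ' μ μ' : ℝ}, 0 ≤ θ → θ ^ 2 ≤ 1 / 2 → 0 ≤ θ' → θ' ^ 2 ≤ 1 / 2 → |μ| ≤ r →
      |μ'| ≤ r → (√(chi θ μ) - √(chi θ' μ')) ^ 2 ≤ 16 * q * (|μ - μ'| + |θ - θ'|) ^ 2 := by
    intro θ θ' μ μ' a1 a2 a3 a4 a5 a6
    have := pow_le_pow_left₀ (abs_nonneg _) (sqrt_chi_lip a1 a2 a3 a4 hr a5 a6) 2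
    rw [sq_abs, div_pow, mul_pow] at this
    exact this.trans_eq (by rw [hq]; ring)
  have c0 := sl le_rfl (by norm_num) le_rfl (by norm_num) (br v v (Or.inl rfl))
    (br' v v (Or.inl rfl))
  rw [sub_self, abs_zero, add_zero, sq_abs] at c0
  have f0 : ∀ i : Finset.range (G.dist v w), G.Adj (geo G v w i) (geo G v w (i + 1)) :=
    fun i => geo_adj hT (Finset.mem_range.1 i.2)
  have n1 : ∀ i : Finset.range (G.dist v w),
      0 ≤ chi θ (m (geo G v w i) (geo G v w (i + 1))) := fun i =>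
    chi_nonneg h1 ((br _ _ (Or.inr (f0 i))).trans_lt hr)
  have n2 : ∀ i : Finset.range (G.dist v w),
      0 ≤ chi θ' (m' (geo G v w i) (geo G v w (i + 1))) := fun i =>
    chi_nonneg h1' ((br' _ _ (Or.inr (f0 i))).trans_lt hr)
  have c1 := sqrt_sum_sub_sq_le (Finset.univ : Finset (Finset.range (G.dist v w)))
    (f := fun i => chi θ (m (geo G v w i) (geo G v w (i + 1))) + log (θc / θ))
    (g := fun i => chi θ' (m' (geo G v w i) (geo G v w (i + 1))) + log (θc / θ'))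
    (fun i => add_nonneg (n1 i) l1) fun i => add_nonneg (n2 i) l2
  have c2 : ∀ i : Finset.range (G.dist v w),
      (√(chi θ (m (geo G v w i) (geo G v w (i + 1))) + log (θc / θ)) -
        √(chi θ' (m' (geo G v w i) (geo G v w (i + 1))) + log (θc / θ'))) ^ 2 ≤
        49 * 10 ^ 10 * q * (Δ i + Δ (i + 1)) := by
    intro i
    refine (sqrt_add_sub_sq_le (n1 i) l1 (n2 i) l2).trans ?_
    have e1 : (√(log (θc / θ)) - √(log (θc / θ'))) ^ 2 ≤ 2 * δ := by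
      nlinarith [sq_sqrt l1, sq_sqrt l2, mul_nonneg (sqrt_nonneg (log (θc / θ)))
        (sqrt_nonneg (log (θc / θ')))]
    have e2 := sl hθ.1 h1 hθ'.1 h1' (br _ _ (Or.inr (f0 i))) (br' _ _ (Or.inr (f0 i)))
    have e3 := mu_lip hθ.1 h1 hθ'.1 h1' b b' (p _ _ (f0 i)) (p _ _ (f0 i).symm) (p' _ _ (f0 i))
      (p' _ _ (f0 i).symm)
    simp only [Δ]
    rw [← sq_abs (θ - θ')] at d1
    rw [← sq_abs (m (geo G v w i) _ - _), ← sq_abs (m (geo G v w (i + 1)) _ - _)]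
    set x := |m (geo G v w i) (geo G v w i) - m' (geo G v w i) (geo G v w i)|
    set y := |m (geo G v w (i + 1)) (geo G v w (i + 1)) - m' (geo G v w (i + 1)) (geo G v w (i + 1))|
    set t := |θ - θ'|
    have e4 : (|m (geo G v w i) (geo G v w (i + 1)) - m' (geo G v w i) (geo G v w (i + 1))| + t) ^ 2
        ≤ (100001 * (x + y + t)) ^ 2 := pow_le_pow_left₀ (by positivity)
      (by linarith [show 0 ≤ x + y by positivity]) 2
    have e5 : (x + y + t) ^ 2 ≤ 3 * (x ^ 2 + y ^ 2 + δ) := by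
      nlinarith [sq_nonneg (x - y), sq_nonneg (y - t), sq_nonneg (x - t)]
    rw [mul_pow] at e4
    have e6 := mul_le_mul_of_nonneg_left (e4.trans (mul_le_mul_of_nonneg_left e5 (by positivity)))
      (show 0 ≤ 16 * q by positivity)
    nlinarith [mul_le_mul_of_nonneg_right q1 δ0, mul_nonneg (zero_le_one.trans q1) (sq_nonneg x),
      mul_nonneg (zero_le_one.trans q1) (sq_nonneg y)]
  have c3 := c1.trans (Finset.sum_le_sum fun i _ => c2 i)
  rw [Finset.sum_coe_sort (Finset.range (G.dist v w))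
      fun i => chi θ (m (geo G v w i) (geo G v w (i + 1))) + log (θc / θ),
    Finset.sum_coe_sort (Finset.range (G.dist v w))
      fun i => chi θ' (m' (geo G v w i) (geo G v w (i + 1))) + log (θc / θ'),
    Finset.sum_coe_sort (Finset.range (G.dist v w))
      fun i => 49 * 10 ^ 10 * q * (Δ i + Δ (i + 1)), ← Finset.mul_sum,
    Finset.sum_add_distrib (f := Δ)] at c3
  refine (sqrt_add_sub_sq_le (chi_nonneg (by norm_num) ((br v v (Or.inl rfl)).trans_lt hr))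
    (Finset.sum_nonneg fun i hi => add_nonneg (n1 ⟨i, hi⟩) l1)
    (chi_nonneg (by norm_num) ((br' v v (Or.inl rfl)).trans_lt hr))
    (Finset.sum_nonneg fun i hi => add_nonneg (n2 ⟨i, hi⟩) l2)).trans ?_
  have a3 := Finset.sum_range_succ Δ (G.dist v w)
  have a4 := Finset.sum_range_succ' Δ (G.dist v w)
  have a5 : (m v v - m' v v) ^ 2 ≤ Δ 0 := by simp only [Δ, geo_zero hT]; linarith
  have a6 : 0 ≤ ∑ i ∈ Finset.range (G.dist v w), Δ (i + 1) := Finset.sum_nonneg fun i _ => hΔ _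
  have a7 : 16 * (m v v - m' v v) ^ 2 + 49 * 10 ^ 10 * (∑ i ∈ Finset.range (G.dist v w), Δ i +
      ∑ i ∈ Finset.range (G.dist v w), Δ (i + 1)) ≤
      10 ^ 12 * ∑ i ∈ Finset.range (G.dist v w + 1), Δ i := by
    linarith [hΔ 0, hΔ (G.dist v w)]
  nlinarith [mul_le_mul_of_nonneg_left a7 (zero_le_one.trans q1)]

omit [G.LocallyFinite] in
lemma Sx_nonneg (hT : G.IsTree) (hd : 3 ≤ d) (hθ : Sc d θ) (hc : Cr d θc) (h0 : 0 < θ) (hr : r < 1)
    {m : V → V → ℝ} (br : Bdr G r m) (v w : V) : 0 ≤ Sx G θc θ m v w :=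
  add_nonneg (chi_nonneg (by norm_num) ((br v v (Or.inl rfl)).trans_lt hr))
    (Finset.sum_nonneg fun _ hi => add_nonneg (chi_nonneg (hθ.half hd)
      ((br _ _ (Or.inr (geo_adj hT (Finset.mem_range.1 hi)))).trans_lt hr))
      (log_nonneg ((one_le_div h0).2 (hθ.lt_cr hc hd).le)))

omit [G.LocallyFinite] in
lemma Cp_le_cr (hd : 3 ≤ d) (hθ : Sc d θ) (hc : Cr d θc) {m : V → V → ℝ} (b : Bd m) (v w : V) :
    Gp G θ m v w ≤ θc ^ G.dist v w :=
  (Gp_mem hθ.1 (hθ.half hd) b v w).2.trans (pow_le_pow_left₀ hθ.1 (hθ.lt_cr hc hd).le _)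

omit [G.LocallyFinite] in
lemma bm_Bw (hd : 3 ≤ d) (hθ : Sc d θ) (hθ' : Sc d θ') (h : MF G θ r μ) (h' : MF G θ' r μ')
    (ε : ℝ) (v w : V) : BM fun ω => Bw G ε θ θ' (μ ω) (μ' ω) v w := by
  have b1 := bm_Cp (G := G) h.meas h.bd hθ.1 (hθ.half hd) v w
  have b2 := bm_Cp (G := G) h'.meas h'.bd hθ'.1 (hθ'.half hd) v w
  have b3 := h.bm w w
  have b4 := h'.bm w w
  unfold Bw
  bm

theorem est_one (hG : Tr G d) (hθ : Sc d θ) (hθ' : Sc d θ') (hc : Cr d θc) (h0 : 0 < θ)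
    (h0' : 0 < θ') (hr : r < 1) (h : MF G θ r μ) (h' : MF G θ' r μ') {δ ε L err : ℝ}
    (d1 : (θ - θ') ^ 2 ≤ δ) (d2 : log (θc / θ) ≤ δ) (d3 : log (θc / θ') ≤ δ) (d4 : δ ≤ 1)
    (ε0 : 0 ≤ ε) (ε1 : ε ≤ 1 / 2) (J : ℕ) (v : V)
    (m1 : ∫ ω, max (Ms G θ θc (μ ω) J v ^ 2 - L ^ 2) 0 ∂PO V ≤ err)
    (m2 : ∫ ω, max (Ms G θ' θc (μ' ω) J v ^ 2 - L ^ 2) 0 ∂PO V ≤ err) :
    ∑ w ∈ sub G J v v, ∫ ω, Bw G ε θ θ' (μ ω) (μ' ω) v w ∂PO V ≤
      10 ^ 15 * ((1 - r ^ 2) ^ 2)⁻¹ * ε ^ 2 *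
        (L ^ 2 * (∫ ω, (μ ω v v - μ' ω v v) ^ 2 ∂PO V + δ) + err) := by
  have hT := hG.tree
  have hd := hG.three
  have r0 : 0 ≤ r := (abs_nonneg _).trans (h.bdr (fun _ => 0) v v (Or.inl rfl))
  have q1 := one_le_inv_sq r0 hr
  set q := ((1 - r ^ 2) ^ 2)⁻¹ with hq
  have δ0 : 0 ≤ δ := (sq_nonneg _).trans d1
  set D : Om V → V → ℝ := fun ω a => (μ ω a a - μ' ω a a) ^ 2 + δ
  have bD : ∀ a, BM fun ω => D ω a := fun a => (((h.bm a a).sub (h'.bm a a)).pow 2).add (BM.const _)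
  have D0 : ∀ ω a, 0 ≤ D ω a := fun ω a => add_nonneg (sq_nonneg _) δ0
  have eD : ∀ (g : G ≃g G) ω q, D (act g ω) q = D ω (g q) := fun g ω q => by
    simp only [D, h.eqv, h'.eqv]
  have t1 := mass_transport hG hθ hc.1.le h bD D0 eD J v
  have t2 := mass_transport hG hθ' hc.1.le h' bD D0 eD J v
  have u : ∀ {M : Om V → ℝ}, BM M → ∫ ω, max (M ω ^ 2 - L ^ 2) 0 ∂PO V ≤ err →
      ∫ ω, D ω v * M ω ^ 2 ∂PO V ≤
        L ^ 2 * (∫ ω, (μ ω v v - μ' ω v v) ^ 2 ∂PO V + δ) + 5 * err := by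
    intro M bM hM
    have b1 := bD v
    have b2 : BM fun ω => max (M ω ^ 2 - L ^ 2) 0 :=
      ((bM.pow 2).sub (BM.const _)).cont (φ := fun x => max x 0) (by fun_prop)
    refine (int_mono (g := fun ω => L ^ 2 * D ω v + 5 * max (M ω ^ 2 - L ^ 2) 0) (by bm) (by bm)
      fun ω => ?_).trans ?_
    · have : D ω v ≤ 5 := by
        have := sub_sq_le_four (h.bd ω v v) (h'.bd ω v v)
        simp only [D]; linarith
      nlinarith [le_max_left (M ω ^ 2 - L ^ 2) 0, le_max_right (M ω ^ 2 - L ^ 2) 0, D0 ω v]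
    · rw [int_add (by bm) (by bm), integral_const_mul, integral_const_mul,
        int_add (((h.bm v v).sub (h'.bm v v)).pow 2) (BM.const _), int_const]
      linarith
  have u1 := t1.trans (u (h.bm_Ms hθ.1 (hθ.half hd) θc J v) m1)
  have u2 := t2.trans (u (h'.bm_Ms hθ'.1 (hθ'.half hd) θc J v) m2)
  have e0 : 0 ≤ err := (integral_nonneg fun ω => le_max_right _ _).trans m1
  have φ0 : 0 ≤ L ^ 2 * (∫ ω, (μ ω v v - μ' ω v v) ^ 2 ∂PO V + δ) :=
    mul_nonneg (sq_nonneg _) (add_nonneg (integral_nonneg fun _ => sq_nonneg _) δ0)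
  refine le_trans ?_ ((mul_le_mul_of_nonneg_left (add_le_add u1 u2)
    (show 0 ≤ 10 ^ 14 * q * ε ^ 2 by positivity)).trans ?_)
  swap
  · nlinarith [mul_nonneg (show 0 ≤ q * ε ^ 2 by positivity) φ0]
  rw [← Finset.sum_add_distrib, Finset.mul_sum]
  refine Finset.sum_le_sum fun w _ => ?_
  have b1 := bm_Cp (G := G) h.meas h.bd hθ.1 (hθ.half hd) v w
  have b2 := bm_Cp (G := G) h'.meas h'.bd hθ'.1 (hθ'.half hd) v w
  have b3 : BM fun ω => ∑ i ∈ Finset.range (G.dist v w + 1), D ω (geo G v w i) :=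
    BM.sum _ fun i _ => bD _
  rw [← int_add (by bm) (by bm), ← integral_const_mul]
  refine int_mono_ae (bm_Bw hd hθ hθ' h h' ε v w) (by bm) ?_
  filter_upwards [h.bp, h'.bp] with ω hω hω'
  have a1 := sqrt_Sx hT hd hθ hθ' hc h0 h0' hr (h.bd ω) (h'.bd ω) (h.bdr ω) (h'.bdr ω) hω.1 hω'.1
    d1 d2 d3 v w
  have a2 := exp_neg_sub_sq_le (Sx_nonneg hT hd hθ hc h0 hr (h.bdr ω) v w)
    (Sx_nonneg hT hd hθ' hc h0' hr (h'.bdr ω) v w)
  have a3 := Cp_eq_exp hT h0 hc.1 (hθ.half hd) hr (h.bdr ω) v w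
  have a4 := Cp_eq_exp hT h0' hc.1 (hθ'.half hd) hr (h'.bdr ω) v w
  have a5 := Finset.single_le_sum (f := fun i => D ω (geo G v w i)) (fun i _ => D0 ω _)
    (Finset.self_mem_range_succ (G.dist v w))
  simp only [geo_dist hT] at a5
  have a6 := Cp_mem (G := G) hθ.1 (hθ.half hd) (h.bd ω) v w
  have a7 := Cp_mem (G := G) hθ'.1 (hθ'.half hd) (h'.bd ω) v w
  have a8 := a7.2.trans (Cp_le_cr hd hθ' hc (h'.bd ω) v w)
  change _ ≤ 10 ^ 12 * q * ∑ i ∈ Finset.range (G.dist v w + 1), D ω (geo G v w i) at a1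
  set S := ∑ i ∈ Finset.range (G.dist v w + 1), D ω (geo G v w i)
  have S0 : 0 ≤ S := (D0 ω w).trans a5
  have p0 := pow_pos hc.1 (G.dist v w)
  unfold Bw
  set C := Cp G θ (μ ω) v w
  set C' := Cp G θ' (μ' ω) v w
  set p := θc ^ G.dist v w
  have c1 : (C - C') ^ 2 ≤ 9 * (10 ^ 12 * q) * ((p * C + p * C') * S) := by
    have := mul_le_mul_of_nonneg_left (a2.trans (mul_le_mul_of_nonneg_left a1 (by positivity)))
      (sq_nonneg p)
    rw [a3, a4]
    linarith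
  have c2 : C' ^ 2 * (μ ω w w - μ' ω w w) ^ 2 ≤ q * ((p * C + p * C') * S) := by
    have x1 : C' ^ 2 ≤ p * C + p * C' := by nlinarith [mul_nonneg p0.le a6.1]
    have x2 : (μ ω w w - μ' ω w w) ^ 2 ≤ S := by simp only [D] at a5; linarith
    exact (mul_le_mul x1 x2 (sq_nonneg _) ((sq_nonneg _).trans x1)).trans
      (le_mul_of_one_le_left (mul_nonneg ((sq_nonneg _).trans x1) S0) q1)
  have c3 : ε ^ 4 ≤ ε ^ 2 := pow_le_pow_of_le_one ε0 (by linarith) (by norm_num)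
  have c4 := mul_le_mul c3 c2 (by positivity) (sq_nonneg _)
  have c5 := mul_le_mul_of_nonneg_left c1 (sq_nonneg ε)
  have c6 : 0 ≤ ε ^ 2 * (q * ((p * C + p * C') * S)) := by
    have := a6.1
    have := a7.1
    positivity
  nlinarith

end Crest.Agent.H5.KS
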