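import Mathlib
import Crest.Agent.H5.KS.Est

/-!
The estimate for the early rounds.
-/

set_option autoImplicit false

namespace Crest.Agent.H5.KS

open MeasureTheory Real Filter Topology

variable {V : Type*} {G : SimpleGraph V} {d : ℕ}

lemma chi_zero (θ : ℝ) : chi θ 0 = 0 := by simp [chi, a0]

lemma abs_chi_le {θ μ r : ℝ} (h0 : 0 ≤ θ) (h1 : θ ^ 2 ≤ 1 / 2) (hr : r < 1) (h : |μ| ≤ r) :
    |chi θ μ| ≤ 2 / (1 - r ^ 2) := by
  have r0 : 0 ≤ r := (abs_nonneg _).trans h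
  have := chi_lip h0 h1 h0 h1 hr h (show |(0 : ℝ)| ≤ r by simpa using r0)
  simp only [chi_zero, sub_zero, abs_zero, add_zero, sub_self, mul_zero] at this
  refine this.trans (div_le_div_of_nonneg_right ?_ (by nlinarith))
  nlinarith [abs_nonneg μ]

lemma sq_le_clip {μ A l : ℝ} (h : |μ| ≤ 1) (hA : 0 ≤ A) :
    μ ^ 2 ≤ l ^ 2 + 2 * exp (-(A * l)) * cosh (A * μ) := by
  by_cases hl : |μ| ≤ l
  · have := pow_le_pow_left₀ (abs_nonneg _) hl 2
    rw [sq_abs] at this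
    have := cosh_pos (A * μ)
    nlinarith [exp_pos (-(A * l))]
  · have a1 : exp (A * l) ≤ 2 * cosh (A * μ) := by
      rw [← cosh_abs, abs_mul, abs_of_nonneg hA, cosh_eq]
      have := exp_le_exp.2 (mul_le_mul_of_nonneg_left (not_le.1 hl).le hA)
      linarith [exp_pos (-(A * |μ|))]
    have a2 : exp (-(A * l)) * exp (A * l) = 1 := by rw [← exp_add]; simp
    nlinarith [mul_le_mul_of_nonneg_left a1 (exp_pos (-(A * l))).le, sq_le_one_of_abs h,
      sq_nonneg l]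

variable {θc θ θ' r : ℝ} {μ μ' : Om V → V → V → ℝ}

lemma MF.bm_chi (h : MF G θ r μ) {t : ℝ} (h0 : 0 ≤ t) (h1 : t ^ 2 ≤ 1 / 2) (hr : r < 1) {a b : V}
    (hab : Good G a b) : BM fun ω => chi t (μ ω a b) :=
  BM.of_le ((measurable_chi t).comp (h.meas a b)) _ fun ω => abs_chi_le h0 h1 hr (h.bdr ω a b hab)

lemma z_pt (hd : 3 ≤ d) (hθ : Sc d θ) (hθ' : Sc d θ') (hr : r < 1) {m m' : V → V → ℝ} (b : Bd m)
    (b' : Bd m') (br : Bdr G r m) (br' : Bdr G r m') (p : ∀ u v, G.Adj u v → BPe θ m u v)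
    (p' : ∀ u v, G.Adj u v → BPe θ' m' u v) {δ : ℝ} (d1 : (θ - θ') ^ 2 ≤ δ) {u v : V}
    (h : G.Adj u v) {X Y : ℝ} (hY : 0 ≤ Y) (hX : 0 ≤ X) (hm : m u v ^ 2 + m' u v ^ 2 ≤ X + Y) :
    (chi θ (m u v) - chi θ' (m' u v)) ^ 2 ≤ ((1 - r ^ 2) ^ 2)⁻¹ * (25 * 10 ^ 10 * X *
      ((m u u - m' u u) ^ 2 + (m v v - m' v v) ^ 2 + δ) + 72 * Y) := by
  have h1 := hθ.half hd
  have h1' := hθ'.half hd
  have e2 := pow_le_pow_left₀ (abs_nonneg _) (chi_lip hθ.1 h1 hθ'.1 h1' hr (br _ _ (Or.inr h))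
    (br' _ _ (Or.inr h))) 2
  have e3 := mu_lip hθ.1 h1 hθ'.1 h1' b b' (p _ _ h) (p _ _ h.symm) (p' _ _ h) (p' _ _ h.symm)
  rw [sq_abs, div_pow, div_eq_inv_mul] at e2
  refine e2.trans (mul_le_mul_of_nonneg_left ?_ (by positivity))
  rw [← sq_abs (θ - θ')] at d1
  rw [← sq_abs (m u u - _), ← sq_abs (m v v - _)]
  rw [← sq_abs (m u v), ← sq_abs (m' u v)] at hm
  have t1 : |θ - θ'| ≤ 1 := by
    have := hθ.le_one hd
    have := hθ'.le_one hd
    rw [abs_le]; constructor <;> linarith [hθ.1, hθ'.1]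
  have z1 : |m u v - m' u v| ≤ 2 := (abs_sub _ _).trans (by linarith [b u v, b' u v])
  set x := |m u u - m' u u|
  set y := |m v v - m' v v|
  set t := |θ - θ'|
  set z := |m u v - m' u v|
  have e4 : (z + t) ^ 2 ≤ (100001 * (x + y + t)) ^ 2 := pow_le_pow_left₀ (by positivity)
    (by linarith [show 0 ≤ x + y by positivity]) 2
  have e5 : (x + y + t) ^ 2 ≤ 3 * (x ^ 2 + y ^ 2 + δ) := by
    nlinarith [sq_nonneg (x - y), sq_nonneg (y - t), sq_nonneg (x - t)]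
  have e6 : (z + t) ^ 2 ≤ 3 ^ 2 := pow_le_pow_left₀ (by positivity) (by linarith) 2
  have e7 : (|m u v| + |m' u v|) ^ 2 ≤ 2 * (X + Y) := by
    nlinarith [sq_nonneg (|m u v| - |m' u v|)]
  rw [mul_pow] at e4
  have e8 := mul_le_mul_of_nonneg_left (e4.trans (mul_le_mul_of_nonneg_left e5 (by positivity))) hX
  have e9 := mul_le_mul_of_nonneg_left e6 hY
  have e10 := mul_le_mul_of_nonneg_right e7 (sq_nonneg (z + t))
  have e11 : 0 ≤ X * (x ^ 2 + y ^ 2 + δ) :=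
    mul_nonneg hX (by nlinarith [sq_nonneg x, sq_nonneg y, sq_nonneg t])
  rw [mul_pow]
  nlinarith

variable [G.LocallyFinite]

lemma MF.phi_trans (hG : Tr G d) (h : MF G θ r μ) (h' : MF G θ' r μ') (v w : V) :
    ∫ ω, (μ ω w w - μ' ω w w) ^ 2 ∂PO V = ∫ ω, (μ ω v v - μ' ω v v) ^ 2 ∂PO V :=
  int_trans hG (F := fun ω a _ => (μ ω a a - μ' ω a a) ^ 2)
    (fun a _ => ((h.meas a a).sub (h'.meas a a)).pow_const 2)
    (fun g ω a _ => by rw [h.eqv, h'.eqv]) (u := v) (v := v) (v' := w) (by simp)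

theorem z_sq (hG : Tr G d) (hθ : Sc d θ) (hθ' : Sc d θ') (hr : r < 1) (h : MF G θ r μ)
    (h' : MF G θ' r μ') {δ A l Ch : ℝ} (d1 : (θ - θ') ^ 2 ≤ δ) (hA : 0 ≤ A) (v : V) {a b : V}
    (hab : G.Adj a b) (c1 : ∫ ω, cosh (A * μ ω a b) ∂PO V ≤ Ch)
    (c2 : ∫ ω, cosh (A * μ' ω a b) ∂PO V ≤ Ch) :
    ∫ ω, (chi θ (μ ω a b) - chi θ' (μ' ω a b)) ^ 2 ∂PO V ≤ 10 ^ 12 * ((1 - r ^ 2) ^ 2)⁻¹ *
      (l ^ 2 * (∫ ω, (μ ω v v - μ' ω v v) ^ 2 ∂PO V + δ) + exp (-(A * l)) * Ch) := by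
  have hd := hG.three
  have b1 := h.bm_chi hθ.1 (hθ.half hd) hr (Or.inr hab)
  have b2 := h'.bm_chi hθ'.1 (hθ'.half hd) hr (Or.inr hab)
  have b3 := h.bm
  have b4 := h'.bm
  refine (int_mono_ae (g := fun ω => ((1 - r ^ 2) ^ 2)⁻¹ * (25 * 10 ^ 10 * (2 * l ^ 2) *
      ((μ ω a a - μ' ω a a) ^ 2 + (μ ω b b - μ' ω b b) ^ 2 + δ) + 72 * (2 * exp (-(A * l)) *
        (cosh (A * μ ω a b) + cosh (A * μ' ω a b))))) (by bm) (by bm) ?_).trans ?_
  · filter_upwards [h.bp, h'.bp] with ω hω hω'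
    refine z_pt hd hθ hθ' hr (h.bd ω) (h'.bd ω) (h.bdr ω) (h'.bdr ω) hω.1 hω'.1 d1 hab
      (by have := cosh_pos (A * μ ω a b); have := cosh_pos (A * μ' ω a b); positivity)
      (by positivity) ?_
    linarith [sq_le_clip (l := l) (h.bd ω a b) hA, sq_le_clip (l := l) (h'.bd ω a b) hA]
  · rw [integral_const_mul, int_add (by bm) (by bm), integral_const_mul, integral_const_mul,
      integral_const_mul, int_add (by bm) (by bm), int_add (by bm) (by bm), int_add (by bm) (by bm),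
      int_const, h.phi_trans hG h' v a, h.phi_trans hG h' v b, mul_comm (10 ^ 12 : ℝ),
      mul_assoc ((1 - r ^ 2) ^ 2)⁻¹]
    refine mul_le_mul_of_nonneg_left ?_ (by positivity)
    have p1 : 0 ≤ ∫ ω, (μ ω v v - μ' ω v v) ^ 2 ∂PO V := integral_nonneg fun _ => sq_nonneg _
    have p2 : 0 ≤ δ := (sq_nonneg _).trans d1
    have p3 : 0 ≤ Ch := (integral_nonneg fun _ => (cosh_pos _).le).trans c1
    nlinarith [mul_le_mul_of_nonneg_left (add_le_add c1 c2) (exp_pos (-(A * l))).le,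
      mul_nonneg (sq_nonneg l) p2, mul_nonneg (exp_pos (-(A * l))).le p3]

theorem chi_time (hG : Tr G d) (hθ : Sc d θ) (hr : r < 1) (h : MF G θ r μ)
    (h' : MF G θ r μ') (v : V) {a b : V} (hab : G.Adj a b) :
    (∫ ω, chi θ (μ ω a b) ∂PO V - ∫ ω, chi θ (μ' ω a b) ∂PO V) ^ 2 ≤
      10 ^ 12 * ((1 - r ^ 2) ^ 2)⁻¹ * ∫ ω, (μ ω v v - μ' ω v v) ^ 2 ∂PO V := by
  have hd := hG.three
  have b1 := h.bm_chi hθ.1 (hθ.half hd) hr (Or.inr hab)
  have b2 := h'.bm_chi hθ.1 (hθ.half hd) hr (Or.inr hab)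
  have b3 := h.bm
  have b4 := h'.bm
  rw [← int_sub b1 b2]
  refine (sq_int_le (b1.sub b2)).trans ((int_mono_ae (g := fun ω => ((1 - r ^ 2) ^ 2)⁻¹ *
    (25 * 10 ^ 10 * 2 * ((μ ω a a - μ' ω a a) ^ 2 + (μ ω b b - μ' ω b b) ^ 2 + 0) + 72 * 0))
    (by bm) (by bm) ?_).trans_eq ?_)
  · filter_upwards [h.bp, h'.bp] with ω hω hω'
    refine z_pt hd hθ hθ hr (h.bd ω) (h'.bd ω) (h.bdr ω) (h'.bdr ω) hω.1 hω'.1 (by simp) hab
      le_rfl zero_le_two ?_
    linarith [sq_le_one_of_abs (h.bd ω a b), sq_le_one_of_abs (h'.bd ω a b)]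
  · simp only [add_zero, mul_zero]
    rw [integral_const_mul, integral_const_mul, int_add (by bm) (by bm),
      h.phi_trans hG h' v a, h.phi_trans hG h' v b]
    ring

theorem est_two (hG : Tr G d) (hθ : Sc d θ) (hθ' : Sc d θ') (hc : Cr d θc) (h0 : 0 < θ)
    (h0' : 0 < θ') (hr : r < 1) (h : MF G θ r μ) (h' : MF G θ' r μ') {ε s B σ y : ℝ}
    (ε0 : 0 ≤ ε) (ε1 : ε ≤ 1 / 2) (hs : 1 ≤ s) (hσ : 0 ≤ σ) (hy0 : 0 ≤ y) (K J : ℕ) (v : V)
    (m1 : ∫ ω, Ms G θ (s * θc) (μ ω) J v ∂PO V ≤ B)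
    (m2 : ∫ ω, Ms G θ' (s * θc) (μ' ω) J v ∂PO V ≤ B)
    (hb : ∀ w, ∫ ω, (∑ i ∈ Finset.range (G.dist v w),
      ((chi θ (μ ω (geo G v w i) (geo G v w (i + 1))) -
        chi θ' (μ' ω (geo G v w i) (geo G v w (i + 1)))) -
      ∫ ω, (chi θ (μ ω (geo G v w i) (geo G v w (i + 1))) -
        chi θ' (μ' ω (geo G v w i) (geo G v w (i + 1)))) ∂PO V)) ^ 2 ∂PO V ≤ 48 * G.dist v w * σ)
    (hy : ∀ a b, G.Adj a b → (∫ ω, (chi θ (μ ω a b) - chi θ' (μ' ω a b)) ∂PO V +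
      (log (θc / θ) - log (θc / θ'))) ^ 2 ≤ y) :
    ∑ w ∈ sub G J v v, ∫ ω, Bw G ε θ θ' (μ ω) (μ' ω) v w ∂PO V ≤
      3000 * ((1 - r ^ 2) ^ 2)⁻¹ * ε ^ 2 * ((K + 1) * ∫ ω, (μ ω v v - μ' ω v v) ^ 2 ∂PO V +
        (K + 1) ^ 2 * σ + (K + 1) ^ 3 * y + B / s ^ K) := by
  classical
  have hT := hG.tree
  have hd := hG.three
  have r0 : 0 ≤ r := (abs_nonneg _).trans (h.bdr (fun _ => 0) v v (Or.inl rfl))
  have q1 := one_le_inv_sq r0 hr
  set q := ((1 - r ^ 2) ^ 2)⁻¹ with hq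
  set φ := ∫ ω, (μ ω v v - μ' ω v v) ^ 2 ∂PO V with hφ
  have φ0 : 0 ≤ φ := integral_nonneg fun _ => sq_nonneg _
  set X := 1200 * q * (φ + (K + 1) * σ + (K + 1) ^ 2 * y) with hX
  have X0 : 0 ≤ X := by positivity
  have bG := bm_Gp (G := G) h.meas h.bd hθ.1 (hθ.half hd) v
  have bG' := bm_Gp (G := G) h'.meas h'.bd hθ'.1 (hθ'.half hd) v
  have b3 := h.bm
  have b4 := h'.bm
  have key : ∀ w, ∫ ω, Bw G ε θ θ' (μ ω) (μ' ω) v w ∂PO V ≤
      ε ^ 2 * ((if w ∈ sub G K v v then (θc ^ 2) ^ G.dist v w * X else 0) + 136 / s ^ K *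
        ∫ ω, ((s * θc) ^ G.dist v w * Gp G θ (μ ω) v w +
          (s * θc) ^ G.dist v w * Gp G θ' (μ' ω) v w) ∂PO V) := by
    intro w
    have G0 := fun ω => (Gp_mem (G := G) hθ.1 (hθ.half hd) (h.bd ω) v w).1
    have G0' := fun ω => (Gp_mem (G := G) hθ'.1 (hθ'.half hd) (h'.bd ω) v w).1
    have sp : 0 < s * θc := mul_pos (by linarith) hc.1
    have c3 : ε ^ 4 ≤ ε ^ 2 / 4 := by nlinarith [sq_nonneg ε, show ε ^ 2 ≤ 1 / 4 by nlinarith]
    have b1 := bG w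
    have b2 := bG' w
    split_ifs with hw
    · rw [mem_ball hT] at hw
      refine le_trans ?_ (mul_le_mul_of_nonneg_left (le_add_of_nonneg_right (mul_nonneg
        (by positivity) (integral_nonneg fun ω => by
          have := G0 ω; have := G0' ω; positivity))) (sq_nonneg _))
      set Z : ℕ → Om V → ℝ := fun i ω => chi θ (μ ω (geo G v w i) (geo G v w (i + 1))) -
        chi θ' (μ' ω (geo G v w i) (geo G v w (i + 1)))
      have bZ : ∀ i ∈ Finset.range (G.dist v w), BM (Z i) := fun i hi =>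
        (h.bm_chi hθ.1 (hθ.half hd) hr (Or.inr (geo_adj hT (Finset.mem_range.1 hi)))).sub
          (h'.bm_chi hθ'.1 (hθ'.half hd) hr (Or.inr (geo_adj hT (Finset.mem_range.1 hi))))
      have bS : BM fun ω => ∑ i ∈ Finset.range (G.dist v w), (Z i ω - ∫ ω, Z i ω ∂PO V) :=
        BM.sum _ fun i hi => (bZ i hi).sub (BM.const _)
      have hbw : ∫ ω, (∑ i ∈ Finset.range (G.dist v w), (Z i ω - ∫ ω, Z i ω ∂PO V)) ^ 2 ∂PO V ≤
        48 * G.dist v w * σ := hb w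
      have hK : (G.dist v w : ℝ) ≤ K + 1 := by exact_mod_cast hw.trans (Nat.le_succ K)
      have y1 : (∑ i ∈ Finset.range (G.dist v w), (∫ ω, Z i ω ∂PO V +
          (log (θc / θ) - log (θc / θ')))) ^ 2 ≤ (K + 1) ^ 2 * y := by
        refine sq_sum_le_card_mul_sum_sq.trans ?_
        rw [Finset.card_range, sq, mul_assoc]
        refine mul_le_mul hK ((Finset.sum_le_card_nsmul _ _ y fun i hi =>
          hy _ _ (geo_adj hT (Finset.mem_range.1 hi))).trans ?_)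
          (Finset.sum_nonneg fun _ _ => sq_nonneg _) (by positivity)
        rw [Finset.card_range, nsmul_eq_mul]
        exact mul_le_mul_of_nonneg_right hK hy0
      refine (int_mono (g := fun ω => ε ^ 2 * (θc ^ 2) ^ G.dist v w * (24 * (16 * q *
        (μ ω v v - μ' ω v v) ^ 2 + (∑ i ∈ Finset.range (G.dist v w),
          (Z i ω - ∫ ω, Z i ω ∂PO V)) ^ 2 + (K + 1) ^ 2 * y) + 32 * (μ ω w w - μ' ω w w) ^ 2))
        (bm_Bw hd hθ hθ' h h' ε v w) (by bm) fun ω => ?_).trans ?_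
      · have a2 := pow_le_pow_left₀ (abs_nonneg _) (abs_exp_neg_sub_le
          (Sx_nonneg hT hd hθ hc h0 hr (h.bdr ω) v w) (Sx_nonneg hT hd hθ' hc h0' hr (h'.bdr ω) v w)) 2
        have a3 := Cp_eq_exp hT h0 hc.1 (hθ.half hd) hr (h.bdr ω) v w
        have a4 := Cp_eq_exp hT h0' hc.1 (hθ'.half hd) hr (h'.bdr ω) v w
        have a7 := Cp_mem (G := G) hθ'.1 (hθ'.half hd) (h'.bd ω) v w
        have a8 := pow_le_pow_left₀ a7.1 (a7.2.trans (Cp_le_cr hd hθ' hc (h'.bd ω) v w)) 2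
        have a5 := pow_le_pow_left₀ (abs_nonneg _) (chi_lip le_rfl (by norm_num) le_rfl
          (by norm_num) hr (h.bdr ω v v (Or.inl rfl)) (h'.bdr ω v v (Or.inl rfl))) 2
        rw [sub_self, abs_zero, mul_zero, add_zero, sq_abs, div_pow, div_eq_inv_mul, ← hq,
          mul_pow, mul_pow, sq_abs] at a5
        have a6 : (|μ ω v v| + |μ' ω v v|) ^ 2 ≤ 2 ^ 2 :=
          pow_le_pow_left₀ (by positivity) (by linarith [h.bd ω v v, h'.bd ω v v]) 2
        have a9 : (chi 0 (μ ω v v) - chi 0 (μ' ω v v)) ^ 2 ≤ 16 * q * (μ ω v v - μ' ω v v) ^ 2 := by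
          refine a5.trans ?_
          nlinarith [mul_le_mul_of_nonneg_left a6 (show 0 ≤ q * (μ ω v v - μ' ω v v) ^ 2 by
            positivity)]
        have e1 : Sx G θc θ (μ ω) v w - Sx G θc θ' (μ' ω) v w =
            (chi 0 (μ ω v v) - chi 0 (μ' ω v v)) +
            ∑ i ∈ Finset.range (G.dist v w), (Z i ω - ∫ ω, Z i ω ∂PO V) +
            ∑ i ∈ Finset.range (G.dist v w), (∫ ω, Z i ω ∂PO V +
              (log (θc / θ) - log (θc / θ'))) := by
          rw [add_assoc, ← Finset.sum_add_distrib, Sx, Sx, add_sub_add_comm,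
            ← Finset.sum_sub_distrib]
          congr 1
          exact Finset.sum_congr rfl fun i _ => by simp only [Z]; ring
        rw [sq_abs, sq_abs, e1] at a2
        have a10 : ∀ x y z : ℝ, (x + y + z) ^ 2 ≤ 3 * (x ^ 2 + y ^ 2 + z ^ 2) := fun x y z => by
          nlinarith [sq_nonneg (x - y), sq_nonneg (y - z), sq_nonneg (x - z)]
        have a11 := a2.trans ((a10 _ _ _).trans (mul_le_mul_of_nonneg_left
          (add_le_add (add_le_add a9 le_rfl) y1) (by norm_num)))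
        unfold Bw
        rw [← pow_mul, mul_comm _ 2, pow_mul] at a8
        have a12 := mul_le_mul c3 (mul_le_mul_of_nonneg_right a8
          (sq_nonneg (μ ω w w - μ' ω w w))) (by positivity) (by positivity)
        have a13 := mul_le_mul_of_nonneg_left a11
          (show 0 ≤ ε ^ 2 * (θc ^ 2) ^ G.dist v w by positivity)
        have e2 : (Cp G θ (μ ω) v w - Cp G θ' (μ' ω) v w) ^ 2 = (θc ^ 2) ^ G.dist v w *
            (exp (-Sx G θc θ (μ ω) v w) - exp (-Sx G θc θ' (μ' ω) v w)) ^ 2 := by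
          rw [a3, a4, ← mul_sub, mul_pow, ← pow_mul, ← pow_mul, mul_comm 2]
        rw [e2]
        linarith
      · rw [integral_const_mul, int_add (by bm) (by bm), integral_const_mul, integral_const_mul,
          int_add (by bm) (by bm), int_add (by bm) (by bm), integral_const_mul, int_const,
          h.phi_trans hG h' v w, ← hφ, mul_assoc]
        refine mul_le_mul_of_nonneg_left (mul_le_mul_of_nonneg_left ?_ (by positivity))
          (sq_nonneg _)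
        have z1 := mul_le_mul_of_nonneg_right hK hσ
        have z2 := mul_le_mul_of_nonneg_right q1 φ0
        have z3 := mul_le_mul_of_nonneg_right q1 (show 0 ≤ ((K : ℝ) + 1) * σ by positivity)
        have z4 := mul_le_mul_of_nonneg_right q1 (show 0 ≤ ((K : ℝ) + 1) ^ 2 * y by positivity)
        have z5 : 0 ≤ ((K : ℝ) + 1) ^ 2 * y := by positivity
        have z6 : 0 ≤ ((K : ℝ) + 1) * σ := by positivity
        rw [hX]
        nlinarith
    · rw [mem_ball hT, not_le] at hw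
      rw [zero_add, ← integral_const_mul, ← integral_const_mul]
      refine int_mono (bm_Bw hd hθ hθ' h h' ε v w) (by bm) fun ω => ?_
      have a6 := Cp_mem (G := G) hθ.1 (hθ.half hd) (h.bd ω) v w
      have a7 := Cp_mem (G := G) hθ'.1 (hθ'.half hd) (h'.bd ω) v w
      have a8 := a6.2.trans (Cp_le_cr hd hθ hc (h.bd ω) v w)
      have a9 := a7.2.trans (Cp_le_cr hd hθ' hc (h'.bd ω) v w)
      have a1 : θc ^ G.dist v w ≤ (s * θc) ^ G.dist v w / s ^ K := by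
        rw [le_div_iff₀ (by positivity), mul_pow, mul_comm]
        exact mul_le_mul_of_nonneg_right (pow_le_pow_right₀ hs hw.le) (pow_pos hc.1 _).le
      have a2 := mul_le_mul (a8.trans a1) a6.2 a6.1 (by positivity)
      have a3 := mul_le_mul (a9.trans a1) a7.2 a7.1 (by positivity)
      have a4 := mul_le_mul c3 (mul_le_mul_of_nonneg_left (sub_sq_le_four (h.bd ω w w)
        (h'.bd ω w w)) (sq_nonneg (Cp G θ' (μ' ω) v w))) (by positivity) (by positivity)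
      have a5 : 8 * (Cp G θ (μ ω) v w - Cp G θ' (μ' ω) v w) ^ 2 + 128 * Cp G θ' (μ' ω) v w ^ 2 ≤
          136 / s ^ K * ((s * θc) ^ G.dist v w * Gp G θ (μ ω) v w +
            (s * θc) ^ G.dist v w * Gp G θ' (μ' ω) v w) := by
        have e1 : 136 / s ^ K * ((s * θc) ^ G.dist v w * Gp G θ (μ ω) v w +
            (s * θc) ^ G.dist v w * Gp G θ' (μ' ω) v w) =
            136 * ((s * θc) ^ G.dist v w / s ^ K * Gp G θ (μ ω) v w +
            (s * θc) ^ G.dist v w / s ^ K * Gp G θ' (μ' ω) v w) := by ring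
        rw [e1]
        nlinarith [mul_nonneg a6.1 a7.1, sq_nonneg (Cp G θ (μ ω) v w)]
      unfold Bw
      nlinarith [mul_le_mul_of_nonneg_left a5 (sq_nonneg ε)]
  refine (Finset.sum_le_sum fun w _ => key w).trans ?_
  rw [← Finset.mul_sum, Finset.sum_add_distrib, ← Finset.mul_sum, ← Finset.sum_filter,
    ← int_sum _ fun w _ => ((BM.const _).mul (bG w)).add ((BM.const _).mul (bG' w))]
  simp only [Finset.sum_add_distrib]
  have s1 : ∑ w ∈ (sub G J v v).filter (· ∈ sub G K v v), (θc ^ 2) ^ G.dist v w * X ≤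
      (K + 1) * (2 * X) := by
    refine (Finset.sum_le_sum_of_subset_of_nonneg (fun w hw => (Finset.mem_filter.1 hw).2)
      fun _ _ _ => by positivity).trans ((sum_radial_le hT hd hG.reg v K
        (fun j => (θc ^ 2) ^ j * X) fun j => by positivity).trans_eq ?_)
    rw [Finset.sum_congr rfl (g := fun _ => 2 * X) fun j _ => by
      rw [mul_assoc, ← mul_assoc (_ ^ j), ← mul_pow, hc.2, one_pow, one_mul]]
    simp
  have s2 := int_add (μ := PO V) (h.bm_Ms hθ.1 (hθ.half hd) (s * θc) J v)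
    (h'.bm_Ms hθ'.1 (hθ'.half hd) (s * θc) J v)
  simp only [Ms] at s2 m1 m2
  rw [s2, mul_comm (3000 * q), mul_assoc]
  refine mul_le_mul_of_nonneg_left ?_ (sq_nonneg _)
  have s3 := mul_le_mul_of_nonneg_left (add_le_add m1 m2) (show 0 ≤ 136 / s ^ K by positivity)
  have B0 : 0 ≤ B := le_trans (integral_nonneg fun ω => Finset.sum_nonneg fun w _ => mul_nonneg
    (pow_nonneg (mul_nonneg (by linarith) hc.1.le) _)
    (Gp_mem hθ.1 (hθ.half hd) (h.bd ω) v w).1) m1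
  have s4 := mul_le_mul_of_nonneg_right q1 (show 0 ≤ B / s ^ K by positivity)
  have s5 : 136 / s ^ K * (B + B) = 272 * (B / s ^ K) := by ring
  have s6 : 0 ≤ q * (((K : ℝ) + 1) * φ + (K + 1) ^ 2 * σ + (K + 1) ^ 3 * y) := by positivity
  have s7 : 0 ≤ B / s ^ K := by positivity
  rw [hX] at s1
  nlinarith

end Crest.Agent.H5.KS
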