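import Mathlib
import Crest.Agent.H5.KS.Est2

/-!
Bounds on the rate of separation in each round of the schedule.
-/

set_option autoImplicit false

namespace Crest.Agent.H5.KS

open MeasureTheory Real Filter Topology

variable {V : Type*} {G : SimpleGraph V} {d : ℕ}

lemma tend_dexp (C : ℝ) {Q α : ℝ} (hQ : 0 < Q) (hα : 0 < α) :
    Tendsto (fun k : ℕ => exp (C * (k + 1) ^ 3) * (Q ^ k * exp (-(α * 2 ^ k)))) atTop (𝓝 0) := by
  have t := fun j => tendsto_pow_const_div_const_pow_of_one_lt j (show (1 : ℝ) < 2 by norm_num)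
  have a1 := (((((t 3).add ((t 2).const_mul 3)).add ((t 1).const_mul 3)).add (t 0)).const_mul C).add
    ((t 1).const_mul (log Q)) |>.sub_const α
  simp only [mul_zero, add_zero, zero_sub] at a1
  have a2 := (tendsto_pow_atTop_atTop_of_one_lt (show (1 : ℝ) < 2 by norm_num)).atTop_mul_neg
    (neg_neg_of_pos hα) a1
  refine (tendsto_exp_atBot.comp a2).congr fun k => ?_
  rw [Function.comp_apply, ← exp_log (pow_pos hQ k), ← exp_add, ← exp_add, log_pow]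
  congr 1
  field_simp
  ring

/-- the ratio of the schedule -/
noncomputable def Qd (d : ℕ) : ℝ := ((d : ℝ) - 1) ^ 13

lemma Qd_ge (hd : 3 ≤ d) : 8192 ≤ Qd d := by
  have := pow_le_pow_left₀ zero_le_two (two_le_D hd) 13
  unfold Qd; linarith

lemma Qd_two (hd : 3 ≤ d) : 2 ≤ Qd d := by linarith [Qd_ge hd]

lemma sch_mono {Q : ℝ} (hQ : 2 ≤ Q) : Monotone (sch Q) := fun a b h =>
  mul_le_mul_of_nonneg_left (pow_le_pow_of_le_one (by positivity)
    (inv_le_one_of_one_le₀ (by linarith)) (by omega)) (by norm_num)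

lemma Fld.mono {x : Om V → V → ℝ} {H κ κ' : ℝ} (h : Fld x H κ) (h' : κ' ≤ κ) : Fld x H κ' :=
  ⟨h.meas, h.dep, h.bdd, h.nish, fun v => h'.trans (h.low v)⟩

lemma clip_exp (k : ℕ) : exp (-(8 * (5 / 4) ^ (13 * k) * (1 / 4) ^ k)) ≤ exp (-(1 * 2 ^ k)) := by
  rw [exp_le_exp, neg_le_neg_iff, pow_mul, mul_assoc, ← mul_pow]
  exact mul_le_mul (by norm_num) (pow_le_pow_left₀ (by norm_num) (by norm_num) k) (by positivity)
    (by norm_num)

lemma clip_exp' (k : ℕ) :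
    4 ^ k * exp (-(8 * (5 / 4) ^ (13 * k) * (1 / 4) ^ k)) ≤ 4 ^ k * exp (-(1 * 2 ^ k)) :=
  mul_le_mul_of_nonneg_left (clip_exp k) (by positivity)

lemma fld_neg (hd : 3 ≤ d) {n k : ℕ} {τ : ℝ} (hn : k + 1 ≤ n) (h1 : -(k : ℝ) ≤ τ)
    (h2 : τ ≤ -(k : ℝ) + 1) : Fld (fun ω : Om V => XI (sch (Qd d)) n ω τ) (4 * sch (Qd d) (-k))
      ((sch (Qd d) (-k) / (3 * Qd d)) ^ 2) := by
  have hQ := Qd_two hd
  refine (fld_XI (sched_sch hQ) (K := -k + 1) (k := -k - 1) (by push_cast; exact h2)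
    (sum_sch_neg hQ n k) (by omega) (by push_cast; linarith)).mono ?_
  have := pow_le_pow_left₀ (div_nonneg (sch_pos hQ _).le (by linarith)) (sch_pred hQ (-k)) 2
  have e1 : (sch (Qd d) (-k) / (3 * Qd d)) ^ 2 = (sch (Qd d) (-k) / Qd d) ^ 2 / 9 := by
    field_simp; norm_num
  rw [e1]
  nlinarith [sq_nonneg (sch (Qd d) (-k - 1))]

lemma DH_eq (hd : 3 ≤ d) (k : ℕ) :
    ((d : ℝ) - 1) ^ (13 * k) * (4 * sch (Qd d) (-k)) * Cc d = 2 * Cc d := by
  have := Qd_two hd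
  rw [sch_neg, pow_mul, ← Qd, inv_pow]
  field_simp
  norm_num

variable [G.LocallyFinite]

lemma abs_cb_le (hG : Tr G d) {β : ℝ} (hβ : Sc d (tanh β)) {n T : ℕ} {τ : ℝ} (hτ : τ ≤ T)
    (R : ℕ) (ω : Om V) {u v : V} (huv : Good G u v) :
    |cb G (sch (Qd d)) β n v R ω τ u v| ≤ tanh (2 + T + 3 * d) := by
  classical
  have hQ := Qd_two hG.three
  have : (sub G R v v).filter (· ∈ br G u v) = sub G R u v := by
    ext z
    rw [Finset.mem_filter, mem_ball hG.tree, mem_sub hG.tree huv, and_comm]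
  unfold cb cav
  rw [this, mg_sub hG.tree hβ.1 R huv]
  exact abs_tanh_le_tanh (abs_bp_le hG.reg hβ.1 (hβ.half hG.three)
    ((abs_XS_le (sched_sch hQ) _ ω (K := T) (by exact_mod_cast hτ) v).trans (sum_sch hQ n T)))

lemma mf_mu (hG : Tr G d) {β : ℝ} (hβ : Sc d (tanh β)) (n : ℕ) {T : ℕ} {τ : ℝ} (hτ : τ ≤ T) :
    MF G (tanh β) (tanh (2 + T + 3 * d)) fun ω => mu G (sch (Qd d)) β n ω τ := by
  refine ⟨measurable_mu τ, fun ω => bd_mu ω τ, fun ω u v h => abs_limsup_le fun R =>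
    abs_cb_le hG hβ hτ R ω h, fun g ω u v => (mu_map hG.tree g ω τ u v).symm, ?_⟩
  filter_upwards [ae_conv (n := n) hG hβ (sched_sch (Qd_two hG.three)) τ] with ω h
  exact ⟨fun u v huv => h.bpe hG.tree huv, h.Cp_symm hG.tree (hβ.half hG.three)⟩

theorem fine_round (hG : Tr G d) {θc : ℝ} (hc : Cr d θc) : ∃ k1 : ℕ, ∀ k ≥ k1, ∀ (θ : ℝ) (n : ℕ)
    (τ : ℝ), Sc d θ → k + 1 ≤ n → -(k : ℝ) ≤ τ → τ ≤ -(k : ℝ) + 1 → ∃ r0, ∀ r ≥ r0, ∀ s, 0 ≤ s →
      s ≤ 1 + sch (Qd d) (-k) / (96 * Qd d) → ∀ J, ∀ {u v : V}, G.Adj u v →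
        ∫ ω, Nn G θc θ s (fun ω => XI (sch (Qd d)) n ω τ) r J u v ω ∂PO V ≤
          96 * Qd d / sch (Qd d) (-k) := by
  have hd := hG.three
  have hQ := Qd_two hd
  have hD := two_le_D hd
  have a1 := ((tend_dexp 0 (show 0 < Qd d by linarith) one_pos).const_mul
    (1536 * Qd d * exp (2 * Cc d))).eventually (gt_mem_nhds (show _ < (1 : ℝ) by simp))
  have a2 := ((tendsto_pow_atTop_nhds_zero_of_lt_one (show (0 : ℝ) ≤ 1 / 16 by norm_num)
    (by norm_num)).const_mul (3072 * ((d : ℝ) - 1) * Qd d)).eventually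
      (gt_mem_nhds (show _ < (1 : ℝ) by simp))
  obtain ⟨k1, hk1⟩ := eventually_atTop.1 (a1.and a2)
  refine ⟨k1, fun k hk θ n τ hθ hn h1 h2 => ?_⟩
  obtain ⟨b1, b2⟩ := hk1 k hk
  have hx := fld_neg (V := V) hd hn h1 h2
  have e0 := sch_pos hQ (-k)
  have e1 := (sched_sch hQ (-k)).2
  set ε := sch (Qd d) (-k) with hε
  have g1 : ε / (3 * Qd d) ≤ 1 / 2 := by rw [div_le_iff₀ (by positivity)]; linarith
  obtain ⟨r0, h0⟩ := om_low hG hθ hc hx rfl (by positivity) g1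
  refine ⟨r0, fun r hr s s0 s1 J u v huv => ?_⟩
  have q0 : 0 ≤ ε / (3 * Qd d) / 8 / 8 := by positivity
  have := fine (r := r) hG hθ hc hx (γ := ε / (3 * Qd d) / 8) (q := √(ε / (3 * Qd d) / 8 / 8))
    (by positivity) (by linarith) s0 (s1.trans_eq (by field_simp; ring)) (sqrt_nonneg _)
    (sq_sqrt q0).le (fun n hn => h0 n (hr.trans hn)) (fun m u v h => ?_) J huv
  · exact this.trans_eq (by field_simp; norm_num)
  rw [sq_sqrt q0]
  have b := bm_hg hG hθ hx m u v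
  have c1 := vq_up hG hθ hx m (Or.inr h)
  have c2 := cosh_up hG hθ hx (by linarith) (13 * k) m h
  rw [DH_eq hd] at c2
  refine (int_mono (g := fun ω => ((1 / 4) ^ k) ^ 2 *
    tanh (hg G θ (fun ω => XI (sch (Qd d)) n ω τ) m u v ω) ^ 2 +
    2 * exp (-(8 * (5 / 4) ^ (13 * k) * (1 / 4) ^ k)) * cosh (8 * (5 / 4) ^ (13 * k) *
      hg G θ (fun ω => XI (sch (Qd d)) n ω τ) m u v ω)) (by bm) (by bm) fun ω => ?_).trans ?_
  · set y := hg G θ (fun ω => XI (sch (Qd d)) n ω τ) m u v ω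
    have d1 := sq_le_clip (A := 8 * (5 / 4) ^ (13 * k)) (l := (1 / 4) ^ k) (abs_tanh_le_one y)
      (by positivity)
    have d2 : cosh (8 * (5 / 4) ^ (13 * k) * tanh y) ≤ cosh (8 * (5 / 4) ^ (13 * k) * y) := by
      rw [cosh_le_cosh, abs_mul, abs_mul (8 * _)]
      exact mul_le_mul_of_nonneg_left (abs_tanh_le _) (abs_nonneg _)
    have d3 := mul_le_mul_of_nonneg_left d2
      (show 0 ≤ 2 * exp (-(8 * (5 / 4) ^ (13 * k) * (1 / 4) ^ k)) by positivity)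
    have d4 := mul_le_mul_of_nonneg_left (d1.trans (add_le_add le_rfl d3)) (sq_nonneg (tanh y))
    have d5 : 0 ≤ 2 * exp (-(8 * (5 / 4) ^ (13 * k) * (1 / 4) ^ k)) *
      cosh (8 * (5 / 4) ^ (13 * k) * y) := by have := cosh_pos (8 * (5 / 4) ^ (13 * k) * y); positivity
    nlinarith [mul_le_mul_of_nonneg_right (tanh_sq_le_one y) d5]
  · rw [int_add (by bm) (by bm), integral_const_mul, integral_const_mul]
    have d1 := mul_le_mul (mul_le_mul_of_nonneg_left (clip_exp k) zero_le_two) c2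
      (integral_nonneg fun _ => (cosh_pos _).le) (by positivity)
    have d2 := mul_le_mul_of_nonneg_left c1 (sq_nonneg ((1 / 4 : ℝ) ^ k))
    unfold vq at d2
    refine (add_le_add d2 d1).trans ?_
    rw [← pow_mul, mul_comm k 2, pow_mul, show ((1 / 4 : ℝ)) ^ 2 = 1 / 16 by norm_num]
    have d3 : (1 / 16) ^ k * (2 * (((d : ℝ) - 1) * (4 * ε))) ≤ ε / (384 * Qd d) := by
      rw [le_div_iff₀ (by positivity)]
      nlinarith
    have d4 : 2 * exp (-(1 * 2 ^ k)) * exp (2 * Cc d) ≤ ε / (384 * Qd d) := by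
      rw [le_div_iff₀ (by positivity), hε, sch_neg, inv_pow, ← div_eq_mul_inv,
        le_div_iff₀ (by positivity)]
      simp only [zero_mul, exp_zero, one_mul] at b1 ⊢
      linarith
    refine (add_le_add d3 d4).trans_eq ?_
    field_simp; norm_num

theorem mean_round (hG : Tr G d) {θc : ℝ} (hc : Cr d θc) (T : ℕ) : ∃ c : ℝ, 0 < c ∧
    ∀ k : ℤ, k < T → ∀ (θ : ℝ) (n : ℕ) (τ : ℝ), Sc d θ → -(n : ℤ) ≤ k - 1 → (k : ℝ) ≤ τ →
      τ ≤ k + 1 → ∃ r0, ∀ r ≥ r0, ∀ J, ∀ {u v : V}, G.Adj u v →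
        ∫ ω, Nn G θc θ 1 (fun ω => XI (sch (Qd d)) n ω τ) r J u v ω ∂PO V ≤
          c / sch (Qd d) k := by
  have hd := hG.three
  have hQ := Qd_two hd
  obtain ⟨k1, hk1⟩ := fine_round hG hc
  have e1 := sch_pos hQ (-k1)
  refine ⟨96 * Qd d + 4 * exp (2 * (2 + T)) / (sch (Qd d) (-k1) ^ 2 / 6), by positivity,
    fun k hk θ n τ hθ hn h1 h2 => ?_⟩
  have e0 := sch_pos hQ k
  rcases le_or_gt k (-k1) with h | h
  · obtain ⟨m, rfl⟩ := Int.exists_eq_neg_ofNat (show k ≤ 0 by omega)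
    obtain ⟨r0, h0⟩ := hk1 m (by omega) θ n τ hθ (by omega) (by exact_mod_cast h1)
      (by exact_mod_cast h2)
    exact ⟨r0, fun r hr J u v huv => (h0 r hr 1 zero_le_one (le_add_of_nonneg_right
      (by positivity)) J huv).trans (div_le_div_of_nonneg_right (le_add_of_nonneg_right
        (by positivity)) e0.le)⟩
  · have hx := (fld_XI (V := V) (sched_sch hQ) (K := T) (k := k - 1) (τ := τ)
      (h2.trans (by exact_mod_cast hk)) (sum_sch hQ n T) hn (by push_cast; linarith)).mono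
      (div_le_div_of_nonneg_right (pow_le_pow_left₀ e1.le (sch_mono hQ
        (show -(k1 : ℤ) ≤ k - 1 by omega)) 2) (by norm_num))
    refine ⟨0, fun r _ J u v huv => (crude hG hθ hc hx (by positivity) J huv).trans ?_⟩
    refine (le_add_of_nonneg_left (by positivity)).trans (le_div_self (by positivity) e0 ?_)
    linarith [(sched_sch hQ k).2]

lemma tail_Ms (hG : Tr G d) {θc β : ℝ} (hc : Cr d θc) (hβ : Sc d (tanh β)) {e : ℤ → ℝ}
    (he : Sched e) {n : ℕ} {τ H κ B : ℝ} (hx : Fld (fun ω : Om V => XI e n ω τ) H κ) (B0 : 0 ≤ B)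
    (r0 : ℕ) (hB : ∀ r ≥ r0, ∀ J, ∀ {u v : V}, G.Adj u v →
      ∫ ω, Nn G θc (tanh β) 1 (fun ω => XI e n ω τ) r J u v ω ∂PO V ≤ B) (j : ℕ)
    (hA : 2 ≤ ((d : ℝ) - 1) ^ (j + 1) / (10 * (1 + B))) (J : ℕ) (v : V) :
    ∫ ω, max (Ms G (tanh β) θc (mu G e β n ω τ) J v ^ 2 -
      (2 * (2 * (j + 1) + 18 * (1 + B))) ^ 2) 0 ∂PO V ≤
        2 * exp (2 - ((d : ℝ) - 1) ^ (j + 1) / (10 * (1 + B))) := by
  have := trans_Ms (n := n) (τ := τ) hG hβ he hc 1 J v
    (F := fun x => max (x ^ 2 - (2 * (2 * (j + 1) + 18 * (1 + B))) ^ 2) 0) (by fun_prop)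
    (c := 2 * exp (2 - ((d : ℝ) - 1) ^ (j + 1) / (10 * (1 + B)))) r0 fun r hr => ?_
  · rwa [one_mul] at this
  have a1 := mgf hG hβ hc hx B0 (hB r hr) j J v v
  have b := bm_Yn (s := 1) (r := r) hG hβ hc hx J v v
  set A := ((d : ℝ) - 1) ^ (j + 1) / (10 * (1 + B))
  set L := 2 * ((j : ℝ) + 1) + 18 * (1 + B) with hL
  have L1 : 1 ≤ L := by rw [hL]; linarith [show (0 : ℝ) ≤ j by positivity]
  refine (int_mono (g := fun ω => 2 * exp (-((A - 1) * (2 * L))) *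
    exp (A * Yn G θc (tanh β) 1 (fun ω => XI e n ω τ) r J v v ω))
    (((b.pow 2).sub (BM.const _)).cont (φ := fun x => max x 0) (by fun_prop)) (by bm)
    fun ω => max_le ?_ (by positivity)).trans ?_
  · have y1 := one_le_Yn (x := fun ω => XI e n ω τ) (r := r) hG hβ hc zero_le_one J v v ω
    set Y := Yn G θc (tanh β) 1 (fun ω => XI e n ω τ) r J v v ω
    rcases le_total Y (2 * L) with h | h
    · exact le_trans (by nlinarith) (show 0 ≤ _ by positivity)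
    · have := quadratic_le_exp_of_nonneg (zero_le_one.trans y1)
      have h2 : exp Y ≤ exp (-((A - 1) * (2 * L))) * exp (A * Y) := by
        rw [← exp_add, exp_le_exp]; nlinarith
      nlinarith [sq_nonneg (2 * L)]
  · rw [integral_const_mul, mul_assoc]
    refine mul_le_mul_of_nonneg_left ((mul_le_mul_of_nonneg_left a1 (exp_pos _).le).trans ?_)
      zero_le_two
    rw [← exp_add, exp_le_exp]
    nlinarith

theorem round_one (hG : Tr G d) {θc : ℝ} (hc : Cr d θc) (T : ℕ) : ∃ c α : ℝ, 0 < c ∧ 0 < α ∧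
    ∀ K : ℕ, 2 ≤ α * 2 ^ K → ∀ k : ℤ, -(K : ℤ) ≤ k → k < T → ∀ (β β' : ℝ) (n n' : ℕ) (δ τ : ℝ),
      Sc d (tanh β) → Sc d (tanh β') → 0 < tanh β → 0 < tanh β' → -(n : ℤ) ≤ k - 1 →
      -(n' : ℤ) ≤ k - 1 → (tanh β - tanh β') ^ 2 ≤ δ → log (θc / tanh β) ≤ δ →
      log (θc / tanh β') ≤ δ → δ ≤ 1 → (k : ℝ) ≤ τ → τ ≤ k + 1 → ∀ (J : ℕ) (v : V),
      ∑ w ∈ sub G J v v, ∫ ω, Bw G (sch (Qd d) k) (tanh β) (tanh β') (mu G (sch (Qd d)) β n ω τ)
        (mu G (sch (Qd d)) β' n' ω τ) v w ∂PO V ≤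
        c * (K + 1) ^ 2 * (phi G (sch (Qd d)) β n β' n' v τ + δ) + c * exp (-(α * 2 ^ K)) := by
  have hd := hG.three
  have hQ := Qd_two hd
  have hD := two_le_D hd
  have he := sched_sch hQ
  obtain ⟨c, c0, hm⟩ := mean_round hG hc T
  have hr := tanh_lt_one (2 + T + 3 * d)
  set q := ((1 - tanh (2 + T + 3 * d) ^ 2) ^ 2)⁻¹ with hq
  have q1 : 1 ≤ q := one_le_inv_sq (by simpa using monotone_tanh (show (0 : ℝ) ≤ 2 + T + 3 * d by
    positivity)) hr
  refine ⟨10 ^ 15 * q * ((2 * (23 + 18 * c)) ^ 2 + 2 * exp 2), 1 / (10 * (1 + 2 * c)),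
    by positivity, by positivity,
    fun K hK k k1 k2 β β' n n' δ τ hβ hβ' h0 h0' hn hn' d1 d2 d3 d4 t1 t2 J v => ?_⟩
  have hτ : τ ≤ T := t2.trans (by exact_mod_cast k2)
  have e0 := sch_pos hQ k
  have e1 := (he k).2
  have e2 := sch_mono hQ k1
  rw [sch_neg] at e2
  set ε := sch (Qd d) k
  have B0 : 0 ≤ c / ε := by positivity
  have hA : 1 / (10 * (1 + 2 * c)) * 2 ^ K ≤ ((d : ℝ) - 1) ^ (14 * K + 1) / (10 * (1 + c / ε)) := by
    have p1 : 1 ≤ Qd d ^ K := one_le_pow₀ (by linarith)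
    have p2 : c / ε ≤ 2 * c * Qd d ^ K := by
      rw [div_le_iff₀ e0]
      refine le_trans (le_of_eq ?_) (mul_le_mul_of_nonneg_left e2 (by positivity))
      rw [inv_pow]; field_simp
    have p3 : 2 ^ K * Qd d ^ K ≤ ((d : ℝ) - 1) ^ (14 * K + 1) := by
      rw [Qd, ← pow_mul, show 14 * K + 1 = K + 1 + 13 * K by ring, pow_add]
      exact mul_le_mul_of_nonneg_right ((pow_le_pow_left₀ zero_le_two hD K).trans
        (pow_le_pow_right₀ (by linarith) (by omega))) (by positivity)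
    rw [one_div_mul_eq_div, div_le_div_iff₀ (by positivity) (by positivity)]
    refine le_trans ?_ (mul_le_mul_of_nonneg_right p3 (by positivity))
    rw [mul_assoc]
    exact mul_le_mul_of_nonneg_left (by nlinarith) (by positivity)
  have tl : ∀ (β : ℝ) (n : ℕ), Sc d (tanh β) → -(n : ℤ) ≤ k - 1 →
      ∫ ω, max (Ms G (tanh β) θc (mu G (sch (Qd d)) β n ω τ) J v ^ 2 -
        (2 * (2 * (((14 * K : ℕ) : ℝ) + 1) + 18 * (1 + c / ε))) ^ 2) 0 ∂PO V ≤
        2 * exp 2 * exp (-(1 / (10 * (1 + 2 * c)) * 2 ^ K)) := by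
    intro β n hβ hn
    obtain ⟨r0, h⟩ := hm k k2 (tanh β) n τ hβ hn t1 t2
    refine (tail_Ms hG hc hβ he (fld_XI he (K := T) (k := k - 1) (by exact_mod_cast hτ)
      (sum_sch hQ n T) hn (by push_cast; linarith)) B0 r0 h (14 * K) (hK.trans hA) J v).trans ?_
    rw [mul_assoc, ← exp_add]
    exact mul_le_mul_of_nonneg_left (exp_le_exp.2 (by linarith)) zero_le_two
  refine (est_one hG hβ hβ' hc h0 h0' hr (mf_mu hG hβ n hτ) (mf_mu hG hβ' n' hτ) d1 d2 d3 d4 e0.le e1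
    J v (tl β n hβ hn) (tl β' n' hβ' hn')).trans ?_
  rw [← hq]
  have φ0 : 0 ≤ phi G (sch (Qd d)) β n β' n' v τ + δ :=
    add_nonneg (phi_nonneg _ _) ((sq_nonneg _).trans d1)
  have a1 : ε * (2 * (2 * (((14 * K : ℕ) : ℝ) + 1) + 18 * (1 + c / ε))) ≤
      2 * (23 + 18 * c) * (K + 1) := by
    have : ε * (c / ε) = c := by field_simp
    push_cast
    nlinarith [show (0 : ℝ) ≤ K by positivity, mul_nonneg c0.le (show (0 : ℝ) ≤ K by positivity)]
  have a2 := pow_le_pow_left₀ (by positivity) a1 2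
  have a3 : ε ^ 2 ≤ 1 := by nlinarith
  rw [mul_pow, mul_pow (2 * (23 + 18 * c))] at a2
  change 10 ^ 15 * q * ε ^ 2 * (_ * (phi G (sch (Qd d)) β n β' n' v τ + δ) + _) ≤ _
  have a4 := mul_le_mul_of_nonneg_right a2 φ0
  have a5 := mul_le_mul_of_nonneg_right a3
    (show 0 ≤ 2 * exp 2 * exp (-(1 / (10 * (1 + 2 * c)) * 2 ^ K)) by positivity)
  have a6 : 0 ≤ 2 * exp 2 * ((K + 1) ^ 2 * (phi G (sch (Qd d)) β n β' n' v τ + δ)) := by positivity
  have a7 : 0 ≤ (2 * (23 + 18 * c)) ^ 2 * exp (-(1 / (10 * (1 + 2 * c)) * 2 ^ K)) := by positivity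
  have a8 := mul_le_mul_of_nonneg_left (add_le_add (add_le_add a4 a5) (add_nonneg a6 a7))
    (show 0 ≤ 10 ^ 15 * q by positivity)
  linarith

lemma bsv_mu (hG : Tr G d) {β β' : ℝ} (hβ : Sc d (tanh β)) (hβ' : Sc d (tanh β')) (n n' : ℕ)
    {T : ℕ} {τ σ : ℝ} (hτ : τ ≤ T) (hσ : 0 ≤ σ)
    (h : ∀ a b, G.Adj a b → ∫ ω, (chi (tanh β) (mu G (sch (Qd d)) β n ω τ a b) -
      chi (tanh β') (mu G (sch (Qd d)) β' n' ω τ a b)) ^ 2 ∂PO V ≤ σ) (v w : V) :
    ∫ ω, (∑ i ∈ Finset.range (G.dist v w),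
      ((chi (tanh β) (mu G (sch (Qd d)) β n ω τ (geo G v w i) (geo G v w (i + 1))) -
        chi (tanh β') (mu G (sch (Qd d)) β' n' ω τ (geo G v w i) (geo G v w (i + 1)))) -
      ∫ ω, (chi (tanh β) (mu G (sch (Qd d)) β n ω τ (geo G v w i) (geo G v w (i + 1))) -
        chi (tanh β') (mu G (sch (Qd d)) β' n' ω τ (geo G v w i) (geo G v w (i + 1)))) ∂PO V)) ^ 2
      ∂PO V ≤ 48 * G.dist v w * σ := by
  classical
  have hT := hG.tree
  have hd := hG.three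
  have he := sched_sch (Qd_two hd)
  have hr := tanh_lt_one (2 + T + 3 * d)
  refine bsv_lim hG (F := fun R ω a b => if G.Adj a b then
      chi (tanh β) (cb G (sch (Qd d)) β n b R ω τ a b) -
        chi (tanh β') (cb G (sch (Qd d)) β' n' b R ω τ a b) else 0)
    (Z := fun ω a b => chi (tanh β) (mu G (sch (Qd d)) β n ω τ a b) -
      chi (tanh β') (mu G (sch (Qd d)) β' n' ω τ a b))
    (|2 / (1 - tanh (2 + T + 3 * d) ^ 2) + 2 / (1 - tanh (2 + T + 3 * d) ^ 2)|)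
    (fun R a b => ?_) (fun R ω a b => ?_) (fun R a b => ⟨sub G R b b, fun ω ω' hω => ?_⟩)
    (fun R γ ω a b => ?_) ?_ v w hσ h
  · split_ifs
    · exact ((measurable_chi _).comp (measurable_cb _ _ _ _ _)).sub
        ((measurable_chi _).comp (measurable_cb _ _ _ _ _))
    · exact measurable_const
  · split_ifs with hab
    · exact ((abs_sub _ _).trans (add_le_add
        (abs_chi_le hβ.1 (hβ.half hd) hr (abs_cb_le hG hβ hτ R ω (Or.inr hab)))
        (abs_chi_le hβ'.1 (hβ'.half hd) hr (abs_cb_le hG hβ' hτ R ω (Or.inr hab))))).trans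
        (le_abs_self _)
    · simp
  · have a1 := dep_cb (G := G) (e := sch (Qd d)) β n b R τ ω ω' hω
    have a2 := dep_cb (G := G) (e := sch (Qd d)) β' n' b R τ ω ω' hω
    simp only at a1 a2
    simp only [a1, a2]
  · simp only [cb_map hT, γ.map_rel_iff]
  · filter_upwards [ae_conv (n := n) hG hβ he τ, ae_conv (n := n') hG hβ' he τ] with ω h h' a b hab
    simp only [if_pos hab]
    exact ((continuousAt_chi (hβ.half hd) (((mf_mu hG hβ n hτ).bdr ω a b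
      (Or.inr hab)).trans_lt hr)).tendsto.comp (h b a b (Or.inr hab))).sub
      ((continuousAt_chi (hβ'.half hd) (((mf_mu hG hβ' n' hτ).bdr ω a b
        (Or.inr hab)).trans_lt hr)).tendsto.comp (h' b a b (Or.inr hab)))

theorem round_two (hG : Tr G d) {θc : ℝ} (hc : Cr d θc) {T : ℕ} (hT1 : 1 ≤ T) :
    ∃ c α : ℝ, 0 < c ∧ 0 < α ∧ ∃ k1 : ℕ,
    ∀ k ≥ k1, ∀ (β β' : ℝ) (n n' : ℕ) (δ y τ : ℝ),
      Sc d (tanh β) → Sc d (tanh β') → 0 < tanh β → 0 < tanh β' → k + 1 ≤ n →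
      k + 1 ≤ n' → (tanh β - tanh β') ^ 2 ≤ δ → -(k : ℝ) ≤ τ → τ ≤ -(k : ℝ) + 1 → 0 ≤ y →
      (∀ a b, G.Adj a b → (∫ ω, (chi (tanh β) (mu G (sch (Qd d)) β n ω τ a b) -
        chi (tanh β') (mu G (sch (Qd d)) β' n' ω τ a b)) ∂PO V +
          (log (θc / tanh β) - log (θc / tanh β'))) ^ 2 ≤ y) → ∀ (J : ℕ) (v : V),
      ∑ w ∈ sub G J v v, ∫ ω, Bw G (sch (Qd d) (-k)) (tanh β) (tanh β')
        (mu G (sch (Qd d)) β n ω τ) (mu G (sch (Qd d)) β' n' ω τ) v w ∂PO V ≤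
        c * (1 / 4) ^ k * phi G (sch (Qd d)) β n β' n' v τ +
          c * (δ + 4 ^ k * exp (-(α * 2 ^ k)) + (2 * Qd d) ^ (3 * k) * y) := by
  have hd := hG.three
  have hQ := Qd_two hd
  have hQ' := Qd_ge hd
  have hD := two_le_D hd
  have he := sched_sch hQ
  obtain ⟨k1, hm⟩ := fine_round hG hc
  have hr := tanh_lt_one (2 + T + 3 * d)
  set q := ((1 - tanh (2 + T + 3 * d) ^ 2) ^ 2)⁻¹ with hq
  have q1 : 1 ≤ q := one_le_inv_sq (by simpa using monotone_tanh (show (0 : ℝ) ≤ 2 + T + 3 * d by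
    positivity)) hr
  refine ⟨3000 * q * (10 ^ 12 * q * (1 + exp (2 * Cc d)) + 97 * Qd d), 1 / (384 * Qd d),
    by positivity, by positivity, k1,
    fun k hk β β' n n' δ y τ hβ hβ' h0 h0' hn hn' d1 t1 t2 y0 hy J v => ?_⟩
  have hτ : τ ≤ T := by
    have : (1 : ℝ) ≤ T := by exact_mod_cast hT1
    linarith [show (0 : ℝ) ≤ k by positivity]
  have e0 := sch_pos hQ (-k)
  have e1 := (he (-k)).2
  have e2 := sch_neg (Qd d) k
  set ε := sch (Qd d) (-k)
  have s1 : 1 ≤ 1 + ε / (96 * Qd d) := le_add_of_nonneg_right (by positivity)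
  have s2 : ε / (96 * Qd d) ≤ 1 / 8 := by rw [div_le_iff₀ (by positivity)]; linarith
  have tl : ∀ (β : ℝ) (n : ℕ), Sc d (tanh β) → k + 1 ≤ n →
      ∫ ω, Ms G (tanh β) ((1 + ε / (96 * Qd d)) * θc) (mu G (sch (Qd d)) β n ω τ) J v ∂PO V ≤
        1 + 2 * (96 * Qd d / ε) := by
    intro β n hβ hn
    obtain ⟨r0, h⟩ := hm k hk (tanh β) n τ hβ hn t1 t2
    refine trans_Ms (n := n) (τ := τ) hG hβ he hc _ J v (F := fun x => x) continuous_id r0
      fun r hr => ?_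
    cases J with
    | zero => simp only [Yn, int_const]; exact le_add_of_nonneg_right (by positivity)
    | succ J =>
      refine (int_Yn_le hG hβ hc (fld_neg hd hn t1 t2) (by positivity) (by positivity)
        fun c hc => h r hr _ (by positivity) le_rfl J hc).trans (add_le_add le_rfl ?_)
      rw [← mul_assoc]
      refine mul_le_mul_of_nonneg_right ?_ (by positivity)
      have p1 : ((ch G v v).card : ℝ) ≤ d := by exact_mod_cast card_ch_le hG v v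
      have p2 : θc ^ 2 * (ch G v v).card ≤ 3 / 2 := by
        nlinarith [mul_le_mul_of_nonneg_left p1 (sq_nonneg θc), hc.2, sq_nonneg θc]
      rw [mul_assoc]
      nlinarith [show 0 ≤ θc ^ 2 * (ch G v v).card by positivity]
  have tc : ∀ (β : ℝ) (n : ℕ), Sc d (tanh β) → k + 1 ≤ n → ∀ {a b : V}, G.Adj a b →
      ∫ ω, cosh (8 * (5 / 4) ^ (13 * k) * mu G (sch (Qd d)) β n ω τ a b) ∂PO V ≤
        exp (2 * Cc d) := fun β n hβ hn a b hab => by
    have := trans_cosh hG hβ he (fld_neg hd hn t1 t2) (by linarith) (13 * k) hab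
    rwa [DH_eq hd] at this
  have δ0 : 0 ≤ δ := (sq_nonneg _).trans d1
  have φ0 := phi_nonneg (G := G) (e := sch (Qd d)) (β := β) (n := n) (β' := β') (n' := n') v τ
  have zs := fun a b (hab : G.Adj a b) => z_sq (l := (1 / 4) ^ k) hG hβ hβ' hr (mf_mu hG hβ n hτ)
    (mf_mu hG hβ' n' hτ) d1 (by positivity) v hab (tc β n hβ hn hab) (tc β' n' hβ' hn' hab)
  change ∀ a b, _ → _ ≤ 10 ^ 12 * q * (_ * (phi G (sch (Qd d)) β n β' n' v τ + δ) + _) at zs
  refine (est_two hG hβ hβ' hc h0 h0' hr (mf_mu hG hβ n hτ) (mf_mu hG hβ' n' hτ) e0.le e1 s1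
    (by positivity) y0 ((2 * (d - 1) ^ 13) ^ k) J v (tl β n hβ hn) (tl β' n' hβ' hn')
    (bsv_mu hG hβ hβ' n n' hτ (by positivity) zs v) hy).trans ?_
  change 3000 * q * ε ^ 2 * (_ * phi G (sch (Qd d)) β n β' n' v τ + _ + _ + _) ≤ _
  have k0 : (((2 * (d - 1) ^ 13) ^ k : ℕ) : ℝ) = (2 * Qd d) ^ k := by
    push_cast [Nat.cast_sub (show 1 ≤ d by omega)]; rfl
  have k2 : exp (1 / (384 * Qd d) * 2 ^ k) ≤ (1 + ε / (96 * Qd d)) ^ ((2 * (d - 1) ^ 13) ^ k) := by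
    have p1 : exp (ε / (96 * Qd d) / 2) ≤ 1 + ε / (96 * Qd d) := by
      have p0 : 0 ≤ ε / (96 * Qd d) := by positivity
      refine (exp_bound_div_one_sub_of_interval (by positivity) (by linarith)).trans ?_
      rw [div_le_iff₀ (by linarith)]
      nlinarith
    refine le_trans (le_of_eq ?_) (pow_le_pow_left₀ (exp_pos _).le p1 _)
    rw [← exp_nat_mul, k0, e2, mul_pow, inv_pow]
    congr 1
    field_simp
    norm_num
  rw [k0]
  set φ := phi G (sch (Qd d)) β n β' n' v τ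
  set W := (2 * Qd d) ^ k with hW
  have W1 : 1 ≤ W := one_le_pow₀ (by linarith)
  have w1 : ε * (W + 1) ≤ 2 ^ k := by
    have : ε * W = 2 ^ k / 2 := by rw [e2, hW, mul_pow, inv_pow]; field_simp
    nlinarith
  have w2 : ε ^ 2 * (W + 1) ^ 2 ≤ 4 ^ k := by
    rw [← mul_pow, show (4 : ℝ) ^ k = (2 ^ k) ^ 2 by rw [← pow_mul, mul_comm, pow_mul]; norm_num]
    exact pow_le_pow_left₀ (by positivity) w1 2
  have w3 : ε ^ 2 * (W + 1) ≤ (1 / 4) ^ k := by
    have p1 : ε * 2 ^ k ≤ (1 / 4) ^ k := by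
      rw [e2, mul_assoc, ← mul_pow]
      refine (mul_le_of_le_one_left (by positivity) (by norm_num)).trans
        (pow_le_pow_left₀ (by positivity) ?_ k)
      rw [inv_mul_le_iff₀ (by positivity)]; linarith
    nlinarith [mul_le_mul_of_nonneg_left w1 e0.le]
  have w4 : ε ^ 2 * (W + 1) ^ 3 ≤ 2 * (2 * Qd d) ^ (3 * k) := by
    rw [mul_comm 3 k, pow_mul, ← hW]
    have p1 : (W + 1) ^ 3 ≤ (2 * W) ^ 3 := pow_le_pow_left₀ (by positivity) (by linarith) 3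
    have p2 : ε ^ 2 ≤ 1 / 4 := by nlinarith
    nlinarith [mul_le_mul p2 p1 (by positivity) (by norm_num)]
  have w5 : ε ^ 2 * ((1 + 2 * (96 * Qd d / ε)) /
      (1 + ε / (96 * Qd d)) ^ ((2 * (d - 1) ^ 13) ^ k)) ≤
      97 * Qd d * (4 ^ k * exp (-(1 / (384 * Qd d) * 2 ^ k))) := by
    rw [← mul_div_assoc, div_eq_mul_inv]
    refine mul_le_mul ?_ (le_trans ?_ (le_mul_of_one_le_left (exp_pos _).le
      (one_le_pow₀ (by norm_num)))) (by positivity) (by positivity)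
    · have : ε ^ 2 * (1 + 2 * (96 * Qd d / ε)) = ε ^ 2 + 192 * Qd d * ε := by field_simp; ring
      rw [this]; nlinarith
    · rw [exp_neg]; exact inv_anti₀ (exp_pos _) k2
  have w6 : 4 ^ k * exp (-(8 * (5 / 4) ^ (13 * k) * (1 / 4) ^ k)) ≤
      4 ^ k * exp (-(1 / (384 * Qd d) * 2 ^ k)) := by
    refine (clip_exp' k).trans (mul_le_mul_of_nonneg_left (exp_le_exp.2 (neg_le_neg
      (mul_le_mul_of_nonneg_right ?_ (by positivity)))) (by positivity))
    rw [div_le_one (by positivity)]; linarith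
  have w7 : (4 : ℝ) ^ k * ((1 / 4) ^ k) ^ 2 = (1 / 4) ^ k := by
    rw [sq, ← mul_assoc, ← mul_pow]; norm_num
  have w8 : ((1 : ℝ) / 4) ^ k ≤ 1 := pow_le_one₀ (by norm_num) (by norm_num)
  set E := exp (2 * Cc d)
  have E0 : 0 < E := exp_pos _
  set x := 4 ^ k * exp (-(1 / (384 * Qd d) * 2 ^ k))
  have x0 : 0 ≤ x := by positivity
  set p := ((1 : ℝ) / 4) ^ k
  have p0 : 0 ≤ p := by positivity
  set z := (2 * Qd d) ^ (3 * k) * y with hz
  have z0 : 0 ≤ z := by positivity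
  have u1 := mul_le_mul_of_nonneg_right w3 φ0
  have u2 : ε ^ 2 * ((W + 1) ^ 2 * (10 ^ 12 * q * (p ^ 2 * (φ + δ) +
      exp (-(8 * (5 / 4) ^ (13 * k) * p)) * E))) ≤ 10 ^ 12 * q * (p * φ + δ + E * x) := by
    rw [← mul_assoc]
    refine (mul_le_mul_of_nonneg_right w2 (by positivity)).trans ?_
    rw [mul_left_comm]
    refine mul_le_mul_of_nonneg_left ?_ (by positivity)
    rw [mul_add, ← mul_assoc, w7, ← mul_assoc]
    nlinarith [mul_le_mul_of_nonneg_right w6 E0.le, mul_le_mul_of_nonneg_right w8 δ0]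
  have u3 : ε ^ 2 * ((W + 1) ^ 3 * y) ≤ 2 * z := by
    rw [← mul_assoc, hz, ← mul_assoc]; exact mul_le_mul_of_nonneg_right w4 y0
  have u4 : p * φ + 10 ^ 12 * q * (p * φ + δ + E * x) + 2 * z + 97 * Qd d * x ≤
      (10 ^ 12 * q * (1 + E) + 97 * Qd d) * (p * φ + (δ + x + z)) := by
    have := mul_nonneg p0 φ0
    have : 0 ≤ q * E := by positivity
    nlinarith [mul_nonneg this z0, mul_nonneg this δ0, mul_nonneg (show 0 ≤ q by linarith) z0,
      mul_nonneg (show 0 ≤ q by linarith) x0, mul_nonneg (show 0 ≤ Qd d by linarith) δ0,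
      mul_nonneg (show 0 ≤ Qd d - 2 by linarith) z0, mul_nonneg this (mul_nonneg p0 φ0),
      mul_nonneg (show 0 ≤ Qd d - 2 by linarith) (mul_nonneg p0 φ0)]
  have u5 := mul_le_mul_of_nonneg_left ((add_le_add (add_le_add (add_le_add u1 u2) u3) w5).trans u4)
    (show 0 ≤ 3000 * q by positivity)
  linarith

theorem start_round (hG : Tr G d) {β β' : ℝ} (hβ : Sc d (tanh β)) (hβ' : Sc d (tanh β'))
    {n n' k : ℕ} (hn : k + 1 ≤ n) (hn' : k + 1 ≤ n') (v : V) :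
    phi G (sch (Qd d)) β n β' n' v (-k) ≤ 16 * ((d : ℝ) - 1) * (1 / 2) ^ k := by
  have hd := hG.three
  have hQ := Qd_two hd
  have hD := two_le_D hd
  have he := sched_sch hQ
  have a1 := trans_vv hG hβ he (fld_neg hd hn le_rfl (by linarith)) v
  have a2 := trans_vv hG hβ' he (fld_neg hd hn' le_rfl (by linarith)) v
  have b1 := bm_mu (G := G) (e := sch (Qd d)) (β := β) (n := n) (-k) v v
  have b2 := bm_mu (G := G) (e := sch (Qd d)) (β := β') (n := n') (-k) v v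
  have a3 : phi G (sch (Qd d)) β n β' n' v (-k) ≤
      2 * vv G (sch (Qd d)) β n v (-k) + 2 * vv G (sch (Qd d)) β' n' v (-k) := by
    unfold phi vv
    rw [← integral_const_mul, ← integral_const_mul, ← int_add (by bm) (by bm)]
    exact int_mono (by bm) (by bm) fun ω => by
      nlinarith [sq_nonneg (mu G (sch (Qd d)) β n ω (-k) v v + mu G (sch (Qd d)) β' n' ω (-k) v v)]
  have a4 : sch (Qd d) (-k) ≤ 1 / 2 * (1 / 2) ^ k := by
    rw [sch_neg]
    exact mul_le_mul_of_nonneg_left (pow_le_pow_left₀ (by positivity)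
      (by rw [one_div]; exact inv_anti₀ two_pos hQ) k) (by norm_num)
  nlinarith

end Crest.Agent.H5.KS
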