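import Mathlib
import Crest.Agent.H5.KS.Round

/-!
Gronwall argument: samplers at nearby subcritical temperatures stay close.
-/

set_option autoImplicit false

namespace Crest.Agent.H5.KS

open MeasureTheory Real Filter Topology

variable {V : Type*} {G : SimpleGraph V} {d : ℕ}

lemma gron {u g e : ℕ → ℝ} (N : ℕ) (hg : ∀ i, 0 ≤ g i) (he : ∀ i, 0 ≤ e i)
    (h : ∀ i < N, u (i + 1) ≤ exp (g i) * (u i + e i)) :
    u N ≤ exp (∑ i ∈ Finset.range N, g i) * (u 0 + ∑ i ∈ Finset.range N, e i) := by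
  induction N with
  | zero => simp
  | succ N ih =>
    have a1 := ih fun i hi => h i (by omega)
    have a2 : 1 ≤ exp (∑ i ∈ Finset.range N, g i) :=
      one_le_exp (Finset.sum_nonneg fun i _ => hg i)
    rw [Finset.sum_range_succ, Finset.sum_range_succ, exp_add, mul_comm (exp _), mul_assoc]
    refine (h N (by omega)).trans (mul_le_mul_of_nonneg_left ?_ (exp_pos _).le)
    nlinarith [he N]

lemma gron' {u g e : ℕ → ℝ} (N : ℕ) (hg : ∀ i, 0 ≤ g i) (he : ∀ i, 0 ≤ e i)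
    (h : ∀ i < N, u i ≤ exp (g i) * (u (i + 1) + e i)) :
    u 0 ≤ exp (∑ i ∈ Finset.range N, g i) * (u N + ∑ i ∈ Finset.range N, e i) := by
  induction N with
  | zero => simp
  | succ N ih =>
    have a1 := ih fun i hi => h i (by omega)
    have a2 : 1 ≤ exp (g N) := one_le_exp (hg N)
    have a3 : 0 ≤ ∑ i ∈ Finset.range N, e i := Finset.sum_nonneg fun i _ => he i
    rw [Finset.sum_range_succ, Finset.sum_range_succ, exp_add, mul_assoc]
    refine a1.trans (mul_le_mul_of_nonneg_left ?_ (exp_pos _).le)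
    nlinarith [h N (by omega)]

lemma gron_round {φ w : ℝ → ℝ} {g E c : ℝ} {M : ℕ} (a : ℝ) (hM : 0 < M) (hg : 0 ≤ g)
    (hgM : 4 * g ≤ M) (hE : 0 ≤ E) (hc : 0 ≤ c) (φ0 : ∀ t, 0 ≤ φ t) (hw : Monotone w)
    (w0 : ∀ t, 0 ≤ w t) (w2 : ∀ t, w t ≤ 2)
    (h : ∀ i : ℕ, i < M → φ (a + (i + 1) / M) ≤ φ (a + i / M) + 2 * ((a + (i + 1) / M - (a + i / M)) *
      (g * φ (a + (i + 1) / M) + (E + c * (w (a + (i + 1) / M) - w (a + i / M)))))) :
    φ (a + 1) ≤ exp (4 * g) * (φ a + (2 * E + 4 * c / M)) := by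
  have M0 : (0 : ℝ) < M := by exact_mod_cast hM
  have hΔ : ∀ i : ℕ, 0 ≤ w (a + (i + 1) / M) - w (a + i / M) := fun i =>
    sub_nonneg.2 (hw (by gcongr; linarith))
  have := gron (u := fun i => φ (a + i / M)) (g := fun _ => 4 * g / M)
    (e := fun i => 2 / M * (E + c * (w (a + (i + 1) / M) - w (a + i / M)))) M
    (fun _ => by positivity) (fun i => by have := hΔ i; positivity) fun i hi => ?_
  · simp only [Finset.sum_const, Finset.card_range, nsmul_eq_mul, Nat.cast_zero, zero_div,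
      add_zero, div_self M0.ne'] at this
    rw [mul_div_cancel₀ _ M0.ne'] at this
    refine this.trans (mul_le_mul_of_nonneg_left (add_le_add le_rfl ?_) (exp_pos _).le)
    have s := Finset.sum_range_sub (fun i : ℕ => w (a + i / M)) M
    push_cast at s
    rw [← Finset.mul_sum, Finset.sum_add_distrib, ← Finset.mul_sum, s]
    simp only [Finset.sum_const, Finset.card_range, nsmul_eq_mul]
    have e1 : 2 / (M : ℝ) * (M * E + c * 2) = 2 * E + 4 * c / M := by field_simp; ring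
    rw [← e1]
    gcongr
    linarith [w0 (a + 0 / M), w2 (a + M / M)]
  · have a1 := h i hi
    push_cast
    have e1 : a + ((i : ℝ) + 1) / M - (a + i / M) = 1 / M := by field_simp; ring
    rw [e1] at a1
    have x1 : 2 * g / M ≤ 1 / 2 := by rw [div_le_iff₀ M0]; linarith
    have x0 : 0 ≤ 2 * g / M := by positivity
    have x2 := add_one_le_exp (4 * g / M)
    have e2 : 4 * g / M = 2 * (2 * g / M) := by ring
    set x := 2 * g / M with hx
    set y := φ (a + (i + 1) / M)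
    set z := E + c * (w (a + (i + 1) / M) - w (a + i / M))
    have a2 : (1 - x) * y ≤ φ (a + i / M) + 2 / M * z := by
      have : 2 * (1 / M * (g * y + z)) = x * y + 2 / M * z := by rw [hx]; ring
      linarith
    have a3 : 1 ≤ exp (4 * g / M) * (1 - x) := by rw [e2] at x2 ⊢; nlinarith
    have y0 : 0 ≤ y := φ0 _
    nlinarith [mul_le_mul_of_nonneg_left a2 (exp_pos (4 * g / M)).le]

lemma grid_mem (a : ℝ) {M i : ℕ} (hi : i < M) :
    a ≤ a + i / M ∧ a + i / M ≤ a + (i + 1) / M ∧ a + (i + 1) / M ≤ a + 1 := by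
  have M0 : (0 : ℝ) < M := by exact_mod_cast (show 0 < M by omega)
  refine ⟨le_add_of_nonneg_right (by positivity), by gcongr; linarith, add_le_add le_rfl ?_⟩
  rw [div_le_one M0]; exact_mod_cast hi

variable [G.LocallyFinite]

theorem stage_two (hG : Tr G d) {θc : ℝ} (hc : Cr d θc) {T : ℕ} (hT : 1 ≤ T) :
    ∃ C α : ℝ, 0 < C ∧ 0 < α ∧ ∀ K : ℕ, 2 ≤ α * 2 ^ K → ∀ (β β' : ℝ) (n n' : ℕ) (δ : ℝ),
      Sc d (tanh β) → Sc d (tanh β') → 0 < tanh β → 0 < tanh β' → K + 1 ≤ n → K + 1 ≤ n' →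
      (tanh β - tanh β') ^ 2 ≤ δ → log (θc / tanh β) ≤ δ → log (θc / tanh β') ≤ δ → δ ≤ 1 →
      ∀ v, phi G (sch (Qd d)) β n β' n' v T ≤ exp (C * (K + 1) ^ 3) *
        (phi G (sch (Qd d)) β n β' n' v (-K) +
          (C * (K + 1) ^ 3 * δ + C * (2 ^ K * exp (-(α * 2 ^ K))))) := by
  obtain ⟨c, α, c0, α0, H⟩ := round_one hG hc T
  have he := sched_sch (Qd_two hG.three)
  have T1 : (1 : ℝ) ≤ T := by exact_mod_cast hT
  refine ⟨4 * c * T, α, by positivity, α0,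
    fun K hK β β' n n' δ hβ hβ' h0 h0' hn hn' d1 d2 d3 d4 v => ?_⟩
  have δ0 : 0 ≤ δ := (sq_nonneg _).trans d1
  obtain ⟨M, hM⟩ := exists_nat_ge (4 * (c * (K + 1) ^ 2))
  have M0 : 0 < M := by
    have : (0 : ℝ) < M := lt_of_lt_of_le (by positivity) hM
    exact_mod_cast this
  have := gron (u := fun i => phi G (sch (Qd d)) β n β' n' v (-K + i))
    (g := fun _ => 4 * (c * (K + 1) ^ 2))
    (e := fun _ => 2 * (c * (K + 1) ^ 2 * δ + c * exp (-(α * 2 ^ K))) + 4 * 0 / M) (K + T)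
    (fun _ => by positivity) (fun _ => by positivity) fun i hi => ?_
  · simp only [Finset.sum_const, Finset.card_range, nsmul_eq_mul, Nat.cast_zero, add_zero,
      Nat.cast_add, neg_add_cancel_left, mul_zero, zero_div] at this
    have k0 : (0 : ℝ) ≤ K := by positivity
    have a1 : (K : ℝ) + T ≤ T * (K + 1) := by nlinarith
    have a2 : (K : ℝ) + 1 ≤ 2 ^ K := by exact_mod_cast Nat.lt_two_pow_self
    have φ0 := phi_nonneg (G := G) (e := sch (Qd d)) (β := β) (n := n) (β' := β') (n' := n') v (-K)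
    refine this.trans (mul_le_mul (exp_le_exp.2 ?_) (add_le_add le_rfl ?_) (by positivity)
      (exp_pos _).le)
    · exact (mul_le_mul_of_nonneg_right a1 (by positivity)).trans_eq (by ring)
    · refine (mul_le_mul_of_nonneg_right a1 (by positivity)).trans ?_
      have b1 := mul_le_mul_of_nonneg_right a2
        (show 0 ≤ c * T * exp (-(α * 2 ^ K)) by positivity)
      have b2 : 0 ≤ c * T * (K + 1) ^ 3 * δ := by positivity
      have b3 : 0 ≤ c * T * (2 ^ K * exp (-(α * 2 ^ K))) := by positivity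
      nlinarith
  · push_cast
    rw [← add_assoc]
    refine gron_round (w := fun _ => 0) _ M0 (by positivity) hM (by positivity) le_rfl
      (phi_nonneg v) monotone_const (fun _ => le_rfl) (fun _ => zero_le_two) fun j hj => ?_
    obtain ⟨g1, g2, g3⟩ := grid_mem (-(K : ℝ) + i) hj
    refine evolve hG hβ hβ' he v (k := -K + i) (by omega) (by omega) (by push_cast; exact g1) g2
      (by push_cast; exact g3) fun τ t1 t2 J => ?_
    refine (H K hK (-K + i) (by omega) (by omega) β β' n n' δ τ hβ hβ' h0 h0' (by omega) (by omega)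
      d1 d2 d3 d4 (by push_cast; linarith) (by push_cast; linarith) J v).trans ?_
    have := mul_le_mul_of_nonneg_left (phi_mono (n := n) (n' := n') hG hβ hβ' he v t2)
      (show 0 ≤ c * (K + 1) ^ 2 by positivity)
    linarith

/-- mean logarithmic edge weight -/
noncomputable def fc (G : SimpleGraph V) [G.LocallyFinite] (e : ℤ → ℝ) (β : ℝ) (n : ℕ) (a b : V)
    (t : ℝ) : ℝ := ∫ ω, chi (tanh β) (mu G e β n ω t a b) ∂PO V

lemma fc_trans (hG : Tr G d) (e : ℤ → ℝ) (β : ℝ) (n : ℕ) {a b a' b' : V} (h : G.Adj a b)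
    (h' : G.Adj a' b') (t : ℝ) : fc G e β n a' b' t = fc G e β n a b t :=
  int_trans hG (F := fun ω a b => chi (tanh β) (mu G e β n ω t a b))
    (fun a b => (measurable_chi _).comp (measurable_mu t a b))
    (fun g ω a b => by rw [mu_map hG.tree])
    (by rw [SimpleGraph.dist_eq_one_iff_adj.2 h, SimpleGraph.dist_eq_one_iff_adj.2 h'])

lemma fc_time (hG : Tr G d) {β : ℝ} (hβ : Sc d (tanh β)) (n : ℕ) {T : ℕ} {s t : ℝ} (h : s ≤ t)
    (ht : t ≤ T) (v : V) {a b : V} (hab : G.Adj a b) :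
    (fc G (sch (Qd d)) β n a b t - fc G (sch (Qd d)) β n a b s) ^ 2 ≤
      10 ^ 12 * ((1 - tanh (2 + T + 3 * d) ^ 2) ^ 2)⁻¹ *
        (vv G (sch (Qd d)) β n v t - vv G (sch (Qd d)) β n v s) := by
  rw [← mart_lim hG hβ (sched_sch (Qd_two hG.three)) h v]
  exact chi_time hG hβ (tanh_lt_one _) (mf_mu hG hβ n ht) (mf_mu hG hβ n (h.trans ht)) v hab

theorem stage_one (hG : Tr G d) {θc : ℝ} (hc : Cr d θc) {a b : V} (hab : G.Adj a b) :
    ∃ c α : ℝ, 0 < c ∧ 0 < α ∧ ∃ k1 : ℕ, ∀ K ≥ k1, ∀ N : ℕ, ∃ A : ℝ, 0 ≤ A ∧ ∀ M : ℕ, c ≤ M →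
      ∀ (β β' : ℝ) (n n' : ℕ) (δ : ℝ),
      Sc d (tanh β) → Sc d (tanh β') → 0 < tanh β → 0 < tanh β' → K + N + 1 ≤ n → K + N + 1 ≤ n' →
      (tanh β - tanh β') ^ 2 ≤ δ → log (θc / tanh β) ≤ δ → log (θc / tanh β') ≤ δ → δ ≤ 1 →
      (∀ j ≤ K + N, ∀ i < M, (fc G (sch (Qd d)) β n a b (-j + i / M) -
        fc G (sch (Qd d)) β' n' a b (-j + i / M)) ^ 2 ≤ δ) →
      ∀ v, phi G (sch (Qd d)) β n β' n' v (-K) ≤ c * ((1 / 2) ^ N +
        ∑ i ∈ Finset.range N, 4 ^ (K + i + 1) * exp (-(α * 2 ^ (K + i + 1)))) +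
          A * (δ + 1 / M) := by
  have hd := hG.three
  have hQ := Qd_two hd
  have hD := two_le_D hd
  obtain ⟨c, α, c0, α0, k1, H⟩ := round_two hG hc le_rfl
  have he := sched_sch hQ
  set q := 10 ^ 12 * ((1 - tanh (2 + (1 : ℕ) + 3 * d) ^ 2) ^ 2)⁻¹ with hq
  have q0 : 0 ≤ q := by positivity
  have x1 : 1 ≤ exp (8 * c) := one_le_exp (by positivity)
  refine ⟨exp (8 * c) * (16 * ((d : ℝ) - 1) + 4 * c), α, by positivity, α0, k1, fun K hK N =>
    ⟨exp (8 * c) * ∑ i ∈ Finset.range N, (2 * c + 16 * c * (1 + q) * (2 * Qd d) ^ (3 * (K + i + 1))),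
    by positivity, fun M hM β β' n n' δ hβ hβ' h0 h0' hn hn' d1 d2 d3 d4 hf v => ?_⟩⟩
  have δ0 : 0 ≤ δ := (sq_nonneg _).trans d1
  have hM' : 4 * c ≤ M := by nlinarith
  have M0 : (0 : ℝ) < M := lt_of_lt_of_le (by positivity) hM'
  have := gron' (u := fun i => phi G (sch (Qd d)) β n β' n' v (-(K + i : ℕ)))
    (g := fun i => 4 * (c * (1 / 4) ^ (K + i + 1)))
    (e := fun i => 2 * (c * (δ + 4 ^ (K + i + 1) * exp (-(α * 2 ^ (K + i + 1))) +
      (2 * Qd d) ^ (3 * (K + i + 1)) * (8 * δ))) +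
      4 * (c * (2 * Qd d) ^ (3 * (K + i + 1)) * (4 * q)) / M) N
    (fun _ => by positivity) (fun _ => by positivity) fun i hi => ?_
  · simp only [add_zero] at this
    have s1 := start_round hG hβ hβ' hn hn' v
    have s2 : ∑ i ∈ Finset.range N, 4 * (c * (1 / 4 : ℝ) ^ (K + i + 1)) ≤ 8 * c := by
      refine (Finset.sum_le_sum (g := fun i => 4 * c * (1 / 2 : ℝ) ^ i) fun i _ => ?_).trans ?_
      · rw [← mul_assoc]
        exact mul_le_mul_of_nonneg_left ((pow_le_pow_of_le_one (by norm_num) (by norm_num)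
          (by omega)).trans (pow_le_pow_left₀ (by norm_num) (by norm_num) i)) (by positivity)
      · rw [← Finset.mul_sum]
        nlinarith [sum_geometric_two_le N]
    have s3 : (1 / 2 : ℝ) ^ (K + N) ≤ (1 / 2) ^ N :=
      pow_le_pow_of_le_one (by norm_num) (by norm_num) (by omega)
    have φ0 := phi_nonneg (G := G) (e := sch (Qd d)) (β := β) (n := n) (β' := β') (n' := n') v
      (-(K + N : ℕ))
    refine this.trans ((mul_le_mul_of_nonneg_right (exp_le_exp.2 s2) (by positivity)).trans ?_)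
    rw [mul_assoc, mul_assoc, ← mul_add]
    refine mul_le_mul_of_nonneg_left ?_ (exp_pos _).le
    rw [mul_add, add_assoc, Finset.mul_sum, Finset.sum_mul, ← Finset.sum_add_distrib]
    refine add_le_add (s1.trans ?_) (Finset.sum_le_sum fun i _ => ?_)
    · exact mul_le_mul (by linarith) s3 (by positivity) (by positivity)
    · set W := (2 * Qd d) ^ (3 * (K + i + 1))
      have W0 : 0 ≤ W := by positivity
      set x := 4 ^ (K + i + 1) * exp (-(α * 2 ^ (K + i + 1)))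
      have x0 : 0 ≤ x := by positivity
      have m0 : 0 ≤ 1 / (M : ℝ) := by positivity
      rw [div_eq_mul_one_div _ (M : ℝ)]
      have b1 : 0 ≤ c * q * W * δ := by positivity
      have b2 : 0 ≤ c * W * (1 / M) := by positivity
      have b3 : 0 ≤ c * (1 / M) := by positivity
      have b4 : 0 ≤ (8 * ((d : ℝ) - 1) + c) * x := by positivity
      nlinarith
  · set k := K + i + 1 with hk
    have e1 : -((K + i : ℕ) : ℝ) = -(k : ℝ) + 1 := by rw [hk]; push_cast; ring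
    rw [e1, ← add_assoc K, ← hk]
    have p1 : (1 / 4 : ℝ) ^ k ≤ 1 := pow_le_one₀ (by norm_num) (by norm_num)
    refine gron_round (w := fun t => vv G (sch (Qd d)) β n v t + vv G (sch (Qd d)) β' n' v t)
      (g := c * (1 / 4) ^ k) _
      (by exact_mod_cast M0) (by positivity) (by nlinarith) (by positivity) (by positivity)
      (phi_nonneg v) ((vv_mono hG hβ he v).add (vv_mono hG hβ' he v))
      (fun t => add_nonneg (vv_mem v t).1 (vv_mem v t).1)
      (fun t => by linarith [(vv_mem (G := G) (e := sch (Qd d)) (β := β) (n := n) v t).2,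
        (vv_mem (G := G) (e := sch (Qd d)) (β := β') (n := n') v t).2]) fun j hj => ?_
    obtain ⟨g1, g2, g3⟩ := grid_mem (-(k : ℝ)) hj
    refine evolve hG hβ hβ' he v (k := -k) (by omega) (by omega) (by push_cast; exact g1) g2
      (by push_cast; exact g3) fun τ t1 t2 J => ?_
    have τ1 : τ ≤ (1 : ℕ) := by
      push_cast; linarith [show (0 : ℝ) ≤ k by positivity]
    have m1 := vv_mono (n := n) hG hβ he v t2
    have m2 := vv_mono (n := n') hG hβ' he v t2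
    have m3 := vv_mono (n := n) hG hβ he v g2
    have m4 := vv_mono (n := n') hG hβ' he v g2
    refine (H k (by omega) β β' n n' δ (8 * δ + 4 * q *
      (vv G (sch (Qd d)) β n v (-k + (j + 1) / M) + vv G (sch (Qd d)) β' n' v (-k + (j + 1) / M) -
      (vv G (sch (Qd d)) β n v (-k + j / M) + vv G (sch (Qd d)) β' n' v (-k + j / M)))) τ hβ hβ'
      h0 h0' (by omega) (by omega) d1 (by linarith) (by linarith)
      (add_nonneg (by positivity) (mul_nonneg (by positivity) (by linarith)))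
      (fun a' b' h' => ?_) J v).trans ?_
    · have hr := tanh_lt_one (2 + (1 : ℕ) + 3 * d)
      rw [int_sub ((mf_mu hG hβ n τ1).bm_chi hβ.1 (hβ.half hd) hr (Or.inr h'))
        ((mf_mu hG hβ' n' τ1).bm_chi hβ'.1 (hβ'.half hd) hr (Or.inr h'))]
      change (fc G _ β n a' b' τ - fc G _ β' n' a' b' τ + _) ^ 2 ≤ _
      rw [fc_trans hG _ β n hab h', fc_trans hG _ β' n' hab h']
      have f1 := fc_time hG hβ n t1 τ1 v hab
      have f2 := fc_time hG hβ' n' t1 τ1 v hab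
      have f3 := hf k (by omega) j hj
      rw [← hq] at f1 f2
      have l1 : 0 ≤ log (θc / tanh β) :=
        log_nonneg ((one_le_div h0).2 (hβ.lt_cr hc hd).le)
      have l2 : 0 ≤ log (θc / tanh β') :=
        log_nonneg ((one_le_div h0').2 (hβ'.lt_cr hc hd).le)
      have f4 : (log (θc / tanh β) - log (θc / tanh β')) ^ 2 ≤ δ :=
        (sq_le_sq' (b := δ) (by linarith) (by linarith)).trans (by nlinarith)
      have f5 := mul_le_mul_of_nonneg_left (add_le_add m1 m2) q0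
      set A1 := fc G (sch (Qd d)) β n a b τ
      set A2 := fc G (sch (Qd d)) β' n' a b τ
      set B1 := fc G (sch (Qd d)) β n a b (-k + j / M)
      set B2 := fc G (sch (Qd d)) β' n' a b (-k + j / M)
      set L := log (θc / tanh β) - log (θc / tanh β')
      have f6 : (A1 - A2 + L) ^ 2 ≤
          4 * ((A1 - B1) ^ 2 + (A2 - B2) ^ 2 + (B1 - B2) ^ 2 + L ^ 2) := by
        nlinarith [sq_nonneg (A1 - B1 + (A2 - B2)), sq_nonneg (A1 - B1 - (B1 - B2)),
          sq_nonneg (A1 - B1 - L), sq_nonneg (A2 - B2 + (B1 - B2)), sq_nonneg (A2 - B2 + L),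
          sq_nonneg (B1 - B2 - L)]
      linarith
    · have := mul_le_mul_of_nonneg_left (phi_mono (n := n) (n' := n') hG hβ hβ' he v t2)
        (show 0 ≤ c * (1 / 4) ^ k by positivity)
      linarith

theorem dyn_core (hG : Tr G d) {θc : ℝ} (hc : Cr d θc) {a b : V} (hab : G.Adj a b) {T : ℕ}
    (hT : 1 ≤ T) {η : ℝ} (hη : 0 < η) : ∃ (k M : ℕ) (δ : ℝ), 0 < δ ∧
      ∀ (β β' : ℝ) (n n' : ℕ),
      Sc d (tanh β) → Sc d (tanh β') → 0 < tanh β → 0 < tanh β' → k + 1 ≤ n → k + 1 ≤ n' →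
      (tanh β - tanh β') ^ 2 ≤ δ → log (θc / tanh β) ≤ δ → log (θc / tanh β') ≤ δ →
      (∀ j ≤ k, ∀ i < M, (fc G (sch (Qd d)) β n a b (-j + i / M) -
        fc G (sch (Qd d)) β' n' a b (-j + i / M)) ^ 2 ≤ δ) →
      ∀ v, phi G (sch (Qd d)) β n β' n' v T ≤ η := by
  obtain ⟨C, α, C0, α0, H2⟩ := stage_two hG hc hT
  obtain ⟨c, γ, c0, γ0, k1, H1⟩ := stage_one hG hc hab
  have e1 := ((tendsto_pow_atTop_atTop_of_one_lt (show (1 : ℝ) < 2 by norm_num)).const_mul_atTop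
    α0).eventually_ge_atTop 2
  have e2 := ((tend_dexp C two_pos α0).const_mul C).eventually
    (gt_mem_nhds (show _ < η / 4 by simpa using hη))
  obtain ⟨k2, e3⟩ := eventually_atTop.1 (((tend_dexp C (show (0 : ℝ) < 8 by norm_num)
    γ0).const_mul c).eventually (gt_mem_nhds (show _ < η / 8 by simpa using hη)))
  obtain ⟨K, ⟨⟨b1, b2⟩, b3⟩, b4⟩ :=
    (((e1.and e2).and (eventually_ge_atTop k1)).and (eventually_ge_atTop k2)).exists
  set X := exp (C * (K + 1) ^ 3) with hX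
  have X0 : 0 < X := exp_pos _
  obtain ⟨N, b5⟩ := (((tendsto_pow_atTop_nhds_zero_of_lt_one (show (0 : ℝ) ≤ 1 / 2 by norm_num)
    (by norm_num)).const_mul (X * c)).eventually
      (gt_mem_nhds (show _ < η / 4 by simpa using hη))).exists
  obtain ⟨A, A0, H1⟩ := H1 K b3 N
  obtain ⟨M, b6, b7⟩ := (((tendsto_one_div_atTop_nhds_zero_nat (𝕜 := ℝ)).const_mul
    (X * A)).eventually (gt_mem_nhds (show _ < η / 8 by simpa using hη)) |>.and
      (tendsto_natCast_atTop_atTop.eventually_ge_atTop c)).exists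
  have Y0 : 0 < X * (A + C * (K + 1) ^ 3) := by positivity
  refine ⟨K + N, M, min 1 (η / 8 / (X * (A + C * (K + 1) ^ 3))), by positivity,
    fun β β' n n' hβ hβ' h0 h0' hn hn' d1 d2 d3 hf v => ?_⟩
  set δ := min 1 (η / 8 / (X * (A + C * (K + 1) ^ 3)))
  have b8 : δ * (X * (A + C * (K + 1) ^ 3)) ≤ η / 8 := (le_div_iff₀ Y0).1 (min_le_right _ _)
  have a1 := H1 M b7 β β' n n' δ hβ hβ' h0 h0' hn hn' d1 d2 d3 (min_le_left _ _) hf v
  have a2 := H2 K b1 β β' n n' δ hβ hβ' h0 h0' (by omega) (by omega) d1 d2 d3 (min_le_left _ _) v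
  have a3 : X * c * ∑ i ∈ Finset.range N, 4 ^ (K + i + 1) * exp (-(γ * 2 ^ (K + i + 1))) ≤
      η / 4 := by
    rw [Finset.mul_sum]
    refine (Finset.sum_le_sum (g := fun i => η / 8 * (1 / 2 : ℝ) ^ i) fun i _ => ?_).trans ?_
    · have f1 := e3 (K + i + 1) (by omega)
      have f2 : X ≤ exp (C * (((K + i + 1 : ℕ) : ℝ) + 1) ^ 3) := by
        rw [hX]; gcongr; omega
      have f3 : (4 : ℝ) ^ (K + i + 1) ≤ 8 ^ (K + i + 1) * (1 / 2) ^ i := by
        rw [show (4 : ℝ) = 8 * (1 / 2) by norm_num, mul_pow]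
        exact mul_le_mul_of_nonneg_left (pow_le_pow_of_le_one (by norm_num) (by norm_num)
          (by omega)) (by positivity)
      refine le_trans ?_ (mul_le_mul_of_nonneg_right f1.le (by positivity))
      calc _ ≤ exp (C * (((K + i + 1 : ℕ) : ℝ) + 1) ^ 3) * c * (8 ^ (K + i + 1) * (1 / 2) ^ i *
          exp (-(γ * 2 ^ (K + i + 1)))) := by gcongr
        _ = _ := by ring
    · rw [← Finset.mul_sum]
      nlinarith [sum_geometric_two_le N]
  nlinarith [mul_le_mul_of_nonneg_left a1 X0.le]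

lemma ultra_close (U : Ultrafilter ℕ) {s : ℕ → ℝ} {B δ : ℝ} (hs : ∀ n, |s n| ≤ B) (hδ : 0 < δ) :
    ∃ A ∈ U, ∀ n ∈ A, ∀ n' ∈ A, (s n - s n') ^ 2 ≤ δ := by
  obtain ⟨x, -, hx⟩ := (isCompact_Icc (a := -B) (b := B)).ultrafilter_le_nhds (U.map s)
    (le_principal_iff.2 (mem_map.2 (univ_mem' fun n => abs_le.1 (hs n))))
  have h : Tendsto (fun n => (s n - x) ^ 2) U (𝓝 ((x - x) ^ 2)) :=
    ((show Tendsto s U (𝓝 x) from hx).sub_const x).pow 2
  refine ⟨_, h.eventually (gt_mem_nhds (show _ < δ / 4 by simpa using hδ)), fun n h1 n' h2 => ?_⟩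
  simp only [Set.mem_ofPred_eq] at h1 h2
  nlinarith [sq_nonneg (s n - x + (s n' - x))]

theorem dyn_ultra (hG : Tr G d) {θc : ℝ} (hc : Cr d θc) {β : ℕ → ℝ} (hβ : ∀ n, Sc d (tanh (β n)))
    (h0 : ∀ n, 0 < tanh (β n)) (hl : Tendsto (fun n => tanh (β n)) atTop (𝓝 θc)) {T : ℕ}
    (hT : 1 ≤ T) {η : ℝ} (hη : 0 < η) : ∃ A ∈ hyperfilter ℕ, ∀ n ∈ A, ∀ n' ∈ A,
      ∀ v, phi G (sch (Qd d)) (β n) n (β n') n' v T ≤ η := by
  have hd := hG.three
  obtain ⟨a⟩ := hG.tree.1.nonempty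
  obtain ⟨b, hab⟩ := (G.degree_pos_iff_exists_adj a).1 (by rw [hG.reg a]; omega)
  obtain ⟨k, M, δ, δ0, H⟩ := dyn_core hG hc hab hT hη
  obtain ⟨A1, a1, b1⟩ := ultra_close (hyperfilter ℕ) (fun n => abs_tanh_le_one (β n)) δ0
  have a2 : ∀ᶠ n in atTop, log (θc / tanh (β n)) ≤ δ := by
    have := ((tendsto_const_nhds (x := θc)).div hl hc.1.ne').log (div_pos hc.1 hc.1).ne'
    rw [div_self hc.1.ne', log_one] at this
    exact this.eventually (ge_mem_nhds δ0)
  have h3 : ∀ p : ℕ × ℕ, p.2 < M → ∃ A ∈ hyperfilter ℕ, ∀ n ∈ A, ∀ n' ∈ A,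
      (fc G (sch (Qd d)) (β n) n a b (-p.1 + p.2 / M) -
        fc G (sch (Qd d)) (β n') n' a b (-p.1 + p.2 / M)) ^ 2 ≤ δ := by
    intro p hp
    obtain ⟨-, g2, g3⟩ := grid_mem (-(p.1 : ℝ)) hp
    have ht : -(p.1 : ℝ) + p.2 / M ≤ (1 : ℕ) := by
      push_cast; linarith [show (0 : ℝ) ≤ p.1 by positivity]
    have hr := tanh_lt_one (2 + (1 : ℕ) + 3 * d)
    refine ultra_close _ (B := 2 / (1 - tanh (2 + (1 : ℕ) + 3 * d) ^ 2)) (fun n => ?_) δ0
    exact abs_integral_le_integral_abs.trans (int_le_const ((mf_mu hG (hβ n) n ht).bm_chi (hβ n).1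
      ((hβ n).half hd) hr (Or.inr hab)).abs fun ω =>
      abs_chi_le (hβ n).1 ((hβ n).half hd) hr ((mf_mu hG (hβ n) n ht).bdr ω a b (Or.inr hab)))
  choose! A3 a3 b3 using h3
  refine ⟨(A1 ∩ ({n | log (θc / tanh (β n)) ≤ δ} ∩ {n | k + 1 ≤ n})) ∩
    ⋂ p ∈ Finset.range (k + 1) ×ˢ Finset.range M, A3 p, inter_mem (inter_mem a1
      (Nat.hyperfilter_le_atTop (inter_mem a2 (eventually_ge_atTop (k + 1)))))
      ((biInter_finset_mem _).2 fun p hp => a3 p (Finset.mem_range.1 (Finset.mem_product.1 hp).2)),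
    fun n hn n' hn' => H _ _ _ _ (hβ n) (hβ n') (h0 n) (h0 n') hn.1.2.2 hn'.1.2.2
      (b1 n hn.1.1 n' hn'.1.1) hn.1.2.1 hn'.1.2.1 fun j hj i hi => ?_⟩
  have hp : (j, i) ∈ Finset.range (k + 1) ×ˢ Finset.range M := by
    simp only [Finset.mem_product, Finset.mem_range]; omega
  exact b3 (j, i) hi n (Set.mem_iInter₂.1 hn.2 _ hp) n' (Set.mem_iInter₂.1 hn'.2 _ hp)

theorem dyn_seq (hG : Tr G d) {β0 : ℝ} (h0 : 0 ≤ tanh β0) (h1 : ((d : ℝ) - 1) * tanh β0 ^ 2 ≤ 1) :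
    ∃ (β : ℕ → ℝ) (n : ℕ → ℕ), (∀ j, Sc d (tanh (β j))) ∧
      Tendsto (fun j => tanh (β j)) atTop (𝓝 (tanh β0)) ∧ ∀ (j : ℕ) (v : V),
        phi G (sch (Qd d)) (β j) (n j) (β (j + 1)) (n (j + 1)) v (j + 1 : ℕ) ≤ (1 / 2) ^ j := by
  have hD := two_le_D hG.three
  rcases h1.lt_or_eq with h1 | h1
  · refine ⟨fun _ => β0, fun _ => 0, fun _ => ⟨h0, h1⟩, tendsto_const_nhds, fun j v => ?_⟩
    simp [phi]
  set θ := tanh β0
  have θ0 : 0 < θ := h0.lt_of_ne fun h => by rw [← h] at h1; simp at h1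
  have hc : Cr d θ := ⟨θ0, h1⟩
  have s0 : ∀ n : ℕ, 0 < 1 - 1 / ((n : ℝ) + 1) / 2 ∧ 1 - 1 / ((n : ℝ) + 1) / 2 < 1 := fun n => by
    have a1 : 0 < 1 / ((n : ℝ) + 1) := by positivity
    have a2 : 1 / ((n : ℝ) + 1) ≤ 1 := by
      rw [div_le_one (by positivity)]; linarith [show (0 : ℝ) ≤ n by positivity]
    constructor <;> linarith
  have e1 : ∀ n : ℕ, tanh (ath (θ * (1 - 1 / ((n : ℝ) + 1) / 2))) =
      θ * (1 - 1 / ((n : ℝ) + 1) / 2) := fun n => tanh_ath (by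
    rw [abs_of_pos (mul_pos θ0 (s0 n).1)]
    nlinarith [tanh_lt_one β0, (s0 n).1, (s0 n).2])
  set β := fun n : ℕ => ath (θ * (1 - 1 / ((n : ℝ) + 1) / 2))
  have p0 : ∀ n, 0 < tanh (β n) := fun n => (e1 n).symm ▸ mul_pos θ0 (s0 n).1
  have hβ : ∀ n, Sc d (tanh (β n)) := fun n => ⟨(p0 n).le, by
    rw [e1 n, mul_pow, ← mul_assoc, h1, one_mul]
    exact pow_lt_one₀ (s0 n).1.le (s0 n).2 two_ne_zero⟩
  have hl : Tendsto (fun n => tanh (β n)) atTop (𝓝 θ) := by
    have := (((tendsto_one_div_add_atTop_nhds_zero_nat (𝕜 := ℝ)).div_const 2).const_sub 1).const_mul θ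
    rw [zero_div, sub_zero, mul_one] at this
    exact this.congr fun n => (e1 n).symm
  choose A a1 a2 using fun j : ℕ => dyn_ultra hG hc hβ p0 hl (T := j + 1) (by omega)
    (show (0 : ℝ) < (1 / 2) ^ j by positivity)
  have a3 : ∀ j : ℕ, ∃ n, (n ∈ A (j - 1) ∧ n ∈ A j) ∧ j ≤ n := fun j =>
    Ultrafilter.nonempty_of_mem (inter_mem (inter_mem (a1 (j - 1)) (a1 j))
      (Nat.hyperfilter_le_atTop (eventually_ge_atTop j)))
  choose n a4 a5 using a3
  exact ⟨fun j => β (n j), n, fun j => hβ _, hl.comp (tendsto_atTop_mono a5 tendsto_id),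
    fun j v => a2 j _ (a4 j).2 _ (a4 (j + 1)).1 v⟩

end Crest.Agent.H5.KS
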