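import Mathlib
import Crest.Prelude.Def_TreeIsing
import Crest.Agent.H5.KS.Dyn

/-!
The limiting spins and their law.
-/

set_option autoImplicit false

namespace Crest.Agent.H5.KS

open MeasureTheory Real Filter Topology Crest.ProbabilityR.TreeIsing

variable {V : Type*} {G : SimpleGraph V} {d : ℕ} {e : ℤ → ℝ}

lemma mg_sq_low (he : Sched e) (h : ∀ k, 0 ≤ k → e k = 1 / 2) (P : Par V) (T : ℕ) {v : V}
    (hv : v ∈ P.Λ) : 1 - 2 * (47 / 48) ^ T ≤ ∫ ω, mg G P.β P.Λ (XS G e P ω T) v ^ 2 ∂PO V := by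
  have mX := measurable_XS (G := G) (e := e) (P := P) measurable_id' (T : ℝ)
  have b1 := bm_mg (G := G) mX P.β P.Λ v
  have b2 : BM fun ω => tanh (XS G e P ω T v) := BM.tanh' (measurable_pi_iff.1 mX v)
  have b3 : BM fun ω : Om V => XI e P.n ω T v := by
    refine BM.of_le (measurable_pi_iff.1 (measurable_XI P.n T) v)
      (∑ k ∈ Finset.Ico (-(P.n : ℤ)) T, 2 * e k) fun ω => ?_
    unfold XI XT
    rw [xf_window' (Int.le_ceil _) (show (T : ℝ) ≤ (T : ℤ) by simp)]
    exact abs_xf_le he (fun i => (abs_yy_le (ef_mem he ω i).1 (ef_half he ω i) (by simp) _).trans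
      (ef_mem he ω i).2) ω T v
  have a1 := bayes_mg (G := G) (P := P) he (le_refl (T : ℝ)) (Φ := fun x => tanh (x v))
    (BM.tanh' (measurable_pi_apply v)) (fun A => sg A v)
  have a2 : ∀ A, pr G P.β P.Λ 0 A * sg A v * ∫ ω, tanh ((sg A * XT e P ω T) v) ∂PO V =
      pr G P.β P.Λ 0 A * ∫ ω, tanh (XI e P.n ω T v) ∂PO V := fun A => by
    rw [mul_assoc, ← integral_const_mul]
    congr 2
    funext ω
    rw [Pi.mul_apply, XT_eq hv]
    rcases sg_cases A v with h | h <;> simp [h]
  simp only [a2, ← Finset.sum_mul, sum_pr, one_mul] at a1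
  have a3 : ∫ ω, (1 - tanh (XI e P.n ω T v)) ∂PO V ≤ (47 / 48) ^ T :=
    (int_mono (by bm) (by bm) fun ω => by
      rw [exp_neg_eq]
      exact le_mul_of_one_le_left (sub_nonneg.2 (tanh_lt_one _).le) (one_le_cosh _)).trans
      (exp_XI he h P.n T v)
  rw [int_sub (by bm) (by bm), int_const, ← a1] at a3
  have a4 : ∫ ω, (2 * (tanh (XS G e P ω T v) * mg G P.β P.Λ (XS G e P ω T) v) - 1) ∂PO V ≤
      ∫ ω, mg G P.β P.Λ (XS G e P ω T) v ^ 2 ∂PO V :=
    int_mono (by bm) (by bm) fun ω => by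
      nlinarith [sq_nonneg (tanh (XS G e P ω T v) - mg G P.β P.Λ (XS G e P ω T) v),
        tanh_sq_le_one (XS G e P ω T v)]
  rw [int_sub (by bm) (by bm), int_const, integral_const_mul] at a4
  unfold mg at a4 ⊢
  linarith

lemma Ind_lip (S : Finset V) {η s s' : V → ℝ} (hη : ∀ v, |η v| ≤ 1) (hs : ∀ v, |s v| ≤ 1)
    (hs' : ∀ v, |s' v| ≤ 1) : |Ind S η s - Ind S η s'| ≤ ∑ v ∈ S, |s v - s' v| := by
  classical
  induction S using Finset.induction_on with
  | empty => simp [Ind]
  | insert a S ha ih =>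
    have a1 := abs_Ind_le {a} hη hs
    have a2 := abs_Ind_le S hη hs'
    rw [Ind, Finset.prod_singleton] at a1
    rw [Ind, Ind, Finset.prod_insert ha, Finset.prod_insert ha, Finset.sum_insert ha, ← Ind, ← Ind,
      show (1 + η a * s a) / 2 * Ind S η s - (1 + η a * s' a) / 2 * Ind S η s' =
        η a * (s a - s' a) * Ind S η s' / 2 + (1 + η a * s a) / 2 * (Ind S η s - Ind S η s') by ring]
    refine (abs_add_le _ _).trans (add_le_add ?_ ?_)
    · rw [abs_div, abs_mul, abs_mul, abs_two]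
      have := mul_le_mul (mul_le_of_le_one_left (abs_nonneg (s a - s' a)) (hη a)) a2
        (abs_nonneg _) (abs_nonneg _)
      linarith [abs_nonneg (s a - s' a)]
    · rw [abs_mul]
      exact (mul_le_of_le_one_left (abs_nonneg _) a1).trans ih

lemma ex_Ind_close (β : ℝ) (Λ S : Finset V) (x : V → ℝ) {η : V → ℝ} (hη : ∀ v, |η v| ≤ 1) :
    |ex G β Λ x (fun A => Ind S η (sg A)) - Ind S η (mg G β Λ x)| ≤
      ∑ v ∈ S, (1 - mg G β Λ x v ^ 2) := by
  have e1 : ∀ v, 1 - mg G β Λ x v ^ 2 = ex G β Λ x fun A => |sg A v - mg G β Λ x v| := fun v => by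
    have : ∀ A, |sg A v - mg G β Λ x v| = 1 + -mg G β Λ x v * sg A v := fun A => by
      have := abs_le.1 (abs_mg_le (G := G) (β := β) (Λ := Λ) (x := x) v)
      rcases sg_cases A v with h | h <;> rw [h]
      · rw [abs_of_nonneg (by linarith)]; ring
      · rw [abs_of_nonpos (by linarith)]; ring
    simp only [this]
    rw [ex_affine, ← mg]; ring
  have e2 := ex_affine (G := G) (β := β) (Λ := Λ) (x := x) (-Ind S η (mg G β Λ x)) 1
    fun A => Ind S η (sg A)
  rw [one_mul, neg_add_eq_sub] at e2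
  simp only [e1]
  rw [← e2]
  simp only [ex_eq_sum]
  rw [Finset.sum_comm]
  refine (Finset.abs_sum_le_sum_abs _ _).trans (Finset.sum_le_sum fun A _ => ?_)
  rw [← Finset.mul_sum, abs_mul, abs_of_pos (pr_pos A), one_mul, neg_add_eq_sub]
  exact mul_le_mul_of_nonneg_left (Ind_lip S hη (fun v => (abs_sg A v).le) abs_mg_le) (pr_pos A).le

lemma continuous_Ind (S : Finset V) (η : V → ℝ) : Continuous (Ind S η) := by
  unfold Ind; fun_prop

lemma continuous_Wt (o : V) (S : Finset V) (η : V → ℝ) : Continuous fun θ => Wt G θ o S η := by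
  unfold Wt; fun_prop

/-- a Boolean spin as a sign -/
noncomputable def sb (η : V → Bool) (v : V) : ℝ := if η v then 1 else -1

lemma sb_sgn (η : V → Bool) : Sgn (sb η) := fun v => by unfold sb; split_ifs <;> simp

lemma Ind_sb (S : Finset V) (η σ : V → Bool) :
    Ind S (sb η) (sb σ) = Set.indicator {σ | ∀ v ∈ S, σ v = η v} 1 σ := by
  by_cases h : ∀ v ∈ S, σ v = η v
  · rw [Set.indicator_of_mem (by exact h)]
    refine Finset.prod_eq_one fun v hv => ?_
    simp only [sb, h v hv]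
    split_ifs <;> norm_num
  · rw [Set.indicator_of_notMem (by exact h)]
    push Not at h
    obtain ⟨v, hv, h⟩ := h
    refine Finset.prod_eq_zero hv ?_
    unfold sb
    cases h1 : σ v <;> cases h2 : η v <;> simp_all

lemma pc_of_conn (hT : G.IsTree) {S : Finset V} (h : (G.induce (S : Set V)).Connected) :
    ∃ o, PC G o S := by
  obtain ⟨⟨o, ho⟩⟩ := h.nonempty
  refine ⟨o, ho, fun v hv => ?_⟩
  by_cases hvo : v = o
  · rw [hvo, par_self hT]; exact ho
  have hp := par_spec hT hvo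
  have key : ∀ z : (S : Set V), Relation.ReflTransGen (G.induce (S : Set V)).Adj ⟨o, ho⟩ z →
      z.1 ∈ br G (par G o v) v → par G o v ∈ S := by
    intro z hz
    induction hz with
    | refl =>
      intro hb
      refine absurd hb ?_
      rw [not_mem_br_iff hT hp.1, SimpleGraph.dist_comm (u := v),
        SimpleGraph.dist_comm (u := par G o v)]
      simp only; omega
    | @tail a b _ hab ih =>
      intro hb
      by_cases ha : a.1 ∈ br G (par G o v) v
      · exact ih ha
      · have := br_cut hT hp.1 (show G.Adj b.1 a.1 from hab.symm) hb ha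
        rw [← this.2]; exact a.2
  exact key ⟨v, hv⟩ ((SimpleGraph.reachable_iff_reflTransGen _ _).1 (h.preconnected _ _))
    (self_mem_br _ _ _)

lemma ising_eq (hT : G.IsTree) (θ : ℝ) {o : V} (η : V → Bool) {S : Finset V} (hS : PC G o S) :
    isingWeight G θ S η = Wt G θ o S (sb η) := by
  classical
  refine pc_induction hT (Q := fun S => isingWeight G θ S η = Wt G θ o S (sb η)) ?_ ?_ S hS
  · rw [Wt_single, isingWeight, Finset.prod_eq_one, mul_one]
    intro e he
    simp only [Finset.sym2_singleton, Finset.mem_filter, Finset.mem_singleton] at he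
    obtain ⟨rfl, h⟩ := he
    exact absurd rfl (G.not_isDiag_of_mem_edgeSet h)
  · intro S v hS hv hu hmax ih
    have hne : v ≠ o := fun h => hv (h ▸ hS.1)
    have hp := par_spec hT hne
    have k1 : ∀ b ∈ S, G.Adj b v → b = par G o v := fun b hb h => by
      have := hmax b hb
      rcases hT.dist_eq_dist_add_one_of_adj o h with h4 | h4
      · omega
      · exact (par_eq hT h h4.symm).symm
    rw [Wt_insert _ hS.1 hv, ← ih]
    unfold isingWeight
    rw [mul_assoc, mul_comm (Finset.prod _ _)]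
    congr 1
    convert Finset.prod_insert (a := s(par G o v, v)) ?_ using 2
    · ext e
      induction e using Sym2.ind with
      | _ a b =>
        simp only [Finset.mem_filter, Finset.mk_mem_sym2_iff, Finset.mem_insert,
          SimpleGraph.mem_edgeSet, Sym2.eq_iff]
        constructor
        · rintro ⟨⟨rfl | ha, rfl | hb⟩, h⟩
          · exact absurd h G.irrefl
          · exact Or.inl (Or.inr ⟨rfl, k1 b hb h.symm⟩)
          · exact Or.inl (Or.inl ⟨k1 a ha h, rfl⟩)
          · exact Or.inr ⟨⟨ha, hb⟩, h⟩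
        · rintro ((⟨rfl, rfl⟩ | ⟨rfl, rfl⟩) | ⟨⟨ha, hb⟩, h⟩)
          · exact ⟨⟨Or.inr hu, Or.inl rfl⟩, hp.1⟩
          · exact ⟨⟨Or.inl rfl, Or.inr hu⟩, hp.1.symm⟩
          · exact ⟨⟨Or.inr ha, Or.inr hb⟩, h⟩
    · simp only [Sym2.map_mk, Sym2.mk_isDiag_iff, sb]
      cases η (par G o v) <;> cases η v <;> simp <;> ring
    · simp only [Finset.mem_filter, Finset.mk_mem_sym2_iff]
      exact fun h => hv h.1.2

variable [G.LocallyFinite]

lemma vv_low (hG : Tr G d) {β : ℝ} (hβ : Sc d (tanh β)) (n T : ℕ) (v : V) :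
    1 - 2 * (47 / 48) ^ T ≤ vv G (sch (Qd d)) β n v T :=
  ge_of_tendsto' (tendsto_vv hG hβ (sched_sch (Qd_two hG.three)) v v T) fun R =>
    mg_sq_low (sched_sch (Qd_two hG.three)) (fun _ => sch_nonneg _) (Pb G β n v R) T
      (self_mem_ball hG.tree _ _)

lemma law_mu (hG : Tr G d) {β : ℝ} (hβ : Sc d (tanh β)) (n T : ℕ) {o : V} {η : V → ℝ} (hη : Sgn η)
    {S : Finset V} (hS : PC G o S) :
    |Wt G (tanh β) o S η - ∫ ω, Ind S η (fun v => mu G (sch (Qd d)) β n ω T v v) ∂PO V| ≤
      S.card * (2 * (47 / 48) ^ T) := by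
  have hT := hG.tree
  have he := sched_sch (Qd_two hG.three)
  have mX := fun R => measurable_XS (G := G) (e := sch (Qd d)) (P := Pb G β n o R)
    measurable_id' (T : ℝ)
  have bI := fun R => bm_Ind (measurable_pi_lambda _ fun v => measurable_mg (G := G) (β := β)
    (Λ := sub G R o o) (mX R) v) S hη fun _ _ => abs_mg_le _
  have l1 : Tendsto (fun R => ∫ ω, Ind S η (mg G β (sub G R o o)
      (XS G (sch (Qd d)) (Pb G β n o R) ω T)) ∂PO V) atTop
      (𝓝 (∫ ω, Ind S η (fun v => mu G (sch (Qd d)) β n ω T v v) ∂PO V)) := by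
    refine tendsto_int (fun R => (bI R).meas) 1
      (fun R ω => abs_Ind_le S (fun v => (hη.abs v).le) abs_mg_le) ?_
    filter_upwards [ae_conv (n := n) hG hβ he T] with ω h
    exact (continuous_Ind S η).continuousAt.tendsto.comp (tendsto_pi_nhds.2 fun v => h.mg o v)
  have l2 := tendsto_finsetSum S fun v _ => (tendsto_vv (n := n) hG hβ he o v T).const_sub 1
  refine (le_of_tendsto_of_tendsto (l1.const_sub _).abs l2 ?_).trans ?_
  · filter_upwards [(eventually_all_finset S).2 fun v _ => ev_mem_ball hT o v] with R hR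
    have a1 := bayes_mg (G := G) (P := Pb G β n o R) he (le_refl (T : ℝ)) (BM.const 1)
      (fun A => Ind S η (sg A))
    simp only [one_mul, int_const, mul_one, ← ex_eq_sum] at a1
    have b1 : BM fun ω => ex G β (sub G R o o) (XS G (sch (Qd d)) (Pb G β n o R) ω T)
        fun A => Ind S η (sg A) :=
      BM.of_le ((measurable_zs (mX R) _).div (measurable_zs (mX R) _)) 1 fun ω =>
        abs_ex_le fun A => abs_Ind_le S (fun v => (hη.abs v).le) fun v => (abs_sg A v).le
    have b2 := fun v => bm_mg (G := G) (mX R) β (sub G R o o) v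
    rw [← ex_Ind hT β hη hS _ hR]
    refine le_trans (le_of_eq (congrArg _ ?_)) ((abs_integral_le_integral_abs.trans
      (int_mono (μ := PO V) (b1.sub (bI R)).abs (BM.sum S fun v _ => (BM.const 1).sub ((b2 v).pow 2))
        fun ω => ex_Ind_close β _ S _ fun v => (hη.abs v).le)).trans_eq ?_)
    · rw [int_sub b1 (bI R)]
      exact congrArg (· - _) a1.symm
    · rw [int_sum _ fun v _ => (BM.const 1).sub ((b2 v).pow 2)]
      exact Finset.sum_congr rfl fun v _ => by rw [int_sub (BM.const 1) ((b2 v).pow 2), int_const]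
  · refine (Finset.sum_le_card_nsmul _ _ _ fun v _ => ?_).trans_eq (nsmul_eq_mul _ _)
    linarith [vv_low hG hβ n T v]

theorem exists_fac (hG : Tr G d) {β0 : ℝ} (h0 : 0 ≤ tanh β0)
    (h1 : ((d : ℝ) - 1) * tanh β0 ^ 2 ≤ 1) : ∃ Φ : Om V → V → Bool, Measurable Φ ∧
      (∀ (g : G ≃g G) ω v, Φ (act g ω) v = Φ ω (g v)) ∧
      ∀ (S : Finset V) (η : V → Bool), (G.induce (S : Set V)).Connected →
        ∫ ω, Ind S (sb η) (sb (Φ ω)) ∂PO V = isingWeight G (tanh β0) S η := by
  have hT := hG.tree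
  have := countable_of_tree hT
  have he := sched_sch (Qd_two hG.three)
  obtain ⟨β, n, hβ, hl, hp⟩ := dyn_seq hG h0 h1
  set M : ℕ → Om V → V → ℝ := fun j ω v => mu G (sch (Qd d)) (β j) (n j) ω (j + 1 : ℕ) v v with hM
  set L : Om V → V → ℝ := fun ω v => limsup (fun j => M j ω v) atTop with hL
  have bM : ∀ j v, BM fun ω => M j ω v := fun j v => bm_mu _ v v
  have M1 : ∀ j ω v, |M j ω v| ≤ 1 := fun j ω v => bd_mu _ _ v v
  have mL : ∀ v, Measurable fun ω => L ω v := fun v => Measurable.limsup fun j => (bM j v).meas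
  have L1 : ∀ ω v, |L ω v| ≤ 1 := fun ω v => abs_limsup_le fun j => M1 j ω v
  have t0 : Tendsto (fun j : ℕ => 2 * (47 / 48 : ℝ) ^ (j + 1)) atTop (𝓝 0) := by
    simpa using ((tendsto_add_atTop_iff_nat 1).2 (tendsto_pow_atTop_nhds_zero_of_lt_one
      (show (0 : ℝ) ≤ 47 / 48 by norm_num) (by norm_num))).const_mul 2
  have c1 : ∀ᵐ ω ∂PO V, ∀ v, Tendsto (fun j => M j ω v) atTop (𝓝 (L ω v)) := by
    rw [ae_all_iff]
    intro v
    have := ae_summable (μ := PO V) (A := 6) (fun j => (bM j v).sub (bM (j + 1) v))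
      (show (0 : ℝ) ≤ 47 / 48 by norm_num) (by norm_num) fun j => ?_
    · filter_upwards [this] with ω h
      obtain ⟨m, hm⟩ := cauchySeq_tendsto_of_complete
        (cauchySeq_of_summable_dist (f := fun j => M j ω v) h)
      have e1 : L ω v = m := hm.limsup_eq
      rwa [e1]
    have a1 := hp j v
    have a2 := mart_lim (n := n (j + 1)) hG (hβ (j + 1)) he
      (show ((j + 1 : ℕ) : ℝ) ≤ (j + 1 + 1 : ℕ) by exact_mod_cast Nat.le_succ _) v
    have a3 := vv_low hG (hβ (j + 1)) (n (j + 1)) (j + 1) v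
    have a4 := (vv_mem (G := G) (e := sch (Qd d)) (β := β (j + 1)) (n := n (j + 1)) v
      (j + 1 + 1 : ℕ)).2
    have a5 : (1 / 2 : ℝ) ^ j ≤ (47 / 48) ^ j := pow_le_pow_left₀ (by norm_num) (by norm_num) j
    have a6 : (47 / 48 : ℝ) ^ (j + 1) ≤ (47 / 48) ^ j :=
      pow_le_pow_of_le_one (by norm_num) (by norm_num) (Nat.le_succ j)
    have b1 := bM j v
    have b2 := bM (j + 1) v
    have b3 := bm_mu (G := G) (e := sch (Qd d)) (β := β (j + 1)) (n := n (j + 1)) (j + 1 : ℕ) v v
    refine (int_mono (g := fun ω => 2 * (M j ω v -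
      mu G (sch (Qd d)) (β (j + 1)) (n (j + 1)) ω (j + 1 : ℕ) v v) ^ 2 + 2 * (M (j + 1) ω v -
      mu G (sch (Qd d)) (β (j + 1)) (n (j + 1)) ω (j + 1 : ℕ) v v) ^ 2) (by bm) (by bm)
      fun ω => ?_).trans ?_
    · nlinarith [sq_nonneg (M j ω v + M (j + 1) ω v -
        2 * mu G (sch (Qd d)) (β (j + 1)) (n (j + 1)) ω (j + 1 : ℕ) v v)]
    · rw [int_add (by bm) (by bm), integral_const_mul, integral_const_mul]
      unfold phi at a1
      simp only [hM]
      linarith
  have c2 : ∀ᵐ ω ∂PO V, ∀ v, 1 - L ω v ^ 2 = 0 := by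
    rw [ae_all_iff]
    intro v
    have bL : BM fun ω => 1 - L ω v ^ 2 := (BM.const 1).sub ((BM.of_le (mL v) 1 (L1 · v)).pow 2)
    have p0 : ∀ ω, 0 ≤ 1 - L ω v ^ 2 := fun ω => sub_nonneg.2 (sq_le_one_of_abs (L1 ω v))
    refine (integral_eq_zero_iff_of_nonneg p0 (bL.int _)).1 (le_antisymm ?_ (integral_nonneg p0))
    refine le_of_tendsto_of_tendsto' (tendsto_int (F := fun j ω => 1 - M j ω v ^ 2)
      (fun j => ((BM.const 1).sub ((bM j v).pow 2)).meas) 1 (fun j ω => ?_) ?_) t0 fun j => ?_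
    · have := sq_le_one_of_abs (M1 j ω v)
      rw [abs_of_nonneg (by linarith)]; nlinarith
    · filter_upwards [c1] with ω h
      exact ((h v).pow 2).const_sub 1
    · rw [int_sub (BM.const 1) ((bM j v).pow 2), int_const]
      have := vv_low hG (hβ j) (n j) (j + 1) v
      unfold vv at this
      simp only [hM]
      linarith
  refine ⟨fun ω v => decide (0 < L ω v), measurable_pi_lambda _ fun v => ?_, fun g ω v => ?_,
    fun S η hS => ?_⟩
  · refine measurable_to_bool ?_
    convert measurableSet_lt (measurable_const (a := (0 : ℝ))) (mL v) using 1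
    ext ω; simp
  · simp only [hL, hM, mu_map hT]
  obtain ⟨o, hS⟩ := pc_of_conn hT hS
  rw [ising_eq hT _ η hS]
  have l1 : Tendsto (fun j => ∫ ω, Ind S (sb η) (M j ω) ∂PO V) atTop
      (𝓝 (∫ ω, Ind S (sb η) (sb fun v => decide (0 < L ω v)) ∂PO V)) := by
    refine tendsto_int (fun j => (bm_Ind (measurable_pi_lambda _ fun v => (bM j v).meas) S
      (sb_sgn η) (M1 j)).meas) 1
      (fun j ω => abs_Ind_le S (fun v => ((sb_sgn η).abs v).le) (M1 j ω)) ?_
    filter_upwards [c1, c2] with ω h h'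
    refine (continuous_Ind S _).continuousAt.tendsto.comp (tendsto_pi_nhds.2 fun v => ?_)
    convert h v using 2
    rcases sq_eq_one_iff.1 (sub_eq_zero.1 (h' v)).symm with h2 | h2 <;> simp [sb, h2]
  have l2 := ((continuous_Wt (G := G) o S (sb η)).continuousAt.tendsto.comp hl).sub l1
  have l3 := t0.const_mul (S.card : ℝ)
  rw [mul_zero] at l3
  exact (sub_eq_zero.1 (abs_nonpos_iff.1 (le_of_tendsto_of_tendsto' l2.abs l3 fun j =>
    law_mu hG (hβ j) (n j) (j + 1) (sb_sgn η) hS))).symm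

end Crest.Agent.H5.KS
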